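import Mathlib

/-!
# Hanner polytopes and logarithmic combinations: definitions
-/

open MeasureTheory

namespace Vale.Agent.Lib.P227

/-- Expression trees for Hanner polytopes: a segment, a product (l-infinity sum) of two
polytopes, or an l1-sum of two polytopes. -/
inductive HTree
  | seg : HTree
  | prod (a b : HTree) : HTree
  | sum (a b : HTree) : HTree

namespace HTree

/-- The index set of the coordinates of the ambient space of a tree. -/
def coord : HTree → Type
  | seg => Unit
  | prod a b => a.coord ⊕ b.coord
  | sum a b => a.coord ⊕ b.coord

/-- The coordinates of a tree form a finite type. -/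
instance fintypeCoord : (T : HTree) → Fintype T.coord
  | seg => inferInstanceAs (Fintype Unit)
  | prod a b => @instFintypeSum _ _ (fintypeCoord a) (fintypeCoord b)
  | sum a b => @instFintypeSum _ _ (fintypeCoord a) (fintypeCoord b)

/-- Index set of the pairs of opposite facets of the Hanner polytope of a tree. -/
def facet : HTree → Type
  | seg => Unit
  | prod a b => a.facet ⊕ b.facet
  | sum a b => a.facet × b.facet × Bool

/-- The facets of a tree form a finite type. -/
instance fintypeFacet : (T : HTree) → Fintype T.facet
  | seg => inferInstanceAs (Fintype Unit)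
  | prod a b => @instFintypeSum _ _ (fintypeFacet a) (fintypeFacet b)
  | sum a b => @instFintypeProd _ _ (fintypeFacet a)
      (@instFintypeProd _ _ (fintypeFacet b) inferInstance)

/-- The dimension of the ambient space. -/
def dim : HTree → ℕ
  | seg => 1
  | prod a b => a.dim + b.dim
  | sum a b => a.dim + b.dim

/-- The Hanner norm of a tree: absolute value for a segment, maximum of the two norms for a
product, sum of the two norms for an l1-sum. -/
noncomputable def norm : (T : HTree) → (T.coord → ℝ) → ℝ
  | seg, x => |x ()|
  | prod a b, x => max (a.norm fun i => x (Sum.inl i)) (b.norm fun i => x (Sum.inr i))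
  | sum a b, x => a.norm (fun i => x (Sum.inl i)) + b.norm (fun i => x (Sum.inr i))

/-- The facet normal of a pair of opposite facets (normalised so that the support function of
the Hanner polytope equals one at it). -/
def normal : (T : HTree) → T.facet → T.coord → ℝ
  | seg, _ => fun _ => 1
  | prod a b, j => Sum.elim (fun f => Sum.elim (a.normal f) 0) (fun g => Sum.elim 0 (b.normal g)) j
  | sum a b, j => Sum.elim (a.normal j.1) (fun i => (if j.2.2 then 1 else -1) * b.normal j.2.1 i)

/-- The proportion of the volume of the Hanner polytope carried by the cones over a pair of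
opposite facets (the cone-volume weights). -/
noncomputable def weight : (T : HTree) → T.facet → ℝ
  | seg, _ => 1
  | prod a b, j => Sum.elim (fun f => (a.dim : ℝ) / ((a.dim + b.dim : ℕ) : ℝ) * a.weight f)
      (fun g => (b.dim : ℝ) / ((a.dim + b.dim : ℕ) : ℝ) * b.weight g) j
  | sum a b, j => a.weight j.1 * b.weight j.2.1 / 2

/-- The volume of the Hanner polytope of a tree. -/
noncomputable def volConst : HTree → ℝ
  | seg => 2
  | prod a b => a.volConst * b.volConst
  | sum a b => a.volConst * b.volConst *
      ((a.dim.factorial : ℝ) * (b.dim.factorial : ℝ) / ((a.dim + b.dim).factorial : ℝ))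

/-- The Hanner polytope of a tree, in Euclidean space with coordinates indexed by the tree. -/
def ball (T : HTree) : Set (EuclideanSpace ℝ T.coord) := {x | T.norm x.ofLp ≤ 1}

/-- The facet normal as a vector of Euclidean space. -/
def normalVec (T : HTree) (j : T.facet) : EuclideanSpace ℝ T.coord := WithLp.toLp 2 (T.normal j)

end HTree

section Bodies

variable {E : Type*} [NormedAddCommGroup E] [InnerProductSpace ℝ E]

/-- The support function of a set. -/
noncomputable def supportFn (K : Set E) (u : E) : ℝ := sSup ((fun x => inner ℝ x u) '' K)

/-- The Wulff body of a function on the unit sphere. -/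
def wulff (f : E → ℝ) : Set E := {x | ∀ u : E, ‖u‖ = 1 → inner ℝ x u ≤ f u}

/-- The logarithmic combination of two sets with parameter `lam`. -/
noncomputable def logCombo (lam : ℝ) (K L : Set E) : Set E :=
  wulff fun u => supportFn K u ^ (1 - lam) * supportFn L u ^ lam

/-- Origin-symmetric convex bodies. -/
structure IsSymBody (K : Set E) : Prop where
  isCompact : IsCompact K
  convex : Convex ℝ K
  interior_nonempty : (interior K).Nonempty
  symm : ∀ x ∈ K, -x ∈ K

variable [FiniteDimensional ℝ E] [MeasurableSpace E] [BorelSpace E]

/-- The logarithmic Minkowski inequality at `B` with facet normals `u` and weights `c`, against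
every compact set: `|L| ≤ |B| * ∏ j, W_L(u j) ^ (n * c j)`, where `W_L(v)` is the half-width
`(h_L(v) + h_L(-v)) / 2` (for origin-symmetric `L` this is `h_L(v)`). -/
def LogMinkowskiAt {J : Type*} [Fintype J] (B : Set E) (u : J → E) (c : J → ℝ) : Prop :=
  ∀ L : Set E, IsCompact L → volume L ≤ volume B * ∏ j, ENNReal.ofReal
    ((supportFn L (u j) + supportFn L (-u j)) / 2) ^ ((Module.finrank ℝ E : ℝ) * c j)

/-- The logarithmic Brunn-Minkowski inequality for all pairs of origin-symmetric convex bodies
whose logarithmic combination is a linear image of `B`. -/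
def LogBMWhenCombinationIsImageOf (B : Set E) : Prop :=
  ∀ K L : Set E, IsSymBody K → IsSymBody L → ∀ lam : ℝ, 0 ≤ lam → lam ≤ 1 →
    ∀ A : E ≃ₗ[ℝ] E, logCombo lam K L = A '' B →
      volume K ^ (1 - lam) * volume L ^ lam ≤ volume (logCombo lam K L)

end Bodies

end Vale.Agent.Lib.P227
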