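import Mathlib

/-!
# One-parameter key lemma for the slab inequality

Elementary volume computation: a polynomial Beta integral, the volume of points of an interval
with bounded range, and the resulting bound for the integral of a power of a width function.
-/

open MeasureTheory Set
open scoped ENNReal Nat

namespace Vale.Agent.Lib.P227

/-- Recursion for polynomial Beta integrals, by the derivative of `t^(a+1) (D-t)^(b+1)`. -/
lemma beta_rec (a b : ℕ) (D : ℝ) :
    ((a : ℝ) + 1) * ∫ t in (0:ℝ)..D, t ^ a * (D - t) ^ (b + 1)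
      = ((b : ℝ) + 1) * ∫ t in (0:ℝ)..D, t ^ (a + 1) * (D - t) ^ b := by
  have hder : ∀ t ∈ Set.uIcc (0:ℝ) D,
      HasDerivAt (fun t : ℝ => t ^ (a + 1) * (D - t) ^ (b + 1))
        (((a : ℝ) + 1) * (t ^ a * (D - t) ^ (b + 1))
          - ((b : ℝ) + 1) * (t ^ (a + 1) * (D - t) ^ b)) t := by
    intro t _
    have h1 : HasDerivAt (fun t : ℝ => t ^ (a + 1)) (((a + 1 : ℕ) : ℝ) * t ^ a) t := by
      simpa using hasDerivAt_pow (a + 1) t
    have h2 : HasDerivAt (fun t : ℝ => (D - t) ^ (b + 1))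
        (((b + 1 : ℕ) : ℝ) * (D - t) ^ b * (-1)) t := by
      have h3 : HasDerivAt (fun t : ℝ => D - t) (-1) t := by
        simpa using (hasDerivAt_id t).const_sub D
      simpa using h3.fun_pow (b + 1)
    refine (h1.fun_mul h2).congr_deriv ?_
    push_cast
    ring
  have hint : IntervalIntegrable (fun t : ℝ => ((a : ℝ) + 1) * (t ^ a * (D - t) ^ (b + 1))
          - ((b : ℝ) + 1) * (t ^ (a + 1) * (D - t) ^ b)) volume 0 D := by
    apply Continuous.intervalIntegrable
    fun_prop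
  have hmain := intervalIntegral.integral_eq_sub_of_hasDerivAt hder hint
  have h1 : IntervalIntegrable (fun t : ℝ => ((a : ℝ) + 1) * (t ^ a * (D - t) ^ (b + 1)))
      volume 0 D := by
    apply Continuous.intervalIntegrable
    fun_prop
  have h2 : IntervalIntegrable (fun t : ℝ => ((b : ℝ) + 1) * (t ^ (a + 1) * (D - t) ^ b))
      volume 0 D := by
    apply Continuous.intervalIntegrable
    fun_prop
  rw [intervalIntegral.integral_sub h1 h2, intervalIntegral.integral_const_mul,
    intervalIntegral.integral_const_mul] at hmain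
  have h00 : (0:ℝ) ^ (a + 1) * (D - 0) ^ (b + 1) = 0 := by simp
  have hDD : D ^ (a + 1) * (D - D) ^ (b + 1) = 0 := by simp
  rw [h00, hDD, sub_zero] at hmain
  linarith

/-- The polynomial Beta integral. -/
lemma beta_nat (b a : ℕ) (D : ℝ) :
    ∫ t in (0:ℝ)..D, t ^ a * (D - t) ^ b
      = ((a ! : ℝ) * (b ! : ℝ) / ((a + b + 1)! : ℝ)) * D ^ (a + b + 1) := by
  induction b generalizing a with
  | zero =>
    simp only [pow_zero, mul_one, integral_pow, Nat.factorial_zero, Nat.cast_one, add_zero]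
    have h : (((a + 1)! : ℕ) : ℝ) = ((a : ℝ) + 1) * (a ! : ℝ) := by
      rw [Nat.factorial_succ]; push_cast; ring
    rw [h]
    have h2 : ((a ! : ℕ) : ℝ) ≠ 0 := by positivity
    have h3 : ((a : ℝ) + 1) ≠ 0 := by positivity
    simp only [ne_eq, not_false_eq_true, zero_pow, Nat.add_eq_zero_iff, one_ne_zero, and_false,
      sub_zero]
    field_simp
  | succ b ih =>
    have hrec := beta_rec a b D
    rw [ih (a + 1)] at hrec
    have h3 : ((a : ℝ) + 1) ≠ 0 := by positivity
    have hb : (((b + 1)! : ℕ) : ℝ) = ((b : ℝ) + 1) * (b ! : ℝ) := by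
      rw [Nat.factorial_succ]; push_cast; ring
    have ha : (((a + 1)! : ℕ) : ℝ) = ((a : ℝ) + 1) * (a ! : ℝ) := by
      rw [Nat.factorial_succ]; push_cast; ring
    have hexp : a + 1 + b + 1 = a + (b + 1) + 1 := by ring
    rw [hexp, ha] at hrec
    apply mul_left_cancel₀ h3
    rw [hrec, hb]
    have hN : (((a + (b + 1) + 1)! : ℕ) : ℝ) ≠ 0 := by positivity
    field_simp

/-- Points of an interval of length `e + d` whose pairwise differences are at most `d`
have volume at most `(p+1) e d^p + d^(p+1)`. -/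
lemma range_volume (p : ℕ) (α d e : ℝ) (hd : 0 ≤ d) (he : 0 ≤ e) :
    volume {ρ : Fin (p + 1) → ℝ | (∀ k, α ≤ ρ k ∧ ρ k ≤ α + e + d) ∧ ∀ k k', ρ k - ρ k' ≤ d}
      ≤ ENNReal.ofReal (((p : ℝ) + 1) * e * d ^ p + d ^ (p + 1)) := by
  classical
  set T : Set (Fin (p + 1) → ℝ) := Set.Icc (fun _ => α + e) (fun _ => α + e + d) with hT
  set B : Fin (p + 1) → Set (Fin (p + 1) → ℝ) :=
    fun k => {ρ | ρ k ∈ Set.Icc α (α + e) ∧ ∀ j, ρ j ∈ Set.Icc (ρ k) (ρ k + d)} with hB
  have hsub : {ρ : Fin (p + 1) → ℝ | (∀ k, α ≤ ρ k ∧ ρ k ≤ α + e + d) ∧ ∀ k k', ρ k - ρ k' ≤ d}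
      ⊆ T ∪ ⋃ k, B k := by
    rintro ρ ⟨h1, h2⟩
    obtain ⟨k, -, hk⟩ := Finset.exists_min_image (Finset.univ : Finset (Fin (p + 1))) ρ
      ⟨0, Finset.mem_univ _⟩
    by_cases hmin : α + e ≤ ρ k
    · left
      refine ⟨fun j => ?_, fun j => ?_⟩
      · exact hmin.trans (hk j (Finset.mem_univ _))
      · exact (h1 j).2
    · right
      refine Set.mem_iUnion.2 ⟨k, ⟨(h1 k).1, (not_le.1 hmin).le⟩, fun j => ?_⟩
      refine ⟨hk j (Finset.mem_univ _), ?_⟩
      have := h2 j k
      linarith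
  have hTvol : volume T = ENNReal.ofReal (d ^ (p + 1)) := by
    rw [hT, Real.volume_Icc_pi]
    simp only [add_sub_cancel_left, Finset.prod_const, Finset.card_univ, Fintype.card_fin]
    rw [ENNReal.ofReal_pow hd]
  have hBvol : ∀ k, volume (B k) ≤ ENNReal.ofReal (e * d ^ p) := by
    intro k
    have hmp := volume_preserving_piFinSuccAbove (fun _ : Fin (p + 1) => ℝ) k
    set e' := MeasurableEquiv.piFinSuccAbove (fun _ : Fin (p + 1) => ℝ) k with he'
    set B' : Set (ℝ × (Fin p → ℝ)) :=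
      {z | z.1 ∈ Set.Icc α (α + e) ∧ z.2 ∈ Set.Icc (fun _ => z.1) (fun _ => z.1 + d)} with hB'
    have hsub' : B k ⊆ e' ⁻¹' B' := by
      rintro ρ ⟨h1, h2⟩
      refine ⟨h1, fun j => ?_, fun j => ?_⟩
      · exact (h2 _).1
      · exact (h2 _).2
    have hBm : MeasurableSet B' := by
      apply MeasurableSet.inter
      · exact measurableSet_Icc.preimage measurable_fst
      · have : {z : ℝ × (Fin p → ℝ) | z.2 ∈ Set.Icc (fun _ => z.1) (fun _ => z.1 + d)}
            = ⋂ j, ({z : ℝ × (Fin p → ℝ) | z.1 ≤ z.2 j} ∩ {z | z.2 j ≤ z.1 + d}) := by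
          ext z
          simp only [Set.mem_Icc, Pi.le_def, Set.mem_ofPred_eq, Set.mem_iInter, Set.mem_inter_iff,
            forall_and]
        rw [show B' = _ from rfl] at *
        show MeasurableSet {z : ℝ × (Fin p → ℝ) | z.2 ∈ Set.Icc (fun _ => z.1) (fun _ => z.1 + d)}
        rw [this]
        refine MeasurableSet.iInter fun j => MeasurableSet.inter ?_ ?_
        · exact measurableSet_le measurable_fst ((measurable_pi_apply j).comp measurable_snd)
        · exact measurableSet_le ((measurable_pi_apply j).comp measurable_snd)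
            (measurable_fst.add_const d)
    calc volume (B k) ≤ volume (e' ⁻¹' B') := measure_mono hsub'
      _ = volume B' := hmp.measure_preimage hBm.nullMeasurableSet
      _ = ∫⁻ x, volume (Prod.mk x ⁻¹' B') := by
            rw [Measure.volume_eq_prod, Measure.prod_apply hBm]
      _ ≤ ∫⁻ x in Set.Icc α (α + e), ENNReal.ofReal (d ^ p) := by
            rw [← lintegral_indicator measurableSet_Icc]
            apply lintegral_mono
            intro x
            by_cases hx : x ∈ Set.Icc α (α + e)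
            · simp only [Set.indicator_of_mem hx]
              have : Prod.mk x ⁻¹' B' = Set.Icc (fun _ => x) (fun _ => x + d) := by
                ext y
                simp [hB', hx.1, hx.2]
              rw [this, Real.volume_Icc_pi]
              simp only [add_sub_cancel_left, Finset.prod_const, Finset.card_univ,
                Fintype.card_fin]
              rw [ENNReal.ofReal_pow hd]
            · have : Prod.mk x ⁻¹' B' = ∅ := by
                ext y
                simp [hB']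
                intro h1 h2
                exact absurd ⟨h1, h2⟩ hx
              simp [this]
      _ = ENNReal.ofReal (e * d ^ p) := by
            rw [setLIntegral_const, Real.volume_Icc, add_sub_cancel_left, mul_comm,
              ENNReal.ofReal_mul he]
  calc volume {ρ : Fin (p + 1) → ℝ | (∀ k, α ≤ ρ k ∧ ρ k ≤ α + e + d) ∧ ∀ k k', ρ k - ρ k' ≤ d}
      ≤ volume (T ∪ ⋃ k, B k) := measure_mono hsub
    _ ≤ volume T + volume (⋃ k, B k) := measure_union_le _ _
    _ ≤ volume T + ∑ k, volume (B k) := by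
          gcongr
          exact measure_iUnion_fintype_le _ _
    _ ≤ ENNReal.ofReal (d ^ (p + 1)) + ∑ _k : Fin (p + 1), ENNReal.ofReal (e * d ^ p) := by
          rw [hTvol]
          gcongr with k _
          exact hBvol k
    _ = ENNReal.ofReal (((p : ℝ) + 1) * e * d ^ p + d ^ (p + 1)) := by
          have h1 : 0 ≤ ((p : ℝ) + 1) * e * d ^ p := by positivity
          have h2 : 0 ≤ d ^ (p + 1) := by positivity
          rw [ENNReal.ofReal_add h1 h2, add_comm]
          congr 1
          simp only [Finset.sum_const, Finset.card_univ, Fintype.card_fin, nsmul_eq_mul]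
          rw [mul_assoc, show ((p : ℝ) + 1) = ((p + 1 : ℕ) : ℝ) by push_cast; ring,
            ENNReal.ofReal_mul (Nat.cast_nonneg _), ENNReal.ofReal_natCast]

/-- The central Bernoulli estimate. -/
lemma bernoulli_width (n : ℕ) (hn : 2 ≤ n) (a b : ℝ) (ha : 0 < a) (hb : 0 < b) :
    (min a b) ^ (n - 1) * (min a b + n * (|a - b| / 2)) ≤ (a * b) ^ ((n : ℝ) / 2) := by
  wlog hab : b ≤ a generalizing a b
  · have := this b a hb ha (le_of_not_ge hab)
    rwa [min_comm, abs_sub_comm, mul_comm b a] at this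
  rw [min_eq_right hab, abs_of_nonneg (sub_nonneg.2 hab)]
  obtain ⟨m, rfl⟩ : ∃ m, n = m + 1 := ⟨n - 1, by omega⟩
  simp only [Nat.add_sub_cancel]
  have hm : (1 : ℝ) ≤ ((m + 1 : ℕ) : ℝ) / 2 := by
    have : (2 : ℝ) ≤ ((m + 1 : ℕ) : ℝ) := by exact_mod_cast hn
    linarith
  set r : ℝ := a / b with hr
  have hrpos : 0 < r := div_pos ha hb
  have hr1 : -1 ≤ r - 1 := by linarith
  have hbern := one_add_mul_self_le_rpow_one_add hr1 hm
  have hsimp : 1 + (r - 1) = r := by ring
  rw [hsimp] at hbern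
  have hab2 : a * b = r * b ^ 2 := by
    rw [hr]; field_simp
  have hb2 : (b ^ 2) ^ (((m + 1 : ℕ) : ℝ) / 2) = b ^ (m + 1) := by
    rw [← Real.rpow_natCast b 2, ← Real.rpow_mul hb.le, ← Real.rpow_natCast b (m + 1)]
    congr 1
    push_cast
    ring
  rw [hab2, Real.mul_rpow hrpos.le (by positivity), hb2]
  have hbm : 0 < b ^ (m + 1) := by positivity
  calc b ^ m * (b + ((m + 1 : ℕ) : ℝ) * ((a - b) / 2))
      = b ^ (m + 1) * (1 + ((m + 1 : ℕ) : ℝ) / 2 * (r - 1)) := by
        rw [hr]; field_simp; ring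
    _ ≤ b ^ (m + 1) * r ^ (((m + 1 : ℕ) : ℝ) / 2) := by
        gcongr
    _ = r ^ (((m + 1 : ℕ) : ℝ) / 2) * b ^ (m + 1) := by ring

/-- Integral of a power of a width function over all configurations. -/
lemma key_integral (p q : ℕ) (W : (Fin (p + 1) → ℝ) → ℝ) (hW : Measurable W) (a b α : ℝ)
    (h1 : ∀ ρ k k', W ρ ≤ min a b - (ρ k - ρ k'))
    (h2 : ∀ ρ k, W ρ ≤ 2 * (ρ k - α))
    (h3 : ∀ ρ k, W ρ ≤ 2 * (α + (a + b) / 2 - ρ k)) :
    ∫⁻ ρ, ENNReal.ofReal (W ρ) ^ (q + 1) ≤
      ENNReal.ofReal (((p + 1)! : ℝ) * ((q + 1)! : ℝ) / ((p + q + 2)! : ℝ)) *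
        (ENNReal.ofReal a * ENNReal.ofReal b) ^ (((p + q + 2 : ℕ) : ℝ) / 2) := by
  set D := min a b with hD
  set e := |a - b| / 2 with he
  have he0 : 0 ≤ e := by positivity
  have hWD : ∀ ρ, W ρ ≤ D := fun ρ => by
    have := h1 ρ 0 0
    simpa using this
  have hsum : (a + b) / 2 = D + e := by
    rw [hD, he]
    rcases le_total a b with h | h
    · rw [min_eq_left h, abs_of_nonpos (sub_nonpos.2 h)]; ring
    · rw [min_eq_right h, abs_of_nonneg (sub_nonneg.2 h)]; ring
  by_cases hDpos : D ≤ 0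
  · have : ∀ ρ, ENNReal.ofReal (W ρ) ^ (q + 1) = 0 := fun ρ => by
      rw [ENNReal.ofReal_of_nonpos ((hWD ρ).trans hDpos)]
      simp
    simp [this]
  push Not at hDpos
  have ha : 0 < a := lt_of_lt_of_le hDpos (min_le_left _ _)
  have hb : 0 < b := lt_of_lt_of_le hDpos (min_le_right _ _)
  set f : (Fin (p + 1) → ℝ) → ℝ := fun ρ => max (W ρ) 0 with hf
  have hfm : Measurable f := hW.max measurable_const
  have hf0 : ∀ ρ, 0 ≤ f ρ := fun ρ => le_max_right _ _
  have hrew : ∀ ρ, ENNReal.ofReal (W ρ) ^ (q + 1) = ENNReal.ofReal (f ρ ^ ((q : ℝ) + 1)) := by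
    intro ρ
    rw [show ((q : ℝ) + 1) = ((q + 1 : ℕ) : ℝ) by push_cast; ring, Real.rpow_natCast,
      ENNReal.ofReal_pow (hf0 ρ)]
    congr 1
    rcases le_total (W ρ) 0 with h | h
    · rw [hf]; simp only [max_eq_right h]; rw [ENNReal.ofReal_of_nonpos h]; simp
    · rw [hf]; simp only [max_eq_left h]
  simp_rw [hrew]
  rw [lintegral_rpow_eq_lintegral_meas_lt_mul volume (Filter.Eventually.of_forall hf0)
    hfm.aemeasurable (by positivity : (0:ℝ) < (q:ℝ) + 1)]
  set g : ℝ → ℝ := fun t => (((p : ℝ) + 1) * e * (D - t) ^ p + (D - t) ^ (p + 1)) * t ^ q with hg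
  have hbound : ∀ t ∈ Set.Ioi (0:ℝ),
      volume {ρ | t < f ρ} * ENNReal.ofReal (t ^ ((q : ℝ) + 1 - 1))
        ≤ (Set.Ioc 0 D).indicator (fun t => ENNReal.ofReal (g t)) t := by
    intro t ht
    have ht0 : 0 < t := ht
    have hsub : {ρ | t < f ρ} ⊆ {ρ | t < W ρ} := by
      intro ρ hρ
      have hρ' : t < max (W ρ) 0 := hρ
      rcases lt_max_iff.1 hρ' with h | h
      · exact h
      · exact absurd h (not_lt.2 ht0.le)
    by_cases htD : t ≤ D
    · have hmem : t ∈ Set.Ioc 0 D := ⟨ht0, htD⟩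
      rw [Set.indicator_of_mem hmem]
      have hd : 0 ≤ D - t := by linarith
      have hsub2 : {ρ | t < W ρ} ⊆ {ρ : Fin (p + 1) → ℝ | (∀ k, α + t / 2 ≤ ρ k ∧
          ρ k ≤ α + t / 2 + e + (D - t)) ∧ ∀ k k', ρ k - ρ k' ≤ D - t} := by
        intro ρ hρ
        have hρ' : t < W ρ := hρ
        refine ⟨fun k => ⟨?_, ?_⟩, fun k k' => ?_⟩
        · have := h2 ρ k; linarith
        · have := h3 ρ k; linarith
        · have := h1 ρ k k'; linarith
      have hvol := (measure_mono (hsub.trans hsub2)).trans (range_volume p (α + t / 2) (D - t) e hd he0)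
      calc volume {ρ | t < f ρ} * ENNReal.ofReal (t ^ ((q : ℝ) + 1 - 1))
          ≤ ENNReal.ofReal (((p : ℝ) + 1) * e * (D - t) ^ p + (D - t) ^ (p + 1))
              * ENNReal.ofReal (t ^ ((q : ℝ) + 1 - 1)) := by gcongr
        _ = ENNReal.ofReal (g t) := by
            rw [hg, ENNReal.ofReal_mul (by positivity)]
            congr 2
            rw [add_sub_cancel_right, Real.rpow_natCast]
    · rw [Set.indicator_of_notMem (fun h => htD h.2)]
      have hempty : {ρ | t < W ρ} = ∅ := by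
        ext ρ
        simp only [Set.mem_ofPred_eq, Set.mem_empty_iff_false, iff_false, not_lt]
        exact (hWD ρ).trans (le_of_not_ge htD)
      have : volume {ρ | t < f ρ} = 0 := by
        apply measure_mono_null hsub
        rw [hempty]; exact measure_empty
      simp [this]
  have hgcont : Continuous g := by rw [hg]; fun_prop
  have hg0 : ∀ t ∈ Set.Ioc 0 D, 0 ≤ g t := by
    intro t ht
    have : 0 ≤ D - t := by linarith [ht.2]
    have ht0 : 0 ≤ t := ht.1.le
    rw [hg]; positivity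
  have hint : ∫⁻ t in Set.Ioi (0:ℝ), volume {ρ | t < f ρ} * ENNReal.ofReal (t ^ ((q : ℝ) + 1 - 1))
      ≤ ENNReal.ofReal (∫ t in (0:ℝ)..D, g t) := by
    rw [intervalIntegral.integral_of_le hDpos.le,
      ofReal_integral_eq_lintegral_ofReal
        (hgcont.integrableOn_Icc.mono_set Set.Ioc_subset_Icc_self)
        ((ae_restrict_iff' measurableSet_Ioc).2 (Filter.Eventually.of_forall hg0))]
    calc ∫⁻ t in Set.Ioi (0:ℝ), volume {ρ | t < f ρ} * ENNReal.ofReal (t ^ ((q : ℝ) + 1 - 1))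
        ≤ ∫⁻ t in Set.Ioi (0:ℝ), (Set.Ioc 0 D).indicator (fun t => ENNReal.ofReal (g t)) t :=
          setLIntegral_mono' measurableSet_Ioi hbound
      _ ≤ ∫⁻ t, (Set.Ioc 0 D).indicator (fun t => ENNReal.ofReal (g t)) t :=
          setLIntegral_le_lintegral _ _
      _ = ∫⁻ t in Set.Ioc 0 D, ENNReal.ofReal (g t) := lintegral_indicator measurableSet_Ioc _
  have hval : ((q : ℝ) + 1) * ∫ t in (0:ℝ)..D, g t =
      ((p + 1)! : ℝ) * ((q + 1)! : ℝ) / ((p + q + 2)! : ℝ) *
        (D ^ (p + q + 1) * (D + ((p + q + 2 : ℕ) : ℝ) * e)) := by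
    have hg' : g = fun t => ((p : ℝ) + 1) * e * (t ^ q * (D - t) ^ p)
        + t ^ q * (D - t) ^ (p + 1) := by
      rw [hg]; ext t; ring
    rw [hg', intervalIntegral.integral_add, intervalIntegral.integral_const_mul, beta_nat, beta_nat]
    · have e1 : q + p + 1 = p + q + 1 := by ring
      have e2 : q + (p + 1) + 1 = p + q + 2 := by ring
      rw [e1, e2]
      have hq : (((q + 1)! : ℕ) : ℝ) = ((q : ℝ) + 1) * (q ! : ℝ) := by
        rw [Nat.factorial_succ]; push_cast; ring
      have hp : (((p + 1)! : ℕ) : ℝ) = ((p : ℝ) + 1) * (p ! : ℝ) := by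
        rw [Nat.factorial_succ]; push_cast; ring
      have hn : (((p + q + 2)! : ℕ) : ℝ) = ((p : ℝ) + q + 2) * ((p + q + 1)! : ℝ) := by
        rw [show p + q + 2 = (p + q + 1) + 1 by ring, Nat.factorial_succ]; push_cast; ring
      rw [hq, hp, hn]
      have hN : (((p + q + 1)! : ℕ) : ℝ) ≠ 0 := by positivity
      have hN2 : ((p : ℝ) + q + 2) ≠ 0 := by positivity
      push_cast
      field_simp
      ring
    · apply Continuous.intervalIntegrable; fun_prop
    · apply Continuous.intervalIntegrable; fun_prop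
  have hmainbound : ENNReal.ofReal ((q : ℝ) + 1) * ENNReal.ofReal (∫ t in (0:ℝ)..D, g t)
      = ENNReal.ofReal (((p + 1)! : ℝ) * ((q + 1)! : ℝ) / ((p + q + 2)! : ℝ) *
        (D ^ (p + q + 1) * (D + ((p + q + 2 : ℕ) : ℝ) * e))) := by
    rw [← ENNReal.ofReal_mul (by positivity), hval]
  calc ENNReal.ofReal ((q : ℝ) + 1) * ∫⁻ t in Set.Ioi (0:ℝ),
        volume {ρ | t < f ρ} * ENNReal.ofReal (t ^ ((q : ℝ) + 1 - 1))
      ≤ ENNReal.ofReal ((q : ℝ) + 1) * ENNReal.ofReal (∫ t in (0:ℝ)..D, g t) := by gcongr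
    _ = ENNReal.ofReal (((p + 1)! : ℝ) * ((q + 1)! : ℝ) / ((p + q + 2)! : ℝ) *
        (D ^ (p + q + 1) * (D + ((p + q + 2 : ℕ) : ℝ) * e))) := hmainbound
    _ ≤ ENNReal.ofReal (((p + 1)! : ℝ) * ((q + 1)! : ℝ) / ((p + q + 2)! : ℝ) *
        (a * b) ^ (((p + q + 2 : ℕ) : ℝ) / 2)) := by
        apply ENNReal.ofReal_le_ofReal
        apply mul_le_mul_of_nonneg_left _ (by positivity)
        have := bernoulli_width (p + q + 2) (by omega) a b ha hb
        simpa using this
    _ = ENNReal.ofReal (((p + 1)! : ℝ) * ((q + 1)! : ℝ) / ((p + q + 2)! : ℝ)) *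
        (ENNReal.ofReal a * ENNReal.ofReal b) ^ (((p + q + 2 : ℕ) : ℝ) / 2) := by
        rw [ENNReal.ofReal_mul (by positivity), ← ENNReal.ofReal_mul ha.le,
          ENNReal.ofReal_rpow_of_pos (mul_pos ha hb)]

end Vale.Agent.Lib.P227
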