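import Mathlib
import Vale.Agent.Lib.P227.KeyLemma

/-!
# Slab inequalities: base case, products, and l1-sums

`SlabBound μ φ c n C` says that for all intervals `[l j, r j]` the set of points `x` with
`φ j x ∈ [l j, r j]` for every `j` has `μ`-measure at most
`C * ∏ j, ((r j - l j) / 2) ^ (n * c j)`.
-/

open MeasureTheory Set
open scoped ENNReal

namespace Vale.Agent.Lib.P227

/-- The slab inequality for a family of functionals `φ` with weights `c`, dimension `n`
and constant `C`. -/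
def SlabBound {X J : Type*} [MeasurableSpace X] [Fintype J] (μ : Measure X) (φ : J → X → ℝ)
    (c : J → ℝ) (n : ℕ) (C : ℝ≥0∞) : Prop :=
  ∀ l r : J → ℝ, μ {x | ∀ j, l j ≤ φ j x ∧ φ j x ≤ r j} ≤
    C * ∏ j, ENNReal.ofReal ((r j - l j) / 2) ^ ((n : ℝ) * c j)

/-- Products of a constant over weights of total mass one. -/
lemma prod_rpow_const {J : Type*} [Fintype J] (X : ℝ≥0∞) (c : J → ℝ) (hc : ∀ j, 0 ≤ c j)
    (hc1 : ∑ j, c j = 1) : ∏ j, X ^ c j = X := by
  classical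
  have key : ∀ s : Finset J, ∏ j ∈ s, X ^ c j = X ^ (∑ j ∈ s, c j) := by
    intro s
    induction s using Finset.induction_on with
    | empty => simp
    | insert a s ha ih =>
      rw [Finset.prod_insert ha, Finset.sum_insert ha, ih,
        ENNReal.rpow_add_of_nonneg _ _ (hc a) (Finset.sum_nonneg fun j _ => hc j)]
  rw [key, hc1, ENNReal.rpow_one]

lemma prod_mul_rpow {J : Type*} [Fintype J] (X : ℝ≥0∞) (Y : J → ℝ≥0∞) (c : J → ℝ)
    (hc : ∀ j, 0 ≤ c j) (hc1 : ∑ j, c j = 1) :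
    ∏ j, (X * Y j) ^ c j = X * ∏ j, Y j ^ c j := by
  simp_rw [fun j => ENNReal.mul_rpow_of_nonneg X (Y j) (hc j)]
  rw [Finset.prod_mul_distrib, prod_rpow_const X c hc hc1]

/-- The first Hölder step: a slab bound in the fibre direction, integrated over a parameter. -/
lemma fiber_step {X Y J : Type*} [MeasurableSpace X] [MeasurableSpace Y] [Fintype J]
    {μ : Measure X} {ν : Measure Y} {φ : J → X → ℝ} {c : J → ℝ} {n : ℕ} {C : ℝ≥0∞}
    (hS : SlabBound μ φ c n C) (hc : ∀ j, 0 ≤ c j) (hc1 : ∑ j, c j = 1)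
    (l r : J → Y → ℝ) (hl : ∀ j, Measurable (l j)) (hr : ∀ j, Measurable (r j)) :
    ∫⁻ y, μ {x | ∀ j, l j y ≤ φ j x ∧ φ j x ≤ r j y} ∂ν ≤
      C * ∏ j, (∫⁻ y, ENNReal.ofReal ((r j y - l j y) / 2) ^ n ∂ν) ^ c j := by
  have hm : ∀ j, Measurable fun y => ENNReal.ofReal ((r j y - l j y) / 2) ^ n := fun j =>
    (((hr j).sub (hl j)).div_const 2).ennreal_ofReal.pow_const n
  calc ∫⁻ y, μ {x | ∀ j, l j y ≤ φ j x ∧ φ j x ≤ r j y} ∂ν
      ≤ ∫⁻ y, C * ∏ j, (ENNReal.ofReal ((r j y - l j y) / 2) ^ n) ^ c j ∂ν := by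
        apply lintegral_mono
        intro y
        have := hS (fun j => l j y) (fun j => r j y)
        refine this.trans (le_of_eq ?_)
        congr 1
        apply Finset.prod_congr rfl
        intro j _
        rw [← ENNReal.rpow_natCast, ← ENNReal.rpow_mul]
    _ = C * ∫⁻ y, ∏ j, (ENNReal.ofReal ((r j y - l j y) / 2) ^ n) ^ c j ∂ν := by
        apply lintegral_const_mul
        exact Finset.measurable_prod _ fun j _ => (hm j).pow_const _
    _ ≤ C * ∏ j, (∫⁻ y, ENNReal.ofReal ((r j y - l j y) / 2) ^ n ∂ν) ^ c j := by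
        gcongr
        apply ENNReal.lintegral_prod_norm_pow_le
        · intro j _
          exact (hm j).aemeasurable
        · exact hc1
        · intro j _; exact hc j

/-- The sign attached to a Boolean. -/
def sgn (σ : Bool) : ℝ := if σ then 1 else -1

@[simp] lemma sgn_true : sgn true = 1 := rfl
@[simp] lemma sgn_false : sgn false = -1 := rfl

/-- Powers of half-widths as volumes of boxes. -/
lemma lintegral_halfwidth_pow {Y : Type*} [MeasurableSpace Y] (ν : Measure Y) (n : ℕ)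
    (l r : Y → ℝ) :
    ∫⁻ y, ENNReal.ofReal ((r y - l y) / 2) ^ n ∂ν =
      ENNReal.ofReal ((1 / 2) ^ n) *
        ∫⁻ y, volume {ρ : Fin n → ℝ | ∀ k, l y ≤ ρ k ∧ ρ k ≤ r y} ∂ν := by
  have h : ∀ y, ENNReal.ofReal ((r y - l y) / 2) ^ n =
      ENNReal.ofReal ((1 / 2) ^ n) * volume {ρ : Fin n → ℝ | ∀ k, l y ≤ ρ k ∧ ρ k ≤ r y} := by
    intro y
    have hset : {ρ : Fin n → ℝ | ∀ k, l y ≤ ρ k ∧ ρ k ≤ r y} =
        Set.Icc (fun _ => l y) (fun _ => r y) := by
      ext ρ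
      simp only [Set.mem_ofPred_eq, Set.mem_Icc, Pi.le_def, forall_and]
    rw [hset, Real.volume_Icc_pi]
    simp only [Finset.prod_const, Finset.card_univ, Fintype.card_fin]
    rw [ENNReal.ofReal_pow (by norm_num), ← mul_pow, ← ENNReal.ofReal_mul (by norm_num)]
    congr 2
    ring
  simp_rw [h]
  rw [lintegral_const_mul' _ _ ENNReal.ofReal_ne_top]

/-- Finite supremum over a nonempty finite type. -/
noncomputable def envLow {I : Type*} [Fintype I] [Nonempty I] (f : I → ℝ) : ℝ :=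
  Finset.univ.sup' Finset.univ_nonempty f

/-- Finite infimum over a nonempty finite type. -/
noncomputable def envUp {I : Type*} [Fintype I] [Nonempty I] (f : I → ℝ) : ℝ :=
  Finset.univ.inf' Finset.univ_nonempty f

lemma le_envLow {I : Type*} [Fintype I] [Nonempty I] (f : I → ℝ) (i : I) : f i ≤ envLow f :=
  Finset.le_sup' f (Finset.mem_univ i)

lemma envUp_le {I : Type*} [Fintype I] [Nonempty I] (f : I → ℝ) (i : I) : envUp f ≤ f i :=
  Finset.inf'_le f (Finset.mem_univ i)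

lemma env_iff {I : Type*} [Fintype I] [Nonempty I] (f g : I → ℝ) (t : ℝ) :
    (envLow f ≤ t ∧ t ≤ envUp g) ↔ ∀ i, f i ≤ t ∧ t ≤ g i := by
  unfold envLow envUp
  rw [Finset.sup'_le_iff, Finset.le_inf'_iff]
  simp only [Finset.mem_univ, forall_const]
  exact forall_and.symm

lemma measurable_envLow {I Y : Type*} [Fintype I] [Nonempty I] [MeasurableSpace Y]
    {f : I → Y → ℝ} (hf : ∀ i, Measurable (f i)) : Measurable fun y => envLow fun i => f i y := by
  have := Finset.measurable_sup' (s := (Finset.univ : Finset I)) Finset.univ_nonempty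
    (f := f) (fun i _ => hf i)
  convert this using 1
  ext y
  simp [envLow, Finset.sup'_apply]

lemma envUp_eq {I : Type*} [Fintype I] [Nonempty I] (f : I → ℝ) :
    envUp f = - envLow (fun i => - f i) := by
  apply le_antisymm
  · rw [le_neg]
    apply Finset.sup'_le
    intro i _
    exact neg_le_neg (envUp_le f i)
  · apply Finset.le_inf'
    intro i _
    rw [neg_le]
    exact le_envLow (fun i => - f i) i

lemma measurable_envUp {I Y : Type*} [Fintype I] [Nonempty I] [MeasurableSpace Y]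
    {f : I → Y → ℝ} (hf : ∀ i, Measurable (f i)) : Measurable fun y => envUp fun i => f i y := by
  simp_rw [envUp_eq]
  exact (measurable_envLow (f := fun i y => - f i y) fun i => (hf i).neg).neg

lemma le_min_sub_right_helper {w a b t : ℝ} (h1 : w ≤ a - t) (h2 : w ≤ b - t) :
    w ≤ min a b - t := by
  rcases le_total a b with h | h
  · rwa [min_eq_left h]
  · rwa [min_eq_right h]

/-- The inner step of the l1-sum: integrate out the second summand for one fixed facet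
of the first summand. -/
lemma sum_inner {Y J : Type*} [MeasurableSpace Y] [Fintype J] [Nonempty J] {μ : Measure Y}
    [SFinite μ] {φ : J → Y → ℝ} (hφ : ∀ j, Measurable (φ j)) {c : J → ℝ} (hc : ∀ j, 0 ≤ c j)
    (hc1 : ∑ j, c j = 1) {p q : ℕ} {C : ℝ≥0∞} (hS : SlabBound μ φ c (q + 1) C)
    (l r : J × Bool → ℝ) :
    ∫⁻ y, ENNReal.ofReal ((envUp (fun i : J × Bool => r i - sgn i.2 * φ i.1 y)
        - envLow (fun i : J × Bool => l i - sgn i.2 * φ i.1 y)) / 2) ^ (p + 1) ∂μ ≤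
      C * ENNReal.ofReal (((p + 1).factorial : ℝ) * ((q + 1).factorial : ℝ)
          / ((p + q + 2).factorial : ℝ)) *
        ∏ j, (ENNReal.ofReal ((r (j, true) - l (j, true)) / 2) *
              ENNReal.ofReal ((r (j, false) - l (j, false)) / 2)) ^
            (((p + q + 2 : ℕ) : ℝ) / 2 * c j) := by
  set β : ℝ := ((p + 1).factorial : ℝ) * ((q + 1).factorial : ℝ) / ((p + q + 2).factorial : ℝ)
    with hβ
  have hβ0 : 0 ≤ β := by positivity
  set Lf : Y → ℝ := fun y => envLow (fun i : J × Bool => l i - sgn i.2 * φ i.1 y) with hLf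
  set Rt : Y → ℝ := fun y => envUp (fun i : J × Bool => r i - sgn i.2 * φ i.1 y) with hRt
  have hLfm : Measurable Lf := measurable_envLow fun i =>
    measurable_const.sub ((hφ i.1).const_mul _)
  have hRtm : Measurable Rt := measurable_envUp fun i =>
    measurable_const.sub ((hφ i.1).const_mul _)
  -- lower and upper bounds for the second summand, for a given configuration
  set L' : J → (Fin (p + 1) → ℝ) → ℝ := fun j ρ =>
    envLow (fun k : Fin (p + 1) => max (l (j, true) - ρ k) (ρ k - r (j, false))) with hL'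
  set R' : J → (Fin (p + 1) → ℝ) → ℝ := fun j ρ =>
    envUp (fun k : Fin (p + 1) => min (r (j, true) - ρ k) (ρ k - l (j, false))) with hR'
  have hL'm : ∀ j, Measurable (L' j) := fun j => measurable_envLow fun k =>
    (measurable_const.sub (measurable_pi_apply k)).max ((measurable_pi_apply k).sub_const _)
  have hR'm : ∀ j, Measurable (R' j) := fun j => measurable_envUp fun k =>
    (measurable_const.sub (measurable_pi_apply k)).min ((measurable_pi_apply k).sub_const _)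
  -- the region in the product
  set E : Set (Y × (Fin (p + 1) → ℝ)) := {z | ∀ k, Lf z.1 ≤ z.2 k ∧ z.2 k ≤ Rt z.1} with hE
  have hEm : MeasurableSet E := by
    have : E = ⋂ k, ({z | Lf z.1 ≤ z.2 k} ∩ {z | z.2 k ≤ Rt z.1}) := by
      ext z
      simp only [hE, Set.mem_ofPred_eq, Set.mem_iInter, Set.mem_inter_iff]
    rw [this]
    refine MeasurableSet.iInter fun k => MeasurableSet.inter ?_ ?_
    · exact measurableSet_le (hLfm.comp measurable_fst)
        ((measurable_pi_apply k).comp measurable_snd)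
    · exact measurableSet_le ((measurable_pi_apply k).comp measurable_snd)
        (hRtm.comp measurable_fst)
  have hswap : ∫⁻ y, volume {ρ : Fin (p + 1) → ℝ | ∀ k, Lf y ≤ ρ k ∧ ρ k ≤ Rt y} ∂μ =
      ∫⁻ ρ : Fin (p + 1) → ℝ, μ {y | ∀ j, L' j ρ ≤ φ j y ∧ φ j y ≤ R' j ρ} := by
    have h1 := Measure.prod_apply (μ := μ) (ν := (volume : Measure (Fin (p + 1) → ℝ))) hEm
    have h2 := Measure.prod_apply_symm (μ := μ) (ν := (volume : Measure (Fin (p + 1) → ℝ))) hEm
    have h3 : ∀ ρ : Fin (p + 1) → ℝ, (fun y => (y, ρ)) ⁻¹' E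
        = {y | ∀ j, L' j ρ ≤ φ j y ∧ φ j y ≤ R' j ρ} := by
      intro ρ
      ext y
      simp only [Set.mem_preimage, hE, Set.mem_ofPred_eq, hLf, hRt, hL', hR', env_iff]
      constructor
      · intro h j k
        have ht := h k (j, true)
        have hf := h k (j, false)
        simp only [sgn_true, sgn_false, one_mul, neg_mul, sub_neg_eq_add] at ht hf
        constructor
        · apply max_le <;> linarith [ht.1, ht.2, hf.1, hf.2]
        · apply le_min <;> linarith [ht.1, ht.2, hf.1, hf.2]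
      · intro h k ⟨j, σ⟩
        have h' := h j k
        have h1 := (max_le_iff.1 h'.1)
        have h2 := (le_min_iff.1 h'.2)
        cases σ
        · simp only [sgn_false, neg_mul, one_mul, sub_neg_eq_add]
          constructor <;> linarith [h1.1, h1.2, h2.1, h2.2]
        · simp only [sgn_true, one_mul]
          constructor <;> linarith [h1.1, h1.2, h2.1, h2.2]
    simp_rw [h3] at h2
    exact h1.symm.trans h2
  set n : ℝ := ((p + q + 2 : ℕ) : ℝ) with hn
  have hn0 : 0 ≤ n := by positivity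
  set a : J → ℝ := fun j => r (j, true) - l (j, true) with ha
  set b : J → ℝ := fun j => r (j, false) - l (j, false) with hb
  set X : J → ℝ≥0∞ := fun j => ENNReal.ofReal (a j / 2) * ENNReal.ofReal (b j / 2) with hX
  have hG : ∀ j, ∫⁻ ρ : Fin (p + 1) → ℝ, ENNReal.ofReal ((R' j ρ - L' j ρ) / 2) ^ (q + 1)
      ≤ ENNReal.ofReal (2 ^ (p + 1) * β) * X j ^ (n / 2) := by
    intro j
    have hW : Measurable fun ρ => R' j ρ - L' j ρ := (hR'm j).sub (hL'm j)
    have hR1 : ∀ ρ k, R' j ρ ≤ r (j, true) - ρ k := fun ρ k =>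
      (envUp_le _ k).trans (min_le_left _ _)
    have hR2 : ∀ ρ k, R' j ρ ≤ ρ k - l (j, false) := fun ρ k =>
      (envUp_le _ k).trans (min_le_right _ _)
    have hL1 : ∀ ρ k, l (j, true) - ρ k ≤ L' j ρ := fun ρ k =>
      (le_max_left _ _).trans (le_envLow
        (fun k : Fin (p + 1) => max (l (j, true) - ρ k) (ρ k - r (j, false))) k)
    have hL2 : ∀ ρ k, ρ k - r (j, false) ≤ L' j ρ := fun ρ k =>
      (le_max_right _ _).trans (le_envLow
        (fun k : Fin (p + 1) => max (l (j, true) - ρ k) (ρ k - r (j, false))) k)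
    have ha' : a j = r (j, true) - l (j, true) := rfl
    have hb' : b j = r (j, false) - l (j, false) := rfl
    have hkey := key_integral p q (fun ρ => R' j ρ - L' j ρ) hW (a j) (b j)
      ((l (j, true) + l (j, false)) / 2)
      (fun ρ k k' => by
        apply le_min_sub_right_helper
        · linarith [hR1 ρ k, hL1 ρ k']
        · linarith [hR2 ρ k', hL2 ρ k])
      (fun ρ k => by linarith [hR2 ρ k, hL1 ρ k])
      (fun ρ k => by linarith [hR1 ρ k, hL2 ρ k])
    have hnn : ∀ t : ℝ, ENNReal.ofReal (t / 2) ^ (q + 1)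
        = ENNReal.ofReal ((1 / 2) ^ (q + 1)) * ENNReal.ofReal t ^ (q + 1) := by
      intro t
      rw [ENNReal.ofReal_pow (by norm_num), ← mul_pow, ← ENNReal.ofReal_mul (by norm_num)]
      congr 2
      ring
    simp_rw [hnn]
    rw [lintegral_const_mul' _ _ ENNReal.ofReal_ne_top]
    calc ENNReal.ofReal ((1 / 2) ^ (q + 1)) *
          ∫⁻ ρ : Fin (p + 1) → ℝ, ENNReal.ofReal (R' j ρ - L' j ρ) ^ (q + 1)
        ≤ ENNReal.ofReal ((1 / 2) ^ (q + 1)) * (ENNReal.ofReal β *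
            (ENNReal.ofReal (a j) * ENNReal.ofReal (b j)) ^ (n / 2)) := by
          gcongr
      _ = ENNReal.ofReal (2 ^ (p + 1) * β) * X j ^ (n / 2) := by
          have h4 : ENNReal.ofReal (a j) * ENNReal.ofReal (b j) = ENNReal.ofReal 4 * X j := by
            rw [hX]
            simp only
            rw [show ENNReal.ofReal (a j) = ENNReal.ofReal 2 * ENNReal.ofReal (a j / 2) by
                rw [← ENNReal.ofReal_mul (by norm_num)]; congr 1; ring,
              show ENNReal.ofReal (b j) = ENNReal.ofReal 2 * ENNReal.ofReal (b j / 2) by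
                rw [← ENNReal.ofReal_mul (by norm_num)]; congr 1; ring,
              show ENNReal.ofReal 4 = ENNReal.ofReal 2 * ENNReal.ofReal 2 by
                rw [← ENNReal.ofReal_mul (by norm_num)]; norm_num]
            ring
          rw [h4, ENNReal.mul_rpow_of_nonneg _ _ (by positivity),
            ENNReal.ofReal_rpow_of_pos (by norm_num)]
          have h5 : (4:ℝ) ^ (n / 2) = 2 ^ (p + q + 2) := by
            rw [show (4:ℝ) = 2 ^ (2:ℝ) by norm_num, ← Real.rpow_mul (by norm_num),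
              show (2:ℝ) * (n / 2) = n by ring, hn, Real.rpow_natCast]
          rw [h5, ← mul_assoc, ← mul_assoc, ← ENNReal.ofReal_mul (by positivity),
            ← ENNReal.ofReal_mul (by positivity)]
          congr 2
          have h9 : (2:ℝ) ^ (p + q + 2) = 2 ^ (q + 1) * 2 ^ (p + 1) := by
            rw [← pow_add]; congr 1; ring
          rw [h9]
          have h6 : ((1:ℝ) / 2) ^ (q + 1) * 2 ^ (q + 1) = 1 := by
            rw [← mul_pow]; norm_num
          calc ((1:ℝ) / 2) ^ (q + 1) * β * (2 ^ (q + 1) * 2 ^ (p + 1))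
              = (((1:ℝ) / 2) ^ (q + 1) * 2 ^ (q + 1)) * (2 ^ (p + 1) * β) := by ring
            _ = 2 ^ (p + 1) * β := by rw [h6, one_mul]
  have hstep := fiber_step (ν := (volume : Measure (Fin (p + 1) → ℝ))) hS hc hc1 L' R' hL'm hR'm
  calc ∫⁻ y, ENNReal.ofReal ((Rt y - Lf y) / 2) ^ (p + 1) ∂μ
      = ENNReal.ofReal ((1 / 2) ^ (p + 1)) *
          ∫⁻ y, volume {ρ : Fin (p + 1) → ℝ | ∀ k, Lf y ≤ ρ k ∧ ρ k ≤ Rt y} ∂μ :=
        lintegral_halfwidth_pow μ (p + 1) Lf Rt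
    _ = ENNReal.ofReal ((1 / 2) ^ (p + 1)) *
          ∫⁻ ρ : Fin (p + 1) → ℝ, μ {y | ∀ j, L' j ρ ≤ φ j y ∧ φ j y ≤ R' j ρ} := by rw [hswap]
    _ ≤ ENNReal.ofReal ((1 / 2) ^ (p + 1)) *
          (C * ∏ j, (∫⁻ ρ : Fin (p + 1) → ℝ,
            ENNReal.ofReal ((R' j ρ - L' j ρ) / 2) ^ (q + 1)) ^ c j) := by
        gcongr
    _ ≤ ENNReal.ofReal ((1 / 2) ^ (p + 1)) *
          (C * ∏ j, (ENNReal.ofReal (2 ^ (p + 1) * β) * X j ^ (n / 2)) ^ c j) := by
        gcongr with j _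
        · exact hc j
        · exact hG j
    _ = C * ENNReal.ofReal β * ∏ j, X j ^ (n / 2 * c j) := by
        rw [prod_mul_rpow _ _ c hc hc1]
        have h7 : ∀ j, (X j ^ (n / 2)) ^ c j = X j ^ (n / 2 * c j) := fun j => by
          rw [ENNReal.rpow_mul]
        simp_rw [h7]
        rw [ENNReal.ofReal_mul (by positivity)]
        have h8 : ENNReal.ofReal ((1 / 2) ^ (p + 1)) * ENNReal.ofReal (2 ^ (p + 1)) = 1 := by
          rw [← ENNReal.ofReal_mul (by positivity), ← mul_pow]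
          norm_num
        calc ENNReal.ofReal ((1 / 2) ^ (p + 1)) * (C * (ENNReal.ofReal (2 ^ (p + 1)) *
              ENNReal.ofReal β * ∏ j, X j ^ (n / 2 * c j)))
            = (ENNReal.ofReal ((1 / 2) ^ (p + 1)) * ENNReal.ofReal (2 ^ (p + 1))) *
                (C * ENNReal.ofReal β * ∏ j, X j ^ (n / 2 * c j)) := by ring
          _ = C * ENNReal.ofReal β * ∏ j, X j ^ (n / 2 * c j) := by rw [h8, one_mul]

/-- The slab bound for an l1-sum of two configurations. -/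
theorem SlabBound.sum {X₁ X₂ J₁ J₂ : Type*} [MeasurableSpace X₁] [MeasurableSpace X₂]
    [Fintype J₁] [Fintype J₂] [Nonempty J₁] [Nonempty J₂]
    {μ₁ : Measure X₁} {μ₂ : Measure X₂} [SFinite μ₁] [SFinite μ₂]
    {φ₁ : J₁ → X₁ → ℝ} {φ₂ : J₂ → X₂ → ℝ}
    (hφ₁ : ∀ j, Measurable (φ₁ j)) (hφ₂ : ∀ j, Measurable (φ₂ j))
    {c₁ : J₁ → ℝ} {c₂ : J₂ → ℝ} (hc₁ : ∀ j, 0 ≤ c₁ j) (hc₁' : ∑ j, c₁ j = 1)
    (hc₂ : ∀ j, 0 ≤ c₂ j) (hc₂' : ∑ j, c₂ j = 1)
    {p q : ℕ} {C₁ C₂ : ℝ≥0∞}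
    (h₁ : SlabBound μ₁ φ₁ c₁ (p + 1) C₁) (h₂ : SlabBound μ₂ φ₂ c₂ (q + 1) C₂) :
    SlabBound (μ₁.prod μ₂) (J := J₁ × J₂ × Bool)
      (fun j x => φ₁ j.1 x.1 + sgn j.2.2 * φ₂ j.2.1 x.2)
      (fun j => c₁ j.1 * c₂ j.2.1 / 2) (p + q + 2)
      (C₁ * C₂ * ENNReal.ofReal (((p + 1).factorial : ℝ) * ((q + 1).factorial : ℝ)
          / ((p + q + 2).factorial : ℝ))) := by
  intro l r
  set β : ℝ := ((p + 1).factorial : ℝ) * ((q + 1).factorial : ℝ) / ((p + q + 2).factorial : ℝ)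
    with hβ
  have hβ0 : 0 ≤ β := by positivity
  set n : ℝ := ((p + q + 2 : ℕ) : ℝ) with hn
  have hn0 : 0 ≤ n := by positivity
  set S : Set (X₁ × X₂) := {x | ∀ j : J₁ × J₂ × Bool,
    l j ≤ φ₁ j.1 x.1 + sgn j.2.2 * φ₂ j.2.1 x.2 ∧ φ₁ j.1 x.1 + sgn j.2.2 * φ₂ j.2.1 x.2 ≤ r j}
    with hS
  have hSm : MeasurableSet S := by
    have : S = ⋂ j : J₁ × J₂ × Bool,
        ({x | l j ≤ φ₁ j.1 x.1 + sgn j.2.2 * φ₂ j.2.1 x.2} ∩
          {x | φ₁ j.1 x.1 + sgn j.2.2 * φ₂ j.2.1 x.2 ≤ r j}) := by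
      ext x
      simp only [hS, Set.mem_ofPred_eq, Set.mem_iInter, Set.mem_inter_iff]
    rw [this]
    refine MeasurableSet.iInter fun j => MeasurableSet.inter ?_ ?_
    · exact measurableSet_le measurable_const
        (((hφ₁ j.1).comp measurable_fst).add (((hφ₂ j.2.1).comp measurable_snd).const_mul _))
    · exact measurableSet_le
        (((hφ₁ j.1).comp measurable_fst).add (((hφ₂ j.2.1).comp measurable_snd).const_mul _))
        measurable_const
  set Lf : J₁ → X₂ → ℝ := fun a y =>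
    envLow (fun i : J₂ × Bool => l (a, i) - sgn i.2 * φ₂ i.1 y) with hLf
  set Rt : J₁ → X₂ → ℝ := fun a y =>
    envUp (fun i : J₂ × Bool => r (a, i) - sgn i.2 * φ₂ i.1 y) with hRt
  have hLfm : ∀ a, Measurable (Lf a) := fun a => measurable_envLow fun i =>
    measurable_const.sub ((hφ₂ i.1).const_mul _)
  have hRtm : ∀ a, Measurable (Rt a) := fun a => measurable_envUp fun i =>
    measurable_const.sub ((hφ₂ i.1).const_mul _)
  have hsection : ∀ y, (fun x => (x, y)) ⁻¹' S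
      = {x | ∀ a, Lf a y ≤ φ₁ a x ∧ φ₁ a x ≤ Rt a y} := by
    intro y
    ext x
    simp only [Set.mem_preimage, hS, Set.mem_ofPred_eq, hLf, hRt, env_iff]
    constructor
    · intro h a i
      have := h (a, i)
      simp only at this
      constructor <;> linarith [this.1, this.2]
    · rintro h ⟨a, i⟩
      have := h a i
      simp only
      constructor <;> linarith [this.1, this.2]
  set X : J₁ → J₂ → ℝ≥0∞ := fun a b =>
    ENNReal.ofReal ((r (a, b, true) - l (a, b, true)) / 2) *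
      ENNReal.ofReal ((r (a, b, false) - l (a, b, false)) / 2) with hX
  have hinner : ∀ a, ∫⁻ y, ENNReal.ofReal ((Rt a y - Lf a y) / 2) ^ (p + 1) ∂μ₂ ≤
      C₂ * ENNReal.ofReal β * ∏ b, X a b ^ (n / 2 * c₂ b) := fun a =>
    sum_inner hφ₂ hc₂ hc₂' h₂ (fun i => l (a, i)) (fun i => r (a, i))
  have hstep := fiber_step (ν := μ₂) h₁ hc₁ hc₁' Lf Rt hLfm hRtm
  calc (μ₁.prod μ₂) S = ∫⁻ y, μ₁ ((fun x => (x, y)) ⁻¹' S) ∂μ₂ := Measure.prod_apply_symm hSm
    _ = ∫⁻ y, μ₁ {x | ∀ a, Lf a y ≤ φ₁ a x ∧ φ₁ a x ≤ Rt a y} ∂μ₂ := by simp_rw [hsection]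
    _ ≤ C₁ * ∏ a, (∫⁻ y, ENNReal.ofReal ((Rt a y - Lf a y) / 2) ^ (p + 1) ∂μ₂) ^ c₁ a := hstep
    _ ≤ C₁ * ∏ a, (C₂ * ENNReal.ofReal β * ∏ b, X a b ^ (n / 2 * c₂ b)) ^ c₁ a := by
        gcongr with a _
        · exact hc₁ a
        · exact hinner a
    _ = C₁ * C₂ * ENNReal.ofReal β * ∏ j : J₁ × J₂ × Bool,
          ENNReal.ofReal ((r j - l j) / 2) ^ (n * (c₁ j.1 * c₂ j.2.1 / 2)) := by
        rw [prod_mul_rpow _ _ c₁ hc₁ hc₁']
        rw [show C₁ * (C₂ * ENNReal.ofReal β * ∏ a, (∏ b, X a b ^ (n / 2 * c₂ b)) ^ c₁ a)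
            = C₁ * C₂ * ENNReal.ofReal β * ∏ a, (∏ b, X a b ^ (n / 2 * c₂ b)) ^ c₁ a by ring]
        congr 1
        rw [Fintype.prod_prod_type]
        apply Finset.prod_congr rfl
        intro a _
        rw [Fintype.prod_prod_type, ← ENNReal.prod_rpow_of_nonneg (hc₁ a)]
        apply Finset.prod_congr rfl
        intro b _
        rw [Fintype.prod_bool]
        simp only [hX]
        rw [ENNReal.mul_rpow_of_nonneg _ _ (by positivity [hc₂ b]),
          ENNReal.mul_rpow_of_nonneg _ _ (hc₁ a), ← ENNReal.rpow_mul, ← ENNReal.rpow_mul]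
        congr 2 <;> ring

/-- The slab bound for a product of two configurations. -/
theorem SlabBound.prod {X₁ X₂ J₁ J₂ : Type*} [MeasurableSpace X₁] [MeasurableSpace X₂]
    [Fintype J₁] [Fintype J₂]
    {μ₁ : Measure X₁} {μ₂ : Measure X₂} [SFinite μ₁] [SFinite μ₂]
    {φ₁ : J₁ → X₁ → ℝ} {φ₂ : J₂ → X₂ → ℝ}
    {c₁ : J₁ → ℝ} {c₂ : J₂ → ℝ}
    {p q : ℕ} (hn : 0 < p + q) {C₁ C₂ : ℝ≥0∞}
    (h₁ : SlabBound μ₁ φ₁ c₁ p C₁) (h₂ : SlabBound μ₂ φ₂ c₂ q C₂) :
    SlabBound (μ₁.prod μ₂) (J := J₁ ⊕ J₂)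
      (fun j x => Sum.elim (fun j₁ => φ₁ j₁ x.1) (fun j₂ => φ₂ j₂ x.2) j)
      (Sum.elim (fun j₁ => (p : ℝ) / (p + q : ℕ) * c₁ j₁) (fun j₂ => (q : ℝ) / (p + q : ℕ) * c₂ j₂))
      (p + q) (C₁ * C₂) := by
  intro l r
  have hn' : ((p + q : ℕ) : ℝ) ≠ 0 := by positivity
  have hset : {x : X₁ × X₂ | ∀ j : J₁ ⊕ J₂,
        l j ≤ Sum.elim (fun j₁ => φ₁ j₁ x.1) (fun j₂ => φ₂ j₂ x.2) j ∧
        Sum.elim (fun j₁ => φ₁ j₁ x.1) (fun j₂ => φ₂ j₂ x.2) j ≤ r j}
      = {x₁ | ∀ j, l (Sum.inl j) ≤ φ₁ j x₁ ∧ φ₁ j x₁ ≤ r (Sum.inl j)} ×ˢ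
        {x₂ | ∀ j, l (Sum.inr j) ≤ φ₂ j x₂ ∧ φ₂ j x₂ ≤ r (Sum.inr j)} := by
    ext x
    simp only [Set.mem_ofPred_eq, Sum.forall, Sum.elim_inl, Sum.elim_inr, Set.mem_prod]
  rw [hset, Measure.prod_prod]
  calc _ ≤ (C₁ * ∏ j, ENNReal.ofReal ((r (Sum.inl j) - l (Sum.inl j)) / 2) ^ ((p : ℝ) * c₁ j)) *
        (C₂ * ∏ j, ENNReal.ofReal ((r (Sum.inr j) - l (Sum.inr j)) / 2) ^ ((q : ℝ) * c₂ j)) :=
        mul_le_mul' (h₁ _ _) (h₂ _ _)
    _ = _ := by
        rw [Fintype.prod_sum_type]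
        simp only [Sum.elim_inl, Sum.elim_inr]
        have h1 : ∀ j₁, ((p + q : ℕ) : ℝ) * ((p : ℝ) / (p + q : ℕ) * c₁ j₁) = (p : ℝ) * c₁ j₁ :=
          fun j₁ => by field_simp
        have h2 : ∀ j₂, ((p + q : ℕ) : ℝ) * ((q : ℝ) / (p + q : ℕ) * c₂ j₂) = (q : ℝ) * c₂ j₂ :=
          fun j₂ => by field_simp
        simp_rw [h1, h2]
        ring

/-- The slab bound for a single segment. -/
theorem SlabBound.seg : SlabBound (J := Unit) (volume : Measure ℝ) (fun _ x => x) (fun _ => 1) 1 2 := by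
  intro l r
  have : {x : ℝ | ∀ j : Unit, l j ≤ x ∧ x ≤ r j} = Set.Icc (l ()) (r ()) := by
    ext x
    exact ⟨fun h => h (), fun h _ => h⟩
  rw [this, Real.volume_Icc]
  simp only [Nat.cast_one, mul_one, ENNReal.rpow_one, Finset.univ_unique, Finset.prod_singleton,
    PUnit.default_eq_unit]
  rw [show (2 : ℝ≥0∞) = ENNReal.ofReal 2 by simp, ← ENNReal.ofReal_mul (by norm_num)]
  apply ENNReal.ofReal_le_ofReal
  linarith

/-- Transport of a slab bound along a measure preserving map. -/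
theorem SlabBound.comp {X Y J : Type*} [MeasurableSpace X] [MeasurableSpace Y] [Fintype J]
    {μ : Measure X} {ν : Measure Y} (e : X ≃ᵐ Y) (he : MeasurePreserving e μ ν)
    {φ : J → Y → ℝ} {c : J → ℝ} {n : ℕ} {C : ℝ≥0∞} (h : SlabBound ν φ c n C) :
    SlabBound μ (fun j x => φ j (e x)) c n C := by
  intro l r
  have := he.measure_preimage_equiv (s := {y | ∀ j, l j ≤ φ j y ∧ φ j y ≤ r j})
  calc μ {x | ∀ j, l j ≤ φ j (e x) ∧ φ j (e x) ≤ r j}
      = ν {y | ∀ j, l j ≤ φ j y ∧ φ j y ≤ r j} := this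
    _ ≤ _ := h l r

section Generic

variable {α β J₁ J₂ : Type} [Fintype α] [Fintype β] [Fintype J₁] [Fintype J₂]

/-- The linear functional given by a coefficient vector. -/
def linForm {γ : Type} [Fintype γ] (u : γ → ℝ) (x : γ → ℝ) : ℝ := ∑ i, u i * x i

lemma measurable_linForm {γ : Type} [Fintype γ] (u : γ → ℝ) : Measurable (linForm u) :=
  Finset.measurable_sum _ fun i _ => (measurable_pi_apply i).const_mul _

lemma linForm_sum (u : α → ℝ) (v : β → ℝ) (x : α ⊕ β → ℝ) :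
    linForm (Sum.elim u v) x = linForm u (fun i => x (Sum.inl i))
      + linForm v (fun i => x (Sum.inr i)) := by
  unfold linForm
  rw [Fintype.sum_sum_type]
  simp

lemma linForm_smul {γ : Type} [Fintype γ] (t : ℝ) (v : γ → ℝ) (x : γ → ℝ) :
    linForm (fun i => t * v i) x = t * linForm v x := by
  unfold linForm
  rw [Finset.mul_sum]
  exact Finset.sum_congr rfl fun i _ => by ring

/-- The slab bound for an l1-sum on a coordinate space. -/
theorem slab_sum_generic (u₁ : J₁ → α → ℝ) (u₂ : J₂ → β → ℝ) (c₁ : J₁ → ℝ) (c₂ : J₂ → ℝ)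
    (hc₁ : ∀ j, 0 ≤ c₁ j) (hc₁' : ∑ j, c₁ j = 1) (hc₂ : ∀ j, 0 ≤ c₂ j) (hc₂' : ∑ j, c₂ j = 1)
    (p q : ℕ) (hp : 0 < p) (hq : 0 < q) (C₁ C₂ : ℝ≥0∞)
    (h₁ : SlabBound (volume : Measure (α → ℝ)) (fun j => linForm (u₁ j)) c₁ p C₁)
    (h₂ : SlabBound (volume : Measure (β → ℝ)) (fun j => linForm (u₂ j)) c₂ q C₂) :
    SlabBound (volume : Measure (α ⊕ β → ℝ)) (J := J₁ × J₂ × Bool)
      (fun j => linForm (Sum.elim (u₁ j.1) (fun i => (if j.2.2 then 1 else -1) * u₂ j.2.1 i)))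
      (fun j => c₁ j.1 * c₂ j.2.1 / 2) (p + q)
      (C₁ * C₂ * ENNReal.ofReal ((p.factorial : ℝ) * (q.factorial : ℝ) / ((p + q).factorial : ℝ))) := by
  obtain ⟨p, rfl⟩ : ∃ p', p = p' + 1 := ⟨p - 1, by omega⟩
  obtain ⟨q, rfl⟩ : ∃ q', q = q' + 1 := ⟨q - 1, by omega⟩
  have hne₁ : Nonempty J₁ := by
    by_contra h
    rw [not_nonempty_iff] at h
    simp at hc₁'
  have hne₂ : Nonempty J₂ := by
    by_contra h
    rw [not_nonempty_iff] at h
    simp at hc₂'
  have h := SlabBound.sum (fun j => measurable_linForm (u₁ j)) (fun j => measurable_linForm (u₂ j))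
    hc₁ hc₁' hc₂ hc₂' h₁ h₂
  have h' := h.comp (μ := (volume : Measure (α ⊕ β → ℝ)))
    (MeasurableEquiv.sumPiEquivProdPi (fun _ : α ⊕ β => ℝ))
    (volume_measurePreserving_sumPiEquivProdPi (fun _ : α ⊕ β => ℝ))
  have e : p + 1 + (q + 1) = p + q + 2 := by ring
  rw [e]
  convert h' using 3 with j x
  rw [linForm_sum, linForm_smul]
  rcases j with ⟨f, g, σ⟩
  cases σ <;> simp [sgn, MeasurableEquiv.coe_sumPiEquivProdPi]

/-- The slab bound for a product on a coordinate space. -/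
theorem slab_prod_generic (u₁ : J₁ → α → ℝ) (u₂ : J₂ → β → ℝ) (c₁ : J₁ → ℝ) (c₂ : J₂ → ℝ)
    (p q : ℕ) (hp : 0 < p) (C₁ C₂ : ℝ≥0∞)
    (h₁ : SlabBound (volume : Measure (α → ℝ)) (fun j => linForm (u₁ j)) c₁ p C₁)
    (h₂ : SlabBound (volume : Measure (β → ℝ)) (fun j => linForm (u₂ j)) c₂ q C₂) :
    SlabBound (volume : Measure (α ⊕ β → ℝ)) (J := J₁ ⊕ J₂)
      (fun j => linForm (Sum.elim (fun f => Sum.elim (u₁ f) 0) (fun g => Sum.elim 0 (u₂ g)) j))
      (Sum.elim (fun j₁ => (p : ℝ) / ((p + q : ℕ) : ℝ) * c₁ j₁)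
        (fun j₂ => (q : ℝ) / ((p + q : ℕ) : ℝ) * c₂ j₂))
      (p + q) (C₁ * C₂) := by
  have h := SlabBound.prod (hn := (by omega : 0 < p + q)) h₁ h₂
  have h' := h.comp (μ := (volume : Measure (α ⊕ β → ℝ)))
    (MeasurableEquiv.sumPiEquivProdPi (fun _ : α ⊕ β => ℝ))
    (volume_measurePreserving_sumPiEquivProdPi (fun _ : α ⊕ β => ℝ))
  convert h' using 3 with j x
  rcases j with f | g
  · simp [linForm, Fintype.sum_sum_type, MeasurableEquiv.coe_sumPiEquivProdPi]
  · simp [linForm, Fintype.sum_sum_type, MeasurableEquiv.coe_sumPiEquivProdPi]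

/-- The slab bound for the segment on a coordinate space. -/
theorem slab_seg_generic :
    SlabBound (volume : Measure (Unit → ℝ)) (J := Unit) (fun _ => linForm (fun _ => 1))
      (fun _ => 1) 1 2 := by
  have h := SlabBound.seg.comp (μ := (volume : Measure (Unit → ℝ)))
    (MeasurableEquiv.funUnique Unit ℝ) (volume_preserving_funUnique Unit ℝ)
  convert h using 3 with j x
  simp [linForm, MeasurableEquiv.funUnique]

end Generic

end Vale.Agent.Lib.P227
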