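import Mathlib
import Vale.Agent.Lib.P227.Defs
import Vale.Agent.Lib.P227.Slab

/-!
# The slab inequality for Hanner polytopes
-/

open MeasureTheory Set
open scoped ENNReal

namespace Vale.Agent.Lib.P227

section LinForm

variable {γ : Type} [Fintype γ]

lemma linForm_add' (u x y : γ → ℝ) : linForm u (x + y) = linForm u x + linForm u y := by
  unfold linForm
  rw [← Finset.sum_add_distrib]
  exact Finset.sum_congr rfl fun i _ => by simp [mul_add]

lemma linForm_smul' (u : γ → ℝ) (r : ℝ) (x : γ → ℝ) : linForm u (r • x) = r * linForm u x := by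
  unfold linForm
  rw [Finset.mul_sum]
  exact Finset.sum_congr rfl fun i _ => by simp only [Pi.smul_apply, smul_eq_mul]; ring

lemma linForm_zero' (u : γ → ℝ) : linForm u 0 = 0 := by
  simp [linForm]

lemma linForm_neg' (u x : γ → ℝ) : linForm u (-x) = - linForm u x := by
  have := linForm_smul' u (-1) x
  simpa using this

end LinForm

section NormProps

variable {α J : Type} [Fintype α] {N : (α → ℝ) → ℝ} {u : J → α → ℝ}

lemma norm_nonneg_of (hex : ∀ x, ∃ j, |linForm (u j) x| = N x) (x : α → ℝ) : 0 ≤ N x := by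
  obtain ⟨j, hj⟩ := hex x
  rw [← hj]
  exact abs_nonneg _

lemma norm_zero_of (hex : ∀ x, ∃ j, |linForm (u j) x| = N x) : N 0 = 0 := by
  obtain ⟨j, hj⟩ := hex 0
  rw [← hj, linForm_zero', abs_zero]

lemma norm_smul_of (habs : ∀ j x, |linForm (u j) x| ≤ N x) (hex : ∀ x, ∃ j, |linForm (u j) x| = N x)
    (r : ℝ) (x : α → ℝ) : N (r • x) = |r| * N x := by
  apply le_antisymm
  · obtain ⟨j, hj⟩ := hex (r • x)
    rw [← hj, linForm_smul', abs_mul]
    exact mul_le_mul_of_nonneg_left (habs j x) (abs_nonneg r)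
  · obtain ⟨j, hj⟩ := hex x
    rw [← hj]
    have := habs j (r • x)
    rwa [linForm_smul', abs_mul] at this

lemma norm_neg_of (habs : ∀ j x, |linForm (u j) x| ≤ N x) (hex : ∀ x, ∃ j, |linForm (u j) x| = N x)
    (x : α → ℝ) : N (-x) = N x := by
  have := norm_smul_of habs hex (-1) x
  simpa using this

lemma norm_add_le_of (habs : ∀ j x, |linForm (u j) x| ≤ N x)
    (hex : ∀ x, ∃ j, |linForm (u j) x| = N x) (x y : α → ℝ) : N (x + y) ≤ N x + N y := by
  obtain ⟨j, hj⟩ := hex (x + y)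
  rw [← hj, linForm_add']
  exact (abs_add_le _ _).trans (add_le_add (habs j x) (habs j y))

lemma norm_le_iff_of (habs : ∀ j x, |linForm (u j) x| ≤ N x)
    (hex : ∀ x, ∃ j, |linForm (u j) x| = N x) (x : α → ℝ) (t : ℝ) :
    N x ≤ t ↔ ∀ j, |linForm (u j) x| ≤ t := by
  constructor
  · intro h j
    exact (habs j x).trans h
  · intro h
    obtain ⟨j, hj⟩ := hex x
    rw [← hj]
    exact h j

/-- The volume of the unit ball through the exponential integral. -/
lemma vol_eq_integral [Nonempty α] (habs : ∀ j x, |linForm (u j) x| ≤ N x)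
    (hex : ∀ x, ∃ j, |linForm (u j) x| = N x) (hdef : ∀ x, N x = 0 → x = 0) :
    volume {x | N x ≤ 1} = ENNReal.ofReal ((∫ x, Real.exp (- N x)) /
      ((Fintype.card α).factorial : ℝ)) := by
  have h1 := measure_lt_one_eq_integral_div_gamma (volume : Measure (α → ℝ)) (g := N)
    (norm_zero_of hex) (norm_neg_of habs hex) (norm_add_le_of habs hex) (fun {x} => hdef x)
    (fun r x => (norm_smul_of habs hex r x).le) (p := 1) one_pos
  have h2 := measure_le_eq_lt (volume : Measure (α → ℝ)) (g := N)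
    (norm_zero_of hex) (norm_neg_of habs hex) (norm_add_le_of habs hex) (fun {x} => hdef x)
    (fun r x => (norm_smul_of habs hex r x).le) 1
  rw [h2, h1]
  simp only [Real.rpow_one, Module.finrank_fintype_fun_eq_card, div_one]
  rw [Real.Gamma_nat_eq_factorial]

end NormProps

/-- All the facts on a configuration that are carried along the recursion. -/
structure Good (α J : Type) [Fintype α] [Fintype J] (N : (α → ℝ) → ℝ) (u : J → α → ℝ)
    (c : J → ℝ) (n : ℕ) (C : ℝ) : Prop where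
  n_pos : 0 < n
  card : Fintype.card α = n
  C_pos : 0 < C
  c_nonneg : ∀ j, 0 ≤ c j
  c_sum : ∑ j, c j = 1
  abs_le : ∀ j x, |linForm (u j) x| ≤ N x
  exists_eq : ∀ x, ∃ j, |linForm (u j) x| = N x
  definite : ∀ x, N x = 0 → x = 0
  facet_pt : ∀ j, ∃ p, linForm (u j) p = 1 ∧ ∀ i, i ≠ j → |linForm (u i) p| < 1
  slab : SlabBound (volume : Measure (α → ℝ)) (fun j => linForm (u j)) c n (ENNReal.ofReal C)
  vol : volume {x | N x ≤ 1} = ENNReal.ofReal C

lemma Good.nonempty_coord {α J : Type} [Fintype α] [Fintype J] {N : (α → ℝ) → ℝ} {u : J → α → ℝ}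
    {c : J → ℝ} {n : ℕ} {C : ℝ} (h : Good α J N u c n C) : Nonempty α := by
  have := h.card
  have h2 := h.n_pos
  exact Fintype.card_pos_iff.1 (by omega)

lemma Good.integral_exp {α J : Type} [Fintype α] [Fintype J] {N : (α → ℝ) → ℝ} {u : J → α → ℝ}
    {c : J → ℝ} {n : ℕ} {C : ℝ} (h : Good α J N u c n C) :
    ∫ x, Real.exp (- N x) = C * (n.factorial : ℝ) := by
  have := h.nonempty_coord
  have h1 := vol_eq_integral h.abs_le h.exists_eq h.definite
  rw [h.vol, h.card] at h1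
  have hI : 0 ≤ ∫ x, Real.exp (- N x) := integral_nonneg fun x => (Real.exp_pos _).le
  have hf : (0:ℝ) < (n.factorial : ℝ) := by positivity
  have h2 := (ENNReal.ofReal_eq_ofReal_iff h.C_pos.le (by positivity)).1 h1
  rw [h2]
  field_simp

/-- The segment. -/
theorem good_seg : Good Unit Unit (fun x => |x ()|) (fun _ _ => 1) (fun _ => 1) 1 2 := by
  have hlin : ∀ x : Unit → ℝ, linForm (fun _ => 1) x = x () := by
    intro x
    simp [linForm]
  refine ⟨one_pos, rfl, two_pos, fun _ => zero_le_one, by simp, ?_, ?_, ?_, ?_,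
    (by rw [show ENNReal.ofReal 2 = 2 by simp]; exact slab_seg_generic), ?_⟩
  · intro _ x
    rw [hlin]
  · intro x
    exact ⟨(), by rw [hlin]⟩
  · intro x hx
    funext i
    simpa using hx
  · intro j
    refine ⟨fun _ => 1, by rw [hlin], ?_⟩
    intro i hi
    exact absurd (Subsingleton.elim i j) hi
  · have h := (volume_preserving_funUnique Unit ℝ).measure_preimage_equiv (Set.Icc (-1:ℝ) 1)
    have hset : (MeasurableEquiv.funUnique Unit ℝ) ⁻¹' (Set.Icc (-1:ℝ) 1) =
        {x : Unit → ℝ | |x ()| ≤ 1} := by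
      ext x
      simp [MeasurableEquiv.funUnique, abs_le]
    rw [hset] at h
    rw [h, Real.volume_Icc]
    norm_num

section Sums

variable {α β J₁ J₂ : Type} [Fintype α] [Fintype β] [Fintype J₁] [Fintype J₂]

lemma linForm_inl (u : α → ℝ) (x : α ⊕ β → ℝ) :
    linForm (Sum.elim u 0) x = linForm u (fun i => x (Sum.inl i)) := by
  rw [linForm_sum]
  simp [linForm]

lemma linForm_inr (v : β → ℝ) (x : α ⊕ β → ℝ) :
    linForm (Sum.elim 0 v) x = linForm v (fun i => x (Sum.inr i)) := by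
  rw [linForm_sum]
  simp [linForm]

lemma linForm_signed (u : α → ℝ) (v : β → ℝ) (σ : Bool) (x : α ⊕ β → ℝ) :
    linForm (Sum.elim u (fun i => (if σ then 1 else -1) * v i)) x =
      linForm u (fun i => x (Sum.inl i)) + sgn σ * linForm v (fun i => x (Sum.inr i)) := by
  rw [linForm_sum, linForm_smul]
  rfl

lemma abs_sgn (σ : Bool) : |sgn σ| = 1 := by
  cases σ <;> simp [sgn]

/-- Products. -/
theorem good_prod {N₁ : (α → ℝ) → ℝ} {N₂ : (β → ℝ) → ℝ} {u₁ : J₁ → α → ℝ} {u₂ : J₂ → β → ℝ}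
    {c₁ : J₁ → ℝ} {c₂ : J₂ → ℝ} {p q : ℕ} {C₁ C₂ : ℝ}
    (h₁ : Good α J₁ N₁ u₁ c₁ p C₁) (h₂ : Good β J₂ N₂ u₂ c₂ q C₂) :
    Good (α ⊕ β) (J₁ ⊕ J₂) (fun x => max (N₁ fun i => x (Sum.inl i)) (N₂ fun i => x (Sum.inr i)))
      (fun j => Sum.elim (fun f => Sum.elim (u₁ f) 0) (fun g => Sum.elim 0 (u₂ g)) j)
      (fun j => Sum.elim (fun f => (p : ℝ) / ((p + q : ℕ) : ℝ) * c₁ f)
        (fun g => (q : ℝ) / ((p + q : ℕ) : ℝ) * c₂ g) j) (p + q) (C₁ * C₂) := by
  have hp := h₁.n_pos
  have hq := h₂.n_pos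
  have hn : (0:ℝ) < ((p + q : ℕ) : ℝ) := by
    have : 0 < p + q := by omega
    exact_mod_cast this
  refine ⟨by omega, ?_, mul_pos h₁.C_pos h₂.C_pos, ?_, ?_, ?_, ?_, ?_, ?_, ?_, ?_⟩
  · rw [Fintype.card_sum, h₁.card, h₂.card]
  · rintro (f | g)
    · exact mul_nonneg (by positivity) (h₁.c_nonneg f)
    · exact mul_nonneg (by positivity) (h₂.c_nonneg g)
  · rw [Fintype.sum_sum_type]
    simp only [Sum.elim_inl, Sum.elim_inr]
    rw [← Finset.mul_sum, ← Finset.mul_sum, h₁.c_sum, h₂.c_sum]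
    field_simp
    push_cast
    ring
  · rintro (f | g) x
    · simp only [Sum.elim_inl]
      rw [linForm_inl]
      exact (h₁.abs_le f _).trans (le_max_left _ _)
    · simp only [Sum.elim_inr]
      rw [linForm_inr]
      exact (h₂.abs_le g _).trans (le_max_right _ _)
  · intro x
    rcases le_total (N₁ fun i => x (Sum.inl i)) (N₂ fun i => x (Sum.inr i)) with h | h
    · obtain ⟨g, hg⟩ := h₂.exists_eq fun i => x (Sum.inr i)
      refine ⟨Sum.inr g, ?_⟩
      simp only [Sum.elim_inr]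
      rw [linForm_inr, hg, max_eq_right h]
    · obtain ⟨f, hf⟩ := h₁.exists_eq fun i => x (Sum.inl i)
      refine ⟨Sum.inl f, ?_⟩
      simp only [Sum.elim_inl]
      rw [linForm_inl, hf, max_eq_left h]
  · intro x hx
    have h1 : (N₁ fun i => x (Sum.inl i)) = 0 :=
      le_antisymm (hx ▸ le_max_left _ _) (norm_nonneg_of h₁.exists_eq _)
    have h2 : (N₂ fun i => x (Sum.inr i)) = 0 :=
      le_antisymm (hx ▸ le_max_right _ _) (norm_nonneg_of h₂.exists_eq _)
    have e1 := h₁.definite _ h1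
    have e2 := h₂.definite _ h2
    funext i
    rcases i with i | i
    · exact congrFun e1 i
    · exact congrFun e2 i
  · rintro (f | g)
    · obtain ⟨P, hP1, hP2⟩ := h₁.facet_pt f
      refine ⟨Sum.elim P 0, ?_, ?_⟩
      · simp only [Sum.elim_inl]
        rw [linForm_inl]
        simpa using hP1
      · rintro (f' | g') hne
        · simp only [Sum.elim_inl]
          rw [linForm_inl]
          exact hP2 f' (fun h => hne (by rw [h]))
        · simp only [Sum.elim_inr]
          rw [linForm_inr]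
          simp [linForm]
    · obtain ⟨P, hP1, hP2⟩ := h₂.facet_pt g
      refine ⟨Sum.elim 0 P, ?_, ?_⟩
      · simp only [Sum.elim_inr]
        rw [linForm_inr]
        simpa using hP1
      · rintro (f' | g') hne
        · simp only [Sum.elim_inl]
          rw [linForm_inl]
          simp [linForm]
        · simp only [Sum.elim_inr]
          rw [linForm_inr]
          exact hP2 g' (fun h => hne (by rw [h]))
  · rw [ENNReal.ofReal_mul h₁.C_pos.le]
    exact slab_prod_generic u₁ u₂ c₁ c₂ p q hp _ _ h₁.slab h₂.slab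
  · have h := (volume_measurePreserving_sumPiEquivProdPi (fun _ : α ⊕ β => ℝ)).measure_preimage_equiv
      ({x | N₁ x ≤ 1} ×ˢ {x | N₂ x ≤ 1})
    have hset : (MeasurableEquiv.sumPiEquivProdPi (fun _ : α ⊕ β => ℝ)) ⁻¹'
        ({x | N₁ x ≤ 1} ×ˢ {x | N₂ x ≤ 1}) =
        {x : α ⊕ β → ℝ | max (N₁ fun i => x (Sum.inl i)) (N₂ fun i => x (Sum.inr i)) ≤ 1} := by
      ext x
      simp [MeasurableEquiv.coe_sumPiEquivProdPi]
    rw [hset] at h
    rw [h, Measure.volume_eq_prod, Measure.prod_prod, h₁.vol, h₂.vol,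
      ENNReal.ofReal_mul h₁.C_pos.le]

lemma facet_aux (a b s t : ℝ) (hs : |s| = 1) (ht : |t| = 1) :
    |1 / 2 * a + t * (s / 2 * b)| ≤ |a| / 2 + |b| / 2 := by
  refine (abs_add_le _ _).trans (le_of_eq ?_)
  rw [abs_mul (1 / 2) a, abs_mul t, abs_mul (s / 2) b, ht, abs_div s 2, hs,
    abs_of_pos (by norm_num : (0:ℝ) < 1 / 2), abs_of_pos (by norm_num : (0:ℝ) < 2)]
  ring

/-- The l1 sums. -/
theorem good_sum {N₁ : (α → ℝ) → ℝ} {N₂ : (β → ℝ) → ℝ} {u₁ : J₁ → α → ℝ} {u₂ : J₂ → β → ℝ}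
    {c₁ : J₁ → ℝ} {c₂ : J₂ → ℝ} {p q : ℕ} {C₁ C₂ : ℝ}
    (h₁ : Good α J₁ N₁ u₁ c₁ p C₁) (h₂ : Good β J₂ N₂ u₂ c₂ q C₂) :
    Good (α ⊕ β) (J₁ × J₂ × Bool) (fun x => (N₁ fun i => x (Sum.inl i)) + (N₂ fun i => x (Sum.inr i)))
      (fun j => Sum.elim (u₁ j.1) (fun i => (if j.2.2 then 1 else -1) * u₂ j.2.1 i))
      (fun j => c₁ j.1 * c₂ j.2.1 / 2) (p + q)
      (C₁ * C₂ * ((p.factorial : ℝ) * (q.factorial : ℝ) / ((p + q).factorial : ℝ))) := by
  have hp := h₁.n_pos
  have hq := h₂.n_pos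
  have hC₁ := h₁.C_pos
  have hC₂ := h₂.C_pos
  have hlin : ∀ (j : J₁ × J₂ × Bool) (x : α ⊕ β → ℝ),
      linForm (Sum.elim (u₁ j.1) (fun i => (if j.2.2 then 1 else -1) * u₂ j.2.1 i)) x =
        linForm (u₁ j.1) (fun i => x (Sum.inl i)) +
          sgn j.2.2 * linForm (u₂ j.2.1) (fun i => x (Sum.inr i)) :=
    fun j x => linForm_signed _ _ _ _
  have habs : ∀ (j : J₁ × J₂ × Bool) (x : α ⊕ β → ℝ),
      |linForm (Sum.elim (u₁ j.1) (fun i => (if j.2.2 then 1 else -1) * u₂ j.2.1 i)) x| ≤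
        (N₁ fun i => x (Sum.inl i)) + (N₂ fun i => x (Sum.inr i)) := by
    intro j x
    rw [hlin]
    refine (abs_add_le _ _).trans (add_le_add (h₁.abs_le _ _) ?_)
    rw [abs_mul, abs_sgn, one_mul]
    exact h₂.abs_le _ _
  have hex : ∀ x : α ⊕ β → ℝ, ∃ j : J₁ × J₂ × Bool,
      |linForm (Sum.elim (u₁ j.1) (fun i => (if j.2.2 then 1 else -1) * u₂ j.2.1 i)) x| =
        (N₁ fun i => x (Sum.inl i)) + (N₂ fun i => x (Sum.inr i)) := by
    intro x
    obtain ⟨f, hf⟩ := h₁.exists_eq fun i => x (Sum.inl i)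
    obtain ⟨g, hg⟩ := h₂.exists_eq fun i => x (Sum.inr i)
    set A := linForm (u₁ f) (fun i => x (Sum.inl i)) with hA
    set B := linForm (u₂ g) (fun i => x (Sum.inr i)) with hB
    by_cases hs : 0 ≤ A * B
    · refine ⟨(f, g, true), ?_⟩
      rw [hlin]
      change |A + sgn true * B| = _
      rw [← hf, ← hg, sgn_true, one_mul, abs_add_eq_add_abs_iff]
      rcases mul_nonneg_iff.1 hs with h | h
      · exact Or.inl h
      · exact Or.inr ⟨h.1, h.2⟩
    · refine ⟨(f, g, false), ?_⟩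
      rw [hlin]
      change |A + sgn false * B| = _
      rw [← hf, ← hg, sgn_false]
      push Not at hs
      rcases mul_neg_iff.1 hs with h | h
      · rw [abs_of_pos h.1, abs_of_neg h.2, abs_of_pos (by linarith [h.1, h.2])]
        ring
      · rw [abs_of_neg h.1, abs_of_pos h.2, abs_of_neg (by linarith [h.1, h.2])]
        ring
  have hdef : ∀ x : α ⊕ β → ℝ, (N₁ fun i => x (Sum.inl i)) + (N₂ fun i => x (Sum.inr i)) = 0 →
      x = 0 := by
    intro x hx
    have n1 := norm_nonneg_of h₁.exists_eq fun i => x (Sum.inl i)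
    have n2 := norm_nonneg_of h₂.exists_eq fun i => x (Sum.inr i)
    have e1 := h₁.definite _ (by linarith : (N₁ fun i => x (Sum.inl i)) = 0)
    have e2 := h₂.definite _ (by linarith : (N₂ fun i => x (Sum.inr i)) = 0)
    funext i
    rcases i with i | i
    · exact congrFun e1 i
    · exact congrFun e2 i
  refine ⟨by omega, ?_, by positivity, ?_, ?_, habs, hex, hdef, ?_, ?_, ?_⟩
  · rw [Fintype.card_sum, h₁.card, h₂.card]
  · rintro ⟨f, g, σ⟩
    have := h₁.c_nonneg f
    have := h₂.c_nonneg g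
    positivity
  · rw [Fintype.sum_prod_type]
    simp_rw [Fintype.sum_prod_type, Fintype.sum_bool]
    have : ∀ (f : J₁) (g : J₂), c₁ f * c₂ g / 2 + c₁ f * c₂ g / 2 = c₁ f * c₂ g := fun f g => by ring
    simp only [this]
    simp_rw [← Finset.mul_sum, h₂.c_sum, mul_one]
    exact h₁.c_sum
  · rintro ⟨f, g, σ⟩
    obtain ⟨P₁, hP1, hP1'⟩ := h₁.facet_pt f
    obtain ⟨P₂, hP2, hP2'⟩ := h₂.facet_pt g
    have hpt : ∀ j : J₁ × J₂ × Bool,
        linForm (Sum.elim (u₁ j.1) (fun i => (if j.2.2 then 1 else -1) * u₂ j.2.1 i))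
          (Sum.elim ((1 / 2 : ℝ) • P₁) ((sgn σ / 2) • P₂)) =
        1 / 2 * linForm (u₁ j.1) P₁ + sgn j.2.2 * (sgn σ / 2 * linForm (u₂ j.2.1) P₂) := by
      intro j
      rw [hlin]
      change linForm (u₁ j.1) ((1 / 2 : ℝ) • P₁) + sgn j.2.2 * linForm (u₂ j.2.1) ((sgn σ / 2) • P₂) = _
      rw [linForm_smul', linForm_smul']
    refine ⟨Sum.elim ((1 / 2 : ℝ) • P₁) ((sgn σ / 2) • P₂), ?_, ?_⟩
    · rw [hpt]
      change 1 / 2 * linForm (u₁ f) P₁ + sgn σ * (sgn σ / 2 * linForm (u₂ g) P₂) = 1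
      rw [hP1, hP2]
      cases σ <;> norm_num
    · rintro ⟨f', g', σ'⟩ hne
      rw [hpt]
      change |1 / 2 * linForm (u₁ f') P₁ + sgn σ' * (sgn σ / 2 * linForm (u₂ g') P₂)| < 1
      set a := linForm (u₁ f') P₁ with ha
      set b := linForm (u₂ g') P₂ with hb
      have ha1 : |a| ≤ 1 := by
        by_cases h : f' = f
        · rw [ha, h, hP1]; simp
        · exact (hP1' f' h).le
      have hb1 : |b| ≤ 1 := by
        by_cases h : g' = g
        · rw [hb, h, hP2]; simp
        · exact (hP2' g' h).le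
      have hstep := facet_aux a b (sgn σ) (sgn σ') (abs_sgn σ) (abs_sgn σ')
      by_cases hf : f' = f
      · by_cases hg : g' = g
        · have hσ : σ' ≠ σ := by
            intro h
            exact hne (by rw [hf, hg, h])
          have ea : a = 1 := by rw [ha, hf, hP1]
          have eb : b = 1 := by rw [hb, hg, hP2]
          rw [ea, eb]
          cases σ <;> cases σ' <;> first | exact absurd rfl hσ | norm_num
        · have : |b| < 1 := hP2' g' hg
          linarith
      · have : |a| < 1 := hP1' f' hf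
        linarith
  · rw [ENNReal.ofReal_mul (by positivity), ENNReal.ofReal_mul hC₁.le]
    exact slab_sum_generic u₁ u₂ c₁ c₂ h₁.c_nonneg h₁.c_sum h₂.c_nonneg h₂.c_sum p q hp hq _ _
      h₁.slab h₂.slab
  · have := h₁.nonempty_coord
    rw [vol_eq_integral habs hex hdef, Fintype.card_sum, h₁.card, h₂.card]
    congr 1
    have hI := (volume_measurePreserving_sumPiEquivProdPi (fun _ : α ⊕ β => ℝ)).integral_comp
      (MeasurableEquiv.measurableEmbedding _)
      (fun z : (α → ℝ) × (β → ℝ) => Real.exp (- N₁ z.1) * Real.exp (- N₂ z.2))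
    have e1 : ∀ x : α ⊕ β → ℝ, Real.exp (- ((N₁ fun i => x (Sum.inl i)) + (N₂ fun i => x (Sum.inr i))))
        = Real.exp (- N₁ ((MeasurableEquiv.sumPiEquivProdPi fun _ : α ⊕ β => ℝ) x).1) *
          Real.exp (- N₂ ((MeasurableEquiv.sumPiEquivProdPi fun _ : α ⊕ β => ℝ) x).2) := by
      intro x
      rw [← Real.exp_add, neg_add]
      rfl
    simp_rw [e1]
    have hP := integral_prod_mul (μ := (volume : Measure (α → ℝ))) (ν := (volume : Measure (β → ℝ)))
      (fun x => Real.exp (- N₁ x)) (fun y => Real.exp (- N₂ y))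
    rw [hI, Measure.volume_eq_prod, hP, h₁.integral_exp, h₂.integral_exp]
    field_simp

end Sums

/-- The recursive facts for all Hanner trees. -/
theorem good : (T : HTree) →
    Good T.coord T.facet T.norm T.normal T.weight T.dim T.volConst
  | .seg => good_seg
  | .prod a b => good_prod (good a) (good b)
  | .sum a b => good_sum (good a) (good b)

end Vale.Agent.Lib.P227
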