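import Mathlib
import Vale.Agent.Lib.P227.PLC.PL4
import Vale.Agent.Lib.P227.Slab

/-!
# A multiplicative Prekopa-Leindler inequality for unconditional sets
-/

open MeasureTheory Set Finset Filter Topology
open scoped ENNReal

namespace Vale.Agent.Lib.P227

variable {V : Type}

/-- Coordinatewise exponential. -/
noncomputable def expV (u : V → ℝ) : V → ℝ := fun i => Real.exp (u i)

lemma measurable_expV : Measurable (expV : (V → ℝ) → V → ℝ) :=
  measurable_pi_lambda _ fun i => Real.measurable_exp.comp (measurable_pi_apply i)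

/-- The open positive orthant. -/
def orth (V : Type) : Set (V → ℝ) := {x | ∀ i, 0 < x i}

lemma measurableSet_orth [Fintype V] : MeasurableSet (orth V) := by
  have : orth V = ⋂ i, {x | 0 < x i} := by
    ext x
    simp [orth]
  rw [this]
  exact MeasurableSet.iInter fun i => measurableSet_lt measurable_const (measurable_pi_apply i)

lemma image_expV : expV '' (univ : Set (V → ℝ)) = orth V := by
  ext x
  constructor
  · rintro ⟨u, -, rfl⟩ i
    exact Real.exp_pos _
  · intro hx
    refine ⟨fun i => Real.log (x i), mem_univ _, ?_⟩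
    funext i
    exact Real.exp_log (hx i)

lemma injective_expV : Function.Injective (expV : (V → ℝ) → V → ℝ) := by
  intro u v h
  funext i
  exact Real.exp_injective (congrFun h i)

variable [Fintype V]

/-- The derivative of the coordinatewise exponential. -/
noncomputable def expV' (u : V → ℝ) : (V → ℝ) →L[ℝ] (V → ℝ) :=
  ContinuousLinearMap.pi fun i => (Real.exp (u i)) • ContinuousLinearMap.proj i

lemma hasFDerivAt_expV (u : V → ℝ) : HasFDerivAt expV (expV' u) u := by
  rw [hasFDerivAt_pi']
  intro i
  have h1 : HasFDerivAt (fun f : V → ℝ => f i)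
      (ContinuousLinearMap.proj (R := ℝ) (φ := fun _ : V => ℝ) i) u := hasFDerivAt_apply i u
  have h2 := HasDerivAt.comp_hasFDerivAt (f := fun f : V → ℝ => f i) (h₂ := Real.exp)
    (h₂' := Real.exp (u i)) u (Real.hasDerivAt_exp (u i)) h1
  have e : (ContinuousLinearMap.proj (R := ℝ) (φ := fun _ : V => ℝ) i).comp (expV' u) =
      Real.exp (u i) • ContinuousLinearMap.proj (R := ℝ) (φ := fun _ : V => ℝ) i := by
    ext x
    simp [expV']
  rw [e]
  exact h2

lemma det_expV' [DecidableEq V] (u : V → ℝ) : (expV' u).det = Real.exp (∑ i, u i) := by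
  have e : ((expV' u : (V → ℝ) →L[ℝ] (V → ℝ)) : (V → ℝ) →ₗ[ℝ] (V → ℝ)) =
      Matrix.toLin' (Matrix.diagonal fun i => Real.exp (u i)) := by
    ext x i
    simp [expV', Matrix.toLin'_apply, Matrix.mulVec_diagonal]
  rw [ContinuousLinearMap.det, e, LinearMap.det_toLin', Matrix.det_diagonal, Real.exp_sum]

/-- The change of variables on the positive orthant. -/
lemma lintegral_orth (G : (V → ℝ) → ℝ≥0∞) :
    ∫⁻ x in orth V, G x = ∫⁻ u, ENNReal.ofReal (Real.exp (∑ i, u i)) * G (expV u) := by
  classical
  have h := lintegral_image_eq_lintegral_abs_det_fderiv_mul (volume : Measure (V → ℝ))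
    (s := univ) (f := expV) (f' := expV') MeasurableSet.univ
    (fun u _ => (hasFDerivAt_expV u).hasFDerivWithinAt) injective_expV.injOn G
  rw [image_expV, Measure.restrict_univ] at h
  rw [h]
  apply lintegral_congr
  intro u
  rw [det_expV', abs_of_pos (Real.exp_pos _)]

/-- Unconditional sets: membership depends only on the absolute values of the coordinates. -/
def IsUncond (A : Set (V → ℝ)) : Prop := ∀ x, x ∈ A ↔ (fun i => |x i|) ∈ A

/-- Reflections of the coordinates. -/
def reflV (s : V → Bool) (x : V → ℝ) : V → ℝ := fun i => sgn (s i) * x i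

lemma measurePreserving_reflV (s : V → Bool) :
    MeasurePreserving (reflV s) (volume : Measure (V → ℝ)) volume := by
  apply volume_preserving_pi (f := fun i (t : ℝ) => sgn (s i) * t)
  intro i
  cases s i
  · have e : (fun t : ℝ => sgn false * t) = fun t => - t := by
      funext t
      simp [sgn]
    rw [e]
    exact Measure.measurePreserving_neg (volume : Measure ℝ)
  · have e : (fun t : ℝ => sgn true * t) = id := by
      funext t
      simp [sgn]
    rw [e]
    exact MeasurePreserving.id (volume : Measure ℝ)

lemma abs_sgn' (σ : Bool) : |sgn σ| = 1 := by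
  cases σ <;> simp [sgn]

/-- The volume of an unconditional set in terms of the orthant. -/
theorem volume_uncond {A : Set (V → ℝ)} (hA : MeasurableSet A) (hU : IsUncond A) :
    volume A = 2 ^ Fintype.card V * volume (A ∩ orth V) := by
  classical
  set O : (V → Bool) → Set (V → ℝ) := fun s => reflV s ⁻¹' orth V with hO
  have hm : ∀ s, Measurable (reflV (V := V) s) := fun s => (measurePreserving_reflV s).measurable
  have hOm : ∀ s, MeasurableSet (O s) := fun s => hm s measurableSet_orth
  -- each piece has the same measure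
  have hpiece : ∀ s, volume (A ∩ O s) = volume (A ∩ orth V) := by
    intro s
    have hAs : A ∩ O s = reflV s ⁻¹' (A ∩ orth V) := by
      ext x
      simp only [Set.mem_inter_iff, Set.mem_preimage, hO]
      constructor
      · rintro ⟨h1, h2⟩
        refine ⟨?_, h2⟩
        rw [hU]
        have : (fun i => |reflV s x i|) = fun i => |x i| := by
          funext i
          simp only [reflV, abs_mul, abs_sgn', one_mul]
        rw [this]
        exact (hU x).1 h1
      · rintro ⟨h1, h2⟩
        refine ⟨?_, h2⟩
        rw [hU] at h1 ⊢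
        have : (fun i => |reflV s x i|) = fun i => |x i| := by
          funext i
          simp only [reflV, abs_mul, abs_sgn', one_mul]
        rwa [this] at h1
    rw [hAs]
    exact (measurePreserving_reflV s).measure_preimage (hA.inter measurableSet_orth).nullMeasurableSet
  -- disjointness
  have hdisj : ((Finset.univ : Finset (V → Bool)) : Set (V → Bool)).PairwiseDisjoint
      fun s => A ∩ O s := by
    intro s _ t _ hst
    rw [Function.onFun, Set.disjoint_left]
    rintro x ⟨-, h1⟩ ⟨-, h2⟩
    obtain ⟨i, hi⟩ := Function.ne_iff.1 hst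
    have h3 : 0 < sgn (s i) * x i := h1 i
    have h4 : 0 < sgn (t i) * x i := h2 i
    rcases Bool.eq_false_or_eq_true (s i) with e | e <;>
    rcases Bool.eq_false_or_eq_true (t i) with f | f <;>
    simp_all [sgn] <;> linarith
  -- the complement of the union is null
  have hnull : volume {x : V → ℝ | ∃ i, x i = 0} = 0 := by
    have : {x : V → ℝ | ∃ i, x i = 0} = ⋃ i, {x : V → ℝ | x i = 0} := by
      ext x
      simp
    rw [this, measure_iUnion_null_iff]
    intro i
    rw [volume_pi]
    exact Measure.pi_hyperplane _ i 0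
  have hcover : A ⊆ (⋃ s ∈ (Finset.univ : Finset (V → Bool)), A ∩ O s) ∪ {x : V → ℝ | ∃ i, x i = 0} := by
    intro x hx
    by_cases h0 : ∃ i, x i = 0
    · exact Or.inr h0
    · left
      push Not at h0
      refine Set.mem_biUnion (Finset.mem_coe.2 (Finset.mem_univ fun i => decide (0 < x i))) ⟨hx, ?_⟩
      intro i
      by_cases h : 0 < x i
      · simp [reflV, sgn, h]
      · have h' : x i < 0 := lt_of_le_of_ne (not_lt.1 h) (h0 i)
        simp [reflV, sgn, h, h']
  have hsubU : (⋃ s ∈ (Finset.univ : Finset (V → Bool)), A ∩ O s) ⊆ A := by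
    intro x hx
    simp only [Set.mem_iUnion] at hx
    obtain ⟨s, -, h, -⟩ := hx
    exact h
  have hU1 : volume A = volume (⋃ s ∈ (Finset.univ : Finset (V → Bool)), A ∩ O s) := by
    apply le_antisymm
    · refine (measure_mono hcover).trans ((measure_union_le _ _).trans ?_)
      rw [hnull, add_zero]
    · exact measure_mono hsubU
  rw [hU1, measure_biUnion_finset hdisj (fun s _ => hA.inter (hOm s))]
  simp_rw [hpiece]
  rw [Finset.sum_const, Finset.card_univ, Fintype.card_fun, Fintype.card_bool, nsmul_eq_mul]
  push_cast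
  rfl

/-- The multiplicative Prekopa-Leindler inequality for unconditional sets. -/
theorem mul_pl {A B C : Set (V → ℝ)} (hA : MeasurableSet A) (hB : MeasurableSet B)
    (hC : MeasurableSet C) (hUA : IsUncond A) (hUB : IsUncond B) (hUC : IsUncond C)
    {θ : ℝ} (h0 : 0 < θ) (h1 : θ < 1)
    (H : ∀ x y, (∀ i, 0 < x i) → (∀ i, 0 < y i) → x ∈ A → y ∈ B →
      (fun i => x i ^ θ * y i ^ (1 - θ)) ∈ C) :
    volume A ^ θ * volume B ^ (1 - θ) ≤ volume C := by
  have h1' : 0 < 1 - θ := by linarith
  have hexpr : ∀ S : Set (V → ℝ), MeasurableSet S →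
      volume (S ∩ orth V) = ∫⁻ u, ENNReal.ofReal (Real.exp (∑ i, u i)) * (S.indicator 1 (expV u)) := by
    intro S hS
    rw [← lintegral_orth, ← lintegral_indicator_one (hS.inter measurableSet_orth),
      ← lintegral_indicator measurableSet_orth]
    apply lintegral_congr
    intro x
    by_cases hx : x ∈ orth V
    · by_cases hs : x ∈ S
      · simp [hx, hs]
      · simp [hx, hs]
    · simp [hx]
  have hmeas : ∀ S : Set (V → ℝ), MeasurableSet S →
      Measurable fun u : V → ℝ => ENNReal.ofReal (Real.exp (∑ i, u i)) * (S.indicator 1 (expV u)) := by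
    intro S hS
    apply Measurable.mul
    · apply ENNReal.measurable_ofReal.comp
      exact Real.measurable_exp.comp (Finset.measurable_sum _ fun i _ => measurable_pi_apply i)
    · exact (measurable_one.indicator hS).comp measurable_expV
  have hPL := Vale.Agent.Lib.P227.PLC.prekopa_leindler (hmeas A hA) (hmeas B hB) (hmeas C hC) h0 h1 (by
    intro x y
    by_cases hx : expV x ∈ A
    · by_cases hy : expV y ∈ B
      · have hmem := H (expV x) (expV y) (fun i => Real.exp_pos _) (fun i => Real.exp_pos _) hx hy
        have e : (fun i => expV x i ^ θ * expV y i ^ (1 - θ)) = expV (θ • x + (1 - θ) • y) := by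
          funext i
          simp only [expV, Pi.add_apply, Pi.smul_apply, smul_eq_mul]
          rw [← Real.exp_mul, ← Real.exp_mul, ← Real.exp_add]
          ring_nf
        rw [e] at hmem
        simp only [Set.indicator_of_mem hx, Set.indicator_of_mem hy, Set.indicator_of_mem hmem,
          Pi.one_apply, mul_one]
        rw [ENNReal.ofReal_rpow_of_pos (Real.exp_pos _), ENNReal.ofReal_rpow_of_pos (Real.exp_pos _),
          ← ENNReal.ofReal_mul (by positivity)]
        apply ENNReal.ofReal_le_ofReal
        rw [← Real.exp_mul, ← Real.exp_mul, ← Real.exp_add]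
        apply Real.exp_le_exp.2
        apply le_of_eq
        simp only [Pi.add_apply, Pi.smul_apply, smul_eq_mul]
        rw [Finset.sum_add_distrib, ← Finset.mul_sum, ← Finset.mul_sum]
        ring
      · simp only [Set.indicator_of_notMem hy, mul_zero]
        rw [ENNReal.zero_rpow_of_pos h1']
        simp
    · simp only [Set.indicator_of_notMem hx, mul_zero]
      rw [ENNReal.zero_rpow_of_pos h0]
      simp)
  rw [← hexpr A hA, ← hexpr B hB, ← hexpr C hC] at hPL
  rw [volume_uncond hA hUA, volume_uncond hB hUB, volume_uncond hC hUC]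
  set K : ℝ≥0∞ := 2 ^ Fintype.card V with hK
  rw [ENNReal.mul_rpow_of_nonneg _ _ h0.le, ENNReal.mul_rpow_of_nonneg _ _ h1'.le]
  have hKK : K ^ θ * K ^ (1 - θ) = K := by
    rw [← ENNReal.rpow_add_of_nonneg _ _ h0.le h1'.le]
    simp
  calc K ^ θ * volume (A ∩ orth V) ^ θ * (K ^ (1 - θ) * volume (B ∩ orth V) ^ (1 - θ))
      = (K ^ θ * K ^ (1 - θ)) * (volume (A ∩ orth V) ^ θ * volume (B ∩ orth V) ^ (1 - θ)) := by ring
    _ ≤ K * volume (C ∩ orth V) := by
        rw [hKK]
        gcongr

end Vale.Agent.Lib.P227
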