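import Mathlib

/-!
# Polar chains in the quadrant and the discrete Poincare inequality
-/

open Finset

namespace Vale.Agent.Lib.P227

/-- Consecutive determinant of a planar chain. -/
def Dt (a b : ℕ → ℝ) (i : ℕ) : ℝ := a i * b (i + 1) - a (i + 1) * b i

/-- Twice the signed area of three consecutive points of a chain. -/
def Zt (a b : ℕ → ℝ) (i : ℕ) : ℝ :=
  Dt a b i + Dt a b (i + 1) - (a i * b (i + 2) - a (i + 2) * b i)

/-- Reciprocal of the consecutive determinant. -/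
noncomputable def kap (a b : ℕ → ℝ) (i : ℕ) : ℝ := (Dt a b i)⁻¹

/-- Weight of the interior vertex `i + 1`. -/
noncomputable def wIn (a b : ℕ → ℝ) (i : ℕ) : ℝ := kap a b i * kap a b (i + 1) * Zt a b i

/-- Half weight of the first vertex. -/
noncomputable def wL (a b : ℕ → ℝ) : ℝ := kap a b 0 * (a 0 - a 1) / a 0

/-- Half weight of the last vertex. -/
noncomputable def wR (a b : ℕ → ℝ) (m : ℕ) : ℝ := kap a b m * (b (m + 1) - b m) / b (m + 1)

/-- The chain conditions on the polar points `(a i, b i)`, `i ≤ m + 1`. -/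
structure IsChain (m : ℕ) (a b : ℕ → ℝ) : Prop where
  a_nonneg : ∀ i, i ≤ m + 1 → 0 ≤ a i
  b_nonneg : ∀ i, i ≤ m + 1 → 0 ≤ b i
  b0 : b 0 = 0
  aM : a (m + 1) = 0
  det_pos : ∀ i, i ≤ m → 0 < Dt a b i
  anti : ∀ i, i ≤ m → a (i + 1) ≤ a i
  mono : ∀ i, i ≤ m → b i ≤ b (i + 1)
  Z_nonneg : ∀ i, i < m → 0 ≤ Zt a b i

namespace IsChain

variable {m : ℕ} {a b : ℕ → ℝ}

lemma a_pos (h : IsChain m a b) {i : ℕ} (hi : i ≤ m) : 0 < a i := by
  have h1 := h.det_pos i hi
  have h2 := h.a_nonneg (i + 1) (by omega)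
  have h3 := h.b_nonneg i (by omega)
  have h4 := h.a_nonneg i (by omega)
  unfold Dt at h1
  rcases h4.eq_or_lt with h5 | h5
  · rw [← h5] at h1
    nlinarith [mul_nonneg h2 h3]
  · exact h5

lemma b_pos (h : IsChain m a b) {i : ℕ} (hi : i ≤ m) : 0 < b (i + 1) := by
  have h1 := h.det_pos i hi
  have h2 := h.a_nonneg (i + 1) (by omega)
  have h3 := h.b_nonneg i (by omega)
  have h4 := h.b_nonneg (i + 1) (by omega)
  unfold Dt at h1
  rcases h4.eq_or_lt with h5 | h5
  · rw [← h5] at h1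
    nlinarith [mul_nonneg h2 h3]
  · exact h5

lemma kap_pos (h : IsChain m a b) {i : ℕ} (hi : i ≤ m) : 0 < kap a b i :=
  inv_pos.2 (h.det_pos i hi)

lemma wIn_nonneg (h : IsChain m a b) {i : ℕ} (hi : i < m) : 0 ≤ wIn a b i :=
  mul_nonneg (mul_nonneg (h.kap_pos (by omega)).le (h.kap_pos (by omega)).le) (h.Z_nonneg i hi)

lemma wL_nonneg (h : IsChain m a b) : 0 ≤ wL a b := by
  unfold wL
  have := h.kap_pos (i := 0) (by omega)
  have h1 := h.a_pos (i := 0) (by omega)
  have h2 := h.anti 0 (by omega)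
  exact div_nonneg (mul_nonneg this.le (by simpa using h2)) h1.le

lemma wR_nonneg (h : IsChain m a b) : 0 ≤ wR a b m := by
  unfold wR
  have := h.kap_pos (i := m) le_rfl
  have h1 := h.b_pos (i := m) le_rfl
  have h2 := h.mono m le_rfl
  exact div_nonneg (mul_nonneg this.le (by linarith)) h1.le

end IsChain

/-- Interior three term identity, first coordinate. -/
lemma three_term_a {a b : ℕ → ℝ} {i : ℕ} (h1 : Dt a b i ≠ 0) (h2 : Dt a b (i + 1) ≠ 0) :
    kap a b i * (a (i + 1) - a i) + kap a b (i + 1) * (a (i + 1) - a (i + 2)) =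
      wIn a b i * a (i + 1) := by
  unfold wIn kap
  field_simp
  unfold Zt Dt at *
  ring

/-- Interior three term identity, second coordinate. -/
lemma three_term_b {a b : ℕ → ℝ} {i : ℕ} (h1 : Dt a b i ≠ 0) (h2 : Dt a b (i + 1) ≠ 0) :
    kap a b i * (b (i + 1) - b i) + kap a b (i + 1) * (b (i + 1) - b (i + 2)) =
      wIn a b i * b (i + 1) := by
  unfold wIn kap
  field_simp
  unfold Zt Dt at *
  ring

/-- The Dirichlet energy of a sequence. -/
noncomputable def Edge (a b : ℕ → ℝ) (m : ℕ) (ξ : ℕ → ℝ) : ℝ :=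
  ∑ i ∈ range (m + 1), kap a b i * (ξ (i + 1) - ξ i) ^ 2

/-- The weighted square mean of a sequence. -/
noncomputable def Wt (a b : ℕ → ℝ) (m : ℕ) (ξ : ℕ → ℝ) : ℝ :=
  wL a b * ξ 0 ^ 2 + ∑ i ∈ range m, wIn a b i * ξ (i + 1) ^ 2 + wR a b m * ξ (m + 1) ^ 2

/-- The quadratic form of a sequence. -/
noncomputable def Sq (a b : ℕ → ℝ) (m : ℕ) (ξ : ℕ → ℝ) : ℝ := Wt a b m ξ - Edge a b m ξ

/-- One edge of the discrete Picone inequality. -/
lemma picone_edge {x y p q : ℝ} (hp : 0 ≤ p) (hq : 0 ≤ q) (hx : q = 0 → x = 0) (hy : p = 0 → y = 0) :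
    (x ^ 2 / q - y ^ 2 / p) * (q - p) ≤ (x - y) ^ 2 := by
  rcases hp.eq_or_lt with hp0 | hp0
  · have hy0 := hy hp0.symm
    subst hp0
    subst hy0
    rcases hq.eq_or_lt with hq0 | hq0
    · have hx0 := hx hq0.symm
      subst hq0
      subst hx0
      simp
    · have e : (x ^ 2 / q - 0 ^ 2 / 0) * (q - 0) = x ^ 2 := by
        simp only [sub_zero, ne_eq, OfNat.ofNat_ne_zero, not_false_eq_true, zero_pow, div_zero]
        field_simp
      rw [e]
      exact le_of_eq (by ring)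
  · rcases hq.eq_or_lt with hq0 | hq0
    · have hx0 := hx hq0.symm
      subst hq0
      subst hx0
      have e : (0 ^ 2 / 0 - y ^ 2 / p) * (0 - p) = y ^ 2 := by
        simp only [ne_eq, OfNat.ofNat_ne_zero, not_false_eq_true, zero_pow, div_zero]
        field_simp
        ring
      rw [e]
      exact le_of_eq (by ring)
    · have key : (x * p - y * q) ^ 2 / (p * q) = x ^ 2 * p / q + y ^ 2 * q / p - 2 * (x * y) := by
        field_simp
        ring
      have h0 : 0 ≤ (x * p - y * q) ^ 2 / (p * q) := by positivity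
      have e : (x ^ 2 / q - y ^ 2 / p) * (q - p) = x ^ 2 + y ^ 2 - (x ^ 2 * p / q + y ^ 2 * q / p) := by
        field_simp
        ring
      rw [e]
      nlinarith

/-- The discrete Picone inequality with a positive test sequence `ψ`. -/
lemma picone_sum (a b : ℕ → ℝ) (m : ℕ) (hk : ∀ i, i ≤ m → 0 ≤ kap a b i) (ψ ξ : ℕ → ℝ)
    (hψ : ∀ i, i ≤ m + 1 → 0 ≤ ψ i) (hz : ∀ i, i ≤ m + 1 → ψ i = 0 → ξ i = 0) :
    ∑ i ∈ range (m + 1), kap a b i * ((ξ (i + 1) ^ 2 / ψ (i + 1) - ξ i ^ 2 / ψ i) *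
      (ψ (i + 1) - ψ i)) ≤ Edge a b m ξ := by
  unfold Edge
  apply Finset.sum_le_sum
  intro i hi
  have hi' : i ≤ m := by simpa [Nat.lt_succ_iff] using hi
  exact mul_le_mul_of_nonneg_left
    (picone_edge (hψ i (by omega)) (hψ (i + 1) (by omega)) (hz (i + 1) (by omega)) (hz i (by omega)))
    (hk i hi')

/-- Summation by parts for the Picone sum. -/
lemma picone_parts (κ ρ ψ : ℕ → ℝ) (m : ℕ) :
    ∑ i ∈ range (m + 1), κ i * ((ρ (i + 1) - ρ i) * (ψ (i + 1) - ψ i)) =
      ρ 0 * (κ 0 * (ψ 0 - ψ 1)) +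
      ∑ i ∈ range m, ρ (i + 1) * (κ i * (ψ (i + 1) - ψ i) + κ (i + 1) * (ψ (i + 1) - ψ (i + 2))) +
      ρ (m + 1) * (κ m * (ψ (m + 1) - ψ m)) := by
  induction m with
  | zero =>
    simp only [zero_add, range_one, sum_singleton, range_zero, sum_empty, add_zero]
    ring
  | succ m ih =>
    rw [Finset.sum_range_succ, ih, Finset.sum_range_succ]
    ring

/-- Poincare inequality for odd sequences: both boundary values vanish. -/
lemma poincare_eta {m : ℕ} {a b : ℕ → ℝ} (h : IsChain m a b) (η : ℕ → ℝ) (h0 : η 0 = 0)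
    (hM : η (m + 1) = 0) :
    2 * ∑ i ∈ range m, wIn a b i * η (i + 1) ^ 2 ≤ Edge a b m η := by
  set ψ : ℕ → ℝ := fun i => a i * b i with hψ
  have hψ0 : ψ 0 = 0 := by simp [hψ, h.b0]
  have hψM : ψ (m + 1) = 0 := by simp [hψ, h.aM]
  have hz : ∀ i, i ≤ m + 1 → ψ i = 0 → η i = 0 := by
    intro i hi hi0
    rcases Nat.eq_zero_or_pos i with rfl | hipos
    · exact h0
    · rcases (by omega : i = m + 1 ∨ i ≤ m) with rfl | hle
      · exact hM
      · obtain ⟨j, rfl⟩ : ∃ j, i = j + 1 := ⟨i - 1, by omega⟩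
        have h1 := h.a_pos hle
        have h2 := h.b_pos (i := j) (by omega)
        have : ψ (j + 1) > 0 := mul_pos h1 h2
        linarith
  have key := picone_sum a b m (fun i hi => (h.kap_pos hi).le) ψ η
    (fun i hi => mul_nonneg (h.a_nonneg i hi) (h.b_nonneg i hi)) hz
  refine le_trans ?_ key
  rw [picone_parts (kap a b) (fun i => η i ^ 2 / ψ i) ψ m]
  simp only [h0, hM]
  simp only [ne_eq, OfNat.ofNat_ne_zero, not_false_eq_true, zero_pow, zero_div, zero_mul, zero_add,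
    add_zero]
  rw [Finset.mul_sum]
  apply Finset.sum_le_sum
  intro i hi
  have hi' : i < m := by simpa using hi
  have ha := h.a_pos (i := i + 1) (by omega)
  have hb := h.b_pos (i := i) (by omega)
  have hψp : 0 < ψ (i + 1) := mul_pos ha hb
  -- the value of the Laplacian of the test sequence
  have hD1 := (h.det_pos i (by omega)).ne'
  have hD2 := (h.det_pos (i + 1) (by omega)).ne'
  have ta := three_term_a hD1 hD2
  have tb := three_term_b hD1 hD2
  have k1 := h.kap_pos (i := i) (by omega)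
  have k2 := h.kap_pos (i := i + 1) (by omega)
  have a1 := h.anti i (by omega)
  have a2 := h.anti (i + 1) (by omega)
  have b1 := h.mono i (by omega)
  have b2 := h.mono (i + 1) (by omega)
  have hT : 2 * wIn a b i * ψ (i + 1) ≤
      kap a b i * (ψ (i + 1) - ψ i) + kap a b (i + 1) * (ψ (i + 1) - ψ (i + 2)) := by
    have e : kap a b i * (ψ (i + 1) - ψ i) + kap a b (i + 1) * (ψ (i + 1) - ψ (i + 2)) =
        a (i + 1) * (kap a b i * (b (i + 1) - b i) + kap a b (i + 1) * (b (i + 1) - b (i + 2))) +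
        b (i + 1) * (kap a b i * (a (i + 1) - a i) + kap a b (i + 1) * (a (i + 1) - a (i + 2))) +
        kap a b i * ((a i - a (i + 1)) * (b (i + 1) - b i)) +
        kap a b (i + 1) * ((a (i + 1) - a (i + 2)) * (b (i + 2) - b (i + 1))) := by
      simp only [hψ]
      ring
    rw [e, ta, tb]
    have h3 : 0 ≤ kap a b i * ((a i - a (i + 1)) * (b (i + 1) - b i)) :=
      mul_nonneg k1.le (mul_nonneg (by linarith) (by linarith))
    have h4 : 0 ≤ kap a b (i + 1) * ((a (i + 1) - a (i + 2)) * (b (i + 2) - b (i + 1))) :=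
      mul_nonneg k2.le (mul_nonneg (by linarith) (by linarith))
    simp only [hψ]
    nlinarith
  have e : 2 * (wIn a b i * η (i + 1) ^ 2) =
      η (i + 1) ^ 2 / ψ (i + 1) * (2 * wIn a b i * ψ (i + 1)) := by
    field_simp
  rw [e]
  exact mul_le_mul_of_nonneg_left hT (by positivity)

/-- Poincare inequality with the test sequence `b`: the first boundary value vanishes. -/
lemma poincare_mu {m : ℕ} {a b : ℕ → ℝ} (h : IsChain m a b) (μ : ℕ → ℝ) (h0 : μ 0 = 0) :
    ∑ i ∈ range m, wIn a b i * μ (i + 1) ^ 2 + wR a b m * μ (m + 1) ^ 2 ≤ Edge a b m μ := by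
  have hz : ∀ i, i ≤ m + 1 → b i = 0 → μ i = 0 := by
    intro i hi hi0
    rcases Nat.eq_zero_or_pos i with rfl | hipos
    · exact h0
    · obtain ⟨j, rfl⟩ : ∃ j, i = j + 1 := ⟨i - 1, by omega⟩
      have h2 := h.b_pos (i := j) (by omega)
      linarith
  have key := picone_sum a b m (fun i hi => (h.kap_pos hi).le) b μ h.b_nonneg hz
  refine le_trans ?_ key
  rw [picone_parts (kap a b) (fun i => μ i ^ 2 / b i) b m]
  simp only [h0, ne_eq, OfNat.ofNat_ne_zero, not_false_eq_true, zero_pow, zero_div, zero_mul,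
    zero_add]
  apply add_le_add
  · apply Finset.sum_le_sum
    intro i hi
    have hi' : i < m := by simpa using hi
    have hb := h.b_pos (i := i) (by omega)
    rw [three_term_b (h.det_pos i (by omega)).ne' (h.det_pos (i + 1) (by omega)).ne']
    apply le_of_eq
    field_simp
  · have hb := h.b_pos (i := m) le_rfl
    unfold wR
    apply le_of_eq
    field_simp

/-- Poincare inequality with the test sequence `a`: the last boundary value vanishes. -/
lemma poincare_nu {m : ℕ} {a b : ℕ → ℝ} (h : IsChain m a b) (ν : ℕ → ℝ) (hM : ν (m + 1) = 0) :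
    wL a b * ν 0 ^ 2 + ∑ i ∈ range m, wIn a b i * ν (i + 1) ^ 2 ≤ Edge a b m ν := by
  have hz : ∀ i, i ≤ m + 1 → a i = 0 → ν i = 0 := by
    intro i hi hi0
    rcases (by omega : i = m + 1 ∨ i ≤ m) with rfl | hle
    · exact hM
    · have h2 := h.a_pos hle
      linarith
  have key := picone_sum a b m (fun i hi => (h.kap_pos hi).le) a ν h.a_nonneg hz
  refine le_trans ?_ key
  rw [picone_parts (kap a b) (fun i => ν i ^ 2 / a i) a m]
  simp only [hM, ne_eq, OfNat.ofNat_ne_zero, not_false_eq_true, zero_pow, zero_div, zero_mul,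
    add_zero]
  apply add_le_add
  · have ha := h.a_pos (i := 0) (by omega)
    unfold wL
    apply le_of_eq
    field_simp
  · apply Finset.sum_le_sum
    intro i hi
    have hi' : i < m := by simpa using hi
    have ha := h.a_pos (i := i + 1) (by omega)
    rw [three_term_a (h.det_pos i (by omega)).ne' (h.det_pos (i + 1) (by omega)).ne']
    apply le_of_eq
    field_simp

/-- The quadratic form of four sequences, split along the characters of the group of signs. -/
lemma Sq_four (a b : ℕ → ℝ) (m : ℕ) (x y z w : ℕ → ℝ) :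
    Sq a b m x + Sq a b m y + Sq a b m z + Sq a b m w =
      4 * (Sq a b m (fun i => (x i + y i + z i + w i) / 4) +
        Sq a b m (fun i => (x i - y i + z i - w i) / 4) +
        Sq a b m (fun i => (x i + y i - z i - w i) / 4) +
        Sq a b m (fun i => (x i - y i - z i + w i) / 4)) := by
  simp only [Sq, Wt, Edge]
  have e1 : ∀ p q r s : ℝ, p ^ 2 + q ^ 2 + r ^ 2 + s ^ 2 = 4 * (((p + q + r + s) / 4) ^ 2 +
      ((p - q + r - s) / 4) ^ 2 + ((p + q - r - s) / 4) ^ 2 + ((p - q - r + s) / 4) ^ 2) := by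
    intro p q r s
    ring
  have h1 : ∀ (c : ℕ → ℝ) (s : Finset ℕ) (f : ℕ → ℕ),
      ∑ i ∈ s, c i * x (f i) ^ 2 + ∑ i ∈ s, c i * y (f i) ^ 2 + ∑ i ∈ s, c i * z (f i) ^ 2 +
        ∑ i ∈ s, c i * w (f i) ^ 2 =
      4 * (∑ i ∈ s, c i * ((x (f i) + y (f i) + z (f i) + w (f i)) / 4) ^ 2 +
        ∑ i ∈ s, c i * ((x (f i) - y (f i) + z (f i) - w (f i)) / 4) ^ 2 +
        ∑ i ∈ s, c i * ((x (f i) + y (f i) - z (f i) - w (f i)) / 4) ^ 2 +
        ∑ i ∈ s, c i * ((x (f i) - y (f i) - z (f i) + w (f i)) / 4) ^ 2) := by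
    intro c s f
    simp only [← Finset.sum_add_distrib, Finset.mul_sum]
    apply Finset.sum_congr rfl
    intro i _
    have := e1 (x (f i)) (y (f i)) (z (f i)) (w (f i))
    linear_combination (c i) * this
  have h2 : ∑ i ∈ range (m + 1), kap a b i * (x (i + 1) - x i) ^ 2 +
      ∑ i ∈ range (m + 1), kap a b i * (y (i + 1) - y i) ^ 2 +
      ∑ i ∈ range (m + 1), kap a b i * (z (i + 1) - z i) ^ 2 +
      ∑ i ∈ range (m + 1), kap a b i * (w (i + 1) - w i) ^ 2 =
      4 * (∑ i ∈ range (m + 1), kap a b i * ((x (i + 1) + y (i + 1) + z (i + 1) + w (i + 1)) / 4 -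
            (x i + y i + z i + w i) / 4) ^ 2 +
        ∑ i ∈ range (m + 1), kap a b i * ((x (i + 1) - y (i + 1) + z (i + 1) - w (i + 1)) / 4 -
            (x i - y i + z i - w i) / 4) ^ 2 +
        ∑ i ∈ range (m + 1), kap a b i * ((x (i + 1) + y (i + 1) - z (i + 1) - w (i + 1)) / 4 -
            (x i + y i - z i - w i) / 4) ^ 2 +
        ∑ i ∈ range (m + 1), kap a b i * ((x (i + 1) - y (i + 1) - z (i + 1) + w (i + 1)) / 4 -
            (x i - y i - z i + w i) / 4) ^ 2) := by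
    simp only [← Finset.sum_add_distrib, Finset.mul_sum]
    apply Finset.sum_congr rfl
    intro i _
    have := e1 (x (i + 1) - x i) (y (i + 1) - y i) (z (i + 1) - z i) (w (i + 1) - w i)
    linear_combination (kap a b i) * this
  have h3 := h1 (wIn a b) (range m) (fun i => i + 1)
  have e0 := e1 (x 0) (y 0) (z 0) (w 0)
  have eM := e1 (x (m + 1)) (y (m + 1)) (z (m + 1)) (w (m + 1))
  linear_combination h3 - h2 + (wL a b) * e0 + (wR a b m) * eM

/-- The main inequality: sums of the quadratic form over four quadrants. -/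
theorem quad_main {m : ℕ} {a b : ℕ → ℝ} (h : IsChain m a b) (x y z w : ℕ → ℝ)
    (h0a : x 0 = w 0) (h0b : y 0 = z 0) (hMa : x (m + 1) = y (m + 1)) (hMb : z (m + 1) = w (m + 1))
    (hL : 0 < wL a b → (x 0 + z 0) * (y 0 + w 0) ≤ 4)
    (hI : ∀ i, i < m → 0 < wIn a b i →
      (x (i + 1) + z (i + 1)) * (y (i + 1) + w (i + 1)) ≤ 4)
    (hR : 0 < wR a b m → (x (m + 1) + z (m + 1)) * (y (m + 1) + w (m + 1)) ≤ 4) :
    Sq a b m x + Sq a b m y + Sq a b m z + Sq a b m w ≤
      4 * (wL a b + ∑ i ∈ range m, wIn a b i + wR a b m) := by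
  rw [Sq_four]
  set ζ : ℕ → ℝ := fun i => (x i + y i + z i + w i) / 4 with hζ
  set η : ℕ → ℝ := fun i => (x i - y i + z i - w i) / 4 with hη
  set μ : ℕ → ℝ := fun i => (x i + y i - z i - w i) / 4 with hμ
  set ν : ℕ → ℝ := fun i => (x i - y i - z i + w i) / 4 with hν
  have hη0 : η 0 = 0 := by simp only [hη]; rw [h0a, h0b]; ring
  have hηM : η (m + 1) = 0 := by simp only [hη]; rw [hMa, hMb]; ring
  have hμ0 : μ 0 = 0 := by simp only [hμ]; rw [h0a, h0b]; ring
  have hνM : ν (m + 1) = 0 := by simp only [hν]; rw [hMa, hMb]; ring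
  have p1 := poincare_eta h η hη0 hηM
  have p2 := poincare_mu h μ hμ0
  have p3 := poincare_nu h ν hνM
  have hζE : 0 ≤ Edge a b m ζ := Finset.sum_nonneg fun i hi =>
    mul_nonneg (h.kap_pos (by simpa [Nat.lt_succ_iff] using hi)).le (by positivity)
  -- pointwise bound
  have key : ∀ c q₁ q₂ q₃ q₄ : ℝ, 0 ≤ c → (0 < c → (q₁ + q₃) * (q₂ + q₄) ≤ 4) →
      c * ((q₁ + q₂ + q₃ + q₄) / 4) ^ 2 ≤ c + c * ((q₁ - q₂ + q₃ - q₄) / 4) ^ 2 := by
    intro c q₁ q₂ q₃ q₄ hc hcc
    rcases hc.eq_or_lt with h0 | h0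
    · rw [← h0]; simp
    · have := hcc h0
      have e : ((q₁ + q₂ + q₃ + q₄) / 4) ^ 2 = (q₁ + q₃) * (q₂ + q₄) / 4 +
          ((q₁ - q₂ + q₃ - q₄) / 4) ^ 2 := by ring
      rw [e]
      have h1 : (q₁ + q₃) * (q₂ + q₄) / 4 ≤ 1 := by linarith
      nlinarith
  have hI' : ∑ i ∈ range m, wIn a b i * ζ (i + 1) ^ 2 ≤
      ∑ i ∈ range m, wIn a b i + ∑ i ∈ range m, wIn a b i * η (i + 1) ^ 2 := by
    rw [← Finset.sum_add_distrib]
    apply Finset.sum_le_sum
    intro i hi
    have hi' : i < m := by simpa using hi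
    exact key _ _ _ _ _ (h.wIn_nonneg hi') (hI i hi')
  have hL' : wL a b * ζ 0 ^ 2 ≤ wL a b + wL a b * η 0 ^ 2 :=
    key (wL a b) (x 0) (y 0) (z 0) (w 0) h.wL_nonneg hL
  have hR' : wR a b m * ζ (m + 1) ^ 2 ≤ wR a b m + wR a b m * η (m + 1) ^ 2 :=
    key (wR a b m) (x (m + 1)) (y (m + 1)) (z (m + 1)) (w (m + 1)) h.wR_nonneg hR
  simp only [Sq, Wt]
  have hνW : wR a b m * ν (m + 1) ^ 2 = 0 := by rw [hνM]; ring
  have hμW : wL a b * μ 0 ^ 2 = 0 := by rw [hμ0]; ring
  have hηW1 : wL a b * η 0 ^ 2 = 0 := by rw [hη0]; ring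
  have hηW2 : wR a b m * η (m + 1) ^ 2 = 0 := by rw [hηM]; ring
  linarith [p1, p2, p3, hζE, hI', hL', hR', hνW, hμW, hηW1, hηW2]

end Vale.Agent.Lib.P227
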