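import Mathlib

/-!
# Areas of polygons given by support numbers on a cyclic fan of normals
-/

open MeasureTheory Set Finset
open scoped ENNReal

namespace Vale.Agent.Lib.P227

/-- Planar scalar product. -/
def dot2 (u v : ℝ × ℝ) : ℝ := u.1 * v.1 + u.2 * v.2

/-- Planar determinant. -/
def det2 (u v : ℝ × ℝ) : ℝ := u.1 * v.2 - u.2 * v.1

/-- The intersection point of the lines `⟪n, z⟫ = h`, `⟪n', z⟫ = h'`. -/
noncomputable def vertexOf (n n' : ℝ × ℝ) (h h' : ℝ) : ℝ × ℝ :=
  ((h * n'.2 - h' * n.2) / det2 n n', (h' * n.1 - h * n'.1) / det2 n n')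

lemma dot_vertex_left {n n' : ℝ × ℝ} (hd : det2 n n' ≠ 0) (h h' : ℝ) :
    dot2 n (vertexOf n n' h h') = h := by
  unfold dot2 vertexOf
  simp only
  have e : n.1 * ((h * n'.2 - h' * n.2) / det2 n n') + n.2 * ((h' * n.1 - h * n'.1) / det2 n n') =
      h * det2 n n' / det2 n n' := by
    unfold det2
    ring
  rw [e]
  field_simp

lemma dot_vertex_right {n n' : ℝ × ℝ} (hd : det2 n n' ≠ 0) (h h' : ℝ) :
    dot2 n' (vertexOf n n' h h') = h' := by
  unfold dot2 vertexOf
  simp only
  have e : n'.1 * ((h * n'.2 - h' * n.2) / det2 n n') + n'.2 * ((h' * n.1 - h * n'.1) / det2 n n') =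
      h' * det2 n n' / det2 n n' := by
    unfold det2
    ring
  rw [e]
  field_simp

/-- The triangle with vertices the origin, `p` and `q`. -/
def tri (p q : ℝ × ℝ) : Set (ℝ × ℝ) :=
  {z | ∃ s r : ℝ, 0 ≤ s ∧ 0 ≤ r ∧ s + r ≤ 1 ∧ z = (s * p.1 + r * q.1, s * p.2 + r * q.2)}

/-- The standard triangle. -/
lemma tri_std : tri (1, 0) (0, 1) = {z : ℝ × ℝ | 0 ≤ z.1 ∧ 0 ≤ z.2 ∧ z.1 + z.2 ≤ 1} := by
  ext z
  constructor
  · rintro ⟨s, r, hs, hr, hsr, rfl⟩
    simpa using ⟨hs, hr, hsr⟩
  · rintro ⟨h1, h2, h3⟩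
    exact ⟨z.1, z.2, h1, h2, h3, by simp⟩

lemma measurableSet_std : MeasurableSet {z : ℝ × ℝ | 0 ≤ z.1 ∧ 0 ≤ z.2 ∧ z.1 + z.2 ≤ 1} := by
  apply MeasurableSet.inter
  · exact measurableSet_le measurable_const measurable_fst
  · apply MeasurableSet.inter
    · exact measurableSet_le measurable_const measurable_snd
    · exact measurableSet_le (measurable_fst.add measurable_snd) measurable_const

lemma volume_std : volume (tri (1, 0) (0, 1)) = ENNReal.ofReal (1 / 2) := by
  rw [tri_std, Measure.volume_eq_prod, Measure.prod_apply measurableSet_std]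
  have hsec : ∀ s : ℝ, volume (Prod.mk s ⁻¹' {z : ℝ × ℝ | 0 ≤ z.1 ∧ 0 ≤ z.2 ∧ z.1 + z.2 ≤ 1}) =
      (Set.Icc (0:ℝ) 1).indicator (fun s => ENNReal.ofReal (1 - s)) s := by
    intro s
    by_cases hs : s ∈ Set.Icc (0:ℝ) 1
    · rw [Set.indicator_of_mem hs]
      have : Prod.mk s ⁻¹' {z : ℝ × ℝ | 0 ≤ z.1 ∧ 0 ≤ z.2 ∧ z.1 + z.2 ≤ 1} = Set.Icc 0 (1 - s) := by
        ext t
        simp only [Set.mem_preimage, Set.mem_ofPred_eq, Set.mem_Icc]
        constructor
        · rintro ⟨_, h2, h3⟩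
          exact ⟨h2, by linarith⟩
        · rintro ⟨h2, h3⟩
          exact ⟨hs.1, h2, by linarith⟩
      rw [this, Real.volume_Icc, sub_zero]
    · rw [Set.indicator_of_notMem hs]
      have : Prod.mk s ⁻¹' {z : ℝ × ℝ | 0 ≤ z.1 ∧ 0 ≤ z.2 ∧ z.1 + z.2 ≤ 1} = ∅ := by
        ext t
        simp only [Set.mem_preimage, Set.mem_ofPred_eq, Set.mem_empty_iff_false, iff_false, not_and, not_le]
        intro h1 h2
        by_contra hcon
        push Not at hcon
        exact hs ⟨h1, by linarith⟩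
      rw [this, measure_empty]
  simp_rw [hsec]
  rw [lintegral_indicator measurableSet_Icc]
  rw [← ofReal_integral_eq_lintegral_ofReal]
  · congr 1
    rw [integral_Icc_eq_integral_Ioc, ← intervalIntegral.integral_of_le zero_le_one]
    rw [intervalIntegral.integral_sub (by simp) (by simp)]
    simp only [intervalIntegral.integral_const, integral_id]
    norm_num
  · exact (continuous_const.sub continuous_id).continuousOn.integrableOn_Icc
  · filter_upwards [ae_restrict_mem measurableSet_Icc] with s hs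
    simp only [Pi.zero_apply]
    linarith [hs.2]

/-- The linear map sending the standard basis to two given vectors. -/
noncomputable def triMap (p q : ℝ × ℝ) : ℝ × ℝ →ₗ[ℝ] ℝ × ℝ where
  toFun z := (z.1 * p.1 + z.2 * q.1, z.1 * p.2 + z.2 * q.2)
  map_add' u v := by
    ext <;> simp <;> ring
  map_smul' c v := by
    ext <;> simp <;> ring

lemma det_triMap (p q : ℝ × ℝ) : LinearMap.det (triMap p q) = det2 p q := by
  rw [← LinearMap.det_toMatrix (Module.Basis.finTwoProd ℝ), Matrix.det_fin_two]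
  simp [LinearMap.toMatrix_apply, triMap, det2]
  ring

lemma tri_eq_image (p q : ℝ × ℝ) : tri p q = triMap p q '' tri (1, 0) (0, 1) := by
  rw [tri_std]
  ext z
  constructor
  · rintro ⟨s, r, hs, hr, hsr, rfl⟩
    exact ⟨(s, r), ⟨hs, hr, hsr⟩, rfl⟩
  · rintro ⟨⟨s, r⟩, ⟨hs, hr, hsr⟩, rfl⟩
    exact ⟨s, r, hs, hr, hsr, rfl⟩

/-- Area of a triangle with a vertex at the origin. -/
theorem volume_tri (p q : ℝ × ℝ) : volume (tri p q) = ENNReal.ofReal (|det2 p q| / 2) := by
  rw [tri_eq_image, Measure.addHaar_image_linearMap, volume_std, det_triMap,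
    ← ENNReal.ofReal_mul (abs_nonneg _)]
  congr 1
  ring

lemma measurableSet_tri (p q : ℝ × ℝ) : MeasurableSet (tri p q) := by
  have hc : IsCompact (tri (1, 0) (0, 1)) := by
    rw [tri_std]
    apply Metric.isCompact_of_isClosed_isBounded
    · apply IsClosed.inter
      · exact isClosed_le continuous_const continuous_fst
      · apply IsClosed.inter
        · exact isClosed_le continuous_const continuous_snd
        · exact isClosed_le (continuous_fst.add continuous_snd) continuous_const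
    · apply (Metric.isBounded_Icc ((0:ℝ), (0:ℝ)) ((1:ℝ), (1:ℝ))).subset
      rintro ⟨x, y⟩ ⟨h1, h2, h3⟩
      simp only at h1 h2 h3
      exact ⟨⟨h1, h2⟩, ⟨by simp only; linarith, by simp only; linarith⟩⟩
  rw [tri_eq_image]
  exact ((hc.image (LinearMap.continuous_of_finiteDimensional _)).isClosed).measurableSet

/-- The fan hypotheses on a periodic sequence of normals. -/
structure CycFan (N : ℕ) (n : ℕ → ℝ × ℝ) : Prop where
  N_pos : 0 < N
  periodic : ∀ k, n (k + N) = n k
  det_pos : ∀ k, 0 < det2 (n k) (n (k + 1))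
  cover : ∀ v : ℝ × ℝ, ∃ k, ∃ s r : ℝ, 0 ≤ s ∧ 0 ≤ r ∧
    v = (s * (n k).1 + r * (n (k + 1)).1, s * (n k).2 + r * (n (k + 1)).2)

/-- The vertices of a polygon with normals `n` and support numbers `h`. -/
noncomputable def vert (n : ℕ → ℝ × ℝ) (h : ℕ → ℝ) (k : ℕ) : ℝ × ℝ :=
  vertexOf (n k) (n (k + 1)) (h k) (h (k + 1))

lemma Finset.sum_range_succ_comm_aux (G : ℕ → ℝ) (N : ℕ) (hper : G N = G 0) :
    ∑ k ∈ range N, G (k + 1) = ∑ k ∈ range N, G k := by
  have h1 := Finset.sum_range_succ G N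
  have h2 := Finset.sum_range_succ' G N
  rw [h1] at h2
  rw [hper] at h2
  linarith

section Cover

variable {N : ℕ} {n : ℕ → ℝ × ℝ} {h : ℕ → ℝ}

lemma vert_periodic (hf : CycFan N n) (hp : ∀ k, h (k + N) = h k) (k : ℕ) :
    vert n h (k + N) = vert n h k := by
  unfold vert
  rw [show k + N + 1 = k + 1 + N by ring, hf.periodic, hf.periodic, hp, hp]

lemma vert_periodic_mul (hf : CycFan N n) (hp : ∀ k, h (k + N) = h k) (k j : ℕ) :
    vert n h (k + N * j) = vert n h k := by
  induction j with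
  | zero => simp
  | succ j ih =>
    rw [Nat.mul_succ, ← add_assoc, vert_periodic hf hp, ih]

lemma dot_vert_left (hf : CycFan N n) (k : ℕ) : dot2 (n k) (vert n h k) = h k :=
  dot_vertex_left (hf.det_pos k).ne' _ _

lemma dot_vert_right (hf : CycFan N n) (k : ℕ) : dot2 (n (k + 1)) (vert n h k) = h (k + 1) :=
  dot_vertex_right (hf.det_pos k).ne' _ _

/-- Two points on a line are equal when their determinant vanishes and the line misses the
origin. -/
lemma eq_of_det_zero {u p p' : ℝ × ℝ} {c : ℝ} (hc : 0 < c) (h1 : dot2 u p = c) (h2 : dot2 u p' = c)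
    (h3 : det2 p p' = 0) : p = p' := by
  unfold dot2 at h1 h2
  unfold det2 at h3
  have e1 : c * (p'.1 - p.1) = 0 := by
    have : c * (p'.1 - p.1) = (u.1 * p.1 + u.2 * p.2) * p'.1 - (u.1 * p'.1 + u.2 * p'.2) * p.1 := by
      rw [h1, h2]; ring
    rw [this]
    have : (u.1 * p.1 + u.2 * p.2) * p'.1 - (u.1 * p'.1 + u.2 * p'.2) * p.1 =
        - u.2 * (p.1 * p'.2 - p.2 * p'.1) := by ring
    rw [this, h3]
    ring
  have e2 : c * (p'.2 - p.2) = 0 := by
    have : c * (p'.2 - p.2) = (u.1 * p.1 + u.2 * p.2) * p'.2 - (u.1 * p'.1 + u.2 * p'.2) * p.2 := by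
      rw [h1, h2]; ring
    rw [this]
    have : (u.1 * p.1 + u.2 * p.2) * p'.2 - (u.1 * p'.1 + u.2 * p'.2) * p.2 =
        u.1 * (p.1 * p'.2 - p.2 * p'.1) := by ring
    rw [this, h3]
    ring
  have e3 : p'.1 - p.1 = 0 := (mul_eq_zero.1 e1).resolve_left hc.ne'
  have e4 : p'.2 - p.2 = 0 := (mul_eq_zero.1 e2).resolve_left hc.ne'
  exact Prod.ext (by linarith) (by linarith)

/-- Every point of the polygon lies in one of the triangles. -/
theorem cover_tri (hf : CycFan N n) (hp : ∀ k, h (k + N) = h k) (hpos : ∀ k, 0 < h k)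
    (hdet : ∀ k, 0 ≤ det2 (vert n h k) (vert n h (k + 1))) {z : ℝ × ℝ}
    (hz : ∀ k, dot2 (n k) z ≤ h k) : ∃ k, k < N ∧ z ∈ tri (vert n h k) (vert n h (k + 1)) := by
  have hN := hf.N_pos
  by_cases hz0 : z = 0
  · refine ⟨0, hN, 0, 0, le_rfl, le_rfl, by norm_num, ?_⟩
    rw [hz0]
    simp only [zero_mul, add_zero]
    rfl
  -- values of the sign function
  set g : ℕ → ℝ := fun k => det2 (vert n h k) z with hg
  have hgper : ∀ k j, g (k + N * j) = g k := fun k j => by
    simp only [hg]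
    rw [vert_periodic_mul hf hp]
  have hval : ∀ v : ℝ × ℝ, v ≠ 0 → ∃ k, 0 < dot2 (vert n h k) v := by
    intro v hv
    obtain ⟨k, s, r, hs, hr, e⟩ := hf.cover v
    refine ⟨k, ?_⟩
    have h1 := dot_vert_left (h := h) hf k
    have h2 := dot_vert_right (h := h) hf k
    have e3 : dot2 (vert n h k) v = s * h k + r * h (k + 1) := by
      rw [← h1, ← h2, e]
      unfold dot2
      simp only
      ring
    rw [e3]
    have hk := hpos k
    have hk1 := hpos (k + 1)
    rcases hs.eq_or_lt with hs0 | hs0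
    · rcases hr.eq_or_lt with hr0 | hr0
      · exfalso
        apply hv
        rw [e, ← hs0, ← hr0]
        simp
      · have := mul_pos hr0 hk1
        nlinarith [mul_nonneg hs hk.le]
    · have := mul_pos hs0 hk
      nlinarith [mul_nonneg hr hk1.le]
  have hzv : ((z.2, -z.1) : ℝ × ℝ) ≠ 0 := by
    intro he
    apply hz0
    have h1 : z.2 = 0 := congrArg Prod.fst he
    have h2 : -z.1 = 0 := congrArg Prod.snd he
    exact Prod.ext (by simpa using h2) h1
  have hzv' : ((-z.2, z.1) : ℝ × ℝ) ≠ 0 := by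
    intro he
    apply hz0
    have h1 : -z.2 = 0 := congrArg Prod.fst he
    have h2 : z.1 = 0 := congrArg Prod.snd he
    exact Prod.ext h2 (by simpa using h1)
  obtain ⟨k₁, hk₁⟩ := hval _ hzv
  obtain ⟨k₂, hk₂⟩ := hval _ hzv'
  have hg1 : 0 < g k₁ := by
    simp only [hg]
    unfold dot2 at hk₁
    unfold det2
    simp only at hk₁
    linarith
  have hg2 : g k₂ < 0 := by
    simp only [hg]
    unfold dot2 at hk₂
    unfold det2
    simp only at hk₂
    linarith
  -- the walk
  have hex : ∃ j, k₁ < j ∧ g j ≤ 0 := by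
    refine ⟨k₂ + N * (k₁ + 1), ?_, ?_⟩
    · have : N * (k₁ + 1) ≥ 1 * (k₁ + 1) := Nat.mul_le_mul_right _ hN
      omega
    · rw [hgper]
      exact hg2.le
  classical
  set j := Nat.find hex with hj
  have hj1 : k₁ < j ∧ g j ≤ 0 := Nat.find_spec hex
  have hjmin : ∀ i, k₁ < i → i < j → 0 < g i := by
    intro i h1 h2
    have := Nat.find_min hex h2
    push Not at this
    exact this h1
  obtain ⟨i, hi⟩ : ∃ i, j = i + 1 := ⟨j - 1, by omega⟩
  have hgi : 0 < g i := by
    rcases (by omega : i = k₁ ∨ k₁ < i) with rfl | h1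
    · exact hg1
    · exact hjmin i h1 (by omega)
  have hgi1 : g (i + 1) ≤ 0 := by
    rw [← hi]
    exact hj1.2
  set p := vert n h i with hpdef
  set p' := vert n h (i + 1) with hp'def
  have hD : 0 < det2 p p' := by
    rcases (hdet i).eq_or_lt with h0 | h0
    · exfalso
      have hline1 : dot2 (n (i + 1)) p = h (i + 1) := dot_vert_right hf i
      have hline2 : dot2 (n (i + 1)) p' = h (i + 1) := dot_vert_left hf (i + 1)
      have := eq_of_det_zero (hpos (i + 1)) hline1 hline2 h0.symm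
      have h3 : g i = g (i + 1) := by
        simp only [hg]
        rw [← hpdef, ← hp'def, this]
      linarith
    · exact h0
  set D := det2 p p' with hDdef
  have hgp : g i = det2 p z := rfl
  have hgp' : g (i + 1) = det2 p' z := rfl
  set r := det2 p z / D with hr
  set s := - det2 p' z / D with hs
  have hr0 : 0 ≤ r := div_nonneg (by rw [← hgp]; exact hgi.le) hD.le
  have hs0 : 0 ≤ s := div_nonneg (by rw [← hgp']; linarith) hD.le
  have hz1 : z = (s * p.1 + r * p'.1, s * p.2 + r * p'.2) := by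
    have hDne : D ≠ 0 := hD.ne'
    apply Prod.ext
    · simp only [hs, hr]
      field_simp
      simp only [hDdef]
      unfold det2
      ring
    · simp only [hs, hr]
      field_simp
      simp only [hDdef]
      unfold det2
      ring
  have hsr : s + r ≤ 1 := by
    have h1 := hz (i + 1)
    have hline1 : dot2 (n (i + 1)) p = h (i + 1) := dot_vert_right hf i
    have hline2 : dot2 (n (i + 1)) p' = h (i + 1) := dot_vert_left hf (i + 1)
    have e : dot2 (n (i + 1)) z = (s + r) * h (i + 1) := by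
      rw [hz1]
      unfold dot2 at *
      simp only
      calc (n (i + 1)).1 * (s * p.1 + r * p'.1) + (n (i + 1)).2 * (s * p.2 + r * p'.2)
          = s * ((n (i + 1)).1 * p.1 + (n (i + 1)).2 * p.2) +
            r * ((n (i + 1)).1 * p'.1 + (n (i + 1)).2 * p'.2) := by ring
        _ = _ := by rw [hline1, hline2]; ring
    rw [e] at h1
    have := hpos (i + 1)
    by_contra hcon
    push Not at hcon
    nlinarith
  -- reduce the index modulo the period
  refine ⟨i % N, Nat.mod_lt _ hN, ?_⟩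
  have e1 : vert n h (i % N) = p := by
    conv_rhs => rw [hpdef, ← Nat.mod_add_div i N]
    rw [vert_periodic_mul hf hp]
  have e2 : vert n h (i % N + 1) = p' := by
    conv_rhs => rw [hp'def, ← Nat.mod_add_div i N]
    rw [show i % N + N * (i / N) + 1 = i % N + 1 + N * (i / N) by ring,
      vert_periodic_mul hf hp]
  rw [e1, e2]
  exact ⟨s, r, hs0, hr0, hsr, hz1⟩

/-- Upper bound for the area of a polygon. -/
theorem area_le_of_fan (hf : CycFan N n) (hp : ∀ k, h (k + N) = h k) (hpos : ∀ k, 0 < h k)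
    (hdet : ∀ k, 0 ≤ det2 (vert n h k) (vert n h (k + 1))) {E : Set (ℝ × ℝ)}
    (hE : ∀ z ∈ E, ∀ k, dot2 (n k) z ≤ h k) :
    volume E ≤ ENNReal.ofReal ((∑ k ∈ range N, det2 (vert n h k) (vert n h (k + 1))) / 2) := by
  have hsub : E ⊆ ⋃ k ∈ range N, tri (vert n h k) (vert n h (k + 1)) := by
    intro z hz
    obtain ⟨k, hk, hzk⟩ := cover_tri hf hp hpos hdet (hE z hz)
    exact Set.mem_biUnion (Finset.mem_coe.2 (Finset.mem_range.2 hk)) hzk
  refine (measure_mono hsub).trans ((measure_biUnion_finset_le _ _).trans (le_of_eq ?_))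
  simp_rw [volume_tri, fun k => abs_of_nonneg (hdet k)]
  rw [← ENNReal.ofReal_sum_of_nonneg (fun k _ => div_nonneg (hdet k) (by norm_num)),
    Finset.sum_div]

/-- A line through the origin is a null set. -/
lemma null_line {v : ℝ × ℝ} (hv : v ≠ 0) : volume {z : ℝ × ℝ | dot2 v z = 0} = 0 := by
  set L : ℝ × ℝ →ₗ[ℝ] ℝ := v.1 • LinearMap.fst ℝ ℝ ℝ + v.2 • LinearMap.snd ℝ ℝ ℝ with hL
  have hset : {z : ℝ × ℝ | dot2 v z = 0} = (LinearMap.ker L : Set (ℝ × ℝ)) := by
    ext z
    simp [dot2, hL]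
  rw [hset]
  apply Measure.addHaar_submodule
  intro htop
  have hmem : v ∈ LinearMap.ker L := by
    rw [htop]
    exact Submodule.mem_top
  have h0 : v.1 * v.1 + v.2 * v.2 = 0 := by
    simpa [hL] using hmem
  apply hv
  have h1 : v.1 = 0 := by nlinarith [mul_self_nonneg v.1, mul_self_nonneg v.2]
  have h2 : v.2 = 0 := by nlinarith [mul_self_nonneg v.1, mul_self_nonneg v.2]
  exact Prod.ext h1 h2

/-- Lower bound for the area of a polygon all whose vertices satisfy all constraints. The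
normalisation is that all the support numbers equal one. -/
theorem area_ge_of_fan (hf : CycFan N n)
    (hdet : ∀ k, 0 ≤ det2 (vert n (fun _ => 1) k) (vert n (fun _ => 1) (k + 1)))
    (hin : ∀ j k, dot2 (n j) (vert n (fun _ => 1) k) ≤ 1)
    (hinj : ∀ j k, j < N → k < N → n (j + 1) = n (k + 1) → j = k) :
    ENNReal.ofReal ((∑ k ∈ range N, det2 (vert n (fun _ => 1) k) (vert n (fun _ => 1) (k + 1))) / 2) ≤
      volume {z : ℝ × ℝ | ∀ k, dot2 (n k) z ≤ 1} := by
  set q := vert n (fun _ => 1) with hq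
  have hq1 : ∀ k, dot2 (n k) (q k) = 1 := fun k => dot_vert_left (h := fun _ => 1) hf k
  have hq2 : ∀ k, dot2 (n (k + 1)) (q k) = 1 := fun k => dot_vert_right (h := fun _ => 1) hf k
  have hlin : ∀ (v : ℝ × ℝ) (s r : ℝ) (p p' : ℝ × ℝ),
      dot2 v (s * p.1 + r * p'.1, s * p.2 + r * p'.2) = s * dot2 v p + r * dot2 v p' := by
    intro v s r p p'
    unfold dot2
    simp only
    ring
  have hsub : ∀ k, tri (q k) (q (k + 1)) ⊆ {z : ℝ × ℝ | ∀ k, dot2 (n k) z ≤ 1} := by
    rintro k z ⟨s, r, hs, hr, hsr, rfl⟩ j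
    rw [hlin]
    have h1 := mul_le_mul_of_nonneg_left (hin j k) hs
    have h2 := mul_le_mul_of_nonneg_left (hin j (k + 1)) hr
    linarith
  have hact : ∀ k j, ∀ z ∈ tri (q k) (q (k + 1)), dot2 (n j) z ≤ dot2 (n (k + 1)) z := by
    rintro k j z ⟨s, r, hs, hr, hsr, rfl⟩
    rw [hlin, hlin, hq2, hq1]
    have h1 := mul_le_mul_of_nonneg_left (hin j k) hs
    have h2 := mul_le_mul_of_nonneg_left (hin j (k + 1)) hr
    linarith
  have hdisj : ((range N : Finset ℕ) : Set ℕ).Pairwise
      (Function.onFun (AEDisjoint volume) fun k => tri (q k) (q (k + 1))) := by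
    intro j hj k hk hjk
    have hj' : j < N := by simpa using hj
    have hk' : k < N := by simpa using hk
    have hv : n (j + 1) - n (k + 1) ≠ 0 := by
      intro h0
      exact hjk (hinj j k hj' hk' (sub_eq_zero.1 h0))
    refine measure_mono_null ?_ (null_line hv)
    rintro z ⟨hz1, hz2⟩
    have h1 := hact j (k + 1) z hz1
    have h2 := hact k (j + 1) z hz2
    have : dot2 (n (j + 1) - n (k + 1)) z = dot2 (n (j + 1)) z - dot2 (n (k + 1)) z := by
      unfold dot2
      simp only [Prod.fst_sub, Prod.snd_sub]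
      ring
    change dot2 (n (j + 1) - n (k + 1)) z = 0
    rw [this]
    linarith
  have hU : volume (⋃ k ∈ range N, tri (q k) (q (k + 1))) =
      ∑ k ∈ range N, volume (tri (q k) (q (k + 1))) :=
    measure_biUnion_finset₀ hdisj fun k _ => (measurableSet_tri _ _).nullMeasurableSet
  calc ENNReal.ofReal ((∑ k ∈ range N, det2 (q k) (q (k + 1))) / 2)
      = ∑ k ∈ range N, volume (tri (q k) (q (k + 1))) := by
        simp_rw [volume_tri, fun k => abs_of_nonneg (hdet k)]
        rw [← ENNReal.ofReal_sum_of_nonneg (fun k _ => div_nonneg (hdet k) (by norm_num)),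
          Finset.sum_div]
    _ = volume (⋃ k ∈ range N, tri (q k) (q (k + 1))) := hU.symm
    _ ≤ _ := by
        apply measure_mono
        intro z hz
        simp only [Set.mem_iUnion] at hz
        obtain ⟨k, -, hk⟩ := hz
        exact hsub k hk

/-- The shoelace term of two consecutive edges. -/
lemma det_vert_formula (hf : CycFan N n) (h : ℕ → ℝ) (k : ℕ) :
    det2 (vert n h k) (vert n h (k + 1)) =
      h (k + 1) * (h k * (det2 (n k) (n (k + 1)))⁻¹ + h (k + 2) * (det2 (n (k + 1)) (n (k + 2)))⁻¹ -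
        det2 (n k) (n (k + 2)) * h (k + 1) * (det2 (n k) (n (k + 1)))⁻¹ *
          (det2 (n (k + 1)) (n (k + 2)))⁻¹) := by
  have h1 := (hf.det_pos k).ne'
  have h2 := (hf.det_pos (k + 1)).ne'
  unfold vert vertexOf
  set D₁ := det2 (n k) (n (k + 1)) with hD₁
  set D₂ := det2 (n (k + 1)) (n (k + 1 + 1)) with hD₂
  have e : det2 (((h k * (n (k + 1)).2 - h (k + 1) * (n k).2) / D₁,
        (h (k + 1) * (n k).1 - h k * (n (k + 1)).1) / D₁) : ℝ × ℝ)
      (((h (k + 1) * (n (k + 1 + 1)).2 - h (k + 1 + 1) * (n (k + 1)).2) / D₂,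
        (h (k + 1 + 1) * (n (k + 1)).1 - h (k + 1) * (n (k + 1 + 1)).1) / D₂) : ℝ × ℝ) =
      ((h k * (n (k + 1)).2 - h (k + 1) * (n k).2) *
          (h (k + 1 + 1) * (n (k + 1)).1 - h (k + 1) * (n (k + 1 + 1)).1) -
        (h (k + 1) * (n k).1 - h k * (n (k + 1)).1) *
          (h (k + 1) * (n (k + 1 + 1)).2 - h (k + 1 + 1) * (n (k + 1)).2)) / (D₁ * D₂) := by
    unfold det2
    field_simp
  rw [e]
  have e2 : ((h k * (n (k + 1)).2 - h (k + 1) * (n k).2) *
          (h (k + 1 + 1) * (n (k + 1)).1 - h (k + 1) * (n (k + 1 + 1)).1) -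
        (h (k + 1) * (n k).1 - h k * (n (k + 1)).1) *
          (h (k + 1) * (n (k + 1 + 1)).2 - h (k + 1 + 1) * (n (k + 1)).2)) =
      h (k + 1) * (h k * D₂ + h (k + 1 + 1) * D₁ - det2 (n k) (n (k + 1 + 1)) * h (k + 1)) := by
    rw [hD₁, hD₂]
    unfold det2
    ring
  rw [e2]
  field_simp

/-- Positivity of the shoelace term for support numbers. -/
lemma det_vert_nonneg (hf : CycFan N n) (h : ℕ → ℝ) (hpos : ∀ k, 0 ≤ h k)
    (hsub : ∀ k, det2 (n k) (n (k + 2)) * h (k + 1) ≤
      det2 (n (k + 1)) (n (k + 2)) * h k + det2 (n k) (n (k + 1)) * h (k + 2)) (k : ℕ) :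
    0 ≤ det2 (vert n h k) (vert n h (k + 1)) := by
  rw [det_vert_formula hf]
  apply mul_nonneg (hpos _)
  have h1 := hf.det_pos k
  have h2 := hf.det_pos (k + 1)
  have e : h k * (det2 (n k) (n (k + 1)))⁻¹ + h (k + 2) * (det2 (n (k + 1)) (n (k + 2)))⁻¹ -
        det2 (n k) (n (k + 2)) * h (k + 1) * (det2 (n k) (n (k + 1)))⁻¹ *
          (det2 (n (k + 1)) (n (k + 2)))⁻¹ =
      (det2 (n (k + 1)) (n (k + 2)) * h k + det2 (n k) (n (k + 1)) * h (k + 2) -
        det2 (n k) (n (k + 2)) * h (k + 1)) / (det2 (n k) (n (k + 1)) * det2 (n (k + 1)) (n (k + 2))) := by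
    field_simp
  rw [e]
  exact div_nonneg (by linarith [hsub k]) (mul_pos h1 h2).le

/-- The shoelace sum of a polygon in terms of the support numbers. -/
theorem sum_det_vert (hf : CycFan N n) (h : ℕ → ℝ) (hp : ∀ k, h (k + N) = h k) :
    ∑ k ∈ range N, det2 (vert n h k) (vert n h (k + 1)) =
      ∑ k ∈ range N, ((det2 (n k) (n (k + 1)))⁻¹ * (det2 (n (k + 1)) (n (k + 2)))⁻¹ *
          (det2 (n k) (n (k + 1)) + det2 (n (k + 1)) (n (k + 2)) - det2 (n k) (n (k + 2))) *
            h (k + 1) ^ 2) -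
      ∑ k ∈ range N, (det2 (n k) (n (k + 1)))⁻¹ * (h (k + 1) - h k) ^ 2 := by
  set G : ℕ → ℝ := fun k => (det2 (n k) (n (k + 1)))⁻¹ * h k * (h (k + 1) - h k) with hG
  have hper : G N = G 0 := by
    simp only [hG]
    rw [show N = 0 + N by ring, hf.periodic, show 0 + N + 1 = 1 + N by ring, hf.periodic, hp, hp]
  have hshift : ∑ k ∈ range N, G (k + 1) = ∑ k ∈ range N, G k := by
    rw [Finset.sum_range_succ_comm_aux G N hper]
  have hterm : ∀ k, det2 (vert n h k) (vert n h (k + 1)) =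
      (det2 (n k) (n (k + 1)))⁻¹ * (det2 (n (k + 1)) (n (k + 2)))⁻¹ *
          (det2 (n k) (n (k + 1)) + det2 (n (k + 1)) (n (k + 2)) - det2 (n k) (n (k + 2))) *
            h (k + 1) ^ 2 -
        (det2 (n k) (n (k + 1)))⁻¹ * (h (k + 1) - h k) ^ 2 - G k + G (k + 1) := by
    intro k
    rw [det_vert_formula hf]
    have h1 := (hf.det_pos k).ne'
    have h2 := (hf.det_pos (k + 1)).ne'
    simp only [hG]
    field_simp
    ring
  simp_rw [hterm]
  rw [Finset.sum_add_distrib, Finset.sum_sub_distrib, Finset.sum_sub_distrib, hshift]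
  ring

end Cover

end Vale.Agent.Lib.P227
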