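import Mathlib
import Vale.Agent.Lib.P227.Chain
import Vale.Agent.Lib.P227.Poly

/-!
# The cyclic fan of normals attached to a chain in the quadrant
-/

open MeasureTheory Set Finset
open scoped ENNReal

namespace Vale.Agent.Lib.P227

/-- The normals in one period: the chain and its reflections. -/
def blk (a b : ℕ → ℝ) (m r : ℕ) : ℝ × ℝ :=
  if r < m + 1 then (a r, b r)
  else if r < 2 * (m + 1) then (- a (m + 1 - (r - (m + 1))), b (m + 1 - (r - (m + 1))))
  else if r < 3 * (m + 1) then (- a (r - 2 * (m + 1)), - b (r - 2 * (m + 1)))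
  else (a (m + 1 - (r - 3 * (m + 1))), - b (m + 1 - (r - 3 * (m + 1))))

/-- The periodic sequence of normals. -/
def cycN (a b : ℕ → ℝ) (m k : ℕ) : ℝ × ℝ := blk a b m (k % (4 * (m + 1)))

section

variable {a b : ℕ → ℝ} {m : ℕ}

lemma cycN_periodic (k : ℕ) : cycN a b m (k + 4 * (m + 1)) = cycN a b m k := by
  unfold cycN
  rw [Nat.add_mod_right]

lemma cycN_periodic' (k j : ℕ) : cycN a b m (k + 4 * (m + 1) * j) = cycN a b m k := by
  unfold cycN
  rw [Nat.add_mul_mod_self_left]

lemma cycN_0 (h : IsChain m a b) {i : ℕ} (hi : i ≤ m + 1) : cycN a b m i = (a i, b i) := by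
  unfold cycN blk
  rw [Nat.mod_eq_of_lt (by omega)]
  rcases hi.eq_or_lt with rfl | hi'
  · rw [if_neg (by omega), if_pos (by omega)]
    simp [h.aM]
  · rw [if_pos hi']

lemma cycN_1 (h : IsChain m a b) {i : ℕ} (hi : i ≤ m + 1) :
    cycN a b m (m + 1 + i) = (- a (m + 1 - i), b (m + 1 - i)) := by
  unfold cycN blk
  rw [Nat.mod_eq_of_lt (by omega)]
  rcases hi.eq_or_lt with rfl | hi'
  · rw [if_neg (by omega), if_neg (by omega), if_pos (by omega)]
    have e1 : m + 1 + (m + 1) - 2 * (m + 1) = 0 := by omega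
    have e2 : m + 1 - (m + 1) = 0 := by omega
    rw [e1, e2, h.b0]
    simp
  · rw [if_neg (by omega), if_pos (by omega)]
    have e1 : m + 1 + i - (m + 1) = i := by omega
    rw [e1]

lemma cycN_2 (h : IsChain m a b) {i : ℕ} (hi : i ≤ m + 1) :
    cycN a b m (2 * (m + 1) + i) = (- a i, - b i) := by
  unfold cycN blk
  rw [Nat.mod_eq_of_lt (by omega)]
  rcases hi.eq_or_lt with rfl | hi'
  · rw [if_neg (by omega), if_neg (by omega), if_neg (by omega)]
    have e1 : 2 * (m + 1) + (m + 1) - 3 * (m + 1) = 0 := by omega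
    rw [e1, Nat.sub_zero, h.aM]
    simp
  · rw [if_neg (by omega), if_neg (by omega), if_pos (by omega)]
    have e1 : 2 * (m + 1) + i - 2 * (m + 1) = i := by omega
    rw [e1]

lemma cycN_3 (h : IsChain m a b) {i : ℕ} (hi : i ≤ m + 1) :
    cycN a b m (3 * (m + 1) + i) = (a (m + 1 - i), - b (m + 1 - i)) := by
  rcases hi.eq_or_lt with rfl | hi'
  · have e1 : 3 * (m + 1) + (m + 1) = 0 + 4 * (m + 1) := by ring
    rw [e1, cycN_periodic, cycN_0 h (by omega)]
    have e2 : m + 1 - (m + 1) = 0 := by omega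
    rw [e2, h.b0]
    simp
  · unfold cycN blk
    rw [Nat.mod_eq_of_lt (by omega), if_neg (by omega), if_neg (by omega), if_neg (by omega)]
    have e1 : 3 * (m + 1) + i - 3 * (m + 1) = i := by omega
    rw [e1]

/-- Induction over one period. -/
lemma cyc_cases {P : ℕ → Prop} (M : ℕ) (hM : 0 < M) (hper : ∀ k, P k → P (k + 4 * M))
    (h0 : ∀ i, i < M → P i) (h1 : ∀ i, i < M → P (M + i)) (h2 : ∀ i, i < M → P (2 * M + i))
    (h3 : ∀ i, i < M → P (3 * M + i)) (k : ℕ) : P k := by
  induction k using Nat.strong_induction_on with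
  | _ k ih =>
    by_cases hk : k < 4 * M
    · by_cases h : k < M
      · exact h0 k h
      · by_cases h' : k < 2 * M
        · have := h1 (k - M) (by omega)
          rwa [show M + (k - M) = k by omega] at this
        · by_cases h'' : k < 3 * M
          · have := h2 (k - 2 * M) (by omega)
            rwa [show 2 * M + (k - 2 * M) = k by omega] at this
          · have := h3 (k - 3 * M) (by omega)
            rwa [show 3 * M + (k - 3 * M) = k by omega] at this
    · have := hper (k - 4 * M) (ih _ (by omega))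
      rwa [show k - 4 * M + 4 * M = k by omega] at this

lemma det_chain_step (h : IsChain m a b) {i : ℕ} (hi : i ≤ m) :
    0 < det2 (a i, b i) (a (i + 1), b (i + 1)) := by
  have := h.det_pos i hi
  unfold Dt at this
  unfold det2
  simp only
  linarith

lemma cycN_det_pos (h : IsChain m a b) (k : ℕ) :
    0 < det2 (cycN a b m k) (cycN a b m (k + 1)) := by
  refine cyc_cases (P := fun k => 0 < det2 (cycN a b m k) (cycN a b m (k + 1))) (m + 1) (by omega)
    ?_ ?_ ?_ ?_ ?_ k
  · intro k hk
    rw [cycN_periodic, show k + 4 * (m + 1) + 1 = k + 1 + 4 * (m + 1) by ring, cycN_periodic]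
    exact hk
  · intro i hi
    rw [cycN_0 h (by omega), cycN_0 h (by omega)]
    exact det_chain_step h (by omega)
  · intro i hi
    rw [cycN_1 h (by omega), show m + 1 + i + 1 = m + 1 + (i + 1) by ring, cycN_1 h (by omega)]
    have := h.det_pos (m - i) (by omega)
    unfold Dt at this
    rw [show m - i + 1 = m + 1 - i by omega] at this
    rw [show m + 1 - (i + 1) = m - i by omega]
    unfold det2
    simp only
    linarith
  · intro i hi
    rw [cycN_2 h (by omega), show 2 * (m + 1) + i + 1 = 2 * (m + 1) + (i + 1) by ring,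
      cycN_2 h (by omega)]
    have := h.det_pos i (by omega)
    unfold Dt at this
    unfold det2
    simp only
    linarith
  · intro i hi
    rw [cycN_3 h (by omega), show 3 * (m + 1) + i + 1 = 3 * (m + 1) + (i + 1) by ring,
      cycN_3 h (by omega)]
    have := h.det_pos (m - i) (by omega)
    unfold Dt at this
    rw [show m - i + 1 = m + 1 - i by omega] at this
    rw [show m + 1 - (i + 1) = m - i by omega]
    unfold det2
    simp only
    linarith

/-- Discrete intermediate value theorem for cones. -/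
lemma exists_cone (P : ℕ → ℝ × ℝ) (M : ℕ) (hM0 : 0 < M) (hP : ∀ i, i < M → 0 < det2 (P i) (P (i + 1)))
    (v : ℝ × ℝ) (h0 : 0 ≤ det2 (P 0) v) (hM : det2 (P M) v ≤ 0) :
    ∃ i, i < M ∧ ∃ s r : ℝ, 0 ≤ s ∧ 0 ≤ r ∧
      v = (s * (P i).1 + r * (P (i + 1)).1, s * (P i).2 + r * (P (i + 1)).2) := by
  classical
  have hex : ∃ i, det2 (P (i + 1)) v ≤ 0 := ⟨M - 1, by rwa [show M - 1 + 1 = M by omega]⟩
  set i := Nat.find hex with hi
  have hi1 : det2 (P (i + 1)) v ≤ 0 := Nat.find_spec hex
  have hiM : i < M := by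
    have : i ≤ M - 1 := Nat.find_min' hex (by rwa [show M - 1 + 1 = M by omega])
    omega
  have hi0 : 0 ≤ det2 (P i) v := by
    rcases Nat.eq_zero_or_pos i with h | h
    · rw [h]
      exact h0
    · have := Nat.find_min hex (m := i - 1) (by omega)
      rw [show i - 1 + 1 = i by omega] at this
      push Not at this
      exact this.le
  have hD := hP i hiM
  refine ⟨i, hiM, - det2 (P (i + 1)) v / det2 (P i) (P (i + 1)), det2 (P i) v / det2 (P i) (P (i + 1)),
    div_nonneg (by linarith) hD.le, div_nonneg hi0 hD.le, ?_⟩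
  have hD' := hD.ne'
  apply Prod.ext
  · simp only
    field_simp
    unfold det2
    ring
  · simp only
    field_simp
    unfold det2
    ring

lemma cycN_cover (h : IsChain m a b) (v : ℝ × ℝ) :
    ∃ k, ∃ s r : ℝ, 0 ≤ s ∧ 0 ≤ r ∧
      v = (s * (cycN a b m k).1 + r * (cycN a b m (k + 1)).1,
        s * (cycN a b m k).2 + r * (cycN a b m (k + 1)).2) := by
  have ha := h.a_pos (i := 0) (by omega)
  have hb := h.b_pos (i := m) le_rfl
  have hdet := cycN_det_pos h
  rcases le_total 0 v.1 with h1 | h1 <;> rcases le_total 0 v.2 with h2 | h2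
  · -- first block
    obtain ⟨i, hi, s, r, hs, hr, e⟩ := exists_cone (fun i => cycN a b m i) (m + 1) (by omega)
      (fun i _ => hdet i) v (by
        rw [cycN_0 h (by omega)]
        unfold det2
        simp only [h.b0]
        nlinarith [mul_nonneg ha.le h2]) (by
        rw [cycN_0 h (by omega)]
        unfold det2
        simp only [h.aM]
        nlinarith [mul_nonneg hb.le h1])
    exact ⟨i, s, r, hs, hr, e⟩
  · -- fourth block
    obtain ⟨i, hi, s, r, hs, hr, e⟩ := exists_cone (fun i => cycN a b m (3 * (m + 1) + i)) (m + 1)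
      (by omega) (fun i _ => hdet _) v (by
        rw [cycN_3 h (by omega)]
        unfold det2
        simp only [Nat.sub_zero, h.aM]
        nlinarith [mul_nonneg hb.le h1]) (by
        rw [cycN_3 h (by omega)]
        unfold det2
        simp only [show m + 1 - (m + 1) = 0 by omega, h.b0]
        nlinarith [mul_nonneg ha.le (neg_nonneg.2 h2)])
    exact ⟨3 * (m + 1) + i, s, r, hs, hr, e⟩
  · -- second block
    obtain ⟨i, hi, s, r, hs, hr, e⟩ := exists_cone (fun i => cycN a b m (m + 1 + i)) (m + 1)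
      (by omega) (fun i _ => hdet _) v (by
        rw [cycN_1 h (by omega)]
        unfold det2
        simp only [Nat.sub_zero, h.aM]
        nlinarith [mul_nonneg hb.le (neg_nonneg.2 h1)]) (by
        rw [cycN_1 h (by omega)]
        unfold det2
        simp only [show m + 1 - (m + 1) = 0 by omega, h.b0]
        nlinarith [mul_nonneg ha.le h2])
    exact ⟨m + 1 + i, s, r, hs, hr, e⟩
  · -- third block
    obtain ⟨i, hi, s, r, hs, hr, e⟩ := exists_cone (fun i => cycN a b m (2 * (m + 1) + i)) (m + 1)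
      (by omega) (fun i _ => hdet _) v (by
        rw [cycN_2 h (by omega)]
        unfold det2
        simp only [h.b0]
        nlinarith [mul_nonneg ha.le (neg_nonneg.2 h2)]) (by
        rw [cycN_2 h (by omega)]
        unfold det2
        simp only [h.aM]
        nlinarith [mul_nonneg hb.le (neg_nonneg.2 h1)])
    exact ⟨2 * (m + 1) + i, s, r, hs, hr, e⟩

theorem cycN_fan (h : IsChain m a b) : CycFan (4 * (m + 1)) (cycN a b m) where
  N_pos := by omega
  periodic := cycN_periodic
  det_pos := cycN_det_pos h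
  cover := cycN_cover h

/-- The strict monotonicity of the chain. -/
lemma chain_det_lt (h : IsChain m a b) {i j : ℕ} (hij : i < j) (hj : j ≤ m + 1) :
    0 < a i * b j - a j * b i := by
  have hanti : ∀ l, i + 1 + l ≤ m + 1 → a (i + 1 + l) ≤ a (i + 1) := by
    intro l
    induction l with
    | zero => intro _; simp
    | succ l ih =>
      intro hl
      exact (h.anti (i + 1 + l) (by omega)).trans (ih (by omega))
  have hmono : ∀ l, i + 1 + l ≤ m + 1 → b (i + 1) ≤ b (i + 1 + l) := by
    intro l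
    induction l with
    | zero => intro _; simp
    | succ l ih =>
      intro hl
      exact (ih (by omega)).trans (h.mono (i + 1 + l) (by omega))
  obtain ⟨l, rfl⟩ : ∃ l, j = i + 1 + l := ⟨j - (i + 1), by omega⟩
  have h1 := hanti l hj
  have h2 := hmono l hj
  have h3 := h.det_pos i (by omega)
  unfold Dt at h3
  have h4 := h.a_nonneg i (by omega)
  have h5 := h.b_nonneg i (by omega)
  nlinarith [mul_le_mul_of_nonneg_left h2 h4, mul_le_mul_of_nonneg_right h1 h5]

lemma chain_inj (h : IsChain m a b) {i j : ℕ} (hi : i ≤ m + 1) (hj : j ≤ m + 1)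
    (e1 : a i = a j) (e2 : b i = b j) : i = j := by
  rcases lt_trichotomy i j with hij | hij | hij
  · have := chain_det_lt h hij hj
    rw [e1, e2] at this
    nlinarith
  · exact hij
  · have := chain_det_lt h hij hi
    rw [← e1, ← e2] at this
    nlinarith

/-- The normals of one period are pairwise different. -/
lemma cycN_inj' (h : IsChain m a b) {j k : ℕ} (hj : j < 4 * (m + 1)) (hk : k < 4 * (m + 1))
    (e : cycN a b m j = cycN a b m k) : j = k := by
  have hapos : ∀ i, i ≤ m → 0 < a i := fun i hi => h.a_pos hi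
  have hbpos : ∀ i, 1 ≤ i → i ≤ m + 1 → 0 < b i := fun i h1 hi => by
    have := h.b_pos (i := i - 1) (by omega)
    rwa [show i - 1 + 1 = i by omega] at this
  have key : ∀ l, l < 4 * (m + 1) → ∃ i, i < m + 1 ∧ ((l = i ∧ cycN a b m l = (a i, b i) ∧
        0 < (cycN a b m l).1 ∧ 0 ≤ (cycN a b m l).2) ∨
      (l = m + 1 + i ∧ cycN a b m l = (- a (m + 1 - i), b (m + 1 - i)) ∧
        (cycN a b m l).1 ≤ 0 ∧ 0 < (cycN a b m l).2) ∨
      (l = 2 * (m + 1) + i ∧ cycN a b m l = (- a i, - b i) ∧
        (cycN a b m l).1 < 0 ∧ (cycN a b m l).2 ≤ 0) ∨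
      (l = 3 * (m + 1) + i ∧ cycN a b m l = (a (m + 1 - i), - b (m + 1 - i)) ∧
        0 ≤ (cycN a b m l).1 ∧ (cycN a b m l).2 < 0)) := by
    intro l hl
    by_cases h0 : l < m + 1
    · refine ⟨l, h0, Or.inl ⟨rfl, cycN_0 h (by omega), ?_, ?_⟩⟩
      · rw [cycN_0 h (by omega)]; exact hapos l (by omega)
      · rw [cycN_0 h (by omega)]; exact h.b_nonneg l (by omega)
    · by_cases h1 : l < 2 * (m + 1)
      · obtain ⟨i, rfl⟩ : ∃ i, l = m + 1 + i := ⟨l - (m + 1), by omega⟩
        have e1 := cycN_1 h (i := i) (by omega)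
        refine ⟨i, by omega, Or.inr (Or.inl ⟨rfl, e1, ?_, ?_⟩)⟩
        · rw [e1]
          have := h.a_nonneg (m + 1 - i) (by omega)
          simpa using this
        · rw [e1]
          exact hbpos _ (by omega) (by omega)
      · by_cases h2 : l < 3 * (m + 1)
        · obtain ⟨i, rfl⟩ : ∃ i, l = 2 * (m + 1) + i := ⟨l - 2 * (m + 1), by omega⟩
          have e1 := cycN_2 h (i := i) (by omega)
          refine ⟨i, by omega, Or.inr (Or.inr (Or.inl ⟨rfl, e1, ?_, ?_⟩))⟩
          · rw [e1]
            have := hapos i (by omega)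
            simpa using this
          · rw [e1]
            have := h.b_nonneg i (by omega)
            simpa using this
        · obtain ⟨i, rfl⟩ : ∃ i, l = 3 * (m + 1) + i := ⟨l - 3 * (m + 1), by omega⟩
          have e1 := cycN_3 h (i := i) (by omega)
          refine ⟨i, by omega, Or.inr (Or.inr (Or.inr ⟨rfl, e1, ?_, ?_⟩))⟩
          · rw [e1]
            exact h.a_nonneg _ (by omega)
          · rw [e1]
            have := hbpos (m + 1 - i) (by omega) (by omega)
            simpa using this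
  obtain ⟨i, hi, hj'⟩ := key j hj
  obtain ⟨i', hi', hk'⟩ := key k hk
  have e1 : (cycN a b m j).1 = (cycN a b m k).1 := by rw [e]
  have e2 : (cycN a b m j).2 = (cycN a b m k).2 := by rw [e]
  rcases hj' with ⟨rfl, ej, p1, p2⟩ | ⟨rfl, ej, p1, p2⟩ | ⟨rfl, ej, p1, p2⟩ | ⟨rfl, ej, p1, p2⟩ <;>
  rcases hk' with ⟨rfl, ek, q1, q2⟩ | ⟨rfl, ek, q1, q2⟩ | ⟨rfl, ek, q1, q2⟩ | ⟨rfl, ek, q1, q2⟩ <;>
  first
  | (exfalso; linarith)
  | (rw [ej, ek] at e
     have f1 := congrArg Prod.fst e
     have f2 := congrArg Prod.snd e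
     simp only [neg_inj] at f1 f2
     have := chain_inj h (by omega) (by omega) f1 f2
     omega)

/-- A sum over a period splits into four blocks. -/
lemma sum_four_blocks (F : ℕ → ℝ) (M : ℕ) :
    ∑ k ∈ range (4 * M), F k = ∑ i ∈ range M, F i + ∑ i ∈ range M, F (M + i) +
      ∑ i ∈ range M, F (2 * M + i) + ∑ i ∈ range M, F (3 * M + i) := by
  have e : 4 * M = 3 * M + M := by ring
  have e2 : 3 * M = 2 * M + M := by ring
  have e3 : 2 * M = M + M := by ring
  rw [e, Finset.sum_range_add, e2, Finset.sum_range_add, e3, Finset.sum_range_add]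

/-- The vertex term of the shoelace sum. -/
noncomputable def Vf (n : ℕ → ℝ × ℝ) (hh : ℕ → ℝ) (k : ℕ) : ℝ :=
  (det2 (n k) (n (k + 1)))⁻¹ * (det2 (n (k + 1)) (n (k + 2)))⁻¹ *
    (det2 (n k) (n (k + 1)) + det2 (n (k + 1)) (n (k + 2)) - det2 (n k) (n (k + 2))) * hh (k + 1) ^ 2

/-- The edge term of the shoelace sum. -/
noncomputable def Ef (n : ℕ → ℝ × ℝ) (hh : ℕ → ℝ) (k : ℕ) : ℝ :=
  (det2 (n k) (n (k + 1)))⁻¹ * (hh (k + 1) - hh k) ^ 2

lemma Vf_even (n : ℕ → ℝ × ℝ) (hh : ℕ → ℝ) (k i : ℕ) (t : ℝ) (ht : t ^ 2 = 1)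
    (e0 : n k = (t * a i, t * b i)) (e1 : n (k + 1) = (t * a (i + 1), t * b (i + 1)))
    (e2 : n (k + 2) = (t * a (i + 2), t * b (i + 2))) :
    Vf n hh k = wIn a b i * hh (k + 1) ^ 2 := by
  unfold Vf wIn kap Zt Dt
  rw [e0, e1, e2]
  unfold det2
  simp only
  have h1 : t * a i * (t * b (i + 1)) - t * b i * (t * a (i + 1)) =
      a i * b (i + 1) - a (i + 1) * b i := by
    linear_combination (a i * b (i + 1) - a (i + 1) * b i) * ht
  have h2 : t * a (i + 1) * (t * b (i + 2)) - t * b (i + 1) * (t * a (i + 2)) =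
      a (i + 1) * b (i + 1 + 1) - a (i + 1 + 1) * b (i + 1) := by
    linear_combination (a (i + 1) * b (i + 2) - a (i + 2) * b (i + 1)) * ht
  have h3 : t * a i * (t * b (i + 2)) - t * b i * (t * a (i + 2)) =
      a i * b (i + 2) - a (i + 2) * b i := by
    linear_combination (a i * b (i + 2) - a (i + 2) * b i) * ht
  rw [h1, h2, h3]

lemma Vf_odd (n : ℕ → ℝ × ℝ) (hh : ℕ → ℝ) (k i : ℕ) (t : ℝ) (ht : t ^ 2 = 1)
    (e0 : n k = (- t * a (i + 2), t * b (i + 2))) (e1 : n (k + 1) = (- t * a (i + 1), t * b (i + 1)))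
    (e2 : n (k + 2) = (- t * a i, t * b i)) :
    Vf n hh k = wIn a b i * hh (k + 1) ^ 2 := by
  unfold Vf wIn kap Zt Dt
  rw [e0, e1, e2]
  unfold det2
  simp only
  have h1 : - t * a (i + 2) * (t * b (i + 1)) - t * b (i + 2) * (- t * a (i + 1)) =
      a (i + 1) * b (i + 1 + 1) - a (i + 1 + 1) * b (i + 1) := by
    linear_combination (a (i + 1) * b (i + 2) - a (i + 2) * b (i + 1)) * ht
  have h2 : - t * a (i + 1) * (t * b i) - t * b (i + 1) * (- t * a i) =
      a i * b (i + 1) - a (i + 1) * b i := by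
    linear_combination (a i * b (i + 1) - a (i + 1) * b i) * ht
  have h3 : - t * a (i + 2) * (t * b i) - t * b (i + 2) * (- t * a i) =
      a i * b (i + 2) - a (i + 2) * b i := by
    linear_combination (a i * b (i + 2) - a (i + 2) * b i) * ht
  rw [h1, h2, h3]
  ring

lemma Ef_even (n : ℕ → ℝ × ℝ) (hh : ℕ → ℝ) (ξ : ℕ → ℝ) (k i : ℕ) (t : ℝ) (ht : t ^ 2 = 1)
    (e0 : n k = (t * a i, t * b i)) (e1 : n (k + 1) = (t * a (i + 1), t * b (i + 1)))
    (h0 : hh k = ξ i) (h1 : hh (k + 1) = ξ (i + 1)) :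
    Ef n hh k = kap a b i * (ξ (i + 1) - ξ i) ^ 2 := by
  unfold Ef kap Dt
  rw [e0, e1, h0, h1]
  unfold det2
  simp only
  have h1 : t * a i * (t * b (i + 1)) - t * b i * (t * a (i + 1)) =
      a i * b (i + 1) - a (i + 1) * b i := by
    linear_combination (a i * b (i + 1) - a (i + 1) * b i) * ht
  rw [h1]

lemma Ef_odd (n : ℕ → ℝ × ℝ) (hh : ℕ → ℝ) (ξ : ℕ → ℝ) (k i : ℕ) (t : ℝ) (ht : t ^ 2 = 1)
    (e0 : n k = (- t * a (i + 1), t * b (i + 1))) (e1 : n (k + 1) = (- t * a i, t * b i))
    (h0 : hh k = ξ (i + 1)) (h1 : hh (k + 1) = ξ i) :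
    Ef n hh k = kap a b i * (ξ (i + 1) - ξ i) ^ 2 := by
  unfold Ef kap Dt
  rw [e0, e1, h0, h1]
  unfold det2
  simp only
  have h1 : - t * a (i + 1) * (t * b i) - t * b (i + 1) * (- t * a i) =
      a i * b (i + 1) - a (i + 1) * b i := by
    linear_combination (a i * b (i + 1) - a (i + 1) * b i) * ht
  rw [h1]
  ring

lemma Vf_top (h : IsChain m a b) (n : ℕ → ℝ × ℝ) (hh : ℕ → ℝ) (k : ℕ) (t : ℝ) (ht : t ^ 2 = 1)
    (e0 : n k = (t * a m, t * b m)) (e1 : n (k + 1) = (t * a (m + 1), t * b (m + 1)))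
    (e2 : n (k + 2) = (- t * a m, t * b m)) :
    Vf n hh k = 2 * wR a b m * hh (k + 1) ^ 2 := by
  have ha := h.a_pos (i := m) le_rfl
  have hb := h.b_pos (i := m) le_rfl
  unfold Vf wR kap Dt
  rw [e0, e1, e2, h.aM]
  unfold det2
  simp only
  have h1 : t * a m * (t * b (m + 1)) - t * b m * (t * 0) = a m * b (m + 1) := by
    linear_combination (a m * b (m + 1)) * ht
  have h2 : t * 0 * (t * b m) - t * b (m + 1) * (- t * a m) = a m * b (m + 1) := by
    linear_combination (a m * b (m + 1)) * ht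
  have h3 : t * a m * (t * b m) - t * b m * (- t * a m) = 2 * (a m * b m) := by
    linear_combination (2 * (a m * b m)) * ht
  rw [h1, h2, h3]
  simp only [zero_mul, sub_zero]
  field_simp
  ring

lemma Vf_side (h : IsChain m a b) (n : ℕ → ℝ × ℝ) (hh : ℕ → ℝ) (k : ℕ) (t : ℝ) (ht : t ^ 2 = 1)
    (e0 : n k = (- t * a 1, t * b 1)) (e1 : n (k + 1) = (- t * a 0, t * b 0))
    (e2 : n (k + 2) = (- t * a 1, - t * b 1)) :
    Vf n hh k = 2 * wL a b * hh (k + 1) ^ 2 := by
  have ha := h.a_pos (i := 0) (by omega)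
  have hb := h.b_pos (i := 0) (by omega)
  simp only [zero_add] at hb
  unfold Vf wL kap Dt
  rw [e0, e1, e2, h.b0]
  unfold det2
  simp only
  have h1 : - t * a 1 * (t * 0) - t * b 1 * (- t * a 0) = a 0 * b 1 := by
    linear_combination (a 0 * b 1) * ht
  have h2 : - t * a 0 * (- t * b 1) - t * 0 * (- t * a 1) = a 0 * b 1 := by
    linear_combination (a 0 * b 1) * ht
  have h3 : - t * a 1 * (- t * b 1) - t * b 1 * (- t * a 1) = 2 * (a 1 * b 1) := by
    linear_combination (2 * (a 1 * b 1)) * ht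
  rw [h1, h2, h3]
  simp only [zero_add, mul_zero, sub_zero]
  field_simp
  ring

/-- The shoelace sum of the cyclic polygon splits into the four quadratic forms. -/
theorem cyc_sum_eq (h : IsChain m a b) (hh x y z w : ℕ → ℝ)
    (hper : ∀ k, hh (k + 4 * (m + 1)) = hh k)
    (h0 : ∀ i, i ≤ m + 1 → hh i = x i)
    (h1 : ∀ i, i ≤ m + 1 → hh (m + 1 + i) = y (m + 1 - i))
    (h2 : ∀ i, i ≤ m + 1 → hh (2 * (m + 1) + i) = z i)
    (h3 : ∀ i, i ≤ m + 1 → hh (3 * (m + 1) + i) = w (m + 1 - i)) :
    ∑ k ∈ range (4 * (m + 1)), det2 (vert (cycN a b m) hh k) (vert (cycN a b m) hh (k + 1)) =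
      Sq a b m x + Sq a b m y + Sq a b m z + Sq a b m w := by
  set n := cycN a b m with hn
  have hf : CycFan (4 * (m + 1)) n := cycN_fan h
  have e0 : ∀ i, i ≤ m + 1 → n i = (1 * a i, 1 * b i) := fun i hi => by
    rw [hn, cycN_0 h hi]; simp
  have e1 : ∀ i, i ≤ m + 1 → n (m + 1 + i) = (- 1 * a (m + 1 - i), 1 * b (m + 1 - i)) := by
    intro i hi
    rw [hn, cycN_1 h (by omega)]; simp
  have e1' := e1
  have e2 : ∀ i, i ≤ m + 1 → n (2 * (m + 1) + i) = (-1 * a i, -1 * b i) := fun i hi => by
    rw [hn, cycN_2 h hi]; simp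
  have e3 : ∀ i, i ≤ m + 1 → n (3 * (m + 1) + i) = (- (-1) * a (m + 1 - i), -1 * b (m + 1 - i)) := by
    intro i hi
    rw [hn, cycN_3 h hi]; simp
  rw [sum_det_vert hf hh hper]
  have hV : ∑ k ∈ range (4 * (m + 1)), Vf n hh k =
      Wt a b m x + Wt a b m y + Wt a b m z + Wt a b m w := by
    rw [sum_four_blocks, Finset.sum_range_succ, Finset.sum_range_succ, Finset.sum_range_succ,
      Finset.sum_range_succ]
    -- interior terms
    have b0 : ∑ i ∈ range m, Vf n hh i = ∑ i ∈ range m, wIn a b i * x (i + 1) ^ 2 := by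
      apply Finset.sum_congr rfl
      intro i hi
      have hi' : i < m := by simpa using hi
      rw [Vf_even n hh i i 1 (by norm_num) (e0 i (by omega)) (e0 (i + 1) (by omega))
        (e0 (i + 2) (by omega)), h0 _ (by omega)]
    have b1 : ∑ i ∈ range m, Vf n hh (m + 1 + i) = ∑ i ∈ range m, wIn a b i * y (i + 1) ^ 2 := by
      rw [← Finset.sum_range_reflect (fun i => wIn a b i * y (i + 1) ^ 2) m]
      apply Finset.sum_congr rfl
      intro i hi
      have hi' : i < m := by simpa using hi
      have c1 : m + 1 + i + 1 = m + 1 + (i + 1) := by ring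
      have c2 : m + 1 + i + 2 = m + 1 + (i + 2) := by ring
      have c3 : m + 1 - i = m - 1 - i + 2 := by omega
      have c4 : m + 1 - (i + 1) = m - 1 - i + 1 := by omega
      have c5 : m + 1 - (i + 2) = m - 1 - i := by omega
      rw [Vf_odd n hh (m + 1 + i) (m - 1 - i) 1 (by norm_num)
        (by have := e1 i (by omega); rwa [c3] at this)
        (by rw [c1, ← c4]; exact e1 (i + 1) (by omega))
        (by rw [c2, ← c5]; exact e1 (i + 2) (by omega)), c1, h1 _ (by omega), c4]
    have b2 : ∑ i ∈ range m, Vf n hh (2 * (m + 1) + i) = ∑ i ∈ range m, wIn a b i * z (i + 1) ^ 2 := by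
      apply Finset.sum_congr rfl
      intro i hi
      have hi' : i < m := by simpa using hi
      have c1 : 2 * (m + 1) + i + 1 = 2 * (m + 1) + (i + 1) := by ring
      have c2 : 2 * (m + 1) + i + 2 = 2 * (m + 1) + (i + 2) := by ring
      rw [Vf_even n hh _ i (-1) (by norm_num) (e2 i (by omega))
        (by rw [c1]; exact e2 (i + 1) (by omega))
        (by rw [c2]; exact e2 (i + 2) (by omega)), c1, h2 _ (by omega)]
    have b3 : ∑ i ∈ range m, Vf n hh (3 * (m + 1) + i) = ∑ i ∈ range m, wIn a b i * w (i + 1) ^ 2 := by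
      rw [← Finset.sum_range_reflect (fun i => wIn a b i * w (i + 1) ^ 2) m]
      apply Finset.sum_congr rfl
      intro i hi
      have hi' : i < m := by simpa using hi
      have c1 : 3 * (m + 1) + i + 1 = 3 * (m + 1) + (i + 1) := by ring
      have c2 : 3 * (m + 1) + i + 2 = 3 * (m + 1) + (i + 2) := by ring
      have c3 : m + 1 - i = m - 1 - i + 2 := by omega
      have c4 : m + 1 - (i + 1) = m - 1 - i + 1 := by omega
      have c5 : m + 1 - (i + 2) = m - 1 - i := by omega
      rw [Vf_odd n hh (3 * (m + 1) + i) (m - 1 - i) (-1) (by norm_num)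
        (by have := e3 i (by omega); rwa [c3] at this)
        (by rw [c1, ← c4]; exact e3 (i + 1) (by omega))
        (by rw [c2, ← c5]; exact e3 (i + 2) (by omega)), c1, h3 _ (by omega), c4]
    -- axis terms
    have a0 : Vf n hh m = 2 * wR a b m * hh (m + 1) ^ 2 := by
      refine Vf_top h n hh m 1 (by norm_num) (e0 m (by omega)) (e0 (m + 1) (by omega)) ?_
      have := e1 1 (by omega)
      rw [show m + 1 - 1 = m by omega] at this
      rw [show m + 2 = m + 1 + 1 by ring]
      exact this
    have a1 : Vf n hh (m + 1 + m) = 2 * wL a b * hh (2 * (m + 1)) ^ 2 := by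
      have c1 : m + 1 + m + 1 = 2 * (m + 1) := by ring
      have hv := Vf_side h n hh (m + 1 + m) 1 (by norm_num) ?_ ?_ ?_
      · rw [hv, c1]
      · have := e1 m (by omega)
        rwa [show m + 1 - m = 1 by omega] at this
      · rw [c1]
        have := e2 0 (by omega)
        rw [add_zero] at this
        rw [this, h.b0]
        simp
      · rw [show m + 1 + m + 2 = 2 * (m + 1) + 1 by ring]
        have := e2 1 (by omega)
        rw [this]
    have a2 : Vf n hh (2 * (m + 1) + m) = 2 * wR a b m * hh (3 * (m + 1)) ^ 2 := by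
      have c1 : 2 * (m + 1) + m + 1 = 3 * (m + 1) := by ring
      have hv := Vf_top h n hh (2 * (m + 1) + m) (-1) (by norm_num) ?_ ?_ ?_
      · rw [hv, c1]
      · exact e2 m (by omega)
      · rw [show 2 * (m + 1) + m + 1 = 2 * (m + 1) + (m + 1) by ring]
        exact e2 (m + 1) (by omega)
      · rw [show 2 * (m + 1) + m + 2 = 3 * (m + 1) + 1 by ring]
        have := e3 1 (by omega)
        rwa [show m + 1 - 1 = m by omega] at this
    have a3 : Vf n hh (3 * (m + 1) + m) = 2 * wL a b * hh (3 * (m + 1) + (m + 1)) ^ 2 := by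
      have c1 : 3 * (m + 1) + m + 1 = 3 * (m + 1) + (m + 1) := by ring
      have hv := Vf_side h n hh (3 * (m + 1) + m) (-1) (by norm_num) ?_ ?_ ?_
      · rw [hv, c1]
      · have := e3 m (by omega)
        rwa [show m + 1 - m = 1 by omega] at this
      · rw [c1]
        have := e3 (m + 1) (by omega)
        rwa [show m + 1 - (m + 1) = 0 by omega] at this
      · rw [show 3 * (m + 1) + m + 2 = 1 + 4 * (m + 1) by ring]
        have hper1 : n (1 + 4 * (m + 1)) = n 1 := cycN_periodic 1
        rw [hper1, e0 1 (by omega)]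
        simp
    rw [b0, b1, b2, b3, a0, a1, a2, a3]
    have v1 : hh (m + 1) = x (m + 1) := h0 _ le_rfl
    have v1' : hh (m + 1) = y (m + 1) := by
      have := h1 0 (by omega)
      simpa using this
    have v2 : hh (2 * (m + 1)) = y 0 := by
      have := h1 (m + 1) le_rfl
      rw [show m + 1 + (m + 1) = 2 * (m + 1) by ring, show m + 1 - (m + 1) = 0 by omega] at this
      exact this
    have v2' : hh (2 * (m + 1)) = z 0 := by
      have := h2 0 (by omega)
      simpa using this
    have v3 : hh (3 * (m + 1)) = z (m + 1) := by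
      have := h2 (m + 1) le_rfl
      rwa [show 2 * (m + 1) + (m + 1) = 3 * (m + 1) by ring] at this
    have v3' : hh (3 * (m + 1)) = w (m + 1) := by
      have := h3 0 (by omega)
      simpa using this
    have v4 : hh (3 * (m + 1) + (m + 1)) = w 0 := by
      have := h3 (m + 1) le_rfl
      rwa [show m + 1 - (m + 1) = 0 by omega] at this
    have v4' : hh (3 * (m + 1) + (m + 1)) = x 0 := by
      rw [show 3 * (m + 1) + (m + 1) = 0 + 4 * (m + 1) by ring, hper, h0 0 (by omega)]
    unfold Wt
    have q1 : 2 * wR a b m * hh (m + 1) ^ 2 = wR a b m * x (m + 1) ^ 2 + wR a b m * y (m + 1) ^ 2 := by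
      rw [← v1, ← v1']; ring
    have q2 : 2 * wL a b * hh (2 * (m + 1)) ^ 2 = wL a b * y 0 ^ 2 + wL a b * z 0 ^ 2 := by
      rw [← v2, ← v2']; ring
    have q3 : 2 * wR a b m * hh (3 * (m + 1)) ^ 2 =
        wR a b m * z (m + 1) ^ 2 + wR a b m * w (m + 1) ^ 2 := by
      rw [← v3, ← v3']; ring
    have q4 : 2 * wL a b * hh (3 * (m + 1) + (m + 1)) ^ 2 = wL a b * w 0 ^ 2 + wL a b * x 0 ^ 2 := by
      rw [← v4, ← v4']; ring
    rw [q1, q2, q3, q4]
    ring
  have hE : ∑ k ∈ range (4 * (m + 1)), Ef n hh k =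
      Edge a b m x + Edge a b m y + Edge a b m z + Edge a b m w := by
    rw [sum_four_blocks]
    unfold Edge
    congr 1
    · congr 1
      · congr 1
        · apply Finset.sum_congr rfl
          intro i hi
          have hi' : i < m + 1 := by simpa using hi
          exact Ef_even n hh x i i 1 (by norm_num) (e0 i (by omega)) (e0 (i + 1) (by omega))
            (h0 _ (by omega)) (h0 _ (by omega))
        · rw [← Finset.sum_range_reflect (fun i => kap a b i * (y (i + 1) - y i) ^ 2) (m + 1)]
          apply Finset.sum_congr rfl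
          intro i hi
          have hi' : i < m + 1 := by simpa using hi
          have c1 : m + 1 + i + 1 = m + 1 + (i + 1) := by ring
          have c3 : m + 1 - i = m + 1 - 1 - i + 1 := by omega
          have c4 : m + 1 - (i + 1) = m + 1 - 1 - i := by omega
          refine Ef_odd n hh y (m + 1 + i) (m + 1 - 1 - i) 1 (by norm_num)
            (by have := e1 i (by omega); rwa [c3] at this)
            (by
              rw [c1]
              have := e1' (i + 1) (by omega)
              rwa [c4] at this) ?_ ?_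
          · have := h1 i (by omega)
            rwa [c3] at this
          · rw [c1]
            have := h1 (i + 1) (by omega)
            rwa [c4] at this
      · apply Finset.sum_congr rfl
        intro i hi
        have hi' : i < m + 1 := by simpa using hi
        have c1 : 2 * (m + 1) + i + 1 = 2 * (m + 1) + (i + 1) := by ring
        exact Ef_even n hh z _ i (-1) (by norm_num) (e2 i (by omega))
          (by rw [c1]; exact e2 (i + 1) (by omega)) (h2 _ (by omega))
          (by rw [c1]; exact h2 _ (by omega))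
    · rw [← Finset.sum_range_reflect (fun i => kap a b i * (w (i + 1) - w i) ^ 2) (m + 1)]
      apply Finset.sum_congr rfl
      intro i hi
      have hi' : i < m + 1 := by simpa using hi
      have c1 : 3 * (m + 1) + i + 1 = 3 * (m + 1) + (i + 1) := by ring
      have c3 : m + 1 - i = m + 1 - 1 - i + 1 := by omega
      have c4 : m + 1 - (i + 1) = m + 1 - 1 - i := by omega
      refine Ef_odd n hh w (3 * (m + 1) + i) (m + 1 - 1 - i) (-1) (by norm_num)
        (by have := e3 i (by omega); rwa [c3] at this)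
        (by
          rw [c1]
          have := e3 (i + 1) (by omega)
          rwa [c4] at this) ?_ ?_
      · have := h3 i (by omega)
        rwa [c3] at this
      · rw [c1]
        have := h3 (i + 1) (by omega)
        rwa [c4] at this
  have hfinal : ∀ A B C D E F G H : ℝ, A - E + (B - F) + (C - G) + (D - H) =
      (A + B + C + D) - (E + F + G + H) := by intros; ring
  unfold Sq
  rw [hfinal, ← hV, ← hE]
  rfl

end

end Vale.Agent.Lib.P227
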