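import Mathlib
import Vale.Agent.Lib.P227.ChainFan

/-!
# Planar comparison for a chain
-/

open MeasureTheory Set Finset
open scoped ENNReal

namespace Vale.Agent.Lib.P227

section Vertices

variable {a b : ℕ → ℝ} {m : ℕ}

/-- The vertices of the polygon of a chain, in the first quadrant. -/
noncomputable def qv (a b : ℕ → ℝ) (i : ℕ) : ℝ × ℝ :=
  ((b (i + 1) - b i) * kap a b i, (a i - a (i + 1)) * kap a b i)

lemma qv_fst_nonneg (h : IsChain m a b) {i : ℕ} (hi : i ≤ m) : 0 ≤ (qv a b i).1 :=
  mul_nonneg (by linarith [h.mono i hi]) (h.kap_pos hi).le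

lemma qv_snd_nonneg (h : IsChain m a b) {i : ℕ} (hi : i ≤ m) : 0 ≤ (qv a b i).2 :=
  mul_nonneg (by linarith [h.anti i hi]) (h.kap_pos hi).le

lemma qv_left (h : IsChain m a b) {i : ℕ} (hi : i ≤ m) :
    a i * (qv a b i).1 + b i * (qv a b i).2 = 1 := by
  have hD := (h.det_pos i hi).ne'
  unfold qv kap
  simp only
  field_simp
  unfold Dt
  ring

lemma qv_right (h : IsChain m a b) {i : ℕ} (hi : i ≤ m) :
    a (i + 1) * (qv a b i).1 + b (i + 1) * (qv a b i).2 = 1 := by
  have hD := (h.det_pos i hi).ne'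
  unfold qv kap
  simp only
  field_simp
  unfold Dt
  ring

/-- The linear function of the polar point, at a fixed point. -/
def gv (a b : ℕ → ℝ) (q : ℝ × ℝ) (j : ℕ) : ℝ := a j * q.1 + b j * q.2

/-- The discrete slope of `gv`. -/
noncomputable def tv (a b : ℕ → ℝ) (q : ℝ × ℝ) (j : ℕ) : ℝ :=
  kap a b j * (gv a b q (j + 1) - gv a b q j)

lemma tv_step (h : IsChain m a b) (q : ℝ × ℝ) {j : ℕ} (hj : j < m) :
    tv a b q (j + 1) = tv a b q j - wIn a b j * gv a b q (j + 1) := by
  have ha := three_term_a (a := a) (b := b) (i := j) (h.det_pos j (by omega)).ne'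
    (h.det_pos (j + 1) (by omega)).ne'
  have hb := three_term_b (a := a) (b := b) (i := j) (h.det_pos j (by omega)).ne'
    (h.det_pos (j + 1) (by omega)).ne'
  unfold tv gv
  linear_combination (- q.1) * ha + (- q.2) * hb

lemma gv_nonneg (h : IsChain m a b) {q : ℝ × ℝ} (h1 : 0 ≤ q.1) (h2 : 0 ≤ q.2) {j : ℕ}
    (hj : j ≤ m + 1) : 0 ≤ gv a b q j :=
  add_nonneg (mul_nonneg (h.a_nonneg j hj) h1) (mul_nonneg (h.b_nonneg j hj) h2)

lemma tv_anti (h : IsChain m a b) {q : ℝ × ℝ} (h1 : 0 ≤ q.1) (h2 : 0 ≤ q.2) {j : ℕ} (hj : j < m) :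
    tv a b q (j + 1) ≤ tv a b q j := by
  rw [tv_step h q hj]
  have := mul_nonneg (h.wIn_nonneg hj) (gv_nonneg h h1 h2 (j := j + 1) (by omega))
  linarith

lemma tv_anti' (h : IsChain m a b) {q : ℝ × ℝ} (h1 : 0 ≤ q.1) (h2 : 0 ≤ q.2) {i j : ℕ} (hij : i ≤ j)
    (hj : j ≤ m) : tv a b q j ≤ tv a b q i := by
  induction j, hij using Nat.le_induction with
  | base => exact le_rfl
  | succ j hij ih => exact (tv_anti h h1 h2 (by omega)).trans (ih (by omega))

lemma gv_succ_le (h : IsChain m a b) {q : ℝ × ℝ} {j : ℕ} (hj : j ≤ m) (ht : tv a b q j ≤ 0) :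
    gv a b q (j + 1) ≤ gv a b q j := by
  unfold tv at ht
  have := h.kap_pos hj
  by_contra hcon
  push Not at hcon
  have := mul_pos this (sub_pos.2 hcon)
  linarith

lemma gv_le_succ (h : IsChain m a b) {q : ℝ × ℝ} {j : ℕ} (hj : j ≤ m) (ht : 0 ≤ tv a b q j) :
    gv a b q j ≤ gv a b q (j + 1) := by
  unfold tv at ht
  have := h.kap_pos hj
  by_contra hcon
  push Not at hcon
  have := mul_pos this (sub_pos.2 hcon)
  nlinarith

lemma gv_succ_lt (h : IsChain m a b) {q : ℝ × ℝ} {j : ℕ} (hj : j ≤ m) (ht : tv a b q j < 0) :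
    gv a b q (j + 1) < gv a b q j := by
  unfold tv at ht
  have := h.kap_pos hj
  by_contra hcon
  push Not at hcon
  have := mul_nonneg this.le (sub_nonneg.2 hcon)
  linarith

lemma gv_lt_succ (h : IsChain m a b) {q : ℝ × ℝ} {j : ℕ} (hj : j ≤ m) (ht : 0 < tv a b q j) :
    gv a b q j < gv a b q (j + 1) := by
  unfold tv at ht
  have := h.kap_pos hj
  by_contra hcon
  push Not at hcon
  have := mul_nonneg this.le (sub_nonneg.2 hcon)
  nlinarith

lemma tv_qv_self (h : IsChain m a b) {i : ℕ} (hi : i ≤ m) : tv a b (qv a b i) i = 0 := by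
  unfold tv gv
  rw [qv_left h hi, qv_right h hi]
  simp

/-- Descent of `gv` to the right of a point with nonpositive slope. -/
lemma gv_descend (h : IsChain m a b) {q : ℝ × ℝ} (h1 : 0 ≤ q.1) (h2 : 0 ≤ q.2) {i j : ℕ} (hij : i ≤ j)
    (hj : j ≤ m + 1) (ht : tv a b q i ≤ 0) : gv a b q j ≤ gv a b q i := by
  induction j, hij using Nat.le_induction with
  | base => exact le_rfl
  | succ j hij ih =>
    exact (gv_succ_le h (by omega) ((tv_anti' h h1 h2 hij (by omega)).trans ht)).trans (ih (by omega))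

/-- Strict descent of `gv` to the right of a point with negative slope. -/
lemma gv_descend_lt (h : IsChain m a b) {q : ℝ × ℝ} (h1 : 0 ≤ q.1) (h2 : 0 ≤ q.2) {i j : ℕ} (hij : i < j)
    (hj : j ≤ m + 1) (ht : tv a b q i < 0) : gv a b q j < gv a b q i := by
  induction j, hij using Nat.le_induction with
  | base => exact gv_succ_lt h (by omega) ht
  | succ j hij ih =>
    exact (gv_succ_lt h (by omega)
      (lt_of_le_of_lt (tv_anti' h h1 h2 (le_of_lt hij) (by omega)) ht)).trans (ih (by omega))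

/-- Ascent of `gv` to the left of a point with nonnegative slope. -/
lemma gv_ascend (h : IsChain m a b) {q : ℝ × ℝ} (h1 : 0 ≤ q.1) (h2 : 0 ≤ q.2) {i j : ℕ} (hij : j ≤ i)
    (hi : i ≤ m) (ht : 0 ≤ tv a b q i) : gv a b q j ≤ gv a b q i := by
  induction i, hij using Nat.le_induction with
  | base => exact le_rfl
  | succ i hij ih =>
    exact (ih (by omega) ((ht.trans (tv_anti h h1 h2 (by omega))))).trans
      (gv_le_succ h (by omega) (ht.trans (tv_anti h h1 h2 (by omega))))

/-- Strict ascent of `gv` to the left of a point with positive slope. -/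
lemma gv_ascend_lt (h : IsChain m a b) {q : ℝ × ℝ} (h1 : 0 ≤ q.1) (h2 : 0 ≤ q.2) {i j : ℕ} (hij : j ≤ i)
    (hi : i ≤ m) (ht : 0 < tv a b q i) : gv a b q j < gv a b q (i + 1) := by
  induction i, hij using Nat.le_induction with
  | base => exact gv_lt_succ h (by omega) ht
  | succ i hij ih =>
    have ht' := lt_of_lt_of_le ht (tv_anti h h1 h2 (by omega))
    exact (ih (by omega) ht').trans (gv_lt_succ h (by omega) ht)

lemma qv_le_one (h : IsChain m a b) {i j : ℕ} (hi : i ≤ m) (hj : j ≤ m + 1) :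
    a j * (qv a b i).1 + b j * (qv a b i).2 ≤ 1 := by
  have h1 := qv_fst_nonneg h hi
  have h2 := qv_snd_nonneg h hi
  have h0 := tv_qv_self h hi
  change gv a b (qv a b i) j ≤ 1
  rcases le_total j i with hji | hij
  · have := gv_ascend h h1 h2 hji hi h0.ge
    refine this.trans (le_of_eq ?_)
    exact qv_left h hi
  · have := gv_descend h h1 h2 hij hj h0.le
    refine this.trans (le_of_eq ?_)
    exact qv_left h hi

/-- A point in the quadrant on exactly the `i + 1`-st line. -/
theorem exists_slack_interior (h : IsChain m a b) {i : ℕ} (hi : i < m) (hw : 0 < wIn a b i) :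
    ∃ z : ℝ × ℝ, 0 ≤ z.1 ∧ 0 ≤ z.2 ∧ a (i + 1) * z.1 + b (i + 1) * z.2 = 1 ∧
      ∀ j, j ≤ m + 1 → j ≠ i + 1 → a j * z.1 + b j * z.2 < 1 := by
  set q := qv a b i with hq
  set q' := qv a b (i + 1) with hq'
  have h1 := qv_fst_nonneg h (i := i) (by omega)
  have h2 := qv_snd_nonneg h (i := i) (by omega)
  have h1' := qv_fst_nonneg h (i := i + 1) (by omega)
  have h2' := qv_snd_nonneg h (i := i + 1) (by omega)
  have qR : gv a b q (i + 1) = 1 := qv_right h (i := i) (by omega)
  have qL' : gv a b q' (i + 1) = 1 := qv_left h (i := i + 1) (by omega)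
  have ht1 : tv a b q (i + 1) < 0 := by
    rw [tv_step h q hi, tv_qv_self h (i := i) (by omega), qR]
    linarith
  have ht2 : 0 < tv a b q' i := by
    have := tv_step h q' hi
    rw [tv_qv_self h (i := i + 1) (by omega), qL'] at this
    linarith
  refine ⟨((q.1 + q'.1) / 2, (q.2 + q'.2) / 2), by simp only; linarith, by simp only; linarith, ?_, ?_⟩
  · simp only
    have e1 : a (i + 1) * q.1 + b (i + 1) * q.2 = 1 := qR
    have e2 : a (i + 1) * q'.1 + b (i + 1) * q'.2 = 1 := qL'
    linear_combination (1 / 2) * e1 + (1 / 2) * e2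
  · intro j hj hne
    simp only
    have e0 : a j * ((q.1 + q'.1) / 2) + b j * ((q.2 + q'.2) / 2) =
        (gv a b q j + gv a b q' j) / 2 := by
      unfold gv
      ring
    rw [e0]
    have l1 : gv a b q j ≤ 1 := qv_le_one h (by omega) hj
    have l2 : gv a b q' j ≤ 1 := qv_le_one h (by omega) hj
    rcases lt_or_gt_of_ne hne with hlt | hgt
    · have := gv_ascend_lt h h1' h2' (i := i) (j := j) (by omega) (by omega) ht2
      rw [qL'] at this
      linarith
    · have := gv_descend_lt h h1 h2 (i := i + 1) (j := j) hgt hj ht1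
      rw [qR] at this
      linarith

/-- A point in the quadrant on exactly the first line. -/
theorem exists_slack_left (h : IsChain m a b) (hw : 0 < wL a b) :
    ∃ z : ℝ × ℝ, 0 ≤ z.1 ∧ 0 ≤ z.2 ∧ a 0 * z.1 + b 0 * z.2 = 1 ∧
      ∀ j, j ≤ m + 1 → j ≠ 0 → a j * z.1 + b j * z.2 < 1 := by
  have ha := h.a_pos (i := 0) (by omega)
  have hk := h.kap_pos (i := 0) (by omega)
  have hlt : a 1 < a 0 := by
    unfold wL at hw
    by_contra hcon
    push Not at hcon
    have : kap a b 0 * (a 0 - a 1) / a 0 ≤ 0 :=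
      div_nonpos_of_nonpos_of_nonneg (mul_nonpos_of_nonneg_of_nonpos hk.le (by linarith)) ha.le
    linarith
  have hanti : ∀ j, 1 ≤ j → j ≤ m + 1 → a j ≤ a 1 := by
    intro j hj
    induction j, hj using Nat.le_induction with
    | base => intro _; exact le_rfl
    | succ j hj ih =>
      intro hj'
      exact (h.anti j (by omega)).trans (ih (by omega))
  set q := qv a b 0 with hq
  have h1 := qv_fst_nonneg h (i := 0) (by omega)
  have h2 := qv_snd_nonneg h (i := 0) (by omega)
  have hq0 : a 0 * q.1 + b 0 * q.2 = 1 := qv_left h (by omega)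
  have hb0 := h.b0
  rw [hb0, zero_mul, add_zero] at hq0
  refine ⟨(1 / a 0, q.2 / 2), by simp only; positivity, by simp only; linarith, ?_, ?_⟩
  · simp only
    rw [hb0]
    field_simp
    simp
  · intro j hj hne
    simp only
    have l := qv_le_one h (i := 0) (j := j) (by omega) hj
    have hj1 := hanti j (by omega) hj
    have hb := h.b_nonneg j hj
    have hq1 : q.1 = 1 / a 0 := by
      field_simp
      linarith
    have e : a j * (1 / a 0) + b j * (q.2 / 2) = (a j * (1 / a 0) + (a j * q.1 + b j * q.2)) / 2 := by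
      rw [hq1]
      ring
    rw [e]
    have h3 : a j * (1 / a 0) < 1 := by
      rw [mul_one_div, div_lt_one ha]
      linarith
    change (a j * (1 / a 0) + (a j * (qv a b 0).1 + b j * (qv a b 0).2)) / 2 < 1
    linarith

/-- A point in the quadrant on exactly the last line. -/
theorem exists_slack_right (h : IsChain m a b) (hw : 0 < wR a b m) :
    ∃ z : ℝ × ℝ, 0 ≤ z.1 ∧ 0 ≤ z.2 ∧ a (m + 1) * z.1 + b (m + 1) * z.2 = 1 ∧
      ∀ j, j ≤ m + 1 → j ≠ m + 1 → a j * z.1 + b j * z.2 < 1 := by
  have hb := h.b_pos (i := m) le_rfl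
  have hk := h.kap_pos (i := m) le_rfl
  have hlt : b m < b (m + 1) := by
    unfold wR at hw
    by_contra hcon
    push Not at hcon
    have : kap a b m * (b (m + 1) - b m) / b (m + 1) ≤ 0 :=
      div_nonpos_of_nonpos_of_nonneg (mul_nonpos_of_nonneg_of_nonpos hk.le (by linarith)) hb.le
    linarith
  have hmono' : ∀ l j, j + l = m → b j ≤ b m := by
    intro l
    induction l with
    | zero =>
      intro j hj
      rw [add_zero] at hj
      rw [hj]
    | succ l ih =>
      intro j hj
      exact (h.mono j (by omega)).trans (ih (j + 1) (by omega))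
  have hmono : ∀ j, j ≤ m → b j ≤ b m := fun j hj => hmono' (m - j) j (by omega)
  set q := qv a b m with hq
  have h1 := qv_fst_nonneg h (i := m) le_rfl
  have h2 := qv_snd_nonneg h (i := m) le_rfl
  have hq0 : a (m + 1) * q.1 + b (m + 1) * q.2 = 1 := qv_right h le_rfl
  have haM := h.aM
  rw [haM, zero_mul, zero_add] at hq0
  refine ⟨(q.1 / 2, 1 / b (m + 1)), by simp only; linarith, by simp only; positivity, ?_, ?_⟩
  · simp only
    rw [haM]
    field_simp
    simp
  · intro j hj hne
    simp only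
    have l := qv_le_one h (i := m) (j := j) le_rfl hj
    have hj1 := hmono j (by omega)
    have ha := h.a_nonneg j hj
    have hq1 : q.2 = 1 / b (m + 1) := by
      field_simp
      linarith
    have e : a j * (q.1 / 2) + b j * (1 / b (m + 1)) =
        (b j * (1 / b (m + 1)) + (a j * q.1 + b j * q.2)) / 2 := by
      rw [hq1]
      ring
    rw [e]
    have h3 : b j * (1 / b (m + 1)) < 1 := by
      rw [mul_one_div, div_lt_one hb]
      linarith
    change (b j * (1 / b (m + 1)) + (a j * (qv a b m).1 + b j * (qv a b m).2)) / 2 < 1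
    linarith

end Vertices

section Support

/-- Support function of a planar set. -/
noncomputable def supp (E : Set (ℝ × ℝ)) (v : ℝ × ℝ) : ℝ := sSup ((dot2 v) '' E)

lemma continuous_dot2 (v : ℝ × ℝ) : Continuous (dot2 v) := by
  unfold dot2
  fun_prop

lemma le_supp {E : Set (ℝ × ℝ)} (hE : IsCompact E) (v : ℝ × ℝ) {z : ℝ × ℝ} (hz : z ∈ E) :
    dot2 v z ≤ supp E v :=
  le_csSup (hE.image (continuous_dot2 v)).bddAbove (Set.mem_image_of_mem _ hz)

lemma supp_attained {E : Set (ℝ × ℝ)} (hE : IsCompact E) (hne : E.Nonempty) (v : ℝ × ℝ) :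
    ∃ z ∈ E, dot2 v z = supp E v := by
  have h := (hE.image (continuous_dot2 v)).sSup_mem (hne.image _)
  obtain ⟨z, hz, e⟩ := h
  exact ⟨z, hz, e⟩

lemma supp_pos {E : Set (ℝ × ℝ)} (hE : IsCompact E) {ε : ℝ} (hε : 0 < ε)
    (hball : ∀ z : ℝ × ℝ, |z.1| ≤ ε → |z.2| ≤ ε → z ∈ E) {v : ℝ × ℝ} (hv : v ≠ 0) :
    0 < supp E v := by
  have hs : 0 < |v.1| + |v.2| := by
    by_contra hcon
    push Not at hcon
    have h1 : |v.1| = 0 := le_antisymm (by linarith [abs_nonneg v.2]) (abs_nonneg _)
    have h2 : |v.2| = 0 := le_antisymm (by linarith [abs_nonneg v.1]) (abs_nonneg _)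
    exact hv (Prod.ext (abs_eq_zero.1 h1) (abs_eq_zero.1 h2))
  set t := ε / (|v.1| + |v.2|) with ht
  have ht0 : 0 < t := by positivity
  have hz : ((t * v.1, t * v.2) : ℝ × ℝ) ∈ E := by
    apply hball
    · simp only
      rw [abs_mul, abs_of_pos ht0, ht, div_mul_eq_mul_div, div_le_iff₀ hs]
      nlinarith [abs_nonneg v.2]
    · simp only
      rw [abs_mul, abs_of_pos ht0, ht, div_mul_eq_mul_div, div_le_iff₀ hs]
      nlinarith [abs_nonneg v.1]
  have h1 := le_supp hE v hz
  have h2 : 0 < dot2 v (t * v.1, t * v.2) := by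
    unfold dot2
    simp only
    have h3 : 0 < v.1 ^ 2 + v.2 ^ 2 := by
      by_contra hcon
      push Not at hcon
      have h4 : v.1 = 0 := by nlinarith [sq_nonneg v.1, sq_nonneg v.2]
      have h5 : v.2 = 0 := by nlinarith [sq_nonneg v.1, sq_nonneg v.2]
      exact hv (Prod.ext h4 h5)
    have := mul_pos ht0 h3
    nlinarith
  linarith

/-- The three term relation for planar vectors. -/
lemma three_vectors (u v w z : ℝ × ℝ) :
    det2 u w * dot2 v z = det2 v w * dot2 u z + det2 u v * dot2 w z := by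
  unfold det2 dot2
  ring

end Support

section PCChain

variable {a b : ℕ → ℝ} {m : ℕ}

lemma cycN_inj (h : IsChain m a b) {j k : ℕ} (hj : j < 4 * (m + 1)) (hk : k < 4 * (m + 1))
    (e : cycN a b m (j + 1) = cycN a b m (k + 1)) : j = k := by
  have red : ∀ l, l < 4 * (m + 1) → ∃ r, r < 4 * (m + 1) ∧ cycN a b m (l + 1) = cycN a b m r ∧
      (l + 1 = r ∨ (l + 1 = 4 * (m + 1) ∧ r = 0)) := by
    intro l hl
    by_cases h' : l + 1 < 4 * (m + 1)
    · exact ⟨l + 1, h', rfl, Or.inl rfl⟩
    · refine ⟨0, by omega, ?_, Or.inr ⟨by omega, rfl⟩⟩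
      have : l + 1 = 0 + 4 * (m + 1) := by omega
      rw [this, cycN_periodic]
  obtain ⟨r, hr, e1, e2⟩ := red j hj
  obtain ⟨r', hr', e1', e2'⟩ := red k hk
  rw [e1, e1'] at e
  have := cycN_inj' h hr hr' e
  subst this
  omega

lemma vert_one_fst (n : ℕ → ℝ × ℝ) (k : ℕ) :
    (vert n (fun _ => 1) k).1 = ((n (k + 1)).2 - (n k).2) / det2 (n k) (n (k + 1)) := by
  unfold vert vertexOf
  simp

lemma vert_one_snd (n : ℕ → ℝ × ℝ) (k : ℕ) :
    (vert n (fun _ => 1) k).2 = ((n k).1 - (n (k + 1)).1) / det2 (n k) (n (k + 1)) := by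
  unfold vert vertexOf
  simp

lemma cyc_vert_abs (h : IsChain m a b) (k : ℕ) : ∃ i, i ≤ m ∧
    |(vert (cycN a b m) (fun _ => 1) k).1| = (qv a b i).1 ∧
    |(vert (cycN a b m) (fun _ => 1) k).2| = (qv a b i).2 := by
  refine cyc_cases (P := fun k => ∃ i, i ≤ m ∧
    |(vert (cycN a b m) (fun _ => 1) k).1| = (qv a b i).1 ∧
    |(vert (cycN a b m) (fun _ => 1) k).2| = (qv a b i).2) (m + 1) (by omega) ?_ ?_ ?_ ?_ ?_ k
  · rintro k ⟨i, hi, h1, h2⟩
    refine ⟨i, hi, ?_, ?_⟩
    · rw [← h1, vert_one_fst, vert_one_fst, cycN_periodic,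
        show k + 4 * (m + 1) + 1 = k + 1 + 4 * (m + 1) by ring, cycN_periodic]
    · rw [← h2, vert_one_snd, vert_one_snd, cycN_periodic,
        show k + 4 * (m + 1) + 1 = k + 1 + 4 * (m + 1) by ring, cycN_periodic]
  · intro i hi
    have e0 := cycN_0 h (i := i) (by omega)
    have e1 := cycN_0 h (i := i + 1) (by omega)
    refine ⟨i, by omega, ?_, ?_⟩
    · rw [vert_one_fst, e0, e1]
      have hval : (b (i + 1) - b i) / det2 (a i, b i) (a (i + 1), b (i + 1)) = (qv a b i).1 := by
        simp only [qv, kap, Dt, det2]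
        rw [div_eq_mul_inv]
        rw [show a i * b (i + 1) - b i * a (i + 1) = a i * b (i + 1) - a (i + 1) * b i by ring]
      simp only
      rw [hval]
      exact abs_of_nonneg (qv_fst_nonneg h (i := i) (by omega))
    · rw [vert_one_snd, e0, e1]
      have hval : (a i - a (i + 1)) / det2 (a i, b i) (a (i + 1), b (i + 1)) = (qv a b i).2 := by
        simp only [qv, kap, Dt, det2]
        rw [div_eq_mul_inv]
        rw [show a i * b (i + 1) - b i * a (i + 1) = a i * b (i + 1) - a (i + 1) * b i by ring]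
      simp only
      rw [hval]
      exact abs_of_nonneg (qv_snd_nonneg h (i := i) (by omega))
  · intro i hi
    have e0 := cycN_1 h (i := i) (by omega)
    have e1 := cycN_1 h (i := i + 1) (by omega)
    rw [show m + 1 + (i + 1) = m + 1 + i + 1 by ring] at e1
    refine ⟨m - i, by omega, ?_, ?_⟩
    · have hq := qv_fst_nonneg h (i := m - i) (by omega)
      have hval : (vert (cycN a b m) (fun _ => 1) (m + 1 + i)).1 = - (qv a b (m - i)).1 := by
        rw [vert_one_fst, e0, e1, show m + 1 - (i + 1) = m - i by omega,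
          show m + 1 - i = m - i + 1 by omega]
        simp only [qv, kap, Dt, det2]
        rw [div_eq_mul_inv]
        rw [show (-a (m - i + 1) * b (m - i) - b (m - i + 1) * -a (m - i)) =
          a (m - i) * b (m - i + 1) - a (m - i + 1) * b (m - i) by ring]
        ring
      rw [hval, abs_neg, abs_of_nonneg hq]
    · have hq := qv_snd_nonneg h (i := m - i) (by omega)
      have hval : (vert (cycN a b m) (fun _ => 1) (m + 1 + i)).2 = (qv a b (m - i)).2 := by
        rw [vert_one_snd, e0, e1, show m + 1 - (i + 1) = m - i by omega,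
          show m + 1 - i = m - i + 1 by omega]
        simp only [qv, kap, Dt, det2]
        rw [div_eq_mul_inv]
        rw [show (-a (m - i + 1) * b (m - i) - b (m - i + 1) * -a (m - i)) =
          a (m - i) * b (m - i + 1) - a (m - i + 1) * b (m - i) by ring]
        ring
      rw [hval, abs_of_nonneg hq]
  · intro i hi
    have e0 := cycN_2 h (i := i) (by omega)
    have e1 := cycN_2 h (i := i + 1) (by omega)
    rw [show 2 * (m + 1) + (i + 1) = 2 * (m + 1) + i + 1 by ring] at e1
    refine ⟨i, by omega, ?_, ?_⟩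
    · have hq := qv_fst_nonneg h (i := i) (by omega)
      have hval : (vert (cycN a b m) (fun _ => 1) (2 * (m + 1) + i)).1 = - (qv a b i).1 := by
        rw [vert_one_fst, e0, e1]
        simp only [qv, kap, Dt, det2]
        rw [div_eq_mul_inv]
        rw [show (-a i * -b (i + 1) - -b i * -a (i + 1)) = a i * b (i + 1) - a (i + 1) * b i by ring]
        ring
      rw [hval, abs_neg, abs_of_nonneg hq]
    · have hq := qv_snd_nonneg h (i := i) (by omega)
      have hval : (vert (cycN a b m) (fun _ => 1) (2 * (m + 1) + i)).2 = - (qv a b i).2 := by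
        rw [vert_one_snd, e0, e1]
        simp only [qv, kap, Dt, det2]
        rw [div_eq_mul_inv]
        rw [show (-a i * -b (i + 1) - -b i * -a (i + 1)) = a i * b (i + 1) - a (i + 1) * b i by ring]
        ring
      rw [hval, abs_neg, abs_of_nonneg hq]
  · intro i hi
    have e0 := cycN_3 h (i := i) (by omega)
    have e1 := cycN_3 h (i := i + 1) (by omega)
    rw [show 3 * (m + 1) + (i + 1) = 3 * (m + 1) + i + 1 by ring] at e1
    refine ⟨m - i, by omega, ?_, ?_⟩
    · have hq := qv_fst_nonneg h (i := m - i) (by omega)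
      have hval : (vert (cycN a b m) (fun _ => 1) (3 * (m + 1) + i)).1 = (qv a b (m - i)).1 := by
        rw [vert_one_fst, e0, e1, show m + 1 - (i + 1) = m - i by omega,
          show m + 1 - i = m - i + 1 by omega]
        simp only [qv, kap, Dt, det2]
        rw [div_eq_mul_inv]
        rw [show (a (m - i + 1) * -b (m - i) - -b (m - i + 1) * a (m - i)) =
          a (m - i) * b (m - i + 1) - a (m - i + 1) * b (m - i) by ring]
        ring
      rw [hval, abs_of_nonneg hq]
    · have hq := qv_snd_nonneg h (i := m - i) (by omega)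
      have hval : (vert (cycN a b m) (fun _ => 1) (3 * (m + 1) + i)).2 = - (qv a b (m - i)).2 := by
        rw [vert_one_snd, e0, e1, show m + 1 - (i + 1) = m - i by omega,
          show m + 1 - i = m - i + 1 by omega]
        simp only [qv, kap, Dt, det2]
        rw [div_eq_mul_inv]
        rw [show (a (m - i + 1) * -b (m - i) - -b (m - i + 1) * a (m - i)) =
          a (m - i) * b (m - i + 1) - a (m - i + 1) * b (m - i) by ring]
        ring
      rw [hval, abs_neg, abs_of_nonneg hq]

lemma cyc_normal_abs (h : IsChain m a b) (j : ℕ) : ∃ i, i ≤ m + 1 ∧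
    |(cycN a b m j).1| = a i ∧ |(cycN a b m j).2| = b i := by
  refine cyc_cases (P := fun j => ∃ i, i ≤ m + 1 ∧
    |(cycN a b m j).1| = a i ∧ |(cycN a b m j).2| = b i) (m + 1) (by omega) ?_ ?_ ?_ ?_ ?_ j
  · rintro k ⟨i, hi, h1, h2⟩
    exact ⟨i, hi, by rw [cycN_periodic, h1], by rw [cycN_periodic, h2]⟩
  · intro i hi
    refine ⟨i, by omega, ?_, ?_⟩ <;> rw [cycN_0 h (by omega)]
    · exact abs_of_nonneg (h.a_nonneg i (by omega))
    · exact abs_of_nonneg (h.b_nonneg i (by omega))
  · intro i hi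
    refine ⟨m + 1 - i, by omega, ?_, ?_⟩ <;> rw [cycN_1 h (by omega)]
    · simp only [abs_neg]
      exact abs_of_nonneg (h.a_nonneg _ (by omega))
    · exact abs_of_nonneg (h.b_nonneg _ (by omega))
  · intro i hi
    refine ⟨i, by omega, ?_, ?_⟩ <;> rw [cycN_2 h (by omega)]
    · simp only [abs_neg]
      exact abs_of_nonneg (h.a_nonneg i (by omega))
    · simp only [abs_neg]
      exact abs_of_nonneg (h.b_nonneg i (by omega))
  · intro i hi
    refine ⟨m + 1 - i, by omega, ?_, ?_⟩ <;> rw [cycN_3 h (by omega)]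
    · exact abs_of_nonneg (h.a_nonneg _ (by omega))
    · simp only [abs_neg]
      exact abs_of_nonneg (h.b_nonneg _ (by omega))

/-- Every vertex of the cyclic polygon satisfies every constraint. -/
lemma cyc_in (h : IsChain m a b) (j k : ℕ) :
    dot2 (cycN a b m j) (vert (cycN a b m) (fun _ => 1) k) ≤ 1 := by
  obtain ⟨i, hi, e1, e2⟩ := cyc_vert_abs h k
  obtain ⟨l, hl, f1, f2⟩ := cyc_normal_abs h j
  have := qv_le_one h hi hl
  unfold dot2
  rw [← e1, ← e2, ← f1, ← f2] at this
  refine le_trans ?_ this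
  set u := cycN a b m j
  set v := vert (cycN a b m) (fun _ => 1) k
  have h1 : u.1 * v.1 ≤ |u.1| * |v.1| := by
    rw [← abs_mul]
    exact le_abs_self _
  have h2 : u.2 * v.2 ≤ |u.2| * |v.2| := by
    rw [← abs_mul]
    exact le_abs_self _
  linarith

/-- The sum of the weights of a chain. -/
noncomputable def Stot (a b : ℕ → ℝ) (m : ℕ) : ℝ :=
  wL a b + ∑ i ∈ range m, wIn a b i + wR a b m

lemma Sq_one (a b : ℕ → ℝ) (m : ℕ) : Sq a b m (fun _ => 1) = Stot a b m := by
  unfold Sq Wt Edge Stot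
  simp

/-- The lower bound for the area of the model polygon. -/
theorem area_model_ge (h : IsChain m a b) :
    ENNReal.ofReal (2 * Stot a b m) ≤
      volume {z : ℝ × ℝ | ∀ i, i ≤ m + 1 → a i * |z.1| + b i * |z.2| ≤ 1} := by
  have hf := cycN_fan h
  have hin := cyc_in h
  have hs := cyc_sum_eq h (fun _ => 1) (fun _ => 1) (fun _ => 1) (fun _ => 1) (fun _ => 1)
    (fun _ => rfl) (fun _ _ => rfl) (fun _ _ => rfl) (fun _ _ => rfl) (fun _ _ => rfl)
  have hdet : ∀ k, 0 ≤ det2 (vert (cycN a b m) (fun _ => 1) k) (vert (cycN a b m) (fun _ => 1) (k + 1)) := by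
    intro k
    apply det_vert_nonneg hf (fun _ => 1) (fun _ => zero_le_one)
    intro k
    simp only [mul_one]
    have h1 := three_vectors (cycN a b m k) (cycN a b m (k + 1)) (cycN a b m (k + 2))
      (vert (cycN a b m) (fun _ => 1) k)
    have h2 : dot2 (cycN a b m (k + 1)) (vert (cycN a b m) (fun _ => 1) k) = 1 :=
      dot_vert_right (h := fun _ => 1) hf k
    have h3 := hin k k
    have h4 := hin (k + 2) k
    rw [h2, mul_one] at h1
    rw [h1]
    have h5 := hf.det_pos k
    have h6 := hf.det_pos (k + 1)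
    nlinarith [mul_le_mul_of_nonneg_left h3 h6.le, mul_le_mul_of_nonneg_left h4 h5.le]
  have hA := area_ge_of_fan hf hdet hin (fun j k hj hk e => cycN_inj h hj hk e)
  rw [hs] at hA
  simp only [Sq_one] at hA
  have e : (Stot a b m + Stot a b m + Stot a b m + Stot a b m) / 2 = 2 * Stot a b m := by ring
  rw [e] at hA
  refine hA.trans (measure_mono ?_)
  intro z hz i hi
  have h1 : dot2 (cycN a b m i) z ≤ 1 := hz i
  have h2 := hz (m + 1 + (m + 1 - i))
  have h3 := hz (2 * (m + 1) + i)
  have h4 := hz (3 * (m + 1) + (m + 1 - i))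
  rw [cycN_1 h (by omega), show m + 1 - (m + 1 - i) = i by omega] at h2
  rw [cycN_2 h (by omega)] at h3
  rw [cycN_3 h (by omega), show m + 1 - (m + 1 - i) = i by omega] at h4
  rw [cycN_0 h hi] at h1
  unfold dot2 at h1 h2 h3 h4
  simp only at h1 h2 h3 h4
  rcases abs_cases z.1 with ⟨e1, s1⟩ | ⟨e1, s1⟩ <;> rcases abs_cases z.2 with ⟨e2, s2⟩ | ⟨e2, s2⟩ <;>
    rw [e1, e2] <;> linarith

/-- The planar comparison for a chain: a compact set containing a neighbourhood of the origin and
with controlled products of widths has area at most that of the model polygon. -/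
theorem pc_chain (h : IsChain m a b) {E : Set (ℝ × ℝ)} (hE : IsCompact E) {ε : ℝ} (hε : 0 < ε)
    (hball : ∀ z : ℝ × ℝ, |z.1| ≤ ε → |z.2| ≤ ε → z ∈ E)
    (hL : 0 < wL a b → (supp E (a 0, b 0) + supp E (- a 0, - b 0)) *
      (supp E (- a 0, b 0) + supp E (a 0, - b 0)) ≤ 4)
    (hI : ∀ i, i < m → 0 < wIn a b i → (supp E (a (i + 1), b (i + 1)) + supp E (- a (i + 1), - b (i + 1))) *
      (supp E (- a (i + 1), b (i + 1)) + supp E (a (i + 1), - b (i + 1))) ≤ 4)
    (hR : 0 < wR a b m → (supp E (a (m + 1), b (m + 1)) + supp E (- a (m + 1), - b (m + 1))) *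
      (supp E (- a (m + 1), b (m + 1)) + supp E (a (m + 1), - b (m + 1))) ≤ 4) :
    volume E ≤ volume {z : ℝ × ℝ | ∀ i, i ≤ m + 1 → a i * |z.1| + b i * |z.2| ≤ 1} := by
  have hf := cycN_fan h
  set n := cycN a b m with hn
  set hh : ℕ → ℝ := fun k => supp E (n k) with hhdef
  have hne : E.Nonempty := ⟨0, hball 0 (by simpa using hε.le) (by simpa using hε.le)⟩
  have hn0 : ∀ k, n k ≠ 0 := by
    intro k h0
    have := hf.det_pos k
    rw [h0] at this
    unfold det2 at this
    simp at this
  have hpos : ∀ k, 0 < hh k := fun k => supp_pos hE hε hball (hn0 k)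
  have hper : ∀ k, hh (k + 4 * (m + 1)) = hh k := fun k => by
    simp only [hhdef]
    rw [hf.periodic]
  have hsub : ∀ k, det2 (n k) (n (k + 2)) * hh (k + 1) ≤
      det2 (n (k + 1)) (n (k + 2)) * hh k + det2 (n k) (n (k + 1)) * hh (k + 2) := by
    intro k
    obtain ⟨z, hz, e⟩ := supp_attained hE hne (n (k + 1))
    simp only [hhdef]
    rw [← e, three_vectors]
    have h1 := le_supp hE (n k) hz
    have h2 := le_supp hE (n (k + 2)) hz
    have h5 := hf.det_pos k
    have h6 := hf.det_pos (k + 1)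
    nlinarith [mul_le_mul_of_nonneg_left h1 h6.le, mul_le_mul_of_nonneg_left h2 h5.le]
  have hdet := det_vert_nonneg hf hh (fun k => (hpos k).le) hsub
  set x : ℕ → ℝ := fun i => supp E (a i, b i) with hx
  set y : ℕ → ℝ := fun i => supp E (- a i, b i) with hy
  set z : ℕ → ℝ := fun i => supp E (- a i, - b i) with hz
  set w : ℕ → ℝ := fun i => supp E (a i, - b i) with hw
  have hs := cyc_sum_eq h hh x y z w hper
    (fun i hi => by simp only [hhdef, hx]; rw [hn, cycN_0 h hi])
    (fun i hi => by simp only [hhdef, hy]; rw [hn, cycN_1 h hi])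
    (fun i hi => by simp only [hhdef, hz]; rw [hn, cycN_2 h hi])
    (fun i hi => by simp only [hhdef, hw]; rw [hn, cycN_3 h hi])
  have hq := quad_main h x y z w (by simp only [hx, hw]; rw [h.b0]; simp)
    (by simp only [hy, hz]; rw [h.b0]; simp) (by simp only [hx, hy]; rw [h.aM]; simp)
    (by simp only [hz, hw]; rw [h.aM]; simp) (fun hp => by simpa [hx, hy, hz, hw] using hL hp)
    (fun i hi hp => by simpa [hx, hy, hz, hw] using hI i hi hp)
    (fun hp => by simpa [hx, hy, hz, hw] using hR hp)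
  have hA := area_le_of_fan hf hper hpos hdet (E := E) (fun u hu k => le_supp hE (n k) hu)
  rw [hs] at hA
  refine hA.trans (le_trans ?_ (area_model_ge h))
  apply ENNReal.ofReal_le_ofReal
  unfold Stot
  linarith

end PCChain

end Vale.Agent.Lib.P227
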