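import Mathlib
import Vale.Agent.Lib.P227.PC

/-!
# Planar comparison for a general fan of normals
-/

open MeasureTheory Set Finset Filter Topology
open scoped ENNReal

namespace Vale.Agent.Lib.P227

/-- A fan of normals in the closed first quadrant, from the first axis to the second axis. -/
structure PFan (m : ℕ) (α β : ℕ → ℝ) : Prop where
  α_nonneg : ∀ i, i ≤ m + 1 → 0 ≤ α i
  β_nonneg : ∀ i, i ≤ m + 1 → 0 ≤ β i
  β0 : β 0 = 0
  αM : α (m + 1) = 0
  det_pos : ∀ i, i ≤ m → 0 < α i * β (i + 1) - α (i + 1) * β i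

namespace PFan

variable {m : ℕ} {α β : ℕ → ℝ}

lemma α_pos (h : PFan m α β) {i : ℕ} (hi : i ≤ m) : 0 < α i := by
  have h1 := h.det_pos i hi
  have h2 := h.α_nonneg (i + 1) (by omega)
  have h3 := h.β_nonneg i (by omega)
  have h4 := h.α_nonneg i (by omega)
  rcases h4.eq_or_lt with h5 | h5
  · rw [← h5] at h1
    nlinarith [mul_nonneg h2 h3]
  · exact h5

lemma β_pos (h : PFan m α β) {i : ℕ} (hi : i ≤ m) : 0 < β (i + 1) := by
  have h1 := h.det_pos i hi
  have h2 := h.α_nonneg (i + 1) (by omega)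
  have h3 := h.β_nonneg i (by omega)
  have h4 := h.β_nonneg (i + 1) (by omega)
  rcases h4.eq_or_lt with h5 | h5
  · rw [← h5] at h1
    nlinarith [mul_nonneg h2 h3]
  · exact h5

lemma sum_pos (h : PFan m α β) {i : ℕ} (hi : i ≤ m + 1) : 0 < α i + β i := by
  rcases (by omega : i ≤ m ∨ i = m + 1) with h1 | rfl
  · have := h.α_pos h1
    have := h.β_nonneg i hi
    linarith
  · have := h.β_pos (i := m) le_rfl
    have := h.α_nonneg (m + 1) hi
    linarith

end PFan

/-- The polygon of a fan with prescribed support numbers. -/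
def DF (m : ℕ) (α β d : ℕ → ℝ) : Set (ℝ × ℝ) :=
  {z | ∀ i, i ≤ m + 1 → α i * |z.1| + β i * |z.2| ≤ d i}

/-- The chain conditions from contact points. -/
theorem chain_of_contact {m : ℕ} {a b : ℕ → ℝ} (h : PFan m a b)
    (hc : ∀ i, i ≤ m + 1 → ∃ p₁ p₂ : ℝ, 0 ≤ p₁ ∧ 0 ≤ p₂ ∧ a i * p₁ + b i * p₂ = 1 ∧
      ∀ j, j ≤ m + 1 → a j * p₁ + b j * p₂ ≤ 1) : IsChain m a b := by
  refine ⟨h.α_nonneg, h.β_nonneg, h.β0, h.αM, h.det_pos, ?_, ?_, ?_⟩
  · intro i hi
    by_contra hcon
    push Not at hcon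
    obtain ⟨p₁, p₂, h1, h2, e, hle⟩ := hc i (by omega)
    have hai := h.α_pos hi
    have hd := h.det_pos i hi
    have hbi := h.β_nonneg i (by omega)
    have hb' : b i < b (i + 1) := by
      by_contra hcon'
      push Not at hcon'
      nlinarith [mul_le_mul_of_nonneg_left hcon' hai.le, mul_le_mul_of_nonneg_right hcon.le hbi]
    have h3 := hle (i + 1) (by omega)
    have h4 : (a (i + 1) - a i) * p₁ + (b (i + 1) - b i) * p₂ ≤ 0 := by linarith
    have h5 : p₁ = 0 := by
      by_contra hne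
      have : 0 < p₁ := lt_of_le_of_ne h1 (Ne.symm hne)
      nlinarith [mul_pos (sub_pos.2 hcon) this, mul_nonneg (sub_pos.2 hb').le h2]
    have h6 : p₂ = 0 := by
      by_contra hne
      have : 0 < p₂ := lt_of_le_of_ne h2 (Ne.symm hne)
      nlinarith [mul_pos (sub_pos.2 hb') this, mul_nonneg (sub_pos.2 hcon).le h1]
    rw [h5, h6] at e
    norm_num at e
  · intro i hi
    by_contra hcon
    push Not at hcon
    obtain ⟨p₁, p₂, h1, h2, e, hle⟩ := hc (i + 1) (by omega)
    have hbi := h.β_pos hi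
    have hd := h.det_pos i hi
    have ha1 := h.α_nonneg (i + 1) (by omega)
    have ha' : a (i + 1) < a i := by
      by_contra hcon'
      push Not at hcon'
      nlinarith [mul_le_mul_of_nonneg_right hcon' hbi.le, mul_le_mul_of_nonneg_left hcon.le ha1]
    have h3 := hle i (by omega)
    have h4 : (a i - a (i + 1)) * p₁ + (b i - b (i + 1)) * p₂ ≤ 0 := by linarith
    have h5 : p₁ = 0 := by
      by_contra hne
      have : 0 < p₁ := lt_of_le_of_ne h1 (Ne.symm hne)
      nlinarith [mul_pos (sub_pos.2 ha') this, mul_nonneg (sub_pos.2 hcon).le h2]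
    have h6 : p₂ = 0 := by
      by_contra hne
      have : 0 < p₂ := lt_of_le_of_ne h2 (Ne.symm hne)
      nlinarith [mul_pos (sub_pos.2 hcon) this, mul_nonneg (sub_pos.2 ha').le h1]
    rw [h5, h6] at e
    norm_num at e
  · intro i hi
    obtain ⟨p₁, p₂, h1, h2, e, hle⟩ := hc (i + 1) (by omega)
    have h3 := hle i (by omega)
    have h4 := hle (i + 2) (by omega)
    have hd1 := h.det_pos i (by omega)
    have hd2 := h.det_pos (i + 1) (by omega)
    have key := three_vectors (a i, b i) (a (i + 1), b (i + 1)) (a (i + 2), b (i + 2)) (p₁, p₂)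
    unfold det2 dot2 at key
    simp only at key
    rw [e, mul_one] at key
    unfold Zt Dt
    have e1 := mul_le_mul_of_nonneg_left h3 hd2.le
    have e2 := mul_le_mul_of_nonneg_left h4 hd1.le
    simp only [show i + 1 + 1 = i + 2 by ring] at *
    nlinarith

/-- A finite number of strict inequalities survive a small positive shift. -/
lemma exists_shift {α β d : ℕ → ℝ} {M : ℕ} {z₁ z₂ : ℝ}
    (h : ∀ i, i ≤ M → α i * z₁ + β i * z₂ < d i) :
    ∃ t : ℝ, 0 < t ∧ ∀ i, i ≤ M → α i * (z₁ + t) + β i * (z₂ + t) ≤ d i := by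
  have hev : ∀ᶠ t in 𝓝[>] (0:ℝ), ∀ i ∈ Finset.range (M + 1),
      α i * (z₁ + t) + β i * (z₂ + t) ≤ d i := by
    rw [Filter.eventually_all_finset]
    intro i hi
    have hi' : i ≤ M := by simpa [Nat.lt_succ_iff] using hi
    have hc : Continuous fun t : ℝ => α i * (z₁ + t) + β i * (z₂ + t) := by fun_prop
    have h0 : (fun t : ℝ => α i * (z₁ + t) + β i * (z₂ + t)) 0 < d i := by
      simpa using h i hi'
    exact (((hc.tendsto 0).eventually (gt_mem_nhds h0)).filter_mono nhdsWithin_le_nhds).mono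
      fun _ ht => le_of_lt ht
  obtain ⟨t, ht, ht0⟩ := (hev.and self_mem_nhdsWithin).exists
  exact ⟨t, ht0, fun i hi => ht i (by simp; omega)⟩

section Model

variable {m : ℕ} {α β d : ℕ → ℝ}

lemma isCompact_DF (h : PFan m α β) : IsCompact (DF m α β d) := by
  apply Metric.isCompact_of_isClosed_isBounded
  · have : DF m α β d = ⋂ i ∈ Finset.range (m + 2), {z : ℝ × ℝ | α i * |z.1| + β i * |z.2| ≤ d i} := by
      ext z
      simp only [DF, Set.mem_ofPred_eq, Set.mem_iInter, Finset.mem_range]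
      exact ⟨fun hz i hi => hz i (by omega), fun hz i hi => hz i (by omega)⟩
    rw [this]
    apply isClosed_biInter
    intro i _
    apply isClosed_le _ continuous_const
    fun_prop
  · have h0 := h.α_pos (i := 0) (by omega)
    have hM := h.β_pos (i := m) le_rfl
    set R₁ := d 0 / α 0 with hR₁
    set R₂ := d (m + 1) / β (m + 1) with hR₂
    apply (Metric.isBounded_Icc ((-R₁, -R₂) : ℝ × ℝ) ((R₁, R₂) : ℝ × ℝ)).subset
    intro z hz
    have h1 := hz 0 (by omega)
    have h2 := hz (m + 1) le_rfl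
    rw [h.β0, zero_mul, add_zero] at h1
    rw [h.αM, zero_mul, zero_add] at h2
    have h3 : |z.1| ≤ R₁ := by
      rw [hR₁, le_div_iff₀ h0]
      linarith
    have h4 : |z.2| ≤ R₂ := by
      rw [hR₂, le_div_iff₀ hM]
      linarith
    exact ⟨⟨(abs_le.1 h3).1, (abs_le.1 h4).1⟩, ⟨(abs_le.1 h3).2, (abs_le.1 h4).2⟩⟩

lemma exists_ball_DF (h : PFan m α β) (hd : ∀ i, i ≤ m + 1 → 0 < d i) :
    ∃ ε : ℝ, 0 < ε ∧ ∀ z : ℝ × ℝ, |z.1| ≤ ε → |z.2| ≤ ε → z ∈ DF m α β d := by
  have h0 : ∀ i, i ≤ m + 1 → α i * 0 + β i * 0 < d i := fun i hi => by simpa using hd i hi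
  obtain ⟨t, ht0, ht⟩ := exists_shift h0
  refine ⟨t, ht0, fun z h1 h2 i hi => ?_⟩
  have h3 := ht i hi
  simp only [zero_add] at h3
  have h4 := mul_le_mul_of_nonneg_left h1 (h.α_nonneg i hi)
  have h5 := mul_le_mul_of_nonneg_left h2 (h.β_nonneg i hi)
  linarith

lemma abs_mem_DF {z : ℝ × ℝ} (hz : z ∈ DF m α β d) : ((|z.1|, |z.2|) : ℝ × ℝ) ∈ DF m α β d := by
  intro i hi
  simp only [abs_abs]
  exact hz i hi

/-- The support number of the polygon at a normal of the fan. -/
noncomputable def cF (m : ℕ) (α β d : ℕ → ℝ) (i : ℕ) : ℝ := supp (DF m α β d) (α i, β i)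

lemma le_cF (h : PFan m α β) {z : ℝ × ℝ} (hz : z ∈ DF m α β d) (i : ℕ) :
    α i * |z.1| + β i * |z.2| ≤ cF m α β d i :=
  le_supp (isCompact_DF h) (α i, β i) (abs_mem_DF hz)

lemma cF_pos (h : PFan m α β) (hd : ∀ i, i ≤ m + 1 → 0 < d i) {i : ℕ} (hi : i ≤ m + 1) :
    0 < cF m α β d i := by
  obtain ⟨ε, hε, hball⟩ := exists_ball_DF h hd
  apply supp_pos (isCompact_DF h) hε hball
  intro h0
  have h1 : α i = 0 := congrArg Prod.fst h0
  have h2 : β i = 0 := congrArg Prod.snd h0
  have := h.sum_pos hi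
  rw [h1, h2] at this
  simp at this

lemma exists_contact (h : PFan m α β) (hd : ∀ i, i ≤ m + 1 → 0 < d i) {i : ℕ} (hi : i ≤ m + 1) :
    ∃ z ∈ DF m α β d, 0 ≤ z.1 ∧ 0 ≤ z.2 ∧ α i * z.1 + β i * z.2 = cF m α β d i := by
  obtain ⟨ε, hε, hball⟩ := exists_ball_DF h hd
  have hne : (DF m α β d).Nonempty := ⟨0, hball 0 (by simpa using hε.le) (by simpa using hε.le)⟩
  obtain ⟨z, hz, e⟩ := supp_attained (isCompact_DF h) hne (α i, β i)
  refine ⟨(|z.1|, |z.2|), abs_mem_DF hz, abs_nonneg _, abs_nonneg _, ?_⟩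
  apply le_antisymm (le_cF h hz i)
  unfold cF
  rw [← e]
  unfold dot2
  simp only
  have h1 := mul_le_mul_of_nonneg_left (le_abs_self z.1) (h.α_nonneg i hi)
  have h2 := mul_le_mul_of_nonneg_left (le_abs_self z.2) (h.β_nonneg i hi)
  linarith

lemma cF_le (h : PFan m α β) (hd : ∀ i, i ≤ m + 1 → 0 < d i) {i : ℕ} (hi : i ≤ m + 1) :
    cF m α β d i ≤ d i := by
  obtain ⟨z, hz, h1, h2, e⟩ := exists_contact h hd hi
  rw [← e]
  have := hz i hi
  rwa [abs_of_nonneg h1, abs_of_nonneg h2] at this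

/-- The chain of polar points attached to the polygon. -/
theorem chain_of_DF (h : PFan m α β) (hd : ∀ i, i ≤ m + 1 → 0 < d i) :
    IsChain m (fun i => α i / cF m α β d i) (fun i => β i / cF m α β d i) := by
  set c := cF m α β d with hc
  have hcp : ∀ i, i ≤ m + 1 → 0 < c i := fun i hi => cF_pos h hd hi
  have hF : PFan m (fun i => α i / c i) (fun i => β i / c i) := by
    refine ⟨fun i hi => div_nonneg (h.α_nonneg i hi) (hcp i hi).le,
      fun i hi => div_nonneg (h.β_nonneg i hi) (hcp i hi).le, ?_, ?_, ?_⟩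
    · simp only [h.β0, zero_div]
    · simp only [h.αM, zero_div]
    · intro i hi
      have h1 := hcp i (by omega)
      have h2 := hcp (i + 1) (by omega)
      have h3 := h.det_pos i hi
      have e : α i / c i * (β (i + 1) / c (i + 1)) - α (i + 1) / c (i + 1) * (β i / c i) =
          (α i * β (i + 1) - α (i + 1) * β i) / (c i * c (i + 1)) := by
        field_simp
      rw [e]
      positivity
  apply chain_of_contact hF
  intro i hi
  obtain ⟨z, hz, h1, h2, e⟩ := exists_contact h hd hi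
  refine ⟨z.1, z.2, h1, h2, ?_, ?_⟩
  · have := hcp i hi
    have e2 : α i / c i * z.1 + β i / c i * z.2 = (α i * z.1 + β i * z.2) / c i := by ring
    rw [e2, e]
    exact div_self this.ne'
  · intro j hj
    have := hcp j hj
    have e2 : α j / c j * z.1 + β j / c j * z.2 = (α j * z.1 + β j * z.2) / c j := by ring
    rw [e2, div_le_one this]
    have h3 := le_cF h hz j
    rwa [abs_of_nonneg h1, abs_of_nonneg h2] at h3

lemma DF_eq_model (h : PFan m α β) (hd : ∀ i, i ≤ m + 1 → 0 < d i) :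
    {z : ℝ × ℝ | ∀ i, i ≤ m + 1 → α i / cF m α β d i * |z.1| + β i / cF m α β d i * |z.2| ≤ 1} =
      DF m α β d := by
  ext z
  constructor
  · intro hz i hi
    have h1 := hz i hi
    have hc := cF_pos h hd hi
    have e : α i / cF m α β d i * |z.1| + β i / cF m α β d i * |z.2| =
        (α i * |z.1| + β i * |z.2|) / cF m α β d i := by ring
    rw [e, div_le_one hc] at h1
    exact h1.trans (cF_le h hd hi)
  · intro hz i hi
    have hc := cF_pos h hd hi
    have e : α i / cF m α β d i * |z.1| + β i / cF m α β d i * |z.2| =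
        (α i * |z.1| + β i * |z.2|) / cF m α β d i := by ring
    rw [e, div_le_one hc]
    exact le_cF h hz i

/-- A slack point forces the corresponding support number to equal the prescribed number. -/
lemma tight_of_slack (h : PFan m α β) (hd : ∀ i, i ≤ m + 1 → 0 < d i) {i₀ : ℕ} (hi₀ : i₀ ≤ m + 1)
    {z : ℝ × ℝ} (h1 : 0 ≤ z.1) (h2 : 0 ≤ z.2)
    (e : α i₀ / cF m α β d i₀ * z.1 + β i₀ / cF m α β d i₀ * z.2 = 1)
    (hs : ∀ j, j ≤ m + 1 → j ≠ i₀ → α j / cF m α β d j * z.1 + β j / cF m α β d j * z.2 < 1) :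
    cF m α β d i₀ = d i₀ := by
  apply le_antisymm (cF_le h hd hi₀)
  by_contra hcon
  push Not at hcon
  have hval : α i₀ * z.1 + β i₀ * z.2 = cF m α β d i₀ := by
    have hc := cF_pos h hd hi₀
    have e2 : α i₀ / cF m α β d i₀ * z.1 + β i₀ / cF m α β d i₀ * z.2 =
        (α i₀ * z.1 + β i₀ * z.2) / cF m α β d i₀ := by ring
    rw [e2, div_eq_one_iff_eq hc.ne'] at e
    exact e
  have hlt : ∀ j, j ≤ m + 1 → α j * z.1 + β j * z.2 < d j := by
    intro j hj
    by_cases hji : j = i₀
    · rw [hji, hval]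
      exact hcon
    · have hc := cF_pos h hd hj
      have h3 := hs j hj hji
      have e2 : α j / cF m α β d j * z.1 + β j / cF m α β d j * z.2 =
          (α j * z.1 + β j * z.2) / cF m α β d j := by ring
      rw [e2, div_lt_one hc] at h3
      exact h3.trans_le (cF_le h hd hj)
  obtain ⟨t, ht0, ht⟩ := exists_shift hlt
  have hmem : ((z.1 + t, z.2 + t) : ℝ × ℝ) ∈ DF m α β d := by
    intro i hi
    simp only
    rw [abs_of_nonneg (by linarith), abs_of_nonneg (by linarith)]
    exact ht i hi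
  have h3 := le_cF h hmem i₀
  simp only at h3
  rw [abs_of_nonneg (by linarith), abs_of_nonneg (by linarith)] at h3
  have h4 := h.sum_pos hi₀
  have h5 : α i₀ * (z.1 + t) + β i₀ * (z.2 + t) = cF m α β d i₀ + t * (α i₀ + β i₀) := by
    rw [← hval]
    ring
  rw [h5] at h3
  have := mul_pos ht0 h4
  linarith

end Model

section PCFan

variable {m : ℕ} {α β d x y : ℕ → ℝ}

/-- The planar comparison theorem for a fan with prescribed support numbers. -/
theorem pc_fan (h : PFan m α β) (hd : ∀ i, i ≤ m + 1 → 0 ≤ d i) {E : Set (ℝ × ℝ)} (hE : IsCompact E)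
    (hconv : Convex ℝ E)
    (hx : ∀ i, i ≤ m + 1 → ∀ z ∈ E, ∀ z' ∈ E, α i * (z.1 - z'.1) + β i * (z.2 - z'.2) ≤ 2 * x i)
    (hy : ∀ i, i ≤ m + 1 → ∀ z ∈ E, ∀ z' ∈ E, α i * (z.1 - z'.1) - β i * (z.2 - z'.2) ≤ 2 * y i)
    (hxy : ∀ i, i ≤ m + 1 → x i * y i ≤ d i ^ 2) :
    volume E ≤ volume (DF m α β d) := by
  by_cases hint : (interior E).Nonempty
  swap
  · have hF := hconv.addHaar_frontier (volume : Measure (ℝ × ℝ))
    rw [frontier, hE.isClosed.closure_eq, Set.not_nonempty_iff_eq_empty.1 hint, Set.sdiff_empty] at hF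
    rw [hF]
    exact zero_le
  obtain ⟨z₀, hz₀⟩ := hint
  obtain ⟨r, hr, hball₀⟩ := Metric.isOpen_iff.1 isOpen_interior z₀ hz₀
  set ε := r / 2 with hε
  have hεpos : 0 < ε := by positivity
  have hballE : ∀ z : ℝ × ℝ, |z.1| ≤ ε → |z.2| ≤ ε → z + z₀ ∈ E := by
    intro z h1 h2
    apply interior_subset
    apply hball₀
    rw [Metric.mem_ball, Prod.dist_eq, max_lt_iff]
    simp only [Prod.fst_add, Prod.snd_add, Real.dist_eq, add_sub_cancel_right]
    constructor <;> linarith
  -- positivity of the widths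
  have hxpos : ∀ i, i ≤ m + 1 → 0 < x i := by
    intro i hi
    have h1 := hx i hi _ (hballE (ε, ε) (by simp [abs_of_pos hεpos]) (by simp [abs_of_pos hεpos]))
      _ (hballE (-ε, -ε) (by simp [abs_of_pos hεpos]) (by simp [abs_of_pos hεpos]))
    simp only [Prod.fst_add, Prod.snd_add] at h1
    have h2 := h.sum_pos hi
    have h3 := mul_pos h2 hεpos
    nlinarith
  have hypos : ∀ i, i ≤ m + 1 → 0 < y i := by
    intro i hi
    have h1 := hy i hi _ (hballE (ε, -ε) (by simp [abs_of_pos hεpos]) (by simp [abs_of_pos hεpos]))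
      _ (hballE (-ε, ε) (by simp [abs_of_pos hεpos]) (by simp [abs_of_pos hεpos]))
    simp only [Prod.fst_add, Prod.snd_add] at h1
    have h2 := h.sum_pos hi
    have h3 := mul_pos h2 hεpos
    nlinarith
  have hdpos : ∀ i, i ≤ m + 1 → 0 < d i := by
    intro i hi
    rcases (hd i hi).eq_or_lt with h0 | h0
    · have h1 := hxy i hi
      rw [← h0] at h1
      have := mul_pos (hxpos i hi) (hypos i hi)
      nlinarith
    · exact h0
  set c := cF m α β d with hc
  set a : ℕ → ℝ := fun i => α i / c i with ha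
  set b : ℕ → ℝ := fun i => β i / c i with hb
  have hchain : IsChain m a b := chain_of_DF h hdpos
  set E' : Set (ℝ × ℝ) := (fun z => z + z₀) ⁻¹' E with hE'
  have hE'c : IsCompact E' := (Homeomorph.addRight z₀).isCompact_preimage.2 hE
  have hvol : volume E' = volume E := measure_preimage_add_right _ _ _
  have hball' : ∀ z : ℝ × ℝ, |z.1| ≤ ε → |z.2| ≤ ε → z ∈ E' := hballE
  have hne : E'.Nonempty := ⟨0, hball' 0 (by simpa using hεpos.le) (by simpa using hεpos.le)⟩
  -- the two products of widths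
  have hcp : ∀ i, i ≤ m + 1 → 0 < c i := fun i hi => cF_pos h hdpos hi
  have hW : ∀ i, i ≤ m + 1 → c i = d i →
      (supp E' (a i, b i) + supp E' (- a i, - b i)) *
        (supp E' (- a i, b i) + supp E' (a i, - b i)) ≤ 4 := by
    intro i hi hci
    have hci' := hcp i hi
    have hnz : ∀ s₁ s₂ : ℝ, s₁ ^ 2 = 1 → s₂ ^ 2 = 1 → ((s₁ * a i, s₂ * b i) : ℝ × ℝ) ≠ 0 := by
      intro s₁ s₂ h1 h2 h0
      have e1 : s₁ * a i = 0 := congrArg Prod.fst h0
      have e2 : s₂ * b i = 0 := congrArg Prod.snd h0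
      have hs1 : s₁ ≠ 0 := fun h => by rw [h] at h1; norm_num at h1
      have hs2 : s₂ ≠ 0 := fun h => by rw [h] at h2; norm_num at h2
      have e3 : α i / c i = 0 := (mul_eq_zero.1 e1).resolve_left hs1
      have e4 : β i / c i = 0 := (mul_eq_zero.1 e2).resolve_left hs2
      have e5 : α i = 0 := by
        rcases div_eq_zero_iff.1 e3 with h | h
        · exact h
        · exact absurd h hci'.ne'
      have e6 : β i = 0 := by
        rcases div_eq_zero_iff.1 e4 with h | h
        · exact h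
        · exact absurd h hci'.ne'
      have := h.sum_pos hi
      rw [e5, e6] at this
      simp at this
    have hp1 : 0 < supp E' (a i, b i) := supp_pos hE'c hεpos hball' (by
      have := hnz 1 1 (by norm_num) (by norm_num); simpa using this)
    have hp2 : 0 < supp E' (- a i, - b i) := supp_pos hE'c hεpos hball' (by
      have := hnz (-1) (-1) (by norm_num) (by norm_num); simpa using this)
    have hp3 : 0 < supp E' (- a i, b i) := supp_pos hE'c hεpos hball' (by
      have := hnz (-1) 1 (by norm_num) (by norm_num); simpa using this)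
    have hp4 : 0 < supp E' (a i, - b i) := supp_pos hE'c hεpos hball' (by
      have := hnz 1 (-1) (by norm_num) (by norm_num); simpa using this)
    obtain ⟨u₁, hu₁, e₁⟩ := supp_attained hE'c hne (a i, b i)
    obtain ⟨u₂, hu₂, e₂⟩ := supp_attained hE'c hne (- a i, - b i)
    obtain ⟨u₃, hu₃, e₃⟩ := supp_attained hE'c hne (- a i, b i)
    obtain ⟨u₄, hu₄, e₄⟩ := supp_attained hE'c hne (a i, - b i)
    have b1 : supp E' (a i, b i) + supp E' (- a i, - b i) ≤ 2 * x i / c i := by
      have := hx i hi _ hu₁ _ hu₂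
      rw [← e₁, ← e₂]
      unfold dot2
      simp only [Prod.fst_add, Prod.snd_add] at this ⊢
      rw [le_div_iff₀ hci']
      have e : (a i * u₁.1 + b i * u₁.2 + (- a i * u₂.1 + - b i * u₂.2)) * c i =
          α i * (u₁.1 - u₂.1) + β i * (u₁.2 - u₂.2) := by
        simp only [ha, hb]
        field_simp
        ring
      rw [e]
      linarith
    have b2 : supp E' (- a i, b i) + supp E' (a i, - b i) ≤ 2 * y i / c i := by
      have := hy i hi _ hu₄ _ hu₃
      rw [← e₃, ← e₄]
      unfold dot2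
      simp only [Prod.fst_add, Prod.snd_add] at this ⊢
      rw [le_div_iff₀ hci']
      have e : (- a i * u₃.1 + b i * u₃.2 + (a i * u₄.1 + - b i * u₄.2)) * c i =
          α i * (u₄.1 - u₃.1) - β i * (u₄.2 - u₃.2) := by
        simp only [ha, hb]
        field_simp
        ring
      rw [e]
      linarith
    have hprod := mul_le_mul b1 b2 (by positivity) (div_nonneg (by linarith [hxpos i hi]) hci'.le)
    refine hprod.trans ?_
    have e : 2 * x i / c i * (2 * y i / c i) = 4 * (x i * y i) / c i ^ 2 := by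
      field_simp
      ring
    rw [e, div_le_iff₀ (by positivity), hci]
    have := hxy i hi
    nlinarith
  have hmain := pc_chain hchain hE'c hεpos hball'
    (fun hp => by
      obtain ⟨z, h1, h2, e, hs⟩ := exists_slack_left hchain hp
      exact hW 0 (by omega) (tight_of_slack h hdpos (by omega) h1 h2 e hs))
    (fun i hi hp => by
      obtain ⟨z, h1, h2, e, hs⟩ := exists_slack_interior hchain hi hp
      exact hW (i + 1) (by omega) (tight_of_slack h hdpos (by omega) h1 h2 e hs))
    (fun hp => by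
      obtain ⟨z, h1, h2, e, hs⟩ := exists_slack_right hchain hp
      exact hW (m + 1) le_rfl (tight_of_slack h hdpos le_rfl h1 h2 e hs))
  rw [hvol, show {z : ℝ × ℝ | ∀ i, i ≤ m + 1 → a i * |z.1| + b i * |z.2| ≤ 1} = DF m α β d from
    DF_eq_model h hdpos] at hmain
  exact hmain

end PCFan

end Vale.Agent.Lib.P227
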