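import Mathlib
import Vale.Agent.Lib.P227.PCFan

/-!
# Reduction of the volume of shapes to planar areas
-/

open MeasureTheory Set Finset Filter Topology
open scoped ENNReal

namespace Vale.Agent.Lib.P227

/-- The points `(ρ, τ)` of which all pairs of coordinates lie in a planar set. -/
def Sset (p q : ℕ) (P : Set (ℝ × ℝ)) : Set ((Fin p → ℝ) × (Fin q → ℝ)) :=
  {w | ∀ k l, (w.1 k, w.2 l) ∈ P}

/-- The volume of `Sset`. -/
noncomputable def Phi (p q : ℕ) (P : Set (ℝ × ℝ)) : ℝ≥0∞ := volume (Sset p q P)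

lemma measurableSet_Sset (p q : ℕ) {P : Set (ℝ × ℝ)} (hP : MeasurableSet P) :
    MeasurableSet (Sset p q P) := by
  have : Sset p q P = ⋂ k, ⋂ l, (fun w : (Fin p → ℝ) × (Fin q → ℝ) => (w.1 k, w.2 l)) ⁻¹' P := by
    ext w
    simp [Sset]
  rw [this]
  refine MeasurableSet.iInter fun k => MeasurableSet.iInter fun l => ?_
  apply hP.preimage
  exact ((measurable_pi_apply k).comp measurable_fst).prodMk
    ((measurable_pi_apply l).comp measurable_snd)

/-- A point with first coordinate `s` and with other coordinates `s + δ k`. -/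
noncomputable def Thet (n : ℕ) (s : ℝ) (δ : Fin n → ℝ) : Fin (n + 1) → ℝ :=
  (MeasurableEquiv.piFinSuccAbove (fun _ : Fin (n + 1) => ℝ) 0).symm (s, fun k => s + δ k)

lemma Thet_apply (n : ℕ) (s : ℝ) (δ : Fin n → ℝ) (k : Fin (n + 1)) :
    Thet n s δ k = s + Fin.cons (α := fun _ => ℝ) 0 δ k := by
  refine Fin.cases ?_ (fun k => ?_) k
  · simp [Thet, MeasurableEquiv.piFinSuccAbove]
  · simp [Thet, MeasurableEquiv.piFinSuccAbove]

lemma measurePreserving_Thet (n : ℕ) :
    MeasurePreserving (fun w : ℝ × (Fin n → ℝ) => Thet n w.1 w.2) (volume.prod volume) volume := by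
  have h1 := (volume_preserving_piFinSuccAbove (fun _ : Fin (n + 1) => ℝ) 0).symm
  have h2 : MeasurePreserving (fun w : ℝ × (Fin n → ℝ) => (id w.1, (fun k => w.1 + w.2 k)))
      (volume.prod volume) (volume.prod volume) := by
    refine (MeasurePreserving.id volume).skew_product (g := fun (s : ℝ) (δ : Fin n → ℝ) (k : Fin n) => s + δ k) ?_ ?_
    · refine measurable_pi_lambda _ fun k => ?_
      exact measurable_fst.add ((measurable_pi_apply k).comp measurable_snd)
    · refine Filter.Eventually.of_forall fun s => ?_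
      exact (measurePreserving_add_left (volume : Measure (Fin n → ℝ)) (fun _ => s)).map_eq
  exact h1.comp h2

lemma measurable_Thet (n : ℕ) : Measurable (fun w : ℝ × (Fin n → ℝ) => Thet n w.1 w.2) :=
  (measurePreserving_Thet n).measurable

/-- The disintegration of the volume along translations in the two diagonal directions. -/
theorem lintegral_shape (p q : ℕ) (F : (Fin (p + 1) → ℝ) × (Fin (q + 1) → ℝ) → ℝ≥0∞)
    (hF : Measurable F) :
    ∫⁻ w, F w = ∫⁻ δ : Fin p → ℝ, ∫⁻ ε : Fin q → ℝ, ∫⁻ s : ℝ, ∫⁻ t : ℝ,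
      F (Thet p s δ, Thet q t ε) := by
  have hmT := measurable_Thet q
  have hmS := measurable_Thet p
  rw [Measure.volume_eq_prod, lintegral_prod _ hF.aemeasurable]
  have step1 : ∀ ρ : Fin (p + 1) → ℝ, ∫⁻ τ, F (ρ, τ) =
      ∫⁻ ε : Fin q → ℝ, ∫⁻ t : ℝ, F (ρ, Thet q t ε) := by
    intro ρ
    have hm : Measurable fun τ => F (ρ, τ) := hF.comp measurable_prodMk_left
    rw [← (measurePreserving_Thet q).lintegral_comp hm, lintegral_prod_symm]
    exact (hm.comp hmT).aemeasurable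
  simp_rw [step1]
  have hG : Measurable fun ρ : Fin (p + 1) → ℝ =>
      ∫⁻ ε : Fin q → ℝ, ∫⁻ t : ℝ, F (ρ, Thet q t ε) := by
    have h0 : Measurable fun z : ((Fin (p + 1) → ℝ) × (Fin q → ℝ)) × ℝ =>
        F (z.1.1, Thet q z.2 z.1.2) := by
      apply hF.comp
      exact (measurable_fst.comp measurable_fst).prodMk (hmT.comp (measurable_snd.prodMk
        (measurable_snd.comp measurable_fst)))
    exact (h0.lintegral_prod_right').lintegral_prod_right'
  rw [← (measurePreserving_Thet p).lintegral_comp hG, lintegral_prod_symm]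
  · apply lintegral_congr
    intro δ
    rw [lintegral_lintegral_swap]
    have h0 : Measurable fun z : ℝ × (Fin q → ℝ) × ℝ => F (Thet p z.1 δ, Thet q z.2.2 z.2.1) := by
      apply hF.comp
      refine (hmS.comp (measurable_fst.prodMk measurable_const)).prodMk ?_
      exact hmT.comp ((measurable_snd.comp measurable_snd).prodMk (measurable_fst.comp measurable_snd))
    have : Measurable (Function.uncurry fun (s : ℝ) (ε : Fin q → ℝ) =>
        ∫⁻ t : ℝ, F (Thet p s δ, Thet q t ε)) := by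
      have h1 : Measurable fun z : (ℝ × (Fin q → ℝ)) × ℝ => F (Thet p z.1.1 δ, Thet q z.2 z.1.2) := by
        apply hF.comp
        refine (hmS.comp ((measurable_fst.comp measurable_fst).prodMk measurable_const)).prodMk ?_
        exact hmT.comp (measurable_snd.prodMk (measurable_snd.comp measurable_fst))
      exact h1.lintegral_prod_right'
    exact this.aemeasurable
  · exact (hG.comp hmS).aemeasurable

/-- The planar section of the set of all `(ρ, τ)` along a shape. -/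
def Eset {p q : ℕ} (P : Set (ℝ × ℝ)) (δ : Fin p → ℝ) (ε : Fin q → ℝ) : Set (ℝ × ℝ) :=
  {z | ∀ k l, (z.1 + δ k, z.2 + ε l) ∈ P}

lemma mem_Sset_Thet {p q : ℕ} (P : Set (ℝ × ℝ)) (δ : Fin p → ℝ) (ε : Fin q → ℝ) (s t : ℝ) :
    (Thet p s δ, Thet q t ε) ∈ Sset (p + 1) (q + 1) P ↔
      ((s, t) : ℝ × ℝ) ∈ Eset P (Fin.cons (α := fun _ => ℝ) 0 δ) (Fin.cons (α := fun _ => ℝ) 0 ε) := by
  simp only [Sset, Eset, Set.mem_ofPred_eq, Thet_apply]

lemma measurableSet_Eset {p q : ℕ} {P : Set (ℝ × ℝ)} (hP : MeasurableSet P) (δ : Fin p → ℝ)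
    (ε : Fin q → ℝ) : MeasurableSet (Eset P δ ε) := by
  have : Eset P δ ε = ⋂ k, ⋂ l, (fun z : ℝ × ℝ => (z.1 + δ k, z.2 + ε l)) ⁻¹' P := by
    ext z
    simp [Eset]
  rw [this]
  refine MeasurableSet.iInter fun k => MeasurableSet.iInter fun l => ?_
  apply hP.preimage
  exact (measurable_fst.add_const _).prodMk (measurable_snd.add_const _)

/-- The volume of `Sset` as an integral of planar areas. -/
theorem Phi_eq (p q : ℕ) {P : Set (ℝ × ℝ)} (hP : MeasurableSet P) :
    Phi (p + 1) (q + 1) P = ∫⁻ δ : Fin p → ℝ, ∫⁻ ε : Fin q → ℝ,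
      volume (Eset P (Fin.cons (α := fun _ => ℝ) 0 δ) (Fin.cons (α := fun _ => ℝ) 0 ε)) := by
  have hS := measurableSet_Sset (p + 1) (q + 1) hP
  unfold Phi
  rw [← lintegral_indicator_one hS, lintegral_shape p q _ (measurable_one.indicator hS)]
  apply lintegral_congr
  intro δ
  apply lintegral_congr
  intro ε
  have hE := measurableSet_Eset hP (Fin.cons (α := fun _ => ℝ) 0 δ) (Fin.cons (α := fun _ => ℝ) 0 ε)
  rw [Measure.volume_eq_prod, Measure.prod_apply hE]
  apply lintegral_congr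
  intro s
  rw [← lintegral_indicator_one (measurable_prodMk_left hE)]
  apply lintegral_congr
  intro t
  by_cases h : ((s, t) : ℝ × ℝ) ∈ Eset P (Fin.cons (α := fun _ => ℝ) 0 δ) (Fin.cons (α := fun _ => ℝ) 0 ε)
  · rw [Set.indicator_of_mem ((mem_Sset_Thet P δ ε s t).2 h), Set.indicator_of_mem (by exact h)]
    rfl
  · rw [Set.indicator_of_notMem (fun h' => h ((mem_Sset_Thet P δ ε s t).1 h')),
      Set.indicator_of_notMem (by exact h)]

/-- Comparison of `Phi` through the planar sections. -/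
theorem Phi_le_of_sections (p q : ℕ) {P Q : Set (ℝ × ℝ)} (hP : MeasurableSet P) (hQ : MeasurableSet Q)
    (h : ∀ (δ : Fin (p + 1) → ℝ) (ε : Fin (q + 1) → ℝ), volume (Eset P δ ε) ≤ volume (Eset Q δ ε)) :
    Phi (p + 1) (q + 1) P ≤ Phi (p + 1) (q + 1) Q := by
  rw [Phi_eq p q hP, Phi_eq p q hQ]
  exact lintegral_mono fun δ => lintegral_mono fun ε => h _ _

/-- Strips in the directions of a fan. -/
def StripSet (m : ℕ) (α β l₁ r₁ l₂ r₂ : ℕ → ℝ) : Set (ℝ × ℝ) :=
  {z | ∀ i, i ≤ m + 1 → (l₁ i ≤ α i * z.1 + β i * z.2 ∧ α i * z.1 + β i * z.2 ≤ r₁ i) ∧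
    (l₂ i ≤ α i * z.1 - β i * z.2 ∧ α i * z.1 - β i * z.2 ≤ r₂ i)}

section Strips

variable {m : ℕ} {α β l₁ r₁ l₂ r₂ : ℕ → ℝ}

lemma isClosed_StripSet : IsClosed (StripSet m α β l₁ r₁ l₂ r₂) := by
  have : StripSet m α β l₁ r₁ l₂ r₂ = ⋂ i ∈ Finset.range (m + 2),
      ({z : ℝ × ℝ | l₁ i ≤ α i * z.1 + β i * z.2} ∩ {z | α i * z.1 + β i * z.2 ≤ r₁ i} ∩
      ({z | l₂ i ≤ α i * z.1 - β i * z.2} ∩ {z | α i * z.1 - β i * z.2 ≤ r₂ i})) := by
    ext z
    simp only [StripSet, Set.mem_ofPred_eq, Set.mem_iInter, Finset.mem_range, Set.mem_inter_iff]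
    constructor
    · intro h i hi
      exact h i (by omega)
    · intro h i hi
      exact h i (by omega)
  rw [this]
  apply isClosed_biInter
  intro i _
  refine IsClosed.inter (IsClosed.inter ?_ ?_) (IsClosed.inter ?_ ?_)
  · exact isClosed_le continuous_const (by fun_prop)
  · exact isClosed_le (by fun_prop) continuous_const
  · exact isClosed_le continuous_const (by fun_prop)
  · exact isClosed_le (by fun_prop) continuous_const

lemma isClosed_Eset {p q : ℕ} {P : Set (ℝ × ℝ)} (hP : IsClosed P) (δ : Fin p → ℝ) (ε : Fin q → ℝ) :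
    IsClosed (Eset P δ ε) := by
  have : Eset P δ ε = ⋂ k, ⋂ l, (fun z : ℝ × ℝ => (z.1 + δ k, z.2 + ε l)) ⁻¹' P := by
    ext z
    simp [Eset]
  rw [this]
  refine isClosed_iInter fun k => isClosed_iInter fun l => hP.preimage (by fun_prop)

lemma convex_Eset_StripSet {p q : ℕ} (δ : Fin p → ℝ) (ε : Fin q → ℝ) :
    Convex ℝ (Eset (StripSet m α β l₁ r₁ l₂ r₂) δ ε) := by
  intro z hz z' hz' a b ha hb hab k l i hi
  obtain rfl : b = 1 - a := by linarith
  have h1 := hz k l i hi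
  have h2 := hz' k l i hi
  simp only at h1 h2
  simp only [Prod.fst_add, Prod.snd_add, Prod.smul_fst, Prod.smul_snd, smul_eq_mul]
  have e1 : α i * (a * z.1 + (1 - a) * z'.1 + δ k) + β i * (a * z.2 + (1 - a) * z'.2 + ε l) =
      a * (α i * (z.1 + δ k) + β i * (z.2 + ε l)) +
        (1 - a) * (α i * (z'.1 + δ k) + β i * (z'.2 + ε l)) := by ring
  have e2 : α i * (a * z.1 + (1 - a) * z'.1 + δ k) - β i * (a * z.2 + (1 - a) * z'.2 + ε l) =
      a * (α i * (z.1 + δ k) - β i * (z.2 + ε l)) +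
        (1 - a) * (α i * (z'.1 + δ k) - β i * (z'.2 + ε l)) := by ring
  rw [e1, e2]
  refine ⟨⟨?_, ?_⟩, ⟨?_, ?_⟩⟩
  · nlinarith [mul_le_mul_of_nonneg_left h1.1.1 ha, mul_le_mul_of_nonneg_left h2.1.1 hb]
  · nlinarith [mul_le_mul_of_nonneg_left h1.1.2 ha, mul_le_mul_of_nonneg_left h2.1.2 hb]
  · nlinarith [mul_le_mul_of_nonneg_left h1.2.1 ha, mul_le_mul_of_nonneg_left h2.2.1 hb]
  · nlinarith [mul_le_mul_of_nonneg_left h1.2.2 ha, mul_le_mul_of_nonneg_left h2.2.2 hb]

/-- The section of a strip set has smaller area than the section of the symmetrised polygon. -/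
theorem shape_estimate (hF : PFan m α β) {p q : ℕ} (δ : Fin (p + 1) → ℝ) (ε : Fin (q + 1) → ℝ) :
    volume (Eset (StripSet m α β l₁ r₁ l₂ r₂) δ ε) ≤
      volume (Eset (DF m α β fun i => Real.sqrt ((r₁ i - l₁ i) / 2 * ((r₂ i - l₂ i) / 2))) δ ε) := by
  set E := Eset (StripSet m α β l₁ r₁ l₂ r₂) δ ε with hE
  by_cases hne : E.Nonempty
  swap
  · rw [Set.not_nonempty_iff_eq_empty.1 hne]
    simp
  obtain ⟨kM, hkM⟩ := Finite.exists_max δ
  obtain ⟨km, hkm⟩ := Finite.exists_min δ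
  obtain ⟨lM, hlM⟩ := Finite.exists_max ε
  obtain ⟨lm, hlm⟩ := Finite.exists_min ε
  set A := δ kM - δ km with hA
  set B := ε lM - ε lm with hB
  have hA0 : 0 ≤ A := by linarith [hkM km]
  have hB0 : 0 ≤ B := by linarith [hlM lm]
  set W₁ : ℕ → ℝ := fun i => (r₁ i - l₁ i) / 2 with hW₁
  set W₂ : ℕ → ℝ := fun i => (r₂ i - l₂ i) / 2 with hW₂
  set s : ℕ → ℝ := fun i => (α i * A + β i * B) / 2 with hs
  have hs0 : ∀ i, i ≤ m + 1 → 0 ≤ s i := fun i hi =>
    div_nonneg (add_nonneg (mul_nonneg (hF.α_nonneg i hi) hA0) (mul_nonneg (hF.β_nonneg i hi) hB0))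
      (by norm_num)
  set x : ℕ → ℝ := fun i => W₁ i - s i with hx
  set y : ℕ → ℝ := fun i => W₂ i - s i with hy
  have hwx : ∀ i, i ≤ m + 1 → ∀ z ∈ E, ∀ z' ∈ E,
      α i * (z.1 - z'.1) + β i * (z.2 - z'.2) ≤ 2 * x i := by
    intro i hi z hz z' hz'
    have h1 := (hz kM lM i hi).1.2
    have h2 := (hz' km lm i hi).1.1
    simp only at h1 h2
    simp only [hx, hW₁, hs, hA, hB]
    linarith
  have hwy : ∀ i, i ≤ m + 1 → ∀ z ∈ E, ∀ z' ∈ E,
      α i * (z.1 - z'.1) - β i * (z.2 - z'.2) ≤ 2 * y i := by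
    intro i hi z hz z' hz'
    have h1 := (hz kM lm i hi).2.2
    have h2 := (hz' km lM i hi).2.1
    simp only at h1 h2
    simp only [hy, hW₂, hs, hA, hB]
    linarith
  obtain ⟨z₀, hz₀⟩ := hne
  have hx0 : ∀ i, i ≤ m + 1 → 0 ≤ x i := fun i hi => by
    have := hwx i hi z₀ hz₀ z₀ hz₀
    simp only [sub_self, mul_zero, add_zero] at this
    linarith
  have hy0 : ∀ i, i ≤ m + 1 → 0 ≤ y i := fun i hi => by
    have := hwy i hi z₀ hz₀ z₀ hz₀
    simp only [sub_self, mul_zero, sub_zero] at this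
    linarith
  set d : ℕ → ℝ := fun i => Real.sqrt (W₁ i * W₂ i) with hd
  have hsd : ∀ i, i ≤ m + 1 → s i ≤ d i := by
    intro i hi
    have h1 : s i ≤ W₁ i := by linarith [hx0 i hi]
    have h2 : s i ≤ W₂ i := by linarith [hy0 i hi]
    apply Real.le_sqrt_of_sq_le
    have := hs0 i hi
    nlinarith
  have hxy : ∀ i, i ≤ m + 1 → x i * y i ≤ (d i - s i) ^ 2 := by
    intro i hi
    have h1 : 0 ≤ W₁ i := by linarith [hx0 i hi, hs0 i hi]
    have h2 : 0 ≤ W₂ i := by linarith [hy0 i hi, hs0 i hi]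
    have h3 : d i ^ 2 = W₁ i * W₂ i := Real.sq_sqrt (mul_nonneg h1 h2)
    have h4 : d i ≤ (W₁ i + W₂ i) / 2 := by
      apply Real.sqrt_le_iff.2
      exact ⟨by linarith, by nlinarith [sq_nonneg (W₁ i - W₂ i)]⟩
    simp only [hx, hy]
    nlinarith [mul_le_mul_of_nonneg_left h4 (hs0 i hi)]
  -- compactness of the section
  have hc : IsCompact E := by
    apply Metric.isCompact_of_isClosed_isBounded (isClosed_Eset isClosed_StripSet δ ε)
    have h0 := hF.α_pos (i := 0) (by omega)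
    have hM := hF.β_pos (i := m) le_rfl
    have hbd : E ⊆ Set.Icc ((l₁ 0 / α 0 - δ km, l₁ (m + 1) / β (m + 1) - ε lm) : ℝ × ℝ)
        ((r₁ 0 / α 0 - δ km, r₁ (m + 1) / β (m + 1) - ε lm) : ℝ × ℝ) := by
      intro z hz
      have h1 := (hz km lm 0 (by omega)).1
      have h2 := (hz km lm (m + 1) le_rfl).1
      simp only [hF.β0, hF.αM, zero_mul, add_zero, zero_add] at h1 h2
      refine ⟨⟨?_, ?_⟩, ⟨?_, ?_⟩⟩
      · simp only
        have : l₁ 0 / α 0 ≤ z.1 + δ km := (div_le_iff₀' h0).2 h1.1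
        linarith
      · simp only
        have : l₁ (m + 1) / β (m + 1) ≤ z.2 + ε lm := (div_le_iff₀' hM).2 h2.1
        linarith
      · simp only
        have : z.1 + δ km ≤ r₁ 0 / α 0 := (le_div_iff₀' h0).2 h1.2
        linarith
      · simp only
        have : z.2 + ε lm ≤ r₁ (m + 1) / β (m + 1) := (le_div_iff₀' hM).2 h2.2
        linarith
    exact (Metric.isBounded_Icc _ _).subset hbd
  have hpc := pc_fan (x := x) (y := y) (d := fun i => d i - s i) hF
    (fun i hi => by linarith [hsd i hi]) hc (convex_Eset_StripSet δ ε) hwx hwy hxy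
  refine hpc.trans ?_
  -- translate
  set mδ := (δ kM + δ km) / 2 with hmδ
  set mε := (ε lM + ε lm) / 2 with hmε
  have hT : volume (DF m α β fun i => d i - s i) =
      volume ((fun z : ℝ × ℝ => z + (mδ, mε)) ⁻¹' (DF m α β fun i => d i - s i)) :=
    (measure_preimage_add_right _ _ _).symm
  rw [hT]
  apply measure_mono
  intro z hz k l i hi
  have h1 := hz i hi
  simp only [Prod.fst_add, Prod.snd_add] at h1
  simp only
  have hk : |z.1 + δ k| ≤ |z.1 + mδ| + A / 2 := by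
    have e : z.1 + δ k = (z.1 + mδ) + (δ k - mδ) := by ring
    rw [e]
    refine (abs_add_le _ _).trans ?_
    have : |δ k - mδ| ≤ A / 2 := by
      rw [abs_le, hmδ, hA]
      constructor <;> linarith [hkM k, hkm k]
    linarith
  have hl : |z.2 + ε l| ≤ |z.2 + mε| + B / 2 := by
    have e : z.2 + ε l = (z.2 + mε) + (ε l - mε) := by ring
    rw [e]
    refine (abs_add_le _ _).trans ?_
    have : |ε l - mε| ≤ B / 2 := by
      rw [abs_le, hmε, hB]
      constructor <;> linarith [hlM l, hlm l]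
    linarith
  have h2 := mul_le_mul_of_nonneg_left hk (hF.α_nonneg i hi)
  have h3 := mul_le_mul_of_nonneg_left hl (hF.β_nonneg i hi)
  simp only [hs] at h1
  change α i * |z.1 + δ k| + β i * |z.2 + ε l| ≤ d i
  nlinarith

/-- The comparison of `Phi` for strip sets with `Phi` for the symmetrised polygon. -/
theorem Phi_strip_le (hF : PFan m α β) (p q : ℕ) :
    Phi (p + 1) (q + 1) (StripSet m α β l₁ r₁ l₂ r₂) ≤
      Phi (p + 1) (q + 1) (DF m α β fun i => Real.sqrt ((r₁ i - l₁ i) / 2 * ((r₂ i - l₂ i) / 2))) :=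
  Phi_le_of_sections p q isClosed_StripSet.measurableSet (isCompact_DF hF).measurableSet
    fun δ ε => shape_estimate hF δ ε

end Strips

end Vale.Agent.Lib.P227
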