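import Mathlib
import Vale.Agent.Lib.P227.Shape
import Vale.Agent.Lib.P227.MulPL

/-!
# The logarithmic inequality for the unconditional sets attached to a fan
-/

open MeasureTheory Set Finset Filter Topology
open scoped ENNReal Pointwise

namespace Vale.Agent.Lib.P227

/-- The cone of the plane on which the `i`-th normal of a fan is the first maximiser. -/
def Tsel (m : ℕ) (α β : ℕ → ℝ) (i : ℕ) : Set (ℝ × ℝ) :=
  {z | (∀ j, j ≤ m + 1 → α j * z.1 + β j * z.2 ≤ α i * z.1 + β i * z.2) ∧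
    (∀ j, j < i → α j * z.1 + β j * z.2 < α i * z.1 + β i * z.2)}

/-- The pair of sup norms. -/
noncomputable def Rad {p q : ℕ} (w : (Fin p → ℝ) × (Fin q → ℝ)) : ℝ × ℝ := (‖w.1‖, ‖w.2‖)

lemma measurable_Rad {p q : ℕ} : Measurable (Rad : (Fin p → ℝ) × (Fin q → ℝ) → ℝ × ℝ) := by
  unfold Rad
  exact (measurable_norm.comp measurable_fst).prodMk (measurable_norm.comp measurable_snd)

/-- The piece of the unit ball attached to the `i`-th normal. -/
def Ypc (p q m : ℕ) (α β : ℕ → ℝ) (i : ℕ) : Set ((Fin p → ℝ) × (Fin q → ℝ)) :=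
  {w | Rad w ∈ Tsel m α β i ∧ α i * ‖w.1‖ + β i * ‖w.2‖ ≤ 1}

section Tsel

variable {m : ℕ} {α β : ℕ → ℝ}

lemma measurableSet_Tsel (i : ℕ) : MeasurableSet (Tsel m α β i) := by
  have : Tsel m α β i = (⋂ j ∈ Finset.range (m + 2),
      {z : ℝ × ℝ | α j * z.1 + β j * z.2 ≤ α i * z.1 + β i * z.2}) ∩
      (⋂ j ∈ Finset.range i, {z : ℝ × ℝ | α j * z.1 + β j * z.2 < α i * z.1 + β i * z.2}) := by
    ext z
    simp only [Tsel, Set.mem_ofPred_eq, Set.mem_inter_iff, Set.mem_iInter, Finset.mem_range]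
    constructor
    · rintro ⟨h1, h2⟩
      exact ⟨fun j hj => h1 j (by omega), h2⟩
    · rintro ⟨h1, h2⟩
      exact ⟨fun j hj => h1 j (by omega), h2⟩
  rw [this]
  apply MeasurableSet.inter
  · apply Finset.measurableSet_biInter
    intro j _
    exact measurableSet_le (by fun_prop) (by fun_prop)
  · apply Finset.measurableSet_biInter
    intro j _
    exact measurableSet_lt (by fun_prop) (by fun_prop)

lemma Tsel_cover (z : ℝ × ℝ) : ∃ i, i ≤ m + 1 ∧ z ∈ Tsel m α β i := by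
  classical
  set f : ℕ → ℝ := fun j => α j * z.1 + β j * z.2 with hf
  obtain ⟨j₀, hj₀, hmax⟩ := Finset.exists_max_image (Finset.range (m + 2)) f ⟨0, by simp⟩
  have hj₀' : j₀ ≤ m + 1 := by
    have := Finset.mem_range.1 hj₀
    omega
  have hex : ∃ i, i ≤ m + 1 ∧ f i = f j₀ := ⟨j₀, hj₀', rfl⟩
  set i := Nat.find hex with hi
  have hi1 := Nat.find_spec hex
  refine ⟨i, hi1.1, ?_, ?_⟩
  · intro j hj
    have : f j ≤ f j₀ := hmax j (Finset.mem_range.2 (by omega))
    change f j ≤ f i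
    rw [hi1.2]
    exact this
  · intro j hj
    have h1 : f j ≤ f j₀ := hmax j (Finset.mem_range.2 (by have := hi1.1; omega))
    have h2 := Nat.find_min hex hj
    change f j < f i
    rw [hi1.2]
    refine lt_of_le_of_ne h1 ?_
    intro h3
    exact h2 ⟨by have := hi1.1; omega, h3⟩

lemma Tsel_eq {i i' : ℕ} (hi : i ≤ m + 1) (hi' : i' ≤ m + 1) {z : ℝ × ℝ} (h : z ∈ Tsel m α β i)
    (h' : z ∈ Tsel m α β i') : i = i' := by
  rcases lt_trichotomy i i' with hlt | heq | hgt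
  · have h1 := h'.2 i hlt
    have h2 := h.1 i' hi'
    linarith
  · exact heq
  · have h1 := h.2 i' hgt
    have h2 := h'.1 i hi
    linarith

lemma Tsel_smul {i : ℕ} {z : ℝ × ℝ} (h : z ∈ Tsel m α β i) {t : ℝ} (ht : 0 < t) :
    ((t * z.1, t * z.2) : ℝ × ℝ) ∈ Tsel m α β i := by
  constructor
  · intro j hj
    simp only
    have := mul_le_mul_of_nonneg_left (h.1 j hj) ht.le
    nlinarith
  · intro j hj
    simp only
    have := mul_lt_mul_of_pos_left (h.2 j hj) ht
    nlinarith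

end Tsel

section Balls

variable {m : ℕ} {α β : ℕ → ℝ}

lemma exists_abs_eq_norm {n : ℕ} (ρ : Fin (n + 1) → ℝ) : ∃ k, |ρ k| = ‖ρ‖ := by
  obtain ⟨k, hk⟩ := Finite.exists_max (fun k => |ρ k|)
  refine ⟨k, le_antisymm ?_ ?_⟩
  · have := norm_le_pi_norm ρ k
    simpa using this
  · rw [pi_norm_le_iff_of_nonneg (abs_nonneg _)]
    intro j
    simpa using hk j

lemma abs_le_norm' {n : ℕ} (ρ : Fin n → ℝ) (k : Fin n) : |ρ k| ≤ ‖ρ‖ := by
  have := norm_le_pi_norm ρ k
  simpa using this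

lemma mem_Sset_DF (hF : PFan m α β) {p q : ℕ} {d : ℕ → ℝ} (w : (Fin (p + 1) → ℝ) × (Fin (q + 1) → ℝ)) :
    w ∈ Sset (p + 1) (q + 1) (DF m α β d) ↔ ∀ i, i ≤ m + 1 → α i * ‖w.1‖ + β i * ‖w.2‖ ≤ d i := by
  constructor
  · intro h i hi
    obtain ⟨k, hk⟩ := exists_abs_eq_norm w.1
    obtain ⟨l, hl⟩ := exists_abs_eq_norm w.2
    have := h k l i hi
    simp only at this
    rwa [hk, hl] at this
  · intro h k l i hi
    simp only
    have h1 := mul_le_mul_of_nonneg_left (abs_le_norm' w.1 k) (hF.α_nonneg i hi)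
    have h2 := mul_le_mul_of_nonneg_left (abs_le_norm' w.2 l) (hF.β_nonneg i hi)
    linarith [h i hi]

lemma measurableSet_Ypc (p q m : ℕ) (α β : ℕ → ℝ) (i : ℕ) : MeasurableSet (Ypc p q m α β i) := by
  have h1 : MeasurableSet (Rad ⁻¹' (Tsel m α β i) : Set ((Fin p → ℝ) × (Fin q → ℝ))) :=
    measurable_Rad (measurableSet_Tsel i)
  have h2 : MeasurableSet {w : (Fin p → ℝ) × (Fin q → ℝ) | α i * ‖w.1‖ + β i * ‖w.2‖ ≤ 1} :=
    measurableSet_le (((measurable_norm.comp measurable_fst).const_mul _).add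
      ((measurable_norm.comp measurable_snd).const_mul _)) measurable_const
  exact h1.inter h2

lemma Ypc_subset (hF : PFan m α β) {p q : ℕ} {i : ℕ} :
    Ypc (p + 1) (q + 1) m α β i ⊆ Sset (p + 1) (q + 1) (DF m α β fun _ => 1) := by
  intro w hw
  rw [mem_Sset_DF hF]
  intro j hj
  exact (hw.1.1 j hj).trans hw.2

lemma exists_Ypc (hF : PFan m α β) {p q : ℕ} {w : (Fin (p + 1) → ℝ) × (Fin (q + 1) → ℝ)}
    (hw : w ∈ Sset (p + 1) (q + 1) (DF m α β fun _ => 1)) :
    ∃ i, i ≤ m + 1 ∧ w ∈ Ypc (p + 1) (q + 1) m α β i := by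
  obtain ⟨i, hi, hT⟩ := Tsel_cover (m := m) (α := α) (β := β) (Rad w)
  exact ⟨i, hi, hT, (mem_Sset_DF hF w).1 hw i hi⟩

/-- The decomposition of the unit ball into pieces. -/
theorem Phi_eq_sum (hF : PFan m α β) (p q : ℕ) :
    Phi (p + 1) (q + 1) (DF m α β fun _ => 1) =
      ∑ i ∈ Finset.range (m + 2), volume (Ypc (p + 1) (q + 1) m α β i) := by
  have hset : Sset (p + 1) (q + 1) (DF m α β fun _ => 1) =
      ⋃ i ∈ Finset.range (m + 2), Ypc (p + 1) (q + 1) m α β i := by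
    ext w
    simp only [Set.mem_iUnion, Finset.mem_range, exists_prop]
    constructor
    · intro hw
      obtain ⟨i, hi, h⟩ := exists_Ypc hF hw
      exact ⟨i, by omega, h⟩
    · rintro ⟨i, -, h⟩
      exact Ypc_subset hF h
  unfold Phi
  rw [hset, measure_biUnion_finset _ fun i _ => measurableSet_Ypc _ _ _ _ _ i]
  intro i hi j hj hij
  rw [Function.onFun, Set.disjoint_left]
  intro w h1 h2
  have hi' : i ≤ m + 1 := by
    have := Finset.mem_range.1 (Finset.mem_coe.1 hi)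
    omega
  have hj' : j ≤ m + 1 := by
    have := Finset.mem_range.1 (Finset.mem_coe.1 hj)
    omega
  exact hij (Tsel_eq hi' hj' h1.1 h2.1)

lemma finrank_prod_fin (p q : ℕ) :
    Module.finrank ℝ ((Fin p → ℝ) × (Fin q → ℝ)) = p + q := by
  simp

/-- The scaling of a piece. -/
lemma volume_smul_Ypc (p q : ℕ) {t : ℝ} (ht : 0 < t) (S : Set ((Fin p → ℝ) × (Fin q → ℝ))) :
    volume (t • S) = ENNReal.ofReal (t ^ (p + q)) * volume S := by
  have hH : ((volume : Measure (Fin p → ℝ)).prod (volume : Measure (Fin q → ℝ))).IsAddHaarMeasure :=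
    Measure.prod.instIsAddHaarMeasure _ _
  rw [Measure.volume_eq_prod, Measure.addHaar_smul, finrank_prod_fin, abs_of_pos (by positivity)]

/-- The cone bound. -/
theorem Phi_DF_le (hF : PFan m α β) (p q : ℕ) {d : ℕ → ℝ} (hd : ∀ i, i ≤ m + 1 → 0 < d i) :
    Phi (p + 1) (q + 1) (DF m α β d) ≤
      ∑ i ∈ Finset.range (m + 2), ENNReal.ofReal (d i ^ (p + 1 + (q + 1))) *
        volume (Ypc (p + 1) (q + 1) m α β i) := by
  have hsub : Sset (p + 1) (q + 1) (DF m α β d) ⊆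
      ⋃ i ∈ Finset.range (m + 2), d i • Ypc (p + 1) (q + 1) m α β i := by
    intro w hw
    rw [mem_Sset_DF hF] at hw
    obtain ⟨i, hi, hT⟩ := Tsel_cover (m := m) (α := α) (β := β) (Rad w)
    have hdi := hd i hi
    simp only [Set.mem_iUnion, Finset.mem_range, exists_prop]
    refine ⟨i, by omega, ?_⟩
    rw [Set.mem_smul_set_iff_inv_smul_mem₀ hdi.ne']
    constructor
    · have := Tsel_smul hT (t := (d i)⁻¹) (by positivity)
      convert this using 1
      simp only [Rad, Prod.smul_fst, Prod.smul_snd, norm_smul, norm_inv, Real.norm_eq_abs,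
        abs_of_pos hdi]
    · simp only [Prod.smul_fst, Prod.smul_snd, norm_smul, norm_inv, Real.norm_eq_abs,
        abs_of_pos hdi]
      have e : α i * ((d i)⁻¹ * ‖w.1‖) + β i * ((d i)⁻¹ * ‖w.2‖) =
          (α i * ‖w.1‖ + β i * ‖w.2‖) / d i := by
        field_simp
      rw [e, div_le_one hdi]
      exact hw i hi
  calc Phi (p + 1) (q + 1) (DF m α β d) ≤ volume (⋃ i ∈ Finset.range (m + 2),
        d i • Ypc (p + 1) (q + 1) m α β i) := measure_mono hsub
    _ ≤ ∑ i ∈ Finset.range (m + 2), volume (d i • Ypc (p + 1) (q + 1) m α β i) :=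
        measure_biUnion_finset_le _ _
    _ = _ := by
        apply Finset.sum_congr rfl
        intro i hi
        have hi' : i ≤ m + 1 := by
          have := Finset.mem_range.1 hi
          omega
        exact volume_smul_Ypc _ _ (hd i hi') _

lemma Phi_pos (hF : PFan m α β) (p q : ℕ) {d : ℕ → ℝ} (hd : ∀ i, i ≤ m + 1 → 0 < d i) :
    0 < Phi (p + 1) (q + 1) (DF m α β d) := by
  obtain ⟨ε, hε, hball⟩ := exists_ball_DF hF hd
  have hsub : Metric.ball (0 : (Fin (p + 1) → ℝ) × (Fin (q + 1) → ℝ)) ε ⊆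
      Sset (p + 1) (q + 1) (DF m α β d) := by
    intro w hw
    rw [Metric.mem_ball, dist_zero_right, Prod.norm_def, max_lt_iff] at hw
    intro k l
    exact hball _ ((abs_le_norm' w.1 k).trans hw.1.le) ((abs_le_norm' w.2 l).trans hw.2.le)
  exact lt_of_lt_of_le (Metric.measure_ball_pos _ _ hε) (measure_mono hsub)

lemma Phi_lt_top (hF : PFan m α β) (p q : ℕ) {d : ℕ → ℝ} :
    Phi (p + 1) (q + 1) (DF m α β d) < ⊤ := by
  have h0 := hF.α_pos (i := 0) (by omega)
  have hM := hF.β_pos (i := m) le_rfl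
  have hsub : Sset (p + 1) (q + 1) (DF m α β d) ⊆
      Metric.closedBall 0 (max (d 0 / α 0) (d (m + 1) / β (m + 1))) := by
    intro w hw
    rw [mem_Sset_DF hF] at hw
    have h1 := hw 0 (by omega)
    have h2 := hw (m + 1) le_rfl
    rw [hF.β0, zero_mul, add_zero] at h1
    rw [hF.αM, zero_mul, zero_add] at h2
    rw [Metric.mem_closedBall, dist_zero_right, Prod.norm_def]
    apply max_le_max
    · rw [le_div_iff₀ h0]
      linarith
    · rw [le_div_iff₀ hM]
      linarith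
  exact lt_of_le_of_lt (measure_mono hsub) Metric.isBounded_closedBall.measure_lt_top

/-- Two term Hölder inequality. -/
lemma holder_two {c₁ c₂ a b a' b' θ : ℝ} (hc₁ : 0 ≤ c₁) (hc₂ : 0 ≤ c₂) (hc : 0 < c₁ + c₂) (ha : 0 < a)
    (hb : 0 < b) (ha' : 0 < a') (hb' : 0 < b') (h0 : 0 < θ) (h1 : θ < 1) :
    c₁ * (a ^ θ * a' ^ (1 - θ)) + c₂ * (b ^ θ * b' ^ (1 - θ)) ≤
      (c₁ * a + c₂ * b) ^ θ * (c₁ * a' + c₂ * b') ^ (1 - θ) := by
  have h1' : 0 < 1 - θ := by linarith
  have hS : 0 < c₁ * a + c₂ * b := by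
    rcases hc₁.eq_or_lt with h | h
    · rw [← h] at hc ⊢
      simp only [zero_add, zero_mul] at hc ⊢
      positivity
    · have := mul_pos h ha
      have := mul_nonneg hc₂ hb.le
      linarith
  have hS' : 0 < c₁ * a' + c₂ * b' := by
    rcases hc₁.eq_or_lt with h | h
    · rw [← h] at hc ⊢
      simp only [zero_add, zero_mul] at hc ⊢
      positivity
    · have := mul_pos h ha'
      have := mul_nonneg hc₂ hb'.le
      linarith
  set S := c₁ * a + c₂ * b with hSdef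
  set S' := c₁ * a' + c₂ * b' with hS'def
  have key1 := Real.geom_mean_le_arith_mean2_weighted h0.le h1'.le (div_pos ha hS).le
    (div_pos ha' hS').le (by ring : θ + (1 - θ) = 1)
  have key2 := Real.geom_mean_le_arith_mean2_weighted h0.le h1'.le (div_pos hb hS).le
    (div_pos hb' hS').le (by ring : θ + (1 - θ) = 1)
  rw [Real.div_rpow ha.le hS.le, Real.div_rpow ha'.le hS'.le] at key1
  rw [Real.div_rpow hb.le hS.le, Real.div_rpow hb'.le hS'.le] at key2
  have hSθ : 0 < S ^ θ := Real.rpow_pos_of_pos hS _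
  have hS'θ : 0 < S' ^ (1 - θ) := Real.rpow_pos_of_pos hS' _
  have e1 : a ^ θ / S ^ θ * (a' ^ (1 - θ) / S' ^ (1 - θ)) =
      (a ^ θ * a' ^ (1 - θ)) / (S ^ θ * S' ^ (1 - θ)) := by
    field_simp
  have e2 : b ^ θ / S ^ θ * (b' ^ (1 - θ) / S' ^ (1 - θ)) =
      (b ^ θ * b' ^ (1 - θ)) / (S ^ θ * S' ^ (1 - θ)) := by
    field_simp
  rw [e1, div_le_iff₀ (mul_pos hSθ hS'θ)] at key1
  rw [e2, div_le_iff₀ (mul_pos hSθ hS'θ)] at key2
  have h3 := mul_le_mul_of_nonneg_left key1 hc₁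
  have h4 := mul_le_mul_of_nonneg_left key2 hc₂
  have e3 : c₁ * ((θ * (a / S) + (1 - θ) * (a' / S')) * (S ^ θ * S' ^ (1 - θ))) +
      c₂ * ((θ * (b / S) + (1 - θ) * (b' / S')) * (S ^ θ * S' ^ (1 - θ))) =
      (θ * ((c₁ * a + c₂ * b) / S) + (1 - θ) * ((c₁ * a' + c₂ * b') / S')) *
        (S ^ θ * S' ^ (1 - θ)) := by
    ring
  have e4 : (θ * ((c₁ * a + c₂ * b) / S) + (1 - θ) * ((c₁ * a' + c₂ * b') / S')) = 1 := by
    rw [← hSdef, ← hS'def, div_self hS.ne', div_self hS'.ne']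
    ring
  rw [e4, one_mul] at e3
  linarith

/-- The unconditional set in coordinates indexed by a sum type. -/
def Shat (p q : ℕ) (P : Set (ℝ × ℝ)) : Set (Fin p ⊕ Fin q → ℝ) :=
  {x | ∀ k l, (x (Sum.inl k), x (Sum.inr l)) ∈ P}

lemma volume_Shat (p q : ℕ) {P : Set (ℝ × ℝ)} (hP : MeasurableSet P) :
    volume (Shat p q P) = Phi p q P := by
  have h := (volume_measurePreserving_sumPiEquivProdPi (fun _ : Fin p ⊕ Fin q => ℝ)).measure_preimage
    (measurableSet_Sset p q hP).nullMeasurableSet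
  unfold Phi
  rw [← h]
  rfl

lemma measurableSet_Shat (p q : ℕ) {P : Set (ℝ × ℝ)} (hP : MeasurableSet P) :
    MeasurableSet (Shat p q P) := by
  have : Shat p q P = ⋂ k, ⋂ l, (fun x : Fin p ⊕ Fin q → ℝ => (x (Sum.inl k), x (Sum.inr l))) ⁻¹' P := by
    ext x
    simp [Shat]
  rw [this]
  refine MeasurableSet.iInter fun k => MeasurableSet.iInter fun l => ?_
  exact hP.preimage ((measurable_pi_apply _).prodMk (measurable_pi_apply _))

lemma isUncond_Shat (p q : ℕ) (d : ℕ → ℝ) : IsUncond (Shat p q (DF m α β d)) := by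
  intro x
  simp only [Shat, DF, Set.mem_ofPred_eq, abs_abs]

/-- The multiplicative inequality for the polygons of a fan. -/
theorem Phi_pl (hF : PFan m α β) (p q : ℕ) {d : ℕ → ℝ} {θ : ℝ} (h0 : 0 < θ) (h1 : θ < 1) :
    Phi p q (DF m α β d) ^ θ * Phi p q (DF m α β fun _ => 1) ^ (1 - θ) ≤
      Phi p q (DF m α β fun i => d i ^ θ) := by
  have hc := fun d : ℕ → ℝ => (isCompact_DF (d := d) hF).measurableSet
  rw [← volume_Shat p q (hc d), ← volume_Shat p q (hc _), ← volume_Shat p q (hc _)]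
  refine mul_pl (measurableSet_Shat p q (hc _)) (measurableSet_Shat p q (hc _))
    (measurableSet_Shat p q (hc _)) (isUncond_Shat p q _) (isUncond_Shat p q _)
    (isUncond_Shat p q _) h0 h1 ?_
  intro x y hx hy hxm hym k l i hi
  simp only
  have h2 := hxm k l i hi
  have h3 := hym k l i hi
  simp only [abs_of_pos (hx _), abs_of_pos (hy _)] at h2 h3
  have hpos : ∀ u v : ℝ, 0 < u → 0 < v → 0 < u ^ θ * v ^ (1 - θ) := fun u v hu hv =>
    mul_pos (Real.rpow_pos_of_pos hu _) (Real.rpow_pos_of_pos hv _)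
  rw [abs_of_pos (hpos _ _ (hx _) (hy _)), abs_of_pos (hpos _ _ (hx _) (hy _))]
  have hH := holder_two (hF.α_nonneg i hi) (hF.β_nonneg i hi) (hF.sum_pos hi) (hx (Sum.inl k))
    (hx (Sum.inr l)) (hy (Sum.inl k)) (hy (Sum.inr l)) h0 h1
  refine hH.trans ?_
  have hX : 0 ≤ α i * x (Sum.inl k) + β i * x (Sum.inr l) :=
    add_nonneg (mul_nonneg (hF.α_nonneg i hi) (hx _).le) (mul_nonneg (hF.β_nonneg i hi) (hx _).le)
  have hY : 0 ≤ α i * y (Sum.inl k) + β i * y (Sum.inr l) :=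
    add_nonneg (mul_nonneg (hF.α_nonneg i hi) (hy _).le) (mul_nonneg (hF.β_nonneg i hi) (hy _).le)
  have h4 : (α i * y (Sum.inl k) + β i * y (Sum.inr l)) ^ (1 - θ) ≤ 1 :=
    Real.rpow_le_one hY h3 (by linarith)
  have h5 : (α i * x (Sum.inl k) + β i * x (Sum.inr l)) ^ θ ≤ d i ^ θ :=
    Real.rpow_le_rpow hX h2 h0.le
  have h6 : 0 ≤ (α i * y (Sum.inl k) + β i * y (Sum.inr l)) ^ (1 - θ) := Real.rpow_nonneg hY _
  have h7 : 0 ≤ d i ^ θ := (Real.rpow_nonneg hX _).trans h5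
  nlinarith

lemma slope_exp (c : ℝ) : Tendsto (fun θ : ℝ => (Real.exp (θ * c) - 1) / θ) (𝓝[>] 0) (𝓝 c) := by
  have h : HasDerivAt (fun θ : ℝ => Real.exp (θ * c)) c 0 := by
    have h1 : HasDerivAt (fun θ : ℝ => θ * c) c 0 := by
      simpa using (hasDerivAt_id (0:ℝ)).mul_const c
    have := h1.exp
    simpa using this
  have h2 := h.tendsto_slope_zero_right
  simp only [zero_add, zero_mul, Real.exp_zero, smul_eq_mul] at h2
  refine h2.congr fun θ => ?_
  rw [div_eq_inv_mul]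

/-- From a family of inequalities in a power to the limit as the power goes to zero. -/
lemma limit_ineq {ι : Type*} (s : Finset ι) (σ c : ι → ℝ)
    (h1 : ∑ i ∈ s, σ i = 1) {R : ℝ} (hR : 0 ≤ R)
    (h : ∀ θ : ℝ, 0 < θ → θ < 1 → R ^ θ ≤ ∑ i ∈ s, σ i * Real.exp (θ * c i)) :
    R ≤ Real.exp (∑ i ∈ s, σ i * c i) := by
  rcases hR.eq_or_lt with hR0 | hR0
  · rw [← hR0]
    exact (Real.exp_pos _).le
  suffices hlog : Real.log R ≤ ∑ i ∈ s, σ i * c i by
    calc R = Real.exp (Real.log R) := (Real.exp_log hR0).symm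
      _ ≤ _ := Real.exp_le_exp.2 hlog
  have hlim : Tendsto (fun θ : ℝ => ∑ i ∈ s, σ i * ((Real.exp (θ * c i) - 1) / θ)) (𝓝[>] 0)
      (𝓝 (∑ i ∈ s, σ i * c i)) :=
    tendsto_finsetSum _ fun i _ => (slope_exp (c i)).const_mul _
  refine ge_of_tendsto hlim ?_
  have hmem : Set.Ioo (0:ℝ) 1 ∈ 𝓝[>] (0:ℝ) := Ioo_mem_nhdsGT one_pos
  filter_upwards [hmem] with θ hθ
  have h2 := h θ hθ.1 hθ.2
  have hG : 0 < R ^ θ := Real.rpow_pos_of_pos hR0 _
  have h3 : θ * Real.log R ≤ (∑ i ∈ s, σ i * Real.exp (θ * c i)) - 1 := by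
    have h4 : Real.log (R ^ θ) = θ * Real.log R := Real.log_rpow hR0 _
    have h5 := Real.log_le_sub_one_of_pos hG
    rw [h4] at h5
    linarith
  have e : (∑ i ∈ s, σ i * Real.exp (θ * c i)) - 1 = ∑ i ∈ s, σ i * (Real.exp (θ * c i) - 1) := by
    simp only [mul_sub, mul_one, Finset.sum_sub_distrib, h1]
  rw [e] at h3
  have e2 : ∑ i ∈ s, σ i * ((Real.exp (θ * c i) - 1) / θ) =
      (∑ i ∈ s, σ i * (Real.exp (θ * c i) - 1)) / θ := by
    rw [Finset.sum_div]
    exact Finset.sum_congr rfl fun i _ => by ring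
  rw [e2, le_div_iff₀ hθ.1]
  linarith

/-- The relative volumes of the pieces of the unit ball. -/
noncomputable def sig (p q m : ℕ) (α β : ℕ → ℝ) (i : ℕ) : ℝ :=
  (volume (Ypc p q m α β i)).toReal / (Phi p q (DF m α β fun _ => 1)).toReal

lemma Ypc_lt_top (hF : PFan m α β) (p q : ℕ) {i : ℕ} :
    volume (Ypc (p + 1) (q + 1) m α β i) < ⊤ :=
  lt_of_le_of_lt (measure_mono (Ypc_subset hF)) (Phi_lt_top hF p q)

lemma sig_nonneg (p q m : ℕ) (α β : ℕ → ℝ) (i : ℕ) : 0 ≤ sig p q m α β i :=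
  div_nonneg ENNReal.toReal_nonneg ENNReal.toReal_nonneg

lemma sig_sum (hF : PFan m α β) (p q : ℕ) :
    ∑ i ∈ Finset.range (m + 2), sig (p + 1) (q + 1) m α β i = 1 := by
  unfold sig
  rw [← Finset.sum_div, ← ENNReal.toReal_sum (fun i _ => (Ypc_lt_top hF p q).ne), ← Phi_eq_sum hF]
  exact div_self (ENNReal.toReal_pos (Phi_pos hF p q (fun _ _ => one_pos)).ne' (Phi_lt_top hF p q).ne).ne'

/-- The logarithmic inequality for the polygons of a fan. -/
theorem lemmaU (hF : PFan m α β) (p q : ℕ) {d : ℕ → ℝ} (hd : ∀ i, i ≤ m + 1 → 0 < d i) :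
    Phi (p + 1) (q + 1) (DF m α β d) ≤ Phi (p + 1) (q + 1) (DF m α β fun _ => 1) *
      ∏ i ∈ Finset.range (m + 2), ENNReal.ofReal (d i) ^
        (((p + 1 + (q + 1) : ℕ) : ℝ) * sig (p + 1) (q + 1) m α β i) := by
  set n := p + 1 + (q + 1) with hn
  set V := Phi (p + 1) (q + 1) (DF m α β fun _ => 1) with hV
  set Φ := Phi (p + 1) (q + 1) (DF m α β d) with hΦ
  have hV0 : 0 < V := Phi_pos hF p q fun _ _ => one_pos
  have hVt : V ≠ ⊤ := (Phi_lt_top hF p q).ne
  have hΦt : Φ ≠ ⊤ := (Phi_lt_top hF p q).ne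
  set Vr := V.toReal with hVr
  set Φr := Φ.toReal with hΦr
  have hVr0 : 0 < Vr := ENNReal.toReal_pos hV0.ne' hVt
  have hΦr0 : 0 ≤ Φr := ENNReal.toReal_nonneg
  set v : ℕ → ℝ := fun i => (volume (Ypc (p + 1) (q + 1) m α β i)).toReal with hv
  have hσ : ∀ i, sig (p + 1) (q + 1) m α β i = v i / Vr := fun i => rfl
  have hkey : ∀ θ : ℝ, 0 < θ → θ < 1 →
      (Φr / Vr) ^ θ ≤ ∑ i ∈ Finset.range (m + 2), sig (p + 1) (q + 1) m α β i *
        Real.exp (θ * ((n : ℝ) * Real.log (d i))) := by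
    intro θ h0 h1
    have h1' : 0 < 1 - θ := by linarith
    have hPL := Phi_pl hF (p + 1) (q + 1) (d := d) h0 h1
    have hCone := Phi_DF_le hF p q (d := fun i => d i ^ θ)
      (fun i hi => Real.rpow_pos_of_pos (hd i hi) _)
    have hboth : Φ ^ θ * V ^ (1 - θ) ≤ ∑ i ∈ Finset.range (m + 2),
        ENNReal.ofReal ((d i ^ θ) ^ (p + 1 + (q + 1))) * volume (Ypc (p + 1) (q + 1) m α β i) :=
      hPL.trans hCone
    rw [show Φ = ENNReal.ofReal Φr from (ENNReal.ofReal_toReal hΦt).symm,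
      show V = ENNReal.ofReal Vr from (ENNReal.ofReal_toReal hVt).symm] at hboth
    rw [ENNReal.ofReal_rpow_of_nonneg hΦr0 h0.le,
      ENNReal.ofReal_rpow_of_nonneg hVr0.le h1'.le, ← ENNReal.ofReal_mul (by positivity)] at hboth
    have hsum : ∑ i ∈ Finset.range (m + 2), ENNReal.ofReal ((d i ^ θ) ^ (p + 1 + (q + 1))) *
        volume (Ypc (p + 1) (q + 1) m α β i) = ENNReal.ofReal
          (∑ i ∈ Finset.range (m + 2), (d i ^ θ) ^ (p + 1 + (q + 1)) * v i) := by
      rw [ENNReal.ofReal_sum_of_nonneg]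
      · apply Finset.sum_congr rfl
        intro i hi
        have hi' : i ≤ m + 1 := by
          have := Finset.mem_range.1 hi
          omega
        have hpos : 0 ≤ d i ^ θ := (Real.rpow_pos_of_pos (hd i hi') _).le
        rw [ENNReal.ofReal_mul (by positivity), hv]
        simp only
        rw [ENNReal.ofReal_toReal (Ypc_lt_top hF p q).ne]
      · intro i hi
        have hi' : i ≤ m + 1 := by
          have := Finset.mem_range.1 hi
          omega
        have hpos : 0 ≤ d i ^ θ := (Real.rpow_pos_of_pos (hd i hi') _).le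
        have : 0 ≤ v i := ENNReal.toReal_nonneg
        positivity
    rw [hsum, ENNReal.ofReal_le_ofReal_iff] at hboth
    swap
    · apply Finset.sum_nonneg
      intro i hi
      have hi' : i ≤ m + 1 := by
        have := Finset.mem_range.1 hi
        omega
      have hpos : 0 ≤ d i ^ θ := (Real.rpow_pos_of_pos (hd i hi') _).le
      have : 0 ≤ v i := ENNReal.toReal_nonneg
      positivity
    have hVpow : Vr ^ (1 - θ) = Vr / Vr ^ θ := by
      rw [Real.rpow_sub hVr0, Real.rpow_one]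
    have hVθ : 0 < Vr ^ θ := Real.rpow_pos_of_pos hVr0 _
    rw [Real.div_rpow hΦr0 hVr0.le]
    have h2 : Φr ^ θ / Vr ^ θ ≤ (∑ i ∈ Finset.range (m + 2), (d i ^ θ) ^ (p + 1 + (q + 1)) * v i) / Vr := by
      rw [le_div_iff₀ hVr0]
      rw [hVpow] at hboth
      have e : Φr ^ θ / Vr ^ θ * Vr = Φr ^ θ * (Vr / Vr ^ θ) := by ring
      rw [e]
      exact hboth
    refine h2.trans (le_of_eq ?_)
    rw [Finset.sum_div]
    apply Finset.sum_congr rfl
    intro i hi
    have hi' : i ≤ m + 1 := by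
      have := Finset.mem_range.1 hi
      omega
    rw [hσ]
    have hdi := hd i hi'
    have e : (d i ^ θ) ^ (p + 1 + (q + 1)) = Real.exp (θ * ((n : ℝ) * Real.log (d i))) := by
      rw [Real.rpow_def_of_pos hdi, ← Real.exp_nat_mul]
      congr 1
      ring
    rw [e]
    ring
  have hlim := limit_ineq _ _ _ (sig_sum hF p q) (div_nonneg hΦr0 hVr0.le) hkey
  have hfinal : Φr ≤ Vr * ∏ i ∈ Finset.range (m + 2), d i ^ ((n : ℝ) * sig (p + 1) (q + 1) m α β i) := by
    have e : ∏ i ∈ Finset.range (m + 2), d i ^ ((n : ℝ) * sig (p + 1) (q + 1) m α β i) =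
        Real.exp (∑ i ∈ Finset.range (m + 2), sig (p + 1) (q + 1) m α β i *
          ((n : ℝ) * Real.log (d i))) := by
      rw [Real.exp_sum]
      apply Finset.prod_congr rfl
      intro i hi
      have hi' : i ≤ m + 1 := by
        have := Finset.mem_range.1 hi
        omega
      rw [Real.rpow_def_of_pos (hd i hi')]
      congr 1
      ring
    rw [e]
    rw [div_le_iff₀ hVr0] at hlim
    linarith
  have hprod : ∏ i ∈ Finset.range (m + 2), ENNReal.ofReal (d i) ^
      ((n : ℝ) * sig (p + 1) (q + 1) m α β i) = ENNReal.ofReal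
        (∏ i ∈ Finset.range (m + 2), d i ^ ((n : ℝ) * sig (p + 1) (q + 1) m α β i)) := by
    rw [ENNReal.ofReal_prod_of_nonneg]
    · apply Finset.prod_congr rfl
      intro i hi
      have hi' : i ≤ m + 1 := by
        have := Finset.mem_range.1 hi
        omega
      exact ENNReal.ofReal_rpow_of_pos (hd i hi')
    · intro i hi
      have hi' : i ≤ m + 1 := by
        have := Finset.mem_range.1 hi
        omega
      exact (Real.rpow_pos_of_pos (hd i hi') _).le
  rw [hprod, show Φ = ENNReal.ofReal Φr from (ENNReal.ofReal_toReal hΦt).symm,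
      show V = ENNReal.ofReal Vr from (ENNReal.ofReal_toReal hVt).symm,
    ← ENNReal.ofReal_mul hVr0.le]
  exact ENNReal.ofReal_le_ofReal hfinal

end Balls


end Vale.Agent.Lib.P227
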