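import Mathlib
import Vale.Agent.Lib.P227.LemmaU
import Vale.Agent.Lib.P227.Slab

/-!
# The tensor bound: slab inequalities for norms of a pair
-/

open MeasureTheory Set Finset Filter Topology
open scoped ENNReal

namespace Vale.Agent.Lib.P227

/-- One half, as an extended number. -/
noncomputable def hf : ℝ≥0∞ := ENNReal.ofReal (1 / 2)

lemma hf_ne_top : hf ≠ ⊤ := ENNReal.ofReal_ne_top

lemma eq_Icc_of_compact_convex {A : Set ℝ} (hA : IsCompact A) (hconv : Convex ℝ A) (hne : A.Nonempty) :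
    A = Set.Icc (sInf A) (sSup A) := by
  apply subset_antisymm
  · intro x hx
    exact ⟨csInf_le hA.bddBelow hx, le_csSup hA.bddAbove hx⟩
  · exact hconv.ordConnected.out (hA.sInf_mem hne) (hA.sSup_mem hne)

/-- The slab bound for compact intervals. -/
lemma SlabBound.compact {X J : Type*} [MeasurableSpace X] [Fintype J] {μ : Measure X}
    {φ : J → X → ℝ} {c : J → ℝ} {n : ℕ} {C : ℝ≥0∞} (h : SlabBound μ φ c n C)
    (A : J → Set ℝ) (hA : ∀ j, IsCompact (A j)) (hconv : ∀ j, Convex ℝ (A j)) :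
    μ {x | ∀ j, φ j x ∈ A j} ≤ C * ∏ j, (volume (A j) * hf) ^ ((n : ℝ) * c j) := by
  by_cases hne : ∀ j, (A j).Nonempty
  · set l : J → ℝ := fun j => sInf (A j) with hl
    set r : J → ℝ := fun j => sSup (A j) with hr
    have hE : ∀ j, A j = Set.Icc (l j) (r j) := fun j =>
      eq_Icc_of_compact_convex (hA j) (hconv j) (hne j)
    have hset : {x | ∀ j, φ j x ∈ A j} = {x | ∀ j, l j ≤ φ j x ∧ φ j x ≤ r j} := by
      ext x
      simp only [Set.mem_ofPred_eq]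
      constructor
      · intro hx j
        have := hx j
        rw [hE j] at this
        exact this
      · intro hx j
        rw [hE j]
        exact hx j
    rw [hset]
    refine (h l r).trans (le_of_eq ?_)
    congr 1
    apply Finset.prod_congr rfl
    intro j _
    congr 1
    rw [hE j, Real.volume_Icc, hf, ← ENNReal.ofReal_mul']
    · congr 1
      ring
    · norm_num
  · push Not at hne
    obtain ⟨j, hj⟩ := hne
    have : {x | ∀ j, φ j x ∈ A j} = ∅ := by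
      ext x
      simp only [Set.mem_ofPred_eq, Set.mem_empty_iff_false, iff_false, not_forall]
      exact ⟨j, by rw [hj]; simp⟩
    rw [this]
    simp

/-- The volume of a cube with a side as a general set. -/
lemma volume_box (n : ℕ) (A : Set ℝ) :
    volume {ρ : Fin n → ℝ | ∀ k, ρ k ∈ A} = volume A ^ n := by
  have : {ρ : Fin n → ℝ | ∀ k, ρ k ∈ A} = Set.pi univ fun _ => A := by
    ext ρ
    simp
  rw [this, volume_pi_pi]
  simp

section Compactness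

variable {J₂ : Type*} {p : ℕ}

lemma isCompact_fiber_left [Nonempty J₂] {P : J₂ → Set (ℝ × ℝ)} (hP : ∀ g, IsCompact (P g))
    (t : J₂ → ℝ) : IsCompact {s : ℝ | ∀ g, (s, t g) ∈ P g} := by
  obtain ⟨g₀⟩ := ‹Nonempty J₂›
  have hcl : IsClosed {s : ℝ | ∀ g, (s, t g) ∈ P g} := by
    have : {s : ℝ | ∀ g, (s, t g) ∈ P g} = ⋂ g, (fun s => (s, t g)) ⁻¹' P g := by
      ext s
      simp
    rw [this]
    exact isClosed_iInter fun g => (hP g).isClosed.preimage (by fun_prop)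
  refine (((hP g₀).image continuous_fst)).of_isClosed_subset hcl ?_
  intro s hs
  exact ⟨(s, t g₀), hs g₀, rfl⟩

lemma convex_fiber_left {P : J₂ → Set (ℝ × ℝ)} (hP : ∀ g, Convex ℝ (P g))
    (t : J₂ → ℝ) : Convex ℝ {s : ℝ | ∀ g, (s, t g) ∈ P g} := by
  intro s hs s' hs' a b ha hb hab g
  have := hP g (hs g) (hs' g) ha hb hab
  convert this using 1
  ext
  · simp
  · simp only [Prod.smul_snd, Prod.snd_add, smul_eq_mul]
    rw [← add_mul, hab, one_mul]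

lemma isCompact_fiber_right [Nonempty J₂] {P : J₂ → Set (ℝ × ℝ)} (hP : ∀ g, IsCompact (P g))
    (t : J₂ → ℝ) : IsCompact {s : ℝ | ∀ g, (t g, s) ∈ P g} := by
  obtain ⟨g₀⟩ := ‹Nonempty J₂›
  have hcl : IsClosed {s : ℝ | ∀ g, (t g, s) ∈ P g} := by
    have : {s : ℝ | ∀ g, (t g, s) ∈ P g} = ⋂ g, (fun s => (t g, s)) ⁻¹' P g := by
      ext s
      simp
    rw [this]
    exact isClosed_iInter fun g => (hP g).isClosed.preimage (by fun_prop)
  refine (((hP g₀).image continuous_snd)).of_isClosed_subset hcl ?_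
  intro s hs
  exact ⟨(t g₀, s), hs g₀, rfl⟩

lemma convex_fiber_right {P : J₂ → Set (ℝ × ℝ)} (hP : ∀ g, Convex ℝ (P g))
    (t : J₂ → ℝ) : Convex ℝ {s : ℝ | ∀ g, (t g, s) ∈ P g} := by
  intro s hs s' hs' a b ha hb hab g
  have := hP g (hs g) (hs' g) ha hb hab
  convert this using 1
  ext
  · simp only [Prod.smul_fst, Prod.fst_add, smul_eq_mul]
    rw [← add_mul, hab, one_mul]
  · simp

end Compactness

/-- The inner step of the tensor bound: one fixed functional on the first factor. -/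
lemma tensor_inner {X₂ J₂ : Type*} [MeasurableSpace X₂] [Fintype J₂]
    {μ₂ : Measure X₂} [SFinite μ₂] {φ₂ : J₂ → X₂ → ℝ} (hφ₂ : ∀ j, Measurable (φ₂ j))
    {c₂ : J₂ → ℝ} (hc₂ : ∀ j, 0 ≤ c₂ j) (hc₂' : ∑ j, c₂ j = 1)
    {p q : ℕ} (hp : 0 < p) {C₂ : ℝ≥0∞} (h₂ : SlabBound μ₂ φ₂ c₂ q C₂)
    (P : J₂ → Set (ℝ × ℝ)) (hPc : ∀ g, IsCompact (P g)) (hPconv : ∀ g, Convex ℝ (P g)) :
    ∫⁻ y, (volume {s : ℝ | ∀ g, (s, φ₂ g y) ∈ P g} * hf) ^ p ∂μ₂ ≤
      hf ^ p * (C₂ * (hf ^ q * ∏ g, Phi p q (P g) ^ c₂ g)) := by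
  have hne₂ : Nonempty J₂ := by
    by_contra h
    rw [not_nonempty_iff] at h
    simp at hc₂'
  have hk : Nonempty (Fin p) := ⟨⟨0, hp⟩⟩
  -- rewrite the powers as volumes of cubes
  have e1 : ∀ y, (volume {s : ℝ | ∀ g, (s, φ₂ g y) ∈ P g} * hf) ^ p =
      hf ^ p * volume {ρ : Fin p → ℝ | ∀ k, ρ k ∈ {s : ℝ | ∀ g, (s, φ₂ g y) ∈ P g}} := by
    intro y
    rw [volume_box, mul_pow, mul_comm]
  simp_rw [e1]
  rw [lintegral_const_mul' _ _ (ENNReal.pow_ne_top hf_ne_top)]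
  gcongr
  -- the region in the product
  set E : Set (X₂ × (Fin p → ℝ)) := {z | ∀ k g, (z.2 k, φ₂ g z.1) ∈ P g} with hE
  have hEm : MeasurableSet E := by
    have : E = ⋂ k, ⋂ g, (fun z : X₂ × (Fin p → ℝ) => (z.2 k, φ₂ g z.1)) ⁻¹' P g := by
      ext z
      simp [hE]
    rw [this]
    refine MeasurableSet.iInter fun k => MeasurableSet.iInter fun g => ?_
    exact (hPc g).measurableSet.preimage
      (((measurable_pi_apply k).comp measurable_snd).prodMk ((hφ₂ g).comp measurable_fst))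
  have hswap : ∫⁻ y, volume {ρ : Fin p → ℝ | ∀ k, ρ k ∈ {s : ℝ | ∀ g, (s, φ₂ g y) ∈ P g}} ∂μ₂ =
      ∫⁻ ρ : Fin p → ℝ, μ₂ {y | ∀ g, φ₂ g y ∈ {t : ℝ | ∀ k, (ρ k, t) ∈ P g}} := by
    have h1 := Measure.prod_apply (μ := μ₂) (ν := (volume : Measure (Fin p → ℝ))) hEm
    have h2 := Measure.prod_apply_symm (μ := μ₂) (ν := (volume : Measure (Fin p → ℝ))) hEm
    have e2 : ∀ y, Prod.mk y ⁻¹' E = {ρ : Fin p → ℝ | ∀ k, ρ k ∈ {s : ℝ | ∀ g, (s, φ₂ g y) ∈ P g}} := by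
      intro y
      ext ρ
      simp [hE]
    have e3 : ∀ ρ : Fin p → ℝ, (fun y => (y, ρ)) ⁻¹' E =
        {y | ∀ g, φ₂ g y ∈ {t : ℝ | ∀ k, (ρ k, t) ∈ P g}} := by
      intro ρ
      ext y
      simp only [hE, Set.mem_preimage, Set.mem_ofPred_eq]
      exact ⟨fun h g k => h k g, fun h k g => h g k⟩
    simp_rw [e2] at h1
    simp_rw [e3] at h2
    exact h1.symm.trans h2
  rw [hswap]
  -- slab bound in the second factor
  have hbound : ∀ ρ : Fin p → ℝ, μ₂ {y | ∀ g, φ₂ g y ∈ {t : ℝ | ∀ k, (ρ k, t) ∈ P g}} ≤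
      C₂ * ∏ g, ((volume {t : ℝ | ∀ k, (ρ k, t) ∈ P g} * hf) ^ q) ^ c₂ g := by
    intro ρ
    have := h₂.compact (fun g => {t : ℝ | ∀ k, (ρ k, t) ∈ P g})
      (fun g => isCompact_fiber_right (fun _ => hPc g) ρ)
      (fun g => convex_fiber_right (fun _ => hPconv g) ρ)
    refine this.trans (le_of_eq ?_)
    congr 1
    apply Finset.prod_congr rfl
    intro g _
    rw [← ENNReal.rpow_natCast, ← ENNReal.rpow_mul]
  have hmeasB : ∀ g, Measurable fun ρ : Fin p → ℝ => volume {t : ℝ | ∀ k, (ρ k, t) ∈ P g} := by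
    intro g
    have hm : MeasurableSet {z : (Fin p → ℝ) × ℝ | ∀ k, (z.1 k, z.2) ∈ P g} := by
      have : {z : (Fin p → ℝ) × ℝ | ∀ k, (z.1 k, z.2) ∈ P g} =
          ⋂ k, (fun z : (Fin p → ℝ) × ℝ => (z.1 k, z.2)) ⁻¹' P g := by
        ext z
        simp
      rw [this]
      refine MeasurableSet.iInter fun k => ?_
      exact (hPc g).measurableSet.preimage
        (((measurable_pi_apply k).comp measurable_fst).prodMk measurable_snd)
    exact measurable_measure_prodMk_left hm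
  have hmq : ∀ g, Measurable fun ρ : Fin p → ℝ => (volume {t : ℝ | ∀ k, (ρ k, t) ∈ P g} * hf) ^ q :=
    fun g => ((hmeasB g).mul_const _).pow_const q
  calc ∫⁻ ρ : Fin p → ℝ, μ₂ {y | ∀ g, φ₂ g y ∈ {t : ℝ | ∀ k, (ρ k, t) ∈ P g}}
      ≤ ∫⁻ ρ : Fin p → ℝ, C₂ * ∏ g, ((volume {t : ℝ | ∀ k, (ρ k, t) ∈ P g} * hf) ^ q) ^ c₂ g :=
        lintegral_mono hbound
    _ = C₂ * ∫⁻ ρ : Fin p → ℝ, ∏ g, ((volume {t : ℝ | ∀ k, (ρ k, t) ∈ P g} * hf) ^ q) ^ c₂ g := by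
        apply lintegral_const_mul
        exact Finset.measurable_prod _ fun g _ => (hmq g).pow_const _
    _ ≤ C₂ * ∏ g, (∫⁻ ρ : Fin p → ℝ, (volume {t : ℝ | ∀ k, (ρ k, t) ∈ P g} * hf) ^ q) ^ c₂ g := by
        gcongr
        apply ENNReal.lintegral_prod_norm_pow_le
        · intro g _
          exact (hmq g).aemeasurable
        · exact hc₂'
        · intro g _
          exact hc₂ g
    _ = C₂ * ∏ g, (hf ^ q * Phi p q (P g)) ^ c₂ g := by
        congr 1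
        apply Finset.prod_congr rfl
        intro g _
        congr 1
        have e4 : ∀ ρ : Fin p → ℝ, (volume {t : ℝ | ∀ k, (ρ k, t) ∈ P g} * hf) ^ q =
            hf ^ q * volume {τ : Fin q → ℝ | ∀ l, τ l ∈ {t : ℝ | ∀ k, (ρ k, t) ∈ P g}} := by
          intro ρ
          rw [volume_box, mul_pow, mul_comm]
        simp_rw [e4]
        rw [lintegral_const_mul' _ _ (ENNReal.pow_ne_top hf_ne_top)]
        congr 1
        unfold Phi
        rw [Measure.volume_eq_prod, Measure.prod_apply (measurableSet_Sset p q (hPc g).measurableSet)]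
        apply lintegral_congr
        intro ρ
        congr 1
        ext τ
        simp only [Set.mem_preimage, Set.mem_ofPred_eq, Sset]
        exact ⟨fun h k l => h l k, fun h l k => h k l⟩
    _ = C₂ * (hf ^ q * ∏ g, Phi p q (P g) ^ c₂ g) := by
        rw [prod_mul_rpow _ _ c₂ hc₂ hc₂']

/-- The tensor bound. -/
theorem tensor_bound {X₁ X₂ J₁ J₂ : Type*} [MeasurableSpace X₁] [MeasurableSpace X₂]
    [Fintype J₁] [Fintype J₂] {μ₁ : Measure X₁} {μ₂ : Measure X₂} [SFinite μ₁] [SFinite μ₂]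
    {φ₁ : J₁ → X₁ → ℝ} {φ₂ : J₂ → X₂ → ℝ} (hφ₂ : ∀ j, Measurable (φ₂ j))
    {c₁ : J₁ → ℝ} {c₂ : J₂ → ℝ} (hc₁ : ∀ j, 0 ≤ c₁ j) (hc₁' : ∑ j, c₁ j = 1)
    (hc₂ : ∀ j, 0 ≤ c₂ j) (hc₂' : ∑ j, c₂ j = 1)
    {p q : ℕ} (hp : 0 < p) {C₁ C₂ : ℝ≥0∞}
    (h₁ : SlabBound μ₁ φ₁ c₁ p C₁) (h₂ : SlabBound μ₂ φ₂ c₂ q C₂)
    (P : J₁ → J₂ → Set (ℝ × ℝ)) (hPc : ∀ f g, IsCompact (P f g)) (hPconv : ∀ f g, Convex ℝ (P f g))
    (hS : MeasurableSet {z : X₁ × X₂ | ∀ f g, (φ₁ f z.1, φ₂ g z.2) ∈ P f g}) :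
    (μ₁.prod μ₂) {z | ∀ f g, (φ₁ f z.1, φ₂ g z.2) ∈ P f g} ≤
      C₁ * C₂ * (hf ^ p * hf ^ q) * ∏ f, ∏ g, Phi p q (P f g) ^ (c₂ g * c₁ f) := by
  have hne₂ : Nonempty J₂ := by
    by_contra h
    rw [not_nonempty_iff] at h
    simp at hc₂'
  have hsection : ∀ y, (fun x => (x, y)) ⁻¹' {z : X₁ × X₂ | ∀ f g, (φ₁ f z.1, φ₂ g z.2) ∈ P f g} =
      {x | ∀ f, φ₁ f x ∈ {s : ℝ | ∀ g, (s, φ₂ g y) ∈ P f g}} := by
    intro y
    ext x
    simp
  have hbound : ∀ y, μ₁ {x | ∀ f, φ₁ f x ∈ {s : ℝ | ∀ g, (s, φ₂ g y) ∈ P f g}} ≤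
      C₁ * ∏ f, ((volume {s : ℝ | ∀ g, (s, φ₂ g y) ∈ P f g} * hf) ^ p) ^ c₁ f := by
    intro y
    have := h₁.compact (fun f => {s : ℝ | ∀ g, (s, φ₂ g y) ∈ P f g})
      (fun f => isCompact_fiber_left (hPc f) _) (fun f => convex_fiber_left (hPconv f) _)
    refine this.trans (le_of_eq ?_)
    congr 1
    apply Finset.prod_congr rfl
    intro f _
    rw [← ENNReal.rpow_natCast, ← ENNReal.rpow_mul]
  have hmeasA : ∀ f, Measurable fun y => volume {s : ℝ | ∀ g, (s, φ₂ g y) ∈ P f g} := by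
    intro f
    have hm : MeasurableSet {z : X₂ × ℝ | ∀ g, (z.2, φ₂ g z.1) ∈ P f g} := by
      have : {z : X₂ × ℝ | ∀ g, (z.2, φ₂ g z.1) ∈ P f g} =
          ⋂ g, (fun z : X₂ × ℝ => (z.2, φ₂ g z.1)) ⁻¹' P f g := by
        ext z
        simp
      rw [this]
      refine MeasurableSet.iInter fun g => ?_
      exact (hPc f g).measurableSet.preimage (measurable_snd.prodMk ((hφ₂ g).comp measurable_fst))
    exact measurable_measure_prodMk_left hm
  have hmp : ∀ f, Measurable fun y => (volume {s : ℝ | ∀ g, (s, φ₂ g y) ∈ P f g} * hf) ^ p :=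
    fun f => ((hmeasA f).mul_const _).pow_const p
  have hinner := fun f => tensor_inner (q := q) hφ₂ hc₂ hc₂' hp h₂ (P f) (hPc f) (hPconv f)
  calc (μ₁.prod μ₂) {z | ∀ f g, (φ₁ f z.1, φ₂ g z.2) ∈ P f g}
      = ∫⁻ y, μ₁ {x | ∀ f, φ₁ f x ∈ {s : ℝ | ∀ g, (s, φ₂ g y) ∈ P f g}} ∂μ₂ := by
        rw [Measure.prod_apply_symm hS]
        simp_rw [hsection]
    _ ≤ ∫⁻ y, C₁ * ∏ f, ((volume {s : ℝ | ∀ g, (s, φ₂ g y) ∈ P f g} * hf) ^ p) ^ c₁ f ∂μ₂ :=
        lintegral_mono hbound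
    _ = C₁ * ∫⁻ y, ∏ f, ((volume {s : ℝ | ∀ g, (s, φ₂ g y) ∈ P f g} * hf) ^ p) ^ c₁ f ∂μ₂ := by
        apply lintegral_const_mul
        exact Finset.measurable_prod _ fun f _ => (hmp f).pow_const _
    _ ≤ C₁ * ∏ f, (∫⁻ y, (volume {s : ℝ | ∀ g, (s, φ₂ g y) ∈ P f g} * hf) ^ p ∂μ₂) ^ c₁ f := by
        gcongr
        apply ENNReal.lintegral_prod_norm_pow_le
        · intro f _
          exact (hmp f).aemeasurable
        · exact hc₁'
        · intro f _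
          exact hc₁ f
    _ ≤ C₁ * ∏ f, (hf ^ p * (C₂ * (hf ^ q * ∏ g, Phi p q (P f g) ^ c₂ g))) ^ c₁ f := by
        gcongr with f _
        · exact hc₁ f
        · exact hinner f
    _ = C₁ * C₂ * (hf ^ p * hf ^ q) * ∏ f, ∏ g, Phi p q (P f g) ^ (c₂ g * c₁ f) := by
        have e1 : ∀ f, hf ^ p * (C₂ * (hf ^ q * ∏ g, Phi p q (P f g) ^ c₂ g)) =
            (C₂ * (hf ^ p * hf ^ q)) * ∏ g, Phi p q (P f g) ^ c₂ g := fun f => by ring
        simp_rw [e1]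
        rw [prod_mul_rpow _ _ c₁ hc₁ hc₁']
        have e2 : ∏ f, (∏ g, Phi p q (P f g) ^ c₂ g) ^ c₁ f =
            ∏ f, ∏ g, Phi p q (P f g) ^ (c₂ g * c₁ f) := by
          apply Finset.prod_congr rfl
          intro f _
          rw [← ENNReal.prod_rpow_of_nonneg (hc₁ f)]
          apply Finset.prod_congr rfl
          intro g _
          rw [ENNReal.rpow_mul]
        rw [e2]
        ring

end Vale.Agent.Lib.P227
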