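import Mathlib
import Vale.Agent.Lib.P227.Tensor
import Vale.Agent.Lib.P227.Hanner

/-!
# Configurations: norms with signed normals, cones and slab inequalities
-/

open MeasureTheory Set Finset Filter Topology
open scoped ENNReal Pointwise

namespace Vale.Agent.Lib.P227

/-- All the facts on a norm that are carried along the recursion. -/
structure Cfg (α J : Type) [Fintype α] [Fintype J] (N : (α → ℝ) → ℝ) (u : J → α → ℝ)
    (c : J → ℝ) (neg : J → J) (A : J → Set (α → ℝ)) (n : ℕ) (C : ℝ) : Prop where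
  n_pos : 0 < n
  card : Fintype.card α = n
  C_pos : 0 < C
  c_nonneg : ∀ j, 0 ≤ c j
  c_sum : ∑ j, c j = 1
  neg_neg : ∀ j, neg (neg j) = j
  u_neg : ∀ j, u (neg j) = - u j
  c_neg : ∀ j, c (neg j) = c j
  le : ∀ j x, linForm (u j) x ≤ N x
  A_meas : ∀ j, MeasurableSet (A j)
  A_unique : ∀ i j x, x ∈ A i → x ∈ A j → i = j
  A_cover : ∀ x, ∃ j, x ∈ A j
  A_active : ∀ j x, x ∈ A j → linForm (u j) x = N x
  A_cone : ∀ j x (t : ℝ), x ∈ A j → 0 < t → t • x ∈ A j
  definite : ∀ x, N x = 0 → x = 0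
  slab : SlabBound (volume : Measure (α → ℝ)) (fun j => linForm (u j)) c n (ENNReal.ofReal C)
  vol_A : ∀ j, volume ({x | N x ≤ 1} ∩ A j) = ENNReal.ofReal (c j * C)

namespace Cfg

variable {α J : Type} [Fintype α] [Fintype J] {N : (α → ℝ) → ℝ} {u : J → α → ℝ}
  {c : J → ℝ} {neg : J → J} {A : J → Set (α → ℝ)} {n : ℕ} {C : ℝ}

lemma nonempty_coord (h : Cfg α J N u c neg A n C) : Nonempty α := by
  have := h.card
  have h2 := h.n_pos
  exact Fintype.card_pos_iff.1 (by omega)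

lemma nonempty_J (h : Cfg α J N u c neg A n C) : Nonempty J := by
  by_contra hne
  rw [not_nonempty_iff] at hne
  have := h.c_sum
  simp at this

lemma neg_le (h : Cfg α J N u c neg A n C) (j : J) (x : α → ℝ) : - linForm (u j) x ≤ N x := by
  have := h.le (neg j) x
  rw [h.u_neg] at this
  have e : linForm (- u j) x = - linForm (u j) x := by
    unfold linForm
    simp [Finset.sum_neg_distrib]
  rwa [e] at this

lemma abs_le (h : Cfg α J N u c neg A n C) (j : J) (x : α → ℝ) : |linForm (u j) x| ≤ N x :=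
  _root_.abs_le.2 ⟨by linarith [h.neg_le j x], h.le j x⟩

lemma exists_eq (h : Cfg α J N u c neg A n C) (x : α → ℝ) : ∃ j, linForm (u j) x = N x := by
  obtain ⟨j, hj⟩ := h.A_cover x
  exact ⟨j, h.A_active j x hj⟩

lemma exists_abs_eq (h : Cfg α J N u c neg A n C) (x : α → ℝ) : ∃ j, |linForm (u j) x| = N x := by
  obtain ⟨j, hj⟩ := h.exists_eq x
  refine ⟨j, ?_⟩
  have h1 := h.abs_le j x
  apply le_antisymm h1
  rw [← hj]
  exact le_abs_self _

lemma N_nonneg (h : Cfg α J N u c neg A n C) (x : α → ℝ) : 0 ≤ N x :=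
  norm_nonneg_of h.exists_abs_eq x

lemma N_smul (h : Cfg α J N u c neg A n C) (r : ℝ) (x : α → ℝ) : N (r • x) = |r| * N x :=
  norm_smul_of h.abs_le h.exists_abs_eq r x

lemma N_neg (h : Cfg α J N u c neg A n C) (x : α → ℝ) : N (- x) = N x :=
  norm_neg_of h.abs_le h.exists_abs_eq x

lemma N_zero (h : Cfg α J N u c neg A n C) : N 0 = 0 :=
  norm_zero_of h.exists_abs_eq

lemma N_add_le (h : Cfg α J N u c neg A n C) (x y : α → ℝ) : N (x + y) ≤ N x + N y :=
  norm_add_le_of h.abs_le h.exists_abs_eq x y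

lemma N_le_iff (h : Cfg α J N u c neg A n C) (x : α → ℝ) (t : ℝ) :
    N x ≤ t ↔ ∀ j, |linForm (u j) x| ≤ t :=
  norm_le_iff_of h.abs_le h.exists_abs_eq x t

lemma continuous_linForm {γ : Type} [Fintype γ] (w : γ → ℝ) : Continuous (linForm w) := by
  unfold linForm
  fun_prop

lemma N_eq_sup (h : Cfg α J N u c neg A n C) : N = fun x =>
    (Finset.univ.sup' (@Finset.univ_nonempty _ _ h.nonempty_J) fun j => linForm (u j) x) := by
  funext x
  apply le_antisymm
  · obtain ⟨j, hj⟩ := h.exists_eq x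
    rw [← hj]
    exact Finset.le_sup' (fun j => linForm (u j) x) (Finset.mem_univ j)
  · apply Finset.sup'_le
    intro j _
    exact h.le j x

lemma continuous_N (h : Cfg α J N u c neg A n C) : Continuous N := by
  rw [h.N_eq_sup]
  exact Continuous.finset_sup'_apply _ fun j _ => continuous_linForm (u j)

lemma measurable_N (h : Cfg α J N u c neg A n C) : Measurable N := h.continuous_N.measurable

/-- The unit ball is bounded. -/
lemma exists_lower (h : Cfg α J N u c neg A n C) : ∃ κ : ℝ, 0 < κ ∧ ∀ x, κ * ‖x‖ ≤ N x := by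
  have hne := h.nonempty_coord
  have hcomp : IsCompact (Metric.sphere (0 : α → ℝ) 1) := isCompact_sphere 0 1
  have hne' : (Metric.sphere (0 : α → ℝ) 1).Nonempty := by
    refine ⟨fun _ => 1, ?_⟩
    simp [pi_norm_const]
  obtain ⟨x₀, hx₀, hmin⟩ := hcomp.exists_isMinOn hne' h.continuous_N.continuousOn
  have hx₀n : ‖x₀‖ = 1 := by simpa using hx₀
  have hpos : 0 < N x₀ := by
    refine lt_of_le_of_ne (h.N_nonneg x₀) fun e => ?_
    have := h.definite x₀ e.symm
    rw [this] at hx₀n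
    simp at hx₀n
  refine ⟨N x₀, hpos, fun x => ?_⟩
  by_cases hx : x = 0
  · rw [hx, h.N_zero]
    simp
  · have hn : 0 < ‖x‖ := norm_pos_iff.2 hx
    have hu : ‖x‖⁻¹ • x ∈ Metric.sphere (0 : α → ℝ) 1 := by
      simp [norm_smul, hn.ne']
    have h1 := hmin hu
    simp only [Set.mem_ofPred_eq] at h1
    rw [h.N_smul, abs_of_pos (by positivity)] at h1
    have : N x₀ * ‖x‖ ≤ ‖x‖⁻¹ * N x * ‖x‖ := mul_le_mul_of_nonneg_right h1 hn.le
    have e : ‖x‖⁻¹ * N x * ‖x‖ = N x := by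
      field_simp
    rwa [e] at this

/-- Volume of the pieces of a ball of a given radius. -/
lemma vol_scale (h : Cfg α J N u c neg A n C) (j : J) {t : ℝ} (ht : 0 < t) :
    volume ({x | N x ≤ t} ∩ A j) = ENNReal.ofReal (t ^ n) * ENNReal.ofReal (c j * C) := by
  have hset : {x | N x ≤ t} ∩ A j = t • ({x | N x ≤ 1} ∩ A j) := by
    ext x
    rw [Set.mem_smul_set_iff_inv_smul_mem₀ ht.ne']
    simp only [Set.mem_inter_iff, Set.mem_ofPred_eq]
    rw [h.N_smul, abs_of_pos (by positivity)]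
    constructor
    · rintro ⟨h1, h2⟩
      refine ⟨?_, h.A_cone j x _ h2 (by positivity)⟩
      rw [inv_mul_le_iff₀ ht]
      linarith
    · rintro ⟨h1, h2⟩
      rw [inv_mul_le_iff₀ ht] at h1
      refine ⟨by linarith, ?_⟩
      have := h.A_cone j _ t h2 ht
      rwa [smul_inv_smul₀ ht.ne'] at this
  rw [hset, Measure.addHaar_smul, h.vol_A]
  have hf : Module.finrank ℝ (α → ℝ) = n := by
    rw [Module.finrank_fintype_fun_eq_card, h.card]
  rw [hf, abs_of_pos (by positivity)]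

lemma vol_nonpos (h : Cfg α J N u c neg A n C) (j : J) {t : ℝ} (ht : t ≤ 0) :
    volume ({x | N x ≤ t} ∩ A j) = 0 := by
  have := h.nonempty_coord
  have hsub : {x | N x ≤ t} ∩ A j ⊆ {0} := by
    rintro x ⟨h1, -⟩
    have h2 : N x ≤ t := h1
    have h3 := h.N_nonneg x
    exact h.definite x (le_antisymm (h2.trans ht) h3)
  exact measure_mono_null hsub (measure_singleton _)

end Cfg

/-- The law of the sup norm. -/
noncomputable def Lam (n : ℕ) : Measure ℝ := Measure.map (fun ρ : Fin n → ℝ => ‖ρ‖) volume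

lemma Lam_Iic {n : ℕ} (hn : 0 < n) (t : ℝ) :
    Lam n (Iic t) = ENNReal.ofReal ((2 * max t 0) ^ n) := by
  unfold Lam
  rw [Measure.map_apply measurable_norm measurableSet_Iic]
  rcases le_or_gt 0 t with ht | ht
  · have : (fun ρ : Fin n → ℝ => ‖ρ‖) ⁻¹' Iic t = Metric.closedBall 0 t := by
      ext ρ
      simp
    rw [this, Real.volume_pi_closedBall _ ht, max_eq_left ht]
    simp
  · have : (fun ρ : Fin n → ℝ => ‖ρ‖) ⁻¹' Iic t = ∅ := by
      ext ρ
      simp only [Set.mem_preimage, Set.mem_Iic, Set.mem_empty_iff_false, iff_false, not_le]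
      exact lt_of_lt_of_le ht (norm_nonneg _)
    rw [this, max_eq_right ht.le]
    simp [hn.ne']

/-- Two measures on the line agreeing on half lines with finite mass are equal. -/
lemma measure_ext_Iic {m₁ m₂ : Measure ℝ} (h : ∀ t, m₁ (Iic t) = m₂ (Iic t))
    (hf : ∀ t, m₁ (Iic t) ≠ ⊤) : m₁ = m₂ := by
  have hfin : IsLocallyFiniteMeasure m₁ :=
    ⟨fun x => ⟨Iic (x + 1), Iic_mem_nhds (by linarith), (hf _).lt_top⟩⟩
  refine Measure.ext_of_Ioc m₁ m₂ ?_
  intro a b hab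
  have hsub : Iic a ⊆ Iic b := Iic_subset_Iic.2 hab.le
  have e : Ioc a b = Iic b \ Iic a := by
    ext x
    simp [and_comm]
  rw [e, measure_sdiff hsub measurableSet_Iic.nullMeasurableSet (hf a),
    measure_sdiff hsub measurableSet_Iic.nullMeasurableSet (by rw [← h]; exact hf a), h, h]

instance Lam_locallyFinite (n : ℕ) : IsLocallyFiniteMeasure (Lam n) := by
  rcases Nat.eq_zero_or_pos n with rfl | hn
  · refine ⟨fun x => ⟨Iio (x + 1), Iio_mem_nhds (by linarith), ?_⟩⟩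
    unfold Lam
    rw [Measure.map_apply measurable_norm measurableSet_Iio]
    have : volume ((fun ρ : Fin 0 → ℝ => ‖ρ‖) ⁻¹' Iio (x + 1)) ≤ volume (Set.univ : Set (Fin 0 → ℝ)) :=
      measure_mono (Set.subset_univ _)
    refine lt_of_le_of_lt this ?_
    simp
  · exact ⟨fun x => ⟨Iic (x + 1), Iic_mem_nhds (by linarith), by
      rw [Lam_Iic hn]; exact ENNReal.ofReal_lt_top⟩⟩

namespace Cfg

variable {α J : Type} [Fintype α] [Fintype J] {N : (α → ℝ) → ℝ} {u : J → α → ℝ}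
  {c : J → ℝ} {neg : J → J} {A : J → Set (α → ℝ)} {n : ℕ} {C : ℝ}

/-- The law of the norm on a cone. -/
theorem map_N_eq (h : Cfg α J N u c neg A n C) (j : J) :
    Measure.map N (volume.restrict (A j)) =
      ENNReal.ofReal (c j * C * (1 / 2) ^ n) • Lam n := by
  have hCc : 0 ≤ c j * C := mul_nonneg (h.c_nonneg j) h.C_pos.le
  have hval : ∀ t, Measure.map N (volume.restrict (A j)) (Iic t) =
      ENNReal.ofReal (c j * C * (1 / 2) ^ n * (2 * max t 0) ^ n) := by
    intro t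
    rw [Measure.map_apply h.measurable_N measurableSet_Iic,
      Measure.restrict_apply (h.measurable_N measurableSet_Iic)]
    rcases le_or_gt t 0 with ht | ht
    · rw [max_eq_right ht]
      have : N ⁻¹' Iic t ∩ A j = {x | N x ≤ t} ∩ A j := rfl
      rw [this, h.vol_nonpos j ht]
      simp [h.n_pos.ne']
    · rw [max_eq_left ht.le]
      have : N ⁻¹' Iic t ∩ A j = {x | N x ≤ t} ∩ A j := rfl
      rw [this, h.vol_scale j ht, ← ENNReal.ofReal_mul (by positivity)]
      congr 1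
      have e : ((1:ℝ) / 2) ^ n * (2 * t) ^ n = t ^ n := by
        rw [← mul_pow]
        congr 1
        ring
      calc t ^ n * (c j * C) = c j * C * (((1:ℝ) / 2) ^ n * (2 * t) ^ n) := by rw [e]; ring
        _ = _ := by ring
  apply measure_ext_Iic
  · intro t
    rw [hval, Measure.smul_apply, Lam_Iic h.n_pos, smul_eq_mul, ENNReal.ofReal_mul (by positivity)]
  · intro t
    rw [hval]
    exact ENNReal.ofReal_ne_top

end Cfg

/-- The law of the pair of sup norms, on a pair of cones. -/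
theorem prod_radial {α₁ α₂ J₁ J₂ : Type} [Fintype α₁] [Fintype α₂] [Fintype J₁] [Fintype J₂]
    {N₁ : (α₁ → ℝ) → ℝ} {N₂ : (α₂ → ℝ) → ℝ} {u₁ : J₁ → α₁ → ℝ} {u₂ : J₂ → α₂ → ℝ}
    {c₁ : J₁ → ℝ} {c₂ : J₂ → ℝ} {neg₁ : J₁ → J₁} {neg₂ : J₂ → J₂}
    {A₁ : J₁ → Set (α₁ → ℝ)} {A₂ : J₂ → Set (α₂ → ℝ)} {p q : ℕ} {C₁ C₂ : ℝ}
    (h₁ : Cfg α₁ J₁ N₁ u₁ c₁ neg₁ A₁ p C₁) (h₂ : Cfg α₂ J₂ N₂ u₂ c₂ neg₂ A₂ q C₂)
    (f : J₁) (g : J₂) {T : Set (ℝ × ℝ)} (hT : MeasurableSet T) :
    ((volume.restrict (A₁ f)).prod (volume.restrict (A₂ g))) {z | (N₁ z.1, N₂ z.2) ∈ T} =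
      ENNReal.ofReal (c₁ f * C₁ * (1 / 2) ^ p) * ENNReal.ofReal (c₂ g * C₂ * (1 / 2) ^ q) *
        volume {w : (Fin p → ℝ) × (Fin q → ℝ) | Rad w ∈ T} := by
  have hm : Measurable (Prod.map N₁ N₂) := h₁.measurable_N.prodMap h₂.measurable_N
  have e1 : {z : (α₁ → ℝ) × (α₂ → ℝ) | (N₁ z.1, N₂ z.2) ∈ T} = Prod.map N₁ N₂ ⁻¹' T := rfl
  rw [e1, ← Measure.map_apply hm hT, ← Measure.map_prod_map _ _ h₁.measurable_N h₂.measurable_N,
    h₁.map_N_eq, h₂.map_N_eq, Measure.prod_smul_left, Measure.prod_smul_right]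
  simp only [Measure.smul_apply, smul_eq_mul]
  unfold Lam
  rw [Measure.map_prod_map _ _ measurable_norm measurable_norm,
    Measure.map_apply (measurable_norm.prodMap measurable_norm) hT, ← mul_assoc]
  rfl

end Vale.Agent.Lib.P227
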