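import Mathlib
import Vale.Agent.Lib.P227.Cfg

/-!
# The planar inequality and the node construction
-/

open MeasureTheory Set Finset Filter Topology
open scoped ENNReal Pointwise

namespace Vale.Agent.Lib.P227

section Planar

variable {m : ℕ} {a b l₁ r₁ l₂ r₂ : ℕ → ℝ}

/-- The planar inequality. -/
theorem planar_lemma (hF : PFan m a b) (p q : ℕ) (h₁ : ∀ i, i ≤ m + 1 → l₁ i < r₁ i)
    (h₂ : ∀ i, i ≤ m + 1 → l₂ i < r₂ i) :
    Phi (p + 1) (q + 1) (StripSet m a b l₁ r₁ l₂ r₂) ≤ Phi (p + 1) (q + 1) (DF m a b fun _ => 1) *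
      ∏ i ∈ Finset.range (m + 2), (ENNReal.ofReal ((r₁ i - l₁ i) / 2) *
        ENNReal.ofReal ((r₂ i - l₂ i) / 2)) ^
          (((p + 1 + (q + 1) : ℕ) : ℝ) * sig (p + 1) (q + 1) m a b i / 2) := by
  have hd : ∀ i, i ≤ m + 1 → 0 < Real.sqrt ((r₁ i - l₁ i) / 2 * ((r₂ i - l₂ i) / 2)) := by
    intro i hi
    apply Real.sqrt_pos.2
    have h3 := h₁ i hi
    have h4 := h₂ i hi
    apply mul_pos <;> linarith
  refine (Phi_strip_le hF p q).trans ((lemmaU hF p q hd).trans (le_of_eq ?_))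
  congr 1
  apply Finset.prod_congr rfl
  intro i hi
  have hi' : i ≤ m + 1 := by
    have := Finset.mem_range.1 hi
    omega
  have h3 : 0 < (r₁ i - l₁ i) / 2 := by linarith [h₁ i hi']
  have h4 : 0 < (r₂ i - l₂ i) / 2 := by linarith [h₂ i hi']
  rw [← ENNReal.ofReal_mul h3.le, Real.sqrt_eq_rpow,
    ← ENNReal.ofReal_rpow_of_pos (mul_pos h3 h4), ← ENNReal.rpow_mul]
  congr 1
  ring

lemma convex_StripSet : Convex ℝ (StripSet m a b l₁ r₁ l₂ r₂) := by
  intro z hz z' hz' s t hs ht hst i hi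
  have h1 := hz i hi
  have h2 := hz' i hi
  simp only [Prod.fst_add, Prod.snd_add, Prod.smul_fst, Prod.smul_snd, smul_eq_mul]
  obtain rfl : t = 1 - s := by linarith
  have e1 : a i * (s * z.1 + (1 - s) * z'.1) + b i * (s * z.2 + (1 - s) * z'.2) =
      s * (a i * z.1 + b i * z.2) + (1 - s) * (a i * z'.1 + b i * z'.2) := by ring
  have e2 : a i * (s * z.1 + (1 - s) * z'.1) - b i * (s * z.2 + (1 - s) * z'.2) =
      s * (a i * z.1 - b i * z.2) + (1 - s) * (a i * z'.1 - b i * z'.2) := by ring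
  rw [e1, e2]
  refine ⟨⟨?_, ?_⟩, ⟨?_, ?_⟩⟩
  · nlinarith [mul_le_mul_of_nonneg_left h1.1.1 hs, mul_le_mul_of_nonneg_left h2.1.1 ht]
  · nlinarith [mul_le_mul_of_nonneg_left h1.1.2 hs, mul_le_mul_of_nonneg_left h2.1.2 ht]
  · nlinarith [mul_le_mul_of_nonneg_left h1.2.1 hs, mul_le_mul_of_nonneg_left h2.2.1 ht]
  · nlinarith [mul_le_mul_of_nonneg_left h1.2.2 hs, mul_le_mul_of_nonneg_left h2.2.2 ht]

lemma isCompact_StripSet (hF : PFan m a b) : IsCompact (StripSet m a b l₁ r₁ l₂ r₂) := by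
  apply Metric.isCompact_of_isClosed_isBounded isClosed_StripSet
  have h0 := hF.α_pos (i := 0) (by omega)
  have hM := hF.β_pos (i := m) le_rfl
  have hbd : StripSet m a b l₁ r₁ l₂ r₂ ⊆ Set.Icc ((l₁ 0 / a 0, l₁ (m + 1) / b (m + 1)) : ℝ × ℝ)
      ((r₁ 0 / a 0, r₁ (m + 1) / b (m + 1)) : ℝ × ℝ) := by
    intro z hz
    have h1 := (hz 0 (by omega)).1
    have h2 := (hz (m + 1) le_rfl).1
    simp only [hF.β0, hF.αM, zero_mul, add_zero, zero_add] at h1 h2
    exact ⟨⟨(div_le_iff₀' h0).2 h1.1, (div_le_iff₀' hM).2 h2.1⟩,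
      ⟨(le_div_iff₀' h0).2 h1.2, (le_div_iff₀' hM).2 h2.2⟩⟩
  exact (Metric.isBounded_Icc _ _).subset hbd

end Planar

/-- Positivity of the widths is enough for a slab bound. -/
lemma slab_of_pos {X J : Type*} [MeasurableSpace X] [Fintype J] {μ : Measure X} {φ : J → X → ℝ}
    {c : J → ℝ} {n : ℕ} {C : ℝ≥0∞} (hC : C ≠ ⊤) (hc : ∀ j, 0 ≤ c j)
    (H : ∀ l r : J → ℝ, (∀ j, l j < r j) → μ {x | ∀ j, l j ≤ φ j x ∧ φ j x ≤ r j} ≤
      C * ∏ j, ENNReal.ofReal ((r j - l j) / 2) ^ ((n : ℝ) * c j)) :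
    SlabBound μ φ c n C := by
  intro l r
  by_cases hle : ∀ j, l j ≤ r j
  · have hlim : Tendsto (fun η : ℝ => C * ∏ j, ENNReal.ofReal ((r j + η - l j) / 2) ^ ((n : ℝ) * c j))
        (𝓝[>] 0) (𝓝 (C * ∏ j, ENNReal.ofReal ((r j - l j) / 2) ^ ((n : ℝ) * c j))) := by
      apply ENNReal.Tendsto.const_mul _ (Or.inr hC)
      apply ENNReal.tendsto_finsetProd_of_ne_top
      · intro j _
        refine ENNReal.continuous_rpow_const.tendsto' _ _ rfl |>.comp ?_
        apply ENNReal.tendsto_ofReal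
        have hc : Continuous fun η : ℝ => (r j + η - l j) / 2 := by fun_prop
        have := hc.tendsto 0
        simp only [add_zero] at this
        exact this.mono_left nhdsWithin_le_nhds
      · intro j _
        exact ENNReal.rpow_ne_top_of_nonneg (mul_nonneg (Nat.cast_nonneg n) (hc j))
          ENNReal.ofReal_ne_top
    refine ge_of_tendsto hlim ?_
    filter_upwards [self_mem_nhdsWithin] with η hη
    have hη' : (0:ℝ) < η := hη
    refine le_trans (measure_mono ?_) (H l (fun j => r j + η) fun j => by linarith [hle j])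
    intro x hx j
    exact ⟨(hx j).1, by linarith [(hx j).2]⟩
  · push Not at hle
    obtain ⟨j, hj⟩ := hle
    have : {x | ∀ j, l j ≤ φ j x ∧ φ j x ≤ r j} = ∅ := by
      ext x
      simp only [Set.mem_ofPred_eq, Set.mem_empty_iff_false, iff_false, not_forall]
      refine ⟨j, ?_⟩
      rintro ⟨h1, h2⟩
      linarith
    rw [this]
    simp

/-- The planar norm of a fan. -/
noncomputable def NDf (m : ℕ) (a b : ℕ → ℝ) (s t : ℝ) : ℝ :=
  (Finset.range (m + 2)).sup' (by simp) fun i => a i * s + b i * t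

section NDf

variable {m : ℕ} {a b : ℕ → ℝ}

lemma le_NDf {i : ℕ} (hi : i ≤ m + 1) (s t : ℝ) : a i * s + b i * t ≤ NDf m a b s t :=
  Finset.le_sup' (fun i => a i * s + b i * t) (Finset.mem_range.2 (by omega))

lemma NDf_eq_of_Tsel {i : ℕ} (hi : i ≤ m + 1) {s t : ℝ} (h : (s, t) ∈ Tsel m a b i) :
    NDf m a b s t = a i * s + b i * t := by
  apply le_antisymm _ (le_NDf hi s t)
  apply Finset.sup'_le
  intro j hj
  exact h.1 j (by have := Finset.mem_range.1 hj; omega)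

lemma NDf_le_iff (s t c : ℝ) : NDf m a b s t ≤ c ↔ ∀ i, i ≤ m + 1 → a i * s + b i * t ≤ c := by
  unfold NDf
  rw [Finset.sup'_le_iff]
  constructor
  · intro h i hi
    exact h i (Finset.mem_range.2 (by omega))
  · intro h i hi
    exact h i (by have := Finset.mem_range.1 hi; omega)

end NDf

lemma sig_sum_fin {m : ℕ} {a b : ℕ → ℝ} (hF : PFan m a b) (p q : ℕ) :
    ∑ i : Fin (m + 2), sig (p + 1) (q + 1) m a b i = 1 := by
  rw [Fin.sum_univ_eq_sum_range (fun i => sig (p + 1) (q + 1) m a b i), sig_sum hF]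

section Node

variable {α₁ α₂ J₁ J₂ : Type} [Fintype α₁] [Fintype α₂] [Fintype J₁] [Fintype J₂]
  {N₁ : (α₁ → ℝ) → ℝ} {N₂ : (α₂ → ℝ) → ℝ} {u₁ : J₁ → α₁ → ℝ} {u₂ : J₂ → α₂ → ℝ}
  {c₁ : J₁ → ℝ} {c₂ : J₂ → ℝ} {neg₁ : J₁ → J₁} {neg₂ : J₂ → J₂}
  {A₁ : J₁ → Set (α₁ → ℝ)} {A₂ : J₂ → Set (α₂ → ℝ)} {p q : ℕ} {C₁ C₂ : ℝ}
  {m : ℕ} {a b : ℕ → ℝ}

/-- The coordinates of the sum type. -/
abbrev eSum (α₁ α₂ : Type) [Fintype α₁] [Fintype α₂] :=
  MeasurableEquiv.sumPiEquivProdPi (fun _ : α₁ ⊕ α₂ => ℝ)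

lemma mp_eSum : MeasurePreserving (eSum α₁ α₂) volume (volume.prod volume) :=
  volume_measurePreserving_sumPiEquivProdPi (fun _ : α₁ ⊕ α₂ => ℝ)

/-- The linear form of a normal of a node. -/
lemma node_linForm (s t : ℝ) (v₁ : α₁ → ℝ) (v₂ : α₂ → ℝ) (x : α₁ ⊕ α₂ → ℝ) :
    linForm (Sum.elim (fun i => s * v₁ i) (fun i => t * v₂ i)) x =
      s * linForm v₁ (fun i => x (Sum.inl i)) + t * linForm v₂ (fun i => x (Sum.inr i)) := by
  rw [linForm_sum, linForm_smul, linForm_smul]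

/-- The slab inequality at a node. -/
theorem node_slab (hF : PFan m a b) (h₁ : Cfg α₁ J₁ N₁ u₁ c₁ neg₁ A₁ (p + 1) C₁)
    (h₂ : Cfg α₂ J₂ N₂ u₂ c₂ neg₂ A₂ (q + 1) C₂) :
    SlabBound (volume : Measure (α₁ ⊕ α₂ → ℝ))
      (fun j : J₁ × J₂ × Fin (m + 2) =>
        linForm (Sum.elim (fun i => a j.2.2 * u₁ j.1 i) (fun i => b j.2.2 * u₂ j.2.1 i)))
      (fun j => c₁ j.1 * c₂ j.2.1 * sig (p + 1) (q + 1) m a b j.2.2) (p + 1 + (q + 1))
      (ENNReal.ofReal (C₁ * C₂ * (1 / 2) ^ (p + 1 + (q + 1)) *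
        (Phi (p + 1) (q + 1) (DF m a b fun _ => 1)).toReal)) := by
  have hσ0 := sig_nonneg (p + 1) (q + 1) m a b
  refine slab_of_pos ENNReal.ofReal_ne_top (fun j => mul_nonneg (mul_nonneg (h₁.c_nonneg _)
    (h₂.c_nonneg _)) (hσ0 _)) ?_
  intro l r hlr
  set n := p + 1 + (q + 1) with hn
  -- strip sets
  set fi : ℕ → Fin (m + 2) := fun i => Fin.ofNat (m + 2) i with hfi
  have hfival : ∀ i, i ≤ m + 1 → ((fi i : Fin (m + 2)) : ℕ) = i := by
    intro i hi
    simp only [hfi, Fin.val_ofNat]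
    exact Nat.mod_eq_of_lt (by omega)
  set P : J₁ → J₂ → Set (ℝ × ℝ) := fun f g => StripSet m a b
    (fun i => l (f, g, fi i)) (fun i => r (f, g, fi i))
    (fun i => l (f, neg₂ g, fi i)) (fun i => r (f, neg₂ g, fi i)) with hP
  have hPc : ∀ f g, IsCompact (P f g) := fun f g => isCompact_StripSet hF
  have hPconv : ∀ f g, Convex ℝ (P f g) := fun f g => convex_StripSet
  set S'' : Set ((α₁ → ℝ) × (α₂ → ℝ)) :=
    {z | ∀ f g, (linForm (u₁ f) z.1, linForm (u₂ g) z.2) ∈ P f g} with hS''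
  have hS''m : MeasurableSet S'' := by
    have : S'' = ⋂ f, ⋂ g,
        (fun z : (α₁ → ℝ) × (α₂ → ℝ) => (linForm (u₁ f) z.1, linForm (u₂ g) z.2)) ⁻¹' P f g := by
      ext z
      simp [hS'']
    rw [this]
    refine MeasurableSet.iInter fun f => MeasurableSet.iInter fun g => ?_
    exact (hPc f g).measurableSet.preimage
      (((measurable_linForm _).comp measurable_fst).prodMk ((measurable_linForm _).comp measurable_snd))
  have hsub : {x : α₁ ⊕ α₂ → ℝ | ∀ j : J₁ × J₂ × Fin (m + 2),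
        l j ≤ linForm (Sum.elim (fun i => a j.2.2 * u₁ j.1 i) (fun i => b j.2.2 * u₂ j.2.1 i)) x ∧
        linForm (Sum.elim (fun i => a j.2.2 * u₁ j.1 i) (fun i => b j.2.2 * u₂ j.2.1 i)) x ≤ r j} ⊆
      (eSum α₁ α₂) ⁻¹' S'' := by
    intro x hx f g i hi
    have hv := hfival i hi
    have h1 := hx (f, g, fi i)
    have h2 := hx (f, neg₂ g, fi i)
    simp only [node_linForm, hv] at h1 h2
    have e : linForm (u₂ (neg₂ g)) (fun i => x (Sum.inr i)) =
        - linForm (u₂ g) (fun i => x (Sum.inr i)) := by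
      rw [h₂.u_neg]
      unfold linForm
      simp [Finset.sum_neg_distrib]
    rw [e] at h2
    refine ⟨h1, ?_⟩
    constructor
    · have := h2.1
      change l (f, neg₂ g, fi i) ≤ a i * linForm (u₁ f) (fun i => x (Sum.inl i)) -
        b i * linForm (u₂ g) (fun i => x (Sum.inr i))
      linarith
    · have := h2.2
      change a i * linForm (u₁ f) (fun i => x (Sum.inl i)) -
        b i * linForm (u₂ g) (fun i => x (Sum.inr i)) ≤ r (f, neg₂ g, fi i)
      linarith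
  have hmeas1 : volume ((eSum α₁ α₂) ⁻¹' S'') = (volume.prod volume) S'' :=
    (mp_eSum (α₁ := α₁) (α₂ := α₂)).measure_preimage hS''m.nullMeasurableSet
  have ht := tensor_bound (fun j => measurable_linForm (u₂ j)) h₁.c_nonneg h₁.c_sum h₂.c_nonneg
    h₂.c_sum (Nat.succ_pos p) h₁.slab h₂.slab P hPc hPconv hS''m
  set V := Phi (p + 1) (q + 1) (DF m a b fun _ => 1) with hV
  have hVt : V ≠ ⊤ := (Phi_lt_top hF p q).ne
  set X : J₁ → J₂ → Fin (m + 2) → ℝ≥0∞ :=
    fun f g i => ENNReal.ofReal ((r (f, g, i) - l (f, g, i)) / 2) with hX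
  set sg : Fin (m + 2) → ℝ := fun i => sig (p + 1) (q + 1) m a b i with hsg
  have hsg0 : ∀ i, 0 ≤ sg i := fun i => hσ0 _
  have hn0 : (0:ℝ) ≤ (n : ℝ) := Nat.cast_nonneg n
  have hplanar : ∀ f g, Phi (p + 1) (q + 1) (P f g) ≤
      V * ∏ i, (X f g i * X f (neg₂ g) i) ^ ((n : ℝ) * sg i / 2) := by
    intro f g
    have h3 := planar_lemma (l₁ := fun i => l (f, g, fi i)) (r₁ := fun i => r (f, g, fi i))
      (l₂ := fun i => l (f, neg₂ g, fi i)) (r₂ := fun i => r (f, neg₂ g, fi i)) hF p q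
      (fun i _ => hlr _) (fun i _ => hlr _)
    refine h3.trans (le_of_eq ?_)
    congr 1
    rw [← Fin.prod_univ_eq_prod_range (fun i => (ENNReal.ofReal ((r (f, g, fi i) - l (f, g, fi i)) / 2) *
        ENNReal.ofReal ((r (f, neg₂ g, fi i) - l (f, neg₂ g, fi i)) / 2)) ^
          ((n : ℝ) * sig (p + 1) (q + 1) m a b i / 2))]
    apply Finset.prod_congr rfl
    intro i _
    have hi : fi (i : ℕ) = i := by
      apply Fin.ext
      exact hfival _ (by have := i.2; omega)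
    simp only [hi, hX, hsg]
  -- the powers of the two groups of widths
  have hinner : ∀ f, (∏ g, (∏ i, (X f g i * X f (neg₂ g) i) ^ ((n : ℝ) * sg i / 2)) ^ c₂ g) ^ c₁ f =
      ∏ g, ∏ i, X f g i ^ ((n : ℝ) * (c₁ f * c₂ g * sg i)) := by
    intro f
    have hc₁f := h₁.c_nonneg f
    set e : J₂ → Fin (m + 2) → ℝ := fun g i => (n : ℝ) * sg i / 2 * c₂ g * c₁ f with he
    have he0 : ∀ g i, 0 ≤ e g i := fun g i => by
      have := h₂.c_nonneg g
      have := hsg0 i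
      simp only [he]
      positivity
    have h4 : ∀ g, ((∏ i, (X f g i * X f (neg₂ g) i) ^ ((n : ℝ) * sg i / 2)) ^ c₂ g) ^ c₁ f =
        (∏ i, X f g i ^ e g i) * ∏ i, X f (neg₂ g) i ^ e g i := by
      intro g
      have hc₂g := h₂.c_nonneg g
      rw [← ENNReal.prod_rpow_of_nonneg hc₂g, ← ENNReal.prod_rpow_of_nonneg hc₁f,
        ← Finset.prod_mul_distrib]
      apply Finset.prod_congr rfl
      intro i _
      have hnn : 0 ≤ (n : ℝ) * sg i / 2 := by
        have := hsg0 i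
        positivity
      rw [ENNReal.mul_rpow_of_nonneg _ _ hnn, ENNReal.mul_rpow_of_nonneg _ _ hc₂g,
        ENNReal.mul_rpow_of_nonneg _ _ hc₁f, ← ENNReal.rpow_mul, ← ENNReal.rpow_mul,
        ← ENNReal.rpow_mul, ← ENNReal.rpow_mul]
      simp only [he]
      congr 2 <;> ring
    rw [← ENNReal.prod_rpow_of_nonneg hc₁f]
    simp_rw [h4]
    rw [Finset.prod_mul_distrib]
    have hrei : ∏ g, ∏ i, X f (neg₂ g) i ^ e g i = ∏ g, ∏ i, X f g i ^ e g i := by
      set τ : Equiv.Perm J₂ := Function.Involutive.toPerm neg₂ h₂.neg_neg with hτ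
      have h5 := Equiv.prod_comp τ (fun g => ∏ i, X f g i ^ e g i)
      rw [← h5]
      apply Finset.prod_congr rfl
      intro g _
      apply Finset.prod_congr rfl
      intro i _
      have hτg : τ g = neg₂ g := rfl
      have h6 : e (τ g) i = e g i := by
        simp only [he]
        rw [hτg, h₂.c_neg]
      rw [h6, hτg]
    rw [hrei, ← Finset.prod_mul_distrib]
    apply Finset.prod_congr rfl
    intro g _
    rw [← Finset.prod_mul_distrib]
    apply Finset.prod_congr rfl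
    intro i _
    rw [← ENNReal.rpow_add_of_nonneg _ _ (he0 g i) (he0 g i)]
    congr 1
    simp only [he]
    ring
  have hfinal : ∏ f, ∏ g, (V * ∏ i, (X f g i * X f (neg₂ g) i) ^ ((n : ℝ) * sg i / 2)) ^ (c₂ g * c₁ f) =
      V * ∏ j : J₁ × J₂ × Fin (m + 2), X j.1 j.2.1 j.2.2 ^ ((n : ℝ) * (c₁ j.1 * c₂ j.2.1 * sg j.2.2)) := by
    have h7 : ∀ f, ∏ g, (V * ∏ i, (X f g i * X f (neg₂ g) i) ^ ((n : ℝ) * sg i / 2)) ^ (c₂ g * c₁ f) =
        (V * ∏ g, (∏ i, (X f g i * X f (neg₂ g) i) ^ ((n : ℝ) * sg i / 2)) ^ c₂ g) ^ c₁ f := by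
      intro f
      rw [← prod_mul_rpow _ _ c₂ h₂.c_nonneg h₂.c_sum, ← ENNReal.prod_rpow_of_nonneg (h₁.c_nonneg f)]
      apply Finset.prod_congr rfl
      intro g _
      rw [ENNReal.rpow_mul]
    simp_rw [h7]
    rw [prod_mul_rpow _ _ c₁ h₁.c_nonneg h₁.c_sum]
    congr 1
    simp_rw [hinner]
    rw [Fintype.prod_prod_type]
    apply Finset.prod_congr rfl
    intro f _
    rw [Fintype.prod_prod_type]
  have hCeq : ENNReal.ofReal (C₁ * C₂ * (1 / 2) ^ n * V.toReal) =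
      ENNReal.ofReal C₁ * ENNReal.ofReal C₂ * (hf ^ (p + 1) * hf ^ (q + 1)) * V := by
    have hC₁ := h₁.C_pos
    have hC₂ := h₂.C_pos
    rw [ENNReal.ofReal_mul (by positivity), ENNReal.ofReal_mul (by positivity),
      ENNReal.ofReal_mul (by positivity), ENNReal.ofReal_toReal hVt]
    congr 2
    rw [hn, pow_add, ENNReal.ofReal_mul (by positivity), hf,
      ENNReal.ofReal_pow (by norm_num), ENNReal.ofReal_pow (by norm_num)]
  calc volume {x : α₁ ⊕ α₂ → ℝ | ∀ j : J₁ × J₂ × Fin (m + 2),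
        l j ≤ linForm (Sum.elim (fun i => a j.2.2 * u₁ j.1 i) (fun i => b j.2.2 * u₂ j.2.1 i)) x ∧
        linForm (Sum.elim (fun i => a j.2.2 * u₁ j.1 i) (fun i => b j.2.2 * u₂ j.2.1 i)) x ≤ r j}
      ≤ (volume.prod volume) S'' := by
        rw [← hmeas1]
        exact measure_mono hsub
    _ ≤ ENNReal.ofReal C₁ * ENNReal.ofReal C₂ * (hf ^ (p + 1) * hf ^ (q + 1)) *
          ∏ f, ∏ g, Phi (p + 1) (q + 1) (P f g) ^ (c₂ g * c₁ f) := ht
    _ ≤ ENNReal.ofReal C₁ * ENNReal.ofReal C₂ * (hf ^ (p + 1) * hf ^ (q + 1)) *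
          ∏ f, ∏ g, (V * ∏ i, (X f g i * X f (neg₂ g) i) ^ ((n : ℝ) * sg i / 2)) ^ (c₂ g * c₁ f) := by
        gcongr with f _ g _
        · exact mul_nonneg (h₂.c_nonneg g) (h₁.c_nonneg f)
        · exact hplanar f g
    _ = ENNReal.ofReal (C₁ * C₂ * (1 / 2) ^ n * V.toReal) *
          ∏ j : J₁ × J₂ × Fin (m + 2), ENNReal.ofReal ((r j - l j) / 2) ^
            ((n : ℝ) * (c₁ j.1 * c₂ j.2.1 * sig (p + 1) (q + 1) m a b j.2.2)) := by
        rw [hfinal, hCeq]
        ring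

/-- The volume of a cone of a node. -/
theorem node_vol (hF : PFan m a b) (h₁ : Cfg α₁ J₁ N₁ u₁ c₁ neg₁ A₁ (p + 1) C₁)
    (h₂ : Cfg α₂ J₂ N₂ u₂ c₂ neg₂ A₂ (q + 1) C₂) (f : J₁) (g : J₂) (i : Fin (m + 2)) :
    volume ({x : α₁ ⊕ α₂ → ℝ | NDf m a b (N₁ fun k => x (Sum.inl k)) (N₂ fun k => x (Sum.inr k)) ≤ 1} ∩
      {x | (fun k => x (Sum.inl k)) ∈ A₁ f ∧ (fun k => x (Sum.inr k)) ∈ A₂ g ∧
        (N₁ (fun k => x (Sum.inl k)), N₂ (fun k => x (Sum.inr k))) ∈ Tsel m a b i}) =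
      ENNReal.ofReal (c₁ f * c₂ g * sig (p + 1) (q + 1) m a b i *
        (C₁ * C₂ * (1 / 2) ^ (p + 1 + (q + 1)) *
          (Phi (p + 1) (q + 1) (DF m a b fun _ => 1)).toReal)) := by
  have hi : (i : ℕ) ≤ m + 1 := by
    have := i.2
    omega
  set T : Set (ℝ × ℝ) := Tsel m a b i ∩ {w | a i * w.1 + b i * w.2 ≤ 1} with hT
  have hTm : MeasurableSet T := (measurableSet_Tsel _).inter
    (measurableSet_le (by fun_prop) measurable_const)
  set R : Set ((α₁ → ℝ) × (α₂ → ℝ)) := {z | (N₁ z.1, N₂ z.2) ∈ T} with hR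
  have hRm : MeasurableSet R :=
    hTm.preimage ((h₁.measurable_N.comp measurable_fst).prodMk (h₂.measurable_N.comp measurable_snd))
  have hset : ({x : α₁ ⊕ α₂ → ℝ | NDf m a b (N₁ fun k => x (Sum.inl k)) (N₂ fun k => x (Sum.inr k)) ≤ 1} ∩
      {x | (fun k => x (Sum.inl k)) ∈ A₁ f ∧ (fun k => x (Sum.inr k)) ∈ A₂ g ∧
        (N₁ (fun k => x (Sum.inl k)), N₂ (fun k => x (Sum.inr k))) ∈ Tsel m a b i}) =
      (eSum α₁ α₂) ⁻¹' (R ∩ (A₁ f ×ˢ A₂ g)) := by
    ext x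
    constructor
    · rintro ⟨h1, h2, h3, h4⟩
      refine ⟨⟨h4, ?_⟩, h2, h3⟩
      have h5 : NDf m a b (N₁ fun k => x (Sum.inl k)) (N₂ fun k => x (Sum.inr k)) ≤ 1 := h1
      rw [NDf_eq_of_Tsel hi h4] at h5
      exact h5
    · rintro ⟨⟨h4, h5⟩, h2, h3⟩
      have h4' : (N₁ (fun k => x (Sum.inl k)), N₂ (fun k => x (Sum.inr k))) ∈ Tsel m a b i := h4
      refine ⟨?_, h2, h3, h4'⟩
      change NDf m a b (N₁ fun k => x (Sum.inl k)) (N₂ fun k => x (Sum.inr k)) ≤ 1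
      rw [NDf_eq_of_Tsel hi h4']
      exact h5
  have hAm : MeasurableSet (A₁ f ×ˢ A₂ g) := (h₁.A_meas f).prod (h₂.A_meas g)
  rw [hset, (mp_eSum (α₁ := α₁) (α₂ := α₂)).measure_preimage (hRm.inter hAm).nullMeasurableSet,
    ← Measure.restrict_apply hRm, ← Measure.prod_restrict, hR, prod_radial h₁ h₂ f g hTm]
  have hYpc : {w : (Fin (p + 1) → ℝ) × (Fin (q + 1) → ℝ) | Rad w ∈ T} =
      Ypc (p + 1) (q + 1) m a b i := rfl
  rw [hYpc, ← ENNReal.ofReal_toReal (Ypc_lt_top hF p q (i := i)).ne]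
  have hc₁ := h₁.c_nonneg f
  have hc₂ := h₂.c_nonneg g
  have hC₁ := h₁.C_pos
  have hC₂ := h₂.C_pos
  rw [← ENNReal.ofReal_mul (by positivity), ← ENNReal.ofReal_mul (by positivity)]
  congr 1
  have hV : 0 < (Phi (p + 1) (q + 1) (DF m a b fun _ => 1)).toReal :=
    ENNReal.toReal_pos (Phi_pos hF p q fun _ _ => one_pos).ne' (Phi_lt_top hF p q).ne
  unfold sig
  rw [pow_add]
  field_simp
  ring

/-- The node construction. -/
theorem cfg_node (hF : PFan m a b) (h₁ : Cfg α₁ J₁ N₁ u₁ c₁ neg₁ A₁ p C₁)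
    (h₂ : Cfg α₂ J₂ N₂ u₂ c₂ neg₂ A₂ q C₂) :
    Cfg (α₁ ⊕ α₂) (J₁ × J₂ × Fin (m + 2))
      (fun x => NDf m a b (N₁ fun k => x (Sum.inl k)) (N₂ fun k => x (Sum.inr k)))
      (fun j => Sum.elim (fun k => a j.2.2 * u₁ j.1 k) (fun k => b j.2.2 * u₂ j.2.1 k))
      (fun j => c₁ j.1 * c₂ j.2.1 * sig p q m a b j.2.2)
      (fun j => (neg₁ j.1, neg₂ j.2.1, j.2.2))
      (fun j => {x | (fun k => x (Sum.inl k)) ∈ A₁ j.1 ∧ (fun k => x (Sum.inr k)) ∈ A₂ j.2.1 ∧
        (N₁ (fun k => x (Sum.inl k)), N₂ (fun k => x (Sum.inr k))) ∈ Tsel m a b j.2.2})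
      (p + q) (C₁ * C₂ * (1 / 2) ^ (p + q) * (Phi p q (DF m a b fun _ => 1)).toReal) := by
  obtain ⟨p, rfl⟩ : ∃ p', p = p' + 1 := ⟨p - 1, by have := h₁.n_pos; omega⟩
  obtain ⟨q, rfl⟩ : ∃ q', q = q' + 1 := ⟨q - 1, by have := h₂.n_pos; omega⟩
  have hV : 0 < (Phi (p + 1) (q + 1) (DF m a b fun _ => 1)).toReal :=
    ENNReal.toReal_pos (Phi_pos hF p q fun _ _ => one_pos).ne' (Phi_lt_top hF p q).ne
  have hC₁ := h₁.C_pos
  have hC₂ := h₂.C_pos
  have hi' : ∀ i : Fin (m + 2), (i : ℕ) ≤ m + 1 := fun i => by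
    have := i.2
    omega
  refine ⟨by omega, ?_, by positivity, ?_, ?_, ?_, ?_, ?_, ?_, ?_, ?_, ?_, ?_, ?_, ?_,
    ?_, ?_⟩
  · rw [Fintype.card_sum, h₁.card, h₂.card]
  · intro j
    exact mul_nonneg (mul_nonneg (h₁.c_nonneg _) (h₂.c_nonneg _)) (sig_nonneg _ _ _ _ _ _)
  · rw [Fintype.sum_prod_type]
    simp_rw [Fintype.sum_prod_type]
    have h1 := sig_sum_fin hF p q
    simp_rw [← Finset.mul_sum, h1, mul_one, ← Finset.mul_sum, h₂.c_sum, mul_one]
    exact h₁.c_sum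
  · rintro ⟨f, g, i⟩
    simp [h₁.neg_neg, h₂.neg_neg]
  · rintro ⟨f, g, i⟩
    funext k
    rcases k with k | k
    · simp [h₁.u_neg]
    · simp [h₂.u_neg]
  · rintro ⟨f, g, i⟩
    simp [h₁.c_neg, h₂.c_neg]
  · rintro ⟨f, g, i⟩ x
    simp only
    rw [node_linForm]
    refine le_trans ?_ (le_NDf (hi' i) _ _)
    have h3 := mul_le_mul_of_nonneg_left (h₁.le f fun k => x (Sum.inl k)) (hF.α_nonneg i (hi' i))
    have h4 := mul_le_mul_of_nonneg_left (h₂.le g fun k => x (Sum.inr k)) (hF.β_nonneg i (hi' i))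
    linarith
  · rintro ⟨f, g, i⟩
    simp only
    have h1 : MeasurableSet {x : α₁ ⊕ α₂ → ℝ | (fun k => x (Sum.inl k)) ∈ A₁ f} :=
      (h₁.A_meas f).preimage (measurable_pi_lambda _ fun k => measurable_pi_apply _)
    have h2 : MeasurableSet {x : α₁ ⊕ α₂ → ℝ | (fun k => x (Sum.inr k)) ∈ A₂ g} :=
      (h₂.A_meas g).preimage (measurable_pi_lambda _ fun k => measurable_pi_apply _)
    have h3 : MeasurableSet {x : α₁ ⊕ α₂ → ℝ |
        (N₁ (fun k => x (Sum.inl k)), N₂ (fun k => x (Sum.inr k))) ∈ Tsel m a b i} :=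
      (measurableSet_Tsel _).preimage
        ((h₁.measurable_N.comp (measurable_pi_lambda _ fun k => measurable_pi_apply _)).prodMk
          (h₂.measurable_N.comp (measurable_pi_lambda _ fun k => measurable_pi_apply _)))
    exact h1.inter (h2.inter h3)
  · rintro ⟨f, g, i⟩ ⟨f', g', i'⟩ x ⟨h1, h2, h3⟩ ⟨h1', h2', h3'⟩
    have e1 := h₁.A_unique _ _ _ h1 h1'
    have e2 := h₂.A_unique _ _ _ h2 h2'
    have e3 := Tsel_eq (hi' i) (hi' i') h3 h3'
    subst e1
    subst e2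
    have e4 : i = i' := Fin.ext e3
    subst e4
    rfl
  · intro x
    obtain ⟨f, hf⟩ := h₁.A_cover fun k => x (Sum.inl k)
    obtain ⟨g, hg⟩ := h₂.A_cover fun k => x (Sum.inr k)
    obtain ⟨i, hi, hT⟩ := Tsel_cover (m := m) (α := a) (β := b)
      ((N₁ fun k => x (Sum.inl k)), (N₂ fun k => x (Sum.inr k)))
    exact ⟨(f, g, ⟨i, by omega⟩), hf, hg, hT⟩
  · rintro ⟨f, g, i⟩ x ⟨h1, h2, h3⟩
    simp only
    rw [node_linForm]
    rw [h₁.A_active f _ h1, h₂.A_active g _ h2, NDf_eq_of_Tsel (hi' i) h3]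
  · rintro ⟨f, g, i⟩ x t ⟨h1, h2, h3⟩ ht
    have e1 : (fun k => (t • x) (Sum.inl k)) = t • fun k => x (Sum.inl k) := rfl
    have e2 : (fun k => (t • x) (Sum.inr k)) = t • fun k => x (Sum.inr k) := rfl
    refine ⟨?_, ?_, ?_⟩
    · rw [e1]
      exact h₁.A_cone f _ t h1 ht
    · rw [e2]
      exact h₂.A_cone g _ t h2 ht
    · rw [e1, e2, h₁.N_smul, h₂.N_smul, abs_of_pos ht]
      exact Tsel_smul h3 ht
  · intro x hx
    have h0 := (NDf_le_iff (m := m) (a := a) (b := b) _ _ _).1 hx.le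
    have h1 := h0 0 (by omega)
    have h2 := h0 (m + 1) le_rfl
    rw [hF.β0, zero_mul, add_zero] at h1
    rw [hF.αM, zero_mul, zero_add] at h2
    have ha0 := hF.α_pos (i := 0) (by omega)
    have hbM := hF.β_pos (i := m) le_rfl
    have n1 := h₁.N_nonneg fun k => x (Sum.inl k)
    have n2 := h₂.N_nonneg fun k => x (Sum.inr k)
    have e1 : (N₁ fun k => x (Sum.inl k)) = 0 := by
      by_contra hne
      have := mul_pos ha0 (lt_of_le_of_ne n1 (Ne.symm hne))
      linarith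
    have e2 : (N₂ fun k => x (Sum.inr k)) = 0 := by
      by_contra hne
      have := mul_pos hbM (lt_of_le_of_ne n2 (Ne.symm hne))
      linarith
    have e3 := h₁.definite _ e1
    have e4 := h₂.definite _ e2
    funext k
    rcases k with k | k
    · exact congrFun e3 k
    · exact congrFun e4 k
  · exact node_slab hF h₁ h₂
  · rintro ⟨f, g, i⟩
    exact node_vol hF h₁ h₂ f g i

end Node

/-- The segment. -/
theorem cfg_seg : Cfg Unit Bool (fun x => |x ()|) (fun σ _ => sgn σ) (fun _ => 1 / 2) not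
    (fun σ => if σ = true then {x | 0 ≤ x ()} else {x | x () < 0}) 1 2 := by
  have hlin : ∀ (σ : Bool) (x : Unit → ℝ), linForm (fun _ => sgn σ) x = sgn σ * x () := by
    intro σ x
    simp [linForm]
  have hmp := volume_preserving_funUnique Unit ℝ
  have hvol : ∀ s : Set ℝ, MeasurableSet s →
      volume ((fun x : Unit → ℝ => x ()) ⁻¹' s) = volume s := by
    intro s hs
    exact hmp.measure_preimage hs.nullMeasurableSet
  refine ⟨one_pos, rfl, two_pos, fun _ => by norm_num, by simp, by simp, ?_, fun _ => rfl,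
    ?_, ?_, ?_, ?_, ?_, ?_, ?_, ?_, ?_⟩
  · rintro (_ | _) <;> funext _ <;> simp [sgn]
  · rintro (_ | _) x <;> rw [hlin] <;> simp only [sgn] <;> simp
    · exact neg_le_abs _
    · exact le_abs_self _
  · rintro (_ | _)
    · simp only [Bool.false_eq_true, if_false]
      exact measurableSet_lt (measurable_pi_apply _) measurable_const
    · simp only [if_true]
      exact measurableSet_le measurable_const (measurable_pi_apply _)
  · rintro (_ | _) (_ | _) x <;> simp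
  · intro x
    rcases le_or_gt 0 (x ()) with h | h
    · exact ⟨true, by simpa using h⟩
    · exact ⟨false, by simpa using h⟩
  · rintro (_ | _) x <;> rw [hlin] <;> simp [sgn]
    · intro h
      rw [abs_of_neg h]
    · intro h
      rw [abs_of_nonneg h]
  · rintro (_ | _) x t <;> simp
    · intro h ht
      exact mul_neg_of_pos_of_neg ht h
    · intro h ht
      exact mul_nonneg ht.le h
  · intro x hx
    funext i
    simpa using hx
  · intro l r
    simp only [Nat.cast_one, one_mul, Fintype.prod_bool]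
    set X := volume {x : Unit → ℝ | ∀ j : Bool, l j ≤ linForm (fun _ => sgn j) x ∧
      linForm (fun _ => sgn j) x ≤ r j} with hX
    have h1 : X ≤ ENNReal.ofReal (r true - l true) := by
      have hs : {x : Unit → ℝ | ∀ j : Bool, l j ≤ linForm (fun _ => sgn j) x ∧
          linForm (fun _ => sgn j) x ≤ r j} ⊆
          (fun x : Unit → ℝ => x ()) ⁻¹' Set.Icc (l true) (r true) := by
        intro x hx
        have := hx true
        rw [hlin] at this
        simpa [sgn] using this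
      refine (measure_mono hs).trans ?_
      rw [hvol _ measurableSet_Icc, Real.volume_Icc]
    have h2 : X ≤ ENNReal.ofReal (r false - l false) := by
      have hs : {x : Unit → ℝ | ∀ j : Bool, l j ≤ linForm (fun _ => sgn j) x ∧
          linForm (fun _ => sgn j) x ≤ r j} ⊆
          (fun x : Unit → ℝ => x ()) ⁻¹' Set.Icc (- r false) (- l false) := by
        intro x hx
        have := hx false
        rw [hlin] at this
        simp only [sgn, Bool.false_eq_true, if_false] at this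
        constructor <;> linarith [this.1, this.2]
      refine (measure_mono hs).trans ?_
      rw [hvol _ measurableSet_Icc, Real.volume_Icc]
      apply le_of_eq
      congr 1
      ring
    have e2 : ENNReal.ofReal 2 = (ENNReal.ofReal 2) ^ ((1 : ℝ) / 2) * (ENNReal.ofReal 2) ^ ((1 : ℝ) / 2) := by
      rw [← ENNReal.rpow_add _ _ (by simp) (by simp)]
      norm_num
    have eX : X = X ^ ((1 : ℝ) / 2) * X ^ ((1 : ℝ) / 2) := by
      rw [← ENNReal.rpow_add_of_nonneg _ _ (by norm_num) (by norm_num)]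
      norm_num
    have e3 : ∀ y : ℝ, ENNReal.ofReal y = ENNReal.ofReal 2 * ENNReal.ofReal (y / 2) := by
      intro y
      rw [← ENNReal.ofReal_mul (by norm_num)]
      congr 1
      ring
    rw [e3] at h1 h2
    calc X = X ^ ((1 : ℝ) / 2) * X ^ ((1 : ℝ) / 2) := eX
      _ ≤ (ENNReal.ofReal 2 * ENNReal.ofReal ((r true - l true) / 2)) ^ ((1 : ℝ) / 2) *
          (ENNReal.ofReal 2 * ENNReal.ofReal ((r false - l false) / 2)) ^ ((1 : ℝ) / 2) := by
            gcongr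
      _ = ENNReal.ofReal 2 * (ENNReal.ofReal ((r true - l true) / 2) ^ ((1 : ℝ) / 2) *
          ENNReal.ofReal ((r false - l false) / 2) ^ ((1 : ℝ) / 2)) := by
            rw [ENNReal.mul_rpow_of_nonneg _ _ (by norm_num),
              ENNReal.mul_rpow_of_nonneg _ _ (by norm_num)]
            nth_rewrite 3 [e2]
            ring
  · rintro (_ | _)
    · have hs : ({x : Unit → ℝ | |x ()| ≤ 1} ∩ (if false = true then {x : Unit → ℝ | 0 ≤ x ()} else {x | x () < 0})) =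
          (fun x : Unit → ℝ => x ()) ⁻¹' Set.Ico (-1) 0 := by
        ext x
        simp only [Bool.false_eq_true, if_false, Set.mem_inter_iff, Set.mem_ofPred_eq, Set.mem_preimage,
          Set.mem_Ico, abs_le]
        constructor
        · rintro ⟨⟨h1, _⟩, h2⟩
          exact ⟨h1, h2⟩
        · rintro ⟨h1, h2⟩
          exact ⟨⟨h1, by linarith⟩, h2⟩
      rw [hs, hvol _ measurableSet_Ico, Real.volume_Ico]
      norm_num
    · have hs : ({x : Unit → ℝ | |x ()| ≤ 1} ∩ (if true = true then {x : Unit → ℝ | 0 ≤ x ()} else {x | x () < 0})) =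
          (fun x : Unit → ℝ => x ()) ⁻¹' Set.Icc 0 1 := by
        ext x
        simp only [if_true, Set.mem_inter_iff, Set.mem_ofPred_eq, Set.mem_preimage,
          Set.mem_Icc, abs_le]
        constructor
        · rintro ⟨⟨_, h1⟩, h2⟩
          exact ⟨h2, h1⟩
        · rintro ⟨h1, h2⟩
          exact ⟨⟨by linarith, h2⟩, h1⟩
      rw [hs, hvol _ measurableSet_Icc, Real.volume_Icc]
      norm_num

end Vale.Agent.Lib.P227
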