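import Mathlib
import Vale.Agent.Lib.P227.Node

/-!
# The logarithmic Minkowski inequality of a configuration, in integral form
-/

open MeasureTheory Set Filter Topology
open scoped ENNReal

namespace Vale.Agent.Lib.P227

section HW

variable {α : Type} [Fintype α]

/-- The half width of a set in a direction, in coordinates. -/
noncomputable def hwc (L : Set (α → ℝ)) (v : α → ℝ) : ℝ :=
  (sSup (linForm v '' L) + sSup (linForm (-v) '' L)) / 2

lemma bdd_linForm {L : Set (α → ℝ)} (hL : IsCompact L) (v : α → ℝ) :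
    BddAbove (linForm v '' L) :=
  (hL.image (Cfg.continuous_linForm v)).bddAbove

lemma linForm_le_sSup {L : Set (α → ℝ)} (hL : IsCompact L) (v : α → ℝ) {x : α → ℝ} (hx : x ∈ L) :
    linForm v x ≤ sSup (linForm v '' L) :=
  le_csSup (bdd_linForm hL v) (mem_image_of_mem _ hx)

lemma linForm_neg_left (v x : α → ℝ) : linForm (-v) x = - linForm v x := by
  unfold linForm
  simp [Finset.sum_neg_distrib]

lemma diff_le_hwc {L : Set (α → ℝ)} (hL : IsCompact L) (v : α → ℝ) {x y : α → ℝ} (hx : x ∈ L)
    (hy : y ∈ L) : linForm v x - linForm v y ≤ 2 * hwc L v := by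
  have h1 := linForm_le_sSup hL v hx
  have h2 := linForm_le_sSup hL (-v) hy
  rw [linForm_neg_left] at h2
  unfold hwc
  linarith

lemma hwc_nonneg {L : Set (α → ℝ)} (hL : IsCompact L) (hne : L.Nonempty) (v : α → ℝ) :
    0 ≤ hwc L v := by
  obtain ⟨x, hx⟩ := hne
  have := diff_le_hwc hL v hx hx
  linarith

lemma continuous_hwc {L : Set (α → ℝ)} (hL : IsCompact L) : Continuous (hwc L) := by
  unfold hwc
  have hj : Continuous fun z : (α → ℝ) × (α → ℝ) => linForm z.1 z.2 := by
    unfold linForm
    fun_prop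
  have h1 := hL.continuous_sSup (f := fun (v x : α → ℝ) => linForm v x) hj
  have h2 := hL.continuous_sSup (f := fun (v x : α → ℝ) => linForm (-v) x)
    (by
      have : Continuous fun z : (α → ℝ) × (α → ℝ) => linForm (-z.1) z.2 := by
        unfold linForm
        fun_prop
      exact this)
  exact (h1.add h2).div_const 2

/-- A set of positive volume is not contained in a hyperplane. -/
lemma hwc_pos {L : Set (α → ℝ)} (hL : IsCompact L) (hpos : 0 < volume L) {v : α → ℝ} (hv : v ≠ 0) :
    0 < hwc L v := by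
  classical
  have hne : L.Nonempty := by
    by_contra h
    rw [Set.not_nonempty_iff_eq_empty] at h
    simp [h] at hpos
  by_contra hcon
  have hle : hwc L v ≤ 0 := not_lt.1 hcon
  obtain ⟨x₀, hx₀⟩ := hne
  obtain ⟨i, hi⟩ : ∃ i, v i ≠ 0 := by
    by_contra h
    push Not at h
    exact hv (funext h)
  let φ : (α → ℝ) →ₗ[ℝ] ℝ :=
    { toFun := linForm v
      map_add' := linForm_add' v
      map_smul' := fun r x => by
        simp only [RingHom.id_apply, smul_eq_mul]
        exact linForm_smul' v r x }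
  let S : AffineSubspace ℝ (α → ℝ) := AffineSubspace.mk' x₀ (LinearMap.ker φ)
  have hS : S ≠ ⊤ := by
    intro h
    have hm : x₀ + Pi.single i 1 ∈ S := by
      rw [h]
      exact AffineSubspace.mem_top _ _ _
    rw [AffineSubspace.mem_mk'] at hm
    have h2 : φ (x₀ + Pi.single i 1 -ᵥ x₀) = 0 := hm
    have h3 : (x₀ + Pi.single i 1 -ᵥ x₀) = (Pi.single i 1 : α → ℝ) := by
      simp
    rw [h3] at h2
    have h4 : φ (Pi.single i 1) = v i := by
      change linForm v (Pi.single i 1) = v i
      unfold linForm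
      simp [Pi.single_apply]
    rw [h4] at h2
    exact hi h2
  have hsub : L ⊆ (S : Set (α → ℝ)) := by
    intro x hx
    change x ∈ S
    rw [AffineSubspace.mem_mk']
    have h1 := diff_le_hwc hL v hx hx₀
    have h2 := diff_le_hwc hL v hx₀ hx
    have h3 : φ (x -ᵥ x₀) = linForm v x - linForm v x₀ := by
      change linForm v (x - x₀) = _
      rw [sub_eq_add_neg, linForm_add', linForm_neg']
      ring
    rw [LinearMap.mem_ker, h3]
    linarith
  have := measure_mono_null hsub (Measure.addHaar_affineSubspace volume S hS)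
  rw [this] at hpos
  exact lt_irrefl _ hpos

end HW

namespace Cfg

variable {α J : Type} [Fintype α] [Fintype J] {N : (α → ℝ) → ℝ} {u : J → α → ℝ}
  {c : J → ℝ} {neg : J → J} {A : J → Set (α → ℝ)} {n : ℕ} {C : ℝ}

/-- The bound of the volume by half widths. -/
theorem vol_le (h : Cfg α J N u c neg A n C) {L : Set (α → ℝ)} (hL : IsCompact L) :
    volume L ≤ ENNReal.ofReal C * ∏ j, ENNReal.ofReal (hwc L (u j)) ^ ((n : ℝ) * c j) := by
  have hsub : L ⊆ {x | ∀ j, - sSup (linForm (-u j) '' L) ≤ linForm (u j) x ∧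
      linForm (u j) x ≤ sSup (linForm (u j) '' L)} := by
    intro x hx j
    constructor
    · have := linForm_le_sSup hL (-u j) hx
      rw [linForm_neg_left] at this
      linarith
    · exact linForm_le_sSup hL (u j) hx
  refine (measure_mono hsub).trans ((h.slab _ _).trans (le_of_eq ?_))
  congr 1
  apply Finset.prod_congr rfl
  intro j _
  unfold hwc
  rw [sub_neg_eq_add]

/-- The logarithmic form. -/
theorem log_vol_le (h : Cfg α J N u c neg A n C) {L : Set (α → ℝ)} (hL : IsCompact L)
    (hpos : 0 < volume L) :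
    Real.log (volume L).toReal ≤ Real.log C + n * ∑ j, c j * Real.log (hwc L (u j)) := by
  have hne : L.Nonempty := by
    by_contra h
    rw [Set.not_nonempty_iff_eq_empty] at h
    simp [h] at hpos
  have hfin : volume L ≠ ⊤ := hL.measure_lt_top.ne
  have hX : 0 < (volume L).toReal := ENNReal.toReal_pos hpos.ne' hfin
  have hw0 := hwc_nonneg hL hne
  have hexp : ∀ j, 0 ≤ (n : ℝ) * c j := fun j => mul_nonneg (Nat.cast_nonneg n) (h.c_nonneg j)
  have hfin' : ENNReal.ofReal C * ∏ j, ENNReal.ofReal (hwc L (u j)) ^ ((n : ℝ) * c j) ≠ ⊤ := by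
    apply ENNReal.mul_ne_top ENNReal.ofReal_ne_top
    apply ENNReal.prod_ne_top
    intro j _
    exact ENNReal.rpow_ne_top_of_nonneg (hexp j) ENNReal.ofReal_ne_top
  have h1 := ENNReal.toReal_mono hfin' (h.vol_le hL)
  rw [ENNReal.toReal_mul, ENNReal.toReal_ofReal h.C_pos.le, ENNReal.toReal_prod] at h1
  have h2 : ∀ j, (ENNReal.ofReal (hwc L (u j)) ^ ((n : ℝ) * c j)).toReal =
      hwc L (u j) ^ ((n : ℝ) * c j) := by
    intro j
    rw [← ENNReal.toReal_rpow, ENNReal.toReal_ofReal (hw0 _)]
  simp_rw [h2] at h1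
  have hC := h.C_pos
  have hprod : 0 < ∏ j, hwc L (u j) ^ ((n : ℝ) * c j) := by
    by_contra hcon
    have hnn : 0 ≤ ∏ j, hwc L (u j) ^ ((n : ℝ) * c j) :=
      Finset.prod_nonneg fun j _ => Real.rpow_nonneg (hw0 _) _
    have h0 : ∏ j, hwc L (u j) ^ ((n : ℝ) * c j) = 0 := le_antisymm (not_lt.1 hcon) hnn
    rw [h0, mul_zero] at h1
    linarith
  have hfac : ∀ j, 0 < hwc L (u j) ^ ((n : ℝ) * c j) := by
    intro j
    by_contra hcon
    have hnn : 0 ≤ hwc L (u j) ^ ((n : ℝ) * c j) := Real.rpow_nonneg (hw0 _) _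
    have h0 : hwc L (u j) ^ ((n : ℝ) * c j) = 0 := le_antisymm (not_lt.1 hcon) hnn
    have := Finset.prod_eq_zero (f := fun j => hwc L (u j) ^ ((n : ℝ) * c j))
      (Finset.mem_univ j) h0
    rw [this] at hprod
    exact lt_irrefl _ hprod
  have h3 := Real.log_le_log hX h1
  rw [Real.log_mul hC.ne' hprod.ne', Real.log_prod (fun j _ => (hfac j).ne')] at h3
  have h4 : ∀ j, Real.log (hwc L (u j) ^ ((n : ℝ) * c j)) = n * (c j * Real.log (hwc L (u j))) := by
    intro j
    rcases (hw0 (u j)).eq_or_lt with h5 | h5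
    · have h6 := hfac j
      rw [← h5] at h6 ⊢
      by_cases h7 : (n : ℝ) * c j = 0
      · rw [h7]
        simp
      · rw [Real.zero_rpow h7] at h6
        exact absurd h6 (lt_irrefl _)
    · rw [Real.log_rpow h5]
      ring
  rw [Finset.mul_sum]
  simp_rw [h4] at h3
  exact h3

/-- The normal selection of a configuration. -/
noncomputable def nu (h : Cfg α J N u c neg A n C) (x : α → ℝ) : α → ℝ :=
  u (Classical.choose (h.A_cover x))

lemma nu_eq (h : Cfg α J N u c neg A n C) {j : J} {x : α → ℝ} (hx : x ∈ A j) : h.nu x = u j := by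
  unfold nu
  rw [h.A_unique _ _ _ (Classical.choose_spec (h.A_cover x)) hx]

lemma nu_spec (h : Cfg α J N u c neg A n C) (x : α → ℝ) : ∃ j, x ∈ A j ∧ h.nu x = u j :=
  ⟨_, Classical.choose_spec (h.A_cover x), rfl⟩

lemma measurable_nu (h : Cfg α J N u c neg A n C) : Measurable h.nu := by
  classical
  intro S _
  have : h.nu ⁻¹' S = ⋃ j ∈ (Finset.univ.filter fun j => u j ∈ S), A j := by
    ext x
    simp only [mem_preimage, mem_iUnion, Finset.mem_filter, Finset.mem_univ, true_and, exists_prop]
    constructor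
    · intro hx
      obtain ⟨j, hj, e⟩ := h.nu_spec x
      exact ⟨j, e ▸ hx, hj⟩
    · rintro ⟨j, hj, hx⟩
      rw [h.nu_eq hx]
      exact hj
  rw [this]
  exact Finset.measurableSet_biUnion _ fun j _ => h.A_meas j

lemma active_nu (h : Cfg α J N u c neg A n C) (x : α → ℝ) : linForm (h.nu x) x = N x := by
  obtain ⟨j, hj, e⟩ := h.nu_spec x
  rw [e]
  exact h.A_active j x hj

lemma abs_nu_le (h : Cfg α J N u c neg A n C) (x y : α → ℝ) : |linForm (h.nu x) y| ≤ N y := by
  obtain ⟨j, _, e⟩ := h.nu_spec x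
  rw [e]
  exact h.abs_le j y

lemma ball_eq_iUnion (h : Cfg α J N u c neg A n C) :
    {x | N x ≤ 1} = ⋃ j, ({x | N x ≤ 1} ∩ A j) := by
  ext x
  simp only [mem_iUnion, mem_inter_iff, exists_and_left, iff_self_and]
  intro _
  exact h.A_cover x

lemma vol_ball (h : Cfg α J N u c neg A n C) : volume {x | N x ≤ 1} = ENNReal.ofReal C := by
  classical
  have hmeas : ∀ j, MeasurableSet ({x | N x ≤ 1} ∩ A j) := fun j =>
    (measurableSet_le h.measurable_N measurable_const).inter (h.A_meas j)
  have hdisj : Pairwise (Function.onFun Disjoint fun j => {x | N x ≤ 1} ∩ A j) := by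
    intro i j hij
    rw [Function.onFun, Set.disjoint_left]
    rintro x ⟨_, hi⟩ ⟨_, hj⟩
    exact hij (h.A_unique _ _ _ hi hj)
  nth_rewrite 1 [h.ball_eq_iUnion]
  rw [measure_iUnion hdisj hmeas, tsum_fintype]
  simp_rw [h.vol_A]
  rw [← ENNReal.ofReal_sum_of_nonneg fun j _ => mul_nonneg (h.c_nonneg j) h.C_pos.le,
    ← Finset.sum_mul, h.c_sum, one_mul]

/-- The integral of a function of the normal over the ball. -/
lemma integral_nu (h : Cfg α J N u c neg A n C) (F : (α → ℝ) → ℝ) :
    ∫ x in {x | N x ≤ 1}, F (h.nu x) = C * ∑ j, c j * F (u j) := by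
  classical
  have hfin : volume {x | N x ≤ 1} < ⊤ := by
    rw [h.vol_ball]
    exact ENNReal.ofReal_lt_top
  have e1 : ∀ x, F (h.nu x) = ∑ j, (A j).indicator (fun _ => F (u j)) x := by
    intro x
    obtain ⟨j₀, hj₀, e⟩ := h.nu_spec x
    rw [e, Finset.sum_eq_single j₀]
    · simp [hj₀]
    · intro j _ hne
      apply Set.indicator_of_notMem
      intro hj
      exact hne (h.A_unique _ _ _ hj hj₀)
    · intro hj
      exact absurd (Finset.mem_univ _) hj
  simp_rw [e1]
  have hint : ∀ j ∈ (Finset.univ : Finset J), Integrable ((A j).indicator fun _ => F (u j))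
      (volume.restrict {x | N x ≤ 1}) := by
    intro j _
    apply Integrable.indicator _ (h.A_meas j)
    exact integrable_const_iff.2 (Or.inr (by
      rw [isFiniteMeasure_restrict]
      exact hfin.ne))
  rw [integral_finset_sum _ hint, Finset.mul_sum]
  apply Finset.sum_congr rfl
  intro j _
  rw [setIntegral_indicator (h.A_meas j), setIntegral_const, smul_eq_mul, measureReal_def, h.vol_A,
    ENNReal.toReal_ofReal (mul_nonneg (h.c_nonneg j) h.C_pos.le)]
  ring

/-- The logarithmic Minkowski inequality of a configuration as an integral. -/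
theorem log_minkowski (h : Cfg α J N u c neg A n C) {L : Set (α → ℝ)} (hL : IsCompact L)
    (hpos : 0 < volume L) :
    Real.log (volume L).toReal ≤ Real.log (volume {x | N x ≤ 1}).toReal +
      n / (volume {x | N x ≤ 1}).toReal * ∫ x in {x | N x ≤ 1}, Real.log (hwc L (h.nu x)) := by
  rw [h.vol_ball, ENNReal.toReal_ofReal h.C_pos.le,
    h.integral_nu (fun v => Real.log (hwc L v))]
  have hC := h.C_pos
  have e : (n : ℝ) / C * (C * ∑ j, c j * Real.log (hwc L (u j))) =
      n * ∑ j, c j * Real.log (hwc L (u j)) := by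
    field_simp
  rw [e]
  exact h.log_vol_le hL hpos

end Cfg

/-- The facts on a polytopal norm, with its normal selection, that pass to limits. -/
structure PolyData (α : Type) [Fintype α] (n : ℕ) (N : (α → ℝ) → ℝ) (ν : (α → ℝ) → α → ℝ) : Prop where
  meas_nu : Measurable ν
  cont : Continuous N
  active : ∀ x, linForm (ν x) x = N x
  abs_le : ∀ x y, |linForm (ν x) y| ≤ N y
  definite : ∀ x, N x = 0 → x = 0
  lm : ∀ L : Set (α → ℝ), IsCompact L → 0 < volume L →
    Real.log (volume L).toReal ≤ Real.log (volume {x | N x ≤ 1}).toReal +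
      n / (volume {x | N x ≤ 1}).toReal * ∫ x in {x | N x ≤ 1}, Real.log (hwc L (ν x))

theorem Cfg.polyData {α J : Type} [Fintype α] [Fintype J] {N : (α → ℝ) → ℝ} {u : J → α → ℝ}
    {c : J → ℝ} {neg : J → J} {A : J → Set (α → ℝ)} {n : ℕ} {C : ℝ}
    (h : Cfg α J N u c neg A n C) : PolyData α n N h.nu :=
  ⟨h.measurable_nu, h.continuous_N, h.active_nu, h.abs_nu_le, h.definite,
    fun _ hL hpos => h.log_minkowski hL hpos⟩

end Vale.Agent.Lib.P227
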