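import Mathlib
import Vale.Agent.Lib.P227.Defs

/-!
# Planar-norm trees: definitions
-/

open MeasureTheory

namespace Vale.Agent.Lib.P227

/-- An absolute norm on the plane: a norm `ψ` on `ℝ²` with `ψ s t = ψ |s| |t|`. -/
structure IsPlanarNorm (ψ : ℝ → ℝ → ℝ) : Prop where
  abs_eq : ∀ s t, ψ s t = ψ |s| |t|
  smul : ∀ r s t, 0 ≤ r → ψ (r * s) (r * t) = r * ψ s t
  add_le : ∀ s t s' t', ψ (s + s') (t + t') ≤ ψ s t + ψ s' t'
  pos : ∀ s t, (s ≠ 0 ∨ t ≠ 0) → 0 < ψ s t

/-- The norms on `ℝⁿ` obtained from the absolute value on the line by repeatedly composing two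
norms on complementary blocks of coordinates with an absolute planar norm. -/
inductive TreeNorm : (n : ℕ) → ((Fin n → ℝ) → ℝ) → Prop
  | seg : TreeNorm 1 (fun x => |x 0|)
  | node {p q : ℕ} {N₁ : (Fin p → ℝ) → ℝ} {N₂ : (Fin q → ℝ) → ℝ} {ψ : ℝ → ℝ → ℝ}
      (hψ : IsPlanarNorm ψ) (h₁ : TreeNorm p N₁) (h₂ : TreeNorm q N₂)
      (σ : Equiv.Perm (Fin (p + q))) :
      TreeNorm (p + q) (fun x =>
        ψ (N₁ fun i => x (σ (Fin.castAdd q i))) (N₂ fun j => x (σ (Fin.natAdd p j))))

/-- The `ℓ_q` norm on `ℝⁿ`. -/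
noncomputable def lqNorm (q : ℝ) (n : ℕ) (x : Fin n → ℝ) : ℝ :=
  (∑ i, |x i| ^ q) ^ (1 / q)

variable {n : ℕ}

/-- The unit ball of `N`, in Euclidean space. -/
def unitBall (N : (Fin n → ℝ) → ℝ) : Set (EuclideanSpace ℝ (Fin n)) := {x | N x.ofLp ≤ 1}

/-- The gradient of `N`: the vector of its partial derivatives. -/
noncomputable def gradVec (N : (Fin n → ℝ) → ℝ) (x : EuclideanSpace ℝ (Fin n)) :
    EuclideanSpace ℝ (Fin n) :=
  WithLp.toLp 2 fun i => fderiv ℝ N x.ofLp (Pi.single i 1)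

/-- The half width `(h_L(u) + h_L(-u)) / 2` of a set in direction `u`; it equals `h_L(u)` for
origin-symmetric `L`. -/
noncomputable def halfWidth (L : Set (EuclideanSpace ℝ (Fin n))) (u : EuclideanSpace ℝ (Fin n)) : ℝ :=
  (supportFn L u + supportFn L (-u)) / 2

/-- The logarithmic Minkowski inequality at `B` with normal map `g`, in integral form, against
every compact set `L` of positive volume:
`log |L| ≤ log |B| + (n / |B|) * ∫_B log W_L(g x) dx`, with `W_L` the half width, and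
the integrand integrable. -/
def LogMinkowskiIntegral (B : Set (EuclideanSpace ℝ (Fin n)))
    (g : EuclideanSpace ℝ (Fin n) → EuclideanSpace ℝ (Fin n)) : Prop :=
  ∀ L : Set (EuclideanSpace ℝ (Fin n)), IsCompact L → 0 < volume L →
    IntegrableOn (fun x => Real.log (halfWidth L (g x))) B ∧
    Real.log (volume L).toReal ≤ Real.log (volume B).toReal +
      (n : ℝ) / (volume B).toReal * ∫ x in B, Real.log (halfWidth L (g x))

end Vale.Agent.Lib.P227
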