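import Mathlib
import Vale.Agent.Lib.P227.DefsTree

/-!
# The second order inequality: definition
-/

open MeasureTheory
open scoped Pointwise

namespace Vale.Agent.Lib.P227

variable {n : ℕ}

/-- The Minkowski-sum expansion at `B` with normal map `g`: for every nonempty compact set `M` and
`t ≥ 0`, with `I k` the integral over `B` of the `k`-th power of the half width of `M` at `g x`
(these powers are integrable on `B`),
`log |B + t M| ≤ log |B| + (n / |B|) * (t * I 1 - t ^ 2 / 2 * I 2 + t ^ 3 / 3 * I 3)`. -/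
def SecondOrderAt (B : Set (EuclideanSpace ℝ (Fin n)))
    (g : EuclideanSpace ℝ (Fin n) → EuclideanSpace ℝ (Fin n)) : Prop :=
  ∀ M : Set (EuclideanSpace ℝ (Fin n)), IsCompact M → M.Nonempty →
    (∀ k : ℕ, IntegrableOn (fun x => halfWidth M (g x) ^ k) B) ∧
    ∀ t : ℝ, 0 ≤ t →
      Real.log (volume (B + t • M)).toReal ≤ Real.log (volume B).toReal +
        (n : ℝ) / (volume B).toReal *
          (t * (∫ x in B, halfWidth M (g x) ^ 1) - t ^ 2 / 2 * (∫ x in B, halfWidth M (g x) ^ 2) +
            t ^ 3 / 3 * (∫ x in B, halfWidth M (g x) ^ 3))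

end Vale.Agent.Lib.P227
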