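import Mathlib
import Vale.Agent.Lib.P227.CfgLM

/-!
# Passing to the limit in the logarithmic Minkowski inequality
-/

open MeasureTheory Set Filter Topology
open scoped ENNReal

namespace Vale.Agent.Lib.P227

section Basic

variable {α : Type} [Fintype α]

lemma linForm_single [DecidableEq α] (v : α → ℝ) (i : α) : linForm v (Pi.single i 1) = v i := by
  unfold linForm
  simp [Pi.single_apply]

/-- The vector of partial derivatives. -/
noncomputable def gradc [DecidableEq α] (N : (α → ℝ) → ℝ) (x : α → ℝ) : α → ℝ :=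
  fun i => fderiv ℝ N x (Pi.single i 1)

end Basic

namespace PolyData

variable {α : Type} [Fintype α] {n : ℕ} {N : (α → ℝ) → ℝ} {ν : (α → ℝ) → α → ℝ}

lemma le (h : PolyData α n N ν) (x y : α → ℝ) : linForm (ν x) y ≤ N y :=
  (le_abs_self _).trans (h.abs_le x y)

lemma nonneg (h : PolyData α n N ν) (x : α → ℝ) : 0 ≤ N x :=
  (abs_nonneg _).trans (h.abs_le x x)

lemma add_le (h : PolyData α n N ν) (x y : α → ℝ) : N (x + y) ≤ N x + N y := by
  rw [← h.active (x + y), linForm_add']
  exact add_le_add (h.le _ x) (h.le _ y)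

lemma smul_le (h : PolyData α n N ν) (r : ℝ) (x : α → ℝ) : N (r • x) ≤ |r| * N x := by
  rw [← h.active (r • x), linForm_smul']
  refine (le_abs_self _).trans ?_
  rw [abs_mul]
  exact mul_le_mul_of_nonneg_left (h.abs_le _ x) (abs_nonneg r)

lemma smul_eq (h : PolyData α n N ν) (r : ℝ) (x : α → ℝ) : N (r • x) = |r| * N x := by
  apply le_antisymm (h.smul_le r x)
  by_cases hr : r = 0
  · subst hr
    simp [h.nonneg]
  · have h1 := h.smul_le r⁻¹ (r • x)
    rw [smul_smul, inv_mul_cancel₀ hr, one_smul, abs_inv] at h1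
    have hr' : 0 < |r| := abs_pos.2 hr
    rw [inv_mul_eq_div, le_div_iff₀ hr'] at h1
    linarith

lemma neg_eq (h : PolyData α n N ν) (x : α → ℝ) : N (- x) = N x := by
  have := h.smul_eq (-1) x
  simpa using this

lemma zero_eq (h : PolyData α n N ν) : N 0 = 0 := by
  have := h.smul_eq 0 0
  simpa using this

lemma abs_coord_le [DecidableEq α] (h : PolyData α n N ν) (x : α → ℝ) (i : α) :
    |ν x i| ≤ N (Pi.single i 1) := by
  have := h.abs_le x (Pi.single i 1)
  rwa [linForm_single] at this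

lemma le_sum [DecidableEq α] (h : PolyData α n N ν) (x : α → ℝ) :
    N x ≤ ∑ i, |x i| * N (Pi.single i 1) := by
  rw [← h.active x]
  unfold linForm
  refine (Finset.sum_le_sum fun i _ => ?_)
  refine (le_abs_self _).trans ?_
  rw [abs_mul, mul_comm]
  exact mul_le_mul_of_nonneg_left (h.abs_coord_le x i) (abs_nonneg _)

end PolyData

/-- A sequence of polytopal norms converging to a function. -/
structure LimData (α : Type) [Fintype α] (n : ℕ) (Ns : ℕ → (α → ℝ) → ℝ)
    (νs : ℕ → (α → ℝ) → α → ℝ) (N : (α → ℝ) → ℝ) (ε : ℝ) : Prop where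
  poly : ∀ M, PolyData α n (Ns M) (νs M)
  conv : ∀ x, Tendsto (fun M => Ns M x) atTop (𝓝 (N x))
  ε_pos : 0 < ε
  lower : ∀ M x i, ε * |x i| ≤ Ns M x

namespace LimData

variable {α : Type} [Fintype α] {n : ℕ} {Ns : ℕ → (α → ℝ) → ℝ} {νs : ℕ → (α → ℝ) → α → ℝ}
  {N : (α → ℝ) → ℝ} {ε : ℝ}

lemma nonneg (h : LimData α n Ns νs N ε) (x : α → ℝ) : 0 ≤ N x :=
  ge_of_tendsto' (h.conv x) fun M => (h.poly M).nonneg x

lemma add_le (h : LimData α n Ns νs N ε) (x y : α → ℝ) : N (x + y) ≤ N x + N y :=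
  le_of_tendsto_of_tendsto' (h.conv _) ((h.conv x).add (h.conv y)) fun M => (h.poly M).add_le x y

lemma smul_eq (h : LimData α n Ns νs N ε) (r : ℝ) (x : α → ℝ) : N (r • x) = |r| * N x := by
  refine tendsto_nhds_unique (h.conv _) ?_
  have := (h.conv x).const_mul |r|
  refine this.congr fun M => ((h.poly M).smul_eq r x).symm

lemma neg_eq (h : LimData α n Ns νs N ε) (x : α → ℝ) : N (- x) = N x := by
  have := h.smul_eq (-1) x
  simpa using this

lemma zero_eq (h : LimData α n Ns νs N ε) : N 0 = 0 := by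
  have := h.smul_eq 0 0
  simpa using this

lemma lower_lim (h : LimData α n Ns νs N ε) (x : α → ℝ) (i : α) : ε * |x i| ≤ N x :=
  ge_of_tendsto' (h.conv x) fun M => h.lower M x i

lemma definite (h : LimData α n Ns νs N ε) {x : α → ℝ} (hx : N x = 0) : x = 0 := by
  funext i
  have h1 := h.lower_lim x i
  rw [hx] at h1
  have h2 : |x i| ≤ 0 := by
    by_contra hcon
    have := mul_pos h.ε_pos (not_le.1 hcon)
    linarith
  simpa using h2

lemma norm_le (h : LimData α n Ns νs N ε) (M : ℕ) (x : α → ℝ) : ε * ‖x‖ ≤ Ns M x := by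
  have hε := h.ε_pos
  have : ‖x‖ ≤ Ns M x / ε := by
    rw [pi_norm_le_iff_of_nonneg (div_nonneg ((h.poly M).nonneg x) hε.le)]
    intro i
    rw [le_div_iff₀ hε, Real.norm_eq_abs, mul_comm]
    exact h.lower M x i
  rwa [le_div_iff₀ hε, mul_comm] at this

lemma norm_le_lim (h : LimData α n Ns νs N ε) (x : α → ℝ) : ε * ‖x‖ ≤ N x :=
  ge_of_tendsto' (h.conv x) fun M => h.norm_le M x

lemma le_sum [DecidableEq α] (h : LimData α n Ns νs N ε) (x : α → ℝ) :
    N x ≤ ∑ i, |x i| * N (Pi.single i 1) := by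
  refine le_of_tendsto_of_tendsto' (h.conv x) ?_ fun M => (h.poly M).le_sum x
  exact tendsto_finsetSum _ fun i _ => (h.conv _).const_mul _

lemma exists_lipschitz (h : LimData α n Ns νs N ε) : ∃ C : NNReal, LipschitzWith C N := by
  classical
  have hB : 0 ≤ ∑ i, N (Pi.single i (1 : ℝ)) := Finset.sum_nonneg fun i _ => h.nonneg _
  refine ⟨Real.toNNReal (∑ i, N (Pi.single i (1 : ℝ))), LipschitzWith.of_dist_le_mul fun x y => ?_⟩
  have h1 : ∀ x y : α → ℝ, N x - N y ≤ (∑ i, N (Pi.single i (1 : ℝ))) * dist x y := by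
    intro x y
    have h2 : N x ≤ N y + N (x - y) := by
      have := h.add_le y (x - y)
      simpa using this
    have h3 := h.le_sum (x - y)
    have h4 : ∑ i, |(x - y) i| * N (Pi.single i (1 : ℝ)) ≤
        ∑ i, dist x y * N (Pi.single i (1 : ℝ)) := by
      refine Finset.sum_le_sum fun i _ => mul_le_mul_of_nonneg_right ?_ (h.nonneg _)
      rw [dist_eq_norm]
      exact norm_le_pi_norm (x - y) i
    rw [← Finset.mul_sum] at h4
    linarith
  rw [Real.dist_eq, abs_le]
  have h2 := h1 x y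
  have h3 := h1 y x
  rw [dist_comm] at h3
  rw [Real.coe_toNNReal _ hB]
  constructor <;> linarith

lemma continuous (h : LimData α n Ns νs N ε) : Continuous N := by
  obtain ⟨C, hC⟩ := h.exists_lipschitz
  exact hC.continuous

lemma ball_subset (h : LimData α n Ns νs N ε) :
    {x | N x ≤ 1} ⊆ Metric.closedBall (0 : α → ℝ) (1 / ε) := by
  intro x hx
  have hx' : N x ≤ 1 := hx
  have hε := h.ε_pos
  have h1 := h.norm_le_lim x
  rw [mem_closedBall_zero_iff, le_div_iff₀ hε, mul_comm]
  linarith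

lemma ball_subset' (h : LimData α n Ns νs N ε) (M : ℕ) :
    {x | Ns M x ≤ 1} ⊆ Metric.closedBall (0 : α → ℝ) (1 / ε) := by
  intro x hx
  have hx' : Ns M x ≤ 1 := hx
  have hε := h.ε_pos
  have h1 := h.norm_le M x
  rw [mem_closedBall_zero_iff, le_div_iff₀ hε, mul_comm]
  linarith

lemma vol_lt_top (h : LimData α n Ns νs N ε) : volume {x | N x ≤ 1} < ⊤ :=
  lt_of_le_of_lt (measure_mono h.ball_subset) measure_closedBall_lt_top

lemma vol_pos (h : LimData α n Ns νs N ε) : 0 < volume {x | N x ≤ 1} := by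
  classical
  set B := ∑ i, N (Pi.single i (1 : ℝ)) with hB
  have hB0 : 0 ≤ B := Finset.sum_nonneg fun i _ => h.nonneg _
  have hsub : Metric.ball (0 : α → ℝ) (1 / (B + 1)) ⊆ {x | N x ≤ 1} := by
    intro x hx
    have hx' : ‖x‖ < 1 / (B + 1) := by simpa using hx
    have h1 := h.le_sum x
    have h2 : ∑ i, |x i| * N (Pi.single i (1 : ℝ)) ≤ ∑ i, ‖x‖ * N (Pi.single i (1 : ℝ)) := by
      refine Finset.sum_le_sum fun i _ => mul_le_mul_of_nonneg_right ?_ (h.nonneg _)
      exact norm_le_pi_norm x i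
    rw [← Finset.mul_sum] at h2
    have hB1 : 0 < B + 1 := by linarith
    rw [lt_div_iff₀ hB1] at hx'
    have h3 : ‖x‖ * B ≤ 1 := by
      nlinarith [norm_nonneg x]
    exact h1.trans (h2.trans h3)
  refine lt_of_lt_of_le (Metric.measure_ball_pos volume _ ?_) (measure_mono hsub)
  positivity

lemma level_null (h : LimData α n Ns νs N ε) [Nonempty α] : volume {x | N x = 1} = 0 := by
  have h1 := measure_le_eq_lt (volume : Measure (α → ℝ)) (g := N) h.zero_eq h.neg_eq h.add_le
    h.definite (fun r x => (h.smul_eq r x).le) 1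
  have hsub : {x | N x = 1} = {x | N x ≤ 1} \ {x | N x < 1} := by
    ext x
    simp only [mem_ofPred_eq, Set.mem_sdiff, not_lt]
    constructor
    · intro hx
      exact ⟨hx.le, hx.ge⟩
    · rintro ⟨h2, h3⟩
      exact le_antisymm h2 h3
  have hm : MeasurableSet {x | N x < 1} := measurableSet_lt h.continuous.measurable measurable_const
  have hs : {x | N x < 1} ⊆ {x | N x ≤ 1} := fun x (hx : N x < 1) => hx.le
  rw [hsub, measure_sdiff hs hm.nullMeasurableSet (by rw [← h1]; exact h.vol_lt_top.ne), h1]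
  simp

/-- The convergence of the normals at differentiability points. -/
lemma nu_tendsto [DecidableEq α] (h : LimData α n Ns νs N ε) {x : α → ℝ}
    (hd : DifferentiableAt ℝ N x) (i : α) :
    Tendsto (fun M => νs M x i) atTop (𝓝 (gradc N x i)) := by
  set e : α → ℝ := Pi.single i 1 with he
  set f : ℝ → ℝ := fun t => N (x + t • e) with hf
  have hf0 : f 0 = N x := by simp [hf]
  have hline : HasDerivAt (fun t : ℝ => x + t • e) e 0 := by
    have := ((hasDerivAt_id (0 : ℝ)).smul_const e).const_add x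
    simpa using this
  have hder : HasDerivAt f (gradc N x i) 0 := by
    have h1 : HasFDerivAt N (fderiv ℝ N x) (x + (0 : ℝ) • e) := by
      simpa using hd.hasFDerivAt
    exact h1.comp_hasDerivAt (0 : ℝ) hline
  have hineq : ∀ M t, Ns M x + t * νs M x i ≤ Ns M (x + t • e) := by
    intro M t
    have h1 := (h.poly M).le x (x + t • e)
    rw [linForm_add', linForm_smul', (h.poly M).active x, he, linForm_single] at h1
    exact h1
  have hconvt : ∀ t : ℝ, Tendsto (fun M => t⁻¹ * (Ns M (x + t • e) - Ns M x)) atTop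
      (𝓝 (t⁻¹ * (f t - f 0))) := by
    intro t
    rw [hf0]
    exact ((h.conv _).sub (h.conv x)).const_mul _
  refine tendsto_order.2 ⟨fun a ha => ?_, fun a ha => ?_⟩
  · have h1 := hder.tendsto_slope_zero_left
    have h2 := (h1.eventually (lt_mem_nhds ha)).and self_mem_nhdsWithin
    obtain ⟨t, ht, ht0⟩ := h2.exists
    have ht0' : t < 0 := ht0
    simp only [zero_add, smul_eq_mul] at ht
    filter_upwards [(hconvt t).eventually (lt_mem_nhds ht)] with M hM
    refine lt_of_lt_of_le hM ?_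
    have h3 := hineq M t
    have hinv : t⁻¹ < 0 := inv_lt_zero.2 ht0'
    have h4 : t⁻¹ * (Ns M (x + t • e) - Ns M x) ≤ t⁻¹ * (t * νs M x i) :=
      mul_le_mul_of_nonpos_left (by linarith) hinv.le
    rwa [← mul_assoc, inv_mul_cancel₀ ht0'.ne, one_mul] at h4
  · have h1 := hder.tendsto_slope_zero_right
    have h2 := (h1.eventually (gt_mem_nhds ha)).and self_mem_nhdsWithin
    obtain ⟨t, ht, ht0⟩ := h2.exists
    have ht0' : 0 < t := ht0
    simp only [zero_add, smul_eq_mul] at ht
    filter_upwards [(hconvt t).eventually (gt_mem_nhds ht)] with M hM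
    refine lt_of_le_of_lt ?_ hM
    have h3 := hineq M t
    have hinv : 0 < t⁻¹ := inv_pos.2 ht0'
    have h4 : t⁻¹ * (t * νs M x i) ≤ t⁻¹ * (Ns M (x + t • e) - Ns M x) :=
      mul_le_mul_of_nonneg_left (by linarith) hinv.le
    rwa [← mul_assoc, inv_mul_cancel₀ ht0'.ne', one_mul] at h4

lemma ae_diff [Nonempty α] (h : LimData α n Ns νs N ε) : ∀ᵐ x : α → ℝ, DifferentiableAt ℝ N x := by
  obtain ⟨C, hC⟩ := h.exists_lipschitz
  exact hC.ae_differentiableAt

/-- Dominated convergence over the balls. -/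
lemma tendsto_setIntegral [Nonempty α] (h : LimData α n Ns νs N ε) {G : ℕ → (α → ℝ) → ℝ}
    {G' : (α → ℝ) → ℝ} {K : ℝ} (hm : ∀ M, Measurable (G M))
    (hb : ∀ M x, x ≠ 0 → |G M x| ≤ K)
    (hlim : ∀ᵐ x : α → ℝ, Tendsto (fun M => G M x) atTop (𝓝 (G' x))) :
    Tendsto (fun M => ∫ x in {x | Ns M x ≤ 1}, G M x) atTop (𝓝 (∫ x in {x | N x ≤ 1}, G' x)) := by
  have hmeas : ∀ M, MeasurableSet {x | Ns M x ≤ 1} := fun M =>
    measurableSet_le (h.poly M).cont.measurable measurable_const
  have hmeas' : MeasurableSet {x | N x ≤ 1} := measurableSet_le h.continuous.measurable measurable_const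
  simp_rw [← integral_indicator (hmeas _)]
  rw [← integral_indicator hmeas']
  refine tendsto_integral_of_dominated_convergence
    ((Metric.closedBall (0 : α → ℝ) (1 / ε)).indicator fun _ => K) ?_ ?_ ?_ ?_
  · intro M
    exact ((hm M).indicator (hmeas M)).aestronglyMeasurable
  · exact (integrableOn_const measure_closedBall_lt_top.ne).integrable_indicator
      measurableSet_closedBall
  · intro M
    have h0 : ∀ᵐ x : α → ℝ, x ≠ 0 := by
      simp [ae_iff, measure_singleton]
    filter_upwards [h0] with x hx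
    by_cases hxM : x ∈ {x | Ns M x ≤ 1}
    · rw [indicator_of_mem hxM, indicator_of_mem (h.ball_subset' M hxM), Real.norm_eq_abs]
      exact hb M x hx
    · rw [indicator_of_notMem hxM, norm_zero]
      apply indicator_nonneg
      intro y _
      exact (abs_nonneg _).trans (hb 0 x hx)
  · have h1 : ∀ᵐ x : α → ℝ, N x ≠ 1 := by
      have := h.level_null
      simpa [ae_iff] using this
    filter_upwards [h1, hlim] with x hx1 hx2
    rcases lt_or_gt_of_ne hx1 with hlt | hgt
    · have hev := (h.conv x).eventually (gt_mem_nhds hlt)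
      have hxm : x ∈ {x | N x ≤ 1} := hlt.le
      rw [indicator_of_mem hxm]
      refine hx2.congr' ?_
      filter_upwards [hev] with M hM
      rw [indicator_of_mem (show x ∈ {x | Ns M x ≤ 1} from hM.le)]
    · have hev := (h.conv x).eventually (lt_mem_nhds hgt)
      have hxm : x ∉ {x | N x ≤ 1} := not_le.2 hgt
      rw [indicator_of_notMem hxm]
      refine tendsto_const_nhds.congr' ?_
      filter_upwards [hev] with M hM
      rw [indicator_of_notMem (show x ∉ {x | Ns M x ≤ 1} from not_le.2 hM)]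

/-- The logarithmic Minkowski inequality at a limit norm. -/
theorem log_minkowski [DecidableEq α] [Nonempty α] (h : LimData α n Ns νs N ε) {L : Set (α → ℝ)}
    (hL : IsCompact L) (hpos : 0 < volume L) :
    IntegrableOn (fun x => Real.log (hwc L (gradc N x))) {x | N x ≤ 1} ∧
    Real.log (volume L).toReal ≤ Real.log (volume {x | N x ≤ 1}).toReal +
      n / (volume {x | N x ≤ 1}).toReal * ∫ x in {x | N x ≤ 1}, Real.log (hwc L (gradc N x)) := by
  have hε := h.ε_pos
  -- upper bound for the normals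
  obtain ⟨B, hB0, hB⟩ : ∃ B : ℝ, 0 ≤ B ∧ ∀ M x, ‖νs M x‖ ≤ B := by
    have hbdd : ∀ i : α, ∃ b : ℝ, ∀ M, Ns M (Pi.single i 1) ≤ b := by
      intro i
      obtain ⟨b, hb⟩ := (h.conv (Pi.single i 1)).bddAbove_range
      exact ⟨b, fun M => hb (mem_range_self M)⟩
    choose b hb using hbdd
    have hs : 0 ≤ ∑ i, |b i| := Finset.sum_nonneg fun i _ => abs_nonneg _
    refine ⟨∑ i, |b i|, hs, fun M x => ?_⟩
    rw [pi_norm_le_iff_of_nonneg hs]
    intro i
    rw [Real.norm_eq_abs]
    calc |νs M x i| ≤ Ns M (Pi.single i 1) := (h.poly M).abs_coord_le x i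
      _ ≤ b i := hb i M
      _ ≤ |b i| := le_abs_self _
      _ ≤ ∑ i, |b i| := Finset.single_le_sum (f := fun i => |b i|)
          (fun i _ => abs_nonneg _) (Finset.mem_univ i)
  -- lower bound for the normals
  have hcard : (0 : ℝ) < Fintype.card α := by
    exact_mod_cast Fintype.card_pos
  set ε₂ : ℝ := ε / Fintype.card α with hε₂
  have hε₂pos : 0 < ε₂ := by positivity
  have hlow : ∀ M x, x ≠ 0 → ε₂ ≤ ‖νs M x‖ := by
    intro M x hx
    have hxn : 0 < ‖x‖ := norm_pos_iff.2 hx
    have h1 := h.norm_le M x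
    rw [← (h.poly M).active x] at h1
    have h2 : linForm (νs M x) x ≤ ∑ _i : α, ‖νs M x‖ * ‖x‖ := by
      unfold linForm
      refine Finset.sum_le_sum fun i _ => ?_
      refine (le_abs_self _).trans ?_
      rw [abs_mul]
      exact mul_le_mul (norm_le_pi_norm (νs M x) i) (norm_le_pi_norm x i) (abs_nonneg _)
        (norm_nonneg _)
    rw [Finset.sum_const, Finset.card_univ, nsmul_eq_mul] at h2
    have h3 : ε * ‖x‖ ≤ (Fintype.card α * ‖νs M x‖) * ‖x‖ := by
      linarith
    have h4 := le_of_mul_le_mul_right h3 hxn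
    rw [hε₂, div_le_iff₀ hcard]
    linarith
  -- the compact annulus
  set R : Set (α → ℝ) := Metric.closedBall 0 B \ Metric.ball 0 ε₂ with hR
  have hRc : IsCompact R := (isCompact_closedBall 0 B).diff Metric.isOpen_ball
  have hRcl : IsClosed R := hRc.isClosed
  have hRmem : ∀ M x, x ≠ 0 → νs M x ∈ R := by
    intro M x hx
    refine ⟨by simpa using hB M x, ?_⟩
    simpa using hlow M x hx
  have hRpos : ∀ v ∈ R, 0 < hwc L v := by
    intro v hv
    apply hwc_pos hL hpos
    rintro rfl
    have : (0 : α → ℝ) ∉ Metric.ball (0 : α → ℝ) ε₂ := hv.2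
    apply this
    simpa using hε₂pos
  set Φ : (α → ℝ) → ℝ := fun v => Real.log (hwc L v) with hΦ
  have hΦc : ContinuousOn Φ R :=
    ((continuous_hwc hL).continuousOn).log fun v hv => (hRpos v hv).ne'
  obtain ⟨K, hK⟩ := hRc.exists_bound_of_continuousOn hΦc
  have hΦm : Measurable Φ := Real.measurable_log.comp (continuous_hwc hL).measurable
  set G : ℕ → (α → ℝ) → ℝ := fun M x => Φ (νs M x) with hG
  have hGm : ∀ M, Measurable (G M) := fun M => hΦm.comp (h.poly M).meas_nu
  have hGb : ∀ M x, x ≠ 0 → |G M x| ≤ K := fun M x hx => hK _ (hRmem M x hx)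
  have h0 : ∀ᵐ x : α → ℝ, x ≠ 0 := by
    simp [ae_iff, measure_singleton]
  have hlimR : ∀ x : α → ℝ, x ≠ 0 → DifferentiableAt ℝ N x →
      Tendsto (fun M => νs M x) atTop (𝓝 (gradc N x)) ∧ gradc N x ∈ R := by
    intro x hx hd
    have h1 : Tendsto (fun M => νs M x) atTop (𝓝 (gradc N x)) :=
      tendsto_pi_nhds.2 fun i => h.nu_tendsto hd i
    exact ⟨h1, hRcl.mem_of_tendsto h1 (Eventually.of_forall fun M => hRmem M x hx)⟩
  have hGlim : ∀ᵐ x : α → ℝ, Tendsto (fun M => G M x) atTop (𝓝 (Φ (gradc N x))) := by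
    filter_upwards [h0, h.ae_diff] with x hx hd
    obtain ⟨h1, h2⟩ := hlimR x hx hd
    have h3 : ContinuousAt Φ (gradc N x) :=
      ((continuous_hwc hL).continuousAt).log (hRpos _ h2).ne'
    exact h3.tendsto.comp h1
  have hI := h.tendsto_setIntegral hGm hGb hGlim
  have hV := h.tendsto_setIntegral (G := fun _ _ => (1 : ℝ)) (G' := fun _ => 1) (K := 1)
    (fun _ => measurable_const) (fun _ _ _ => by simp) (Eventually.of_forall fun _ =>
      tendsto_const_nhds)
  simp only [setIntegral_const, smul_eq_mul, mul_one, measureReal_def] at hV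
  have hVpos : 0 < (volume {x | N x ≤ 1}).toReal :=
    ENNReal.toReal_pos h.vol_pos.ne' h.vol_lt_top.ne
  refine ⟨?_, ?_⟩
  · refine Measure.integrableOn_of_bounded h.vol_lt_top.ne
      (aestronglyMeasurable_of_tendsto_ae atTop (fun M => (hGm M).aestronglyMeasurable) hGlim)
      (M := K) ?_
    apply ae_restrict_of_ae
    filter_upwards [h0, h.ae_diff] with x hx hd
    exact hK _ (hlimR x hx hd).2
  · refine le_of_tendsto_of_tendsto' tendsto_const_nhds
      ((hV.log hVpos.ne').add (((tendsto_const_nhds (x := (n : ℝ))).div hV hVpos.ne').mul hI)) ?_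
    intro M
    exact (h.poly M).lm L hL hpos

end LimData

end Vale.Agent.Lib.P227
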