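import Mathlib
import Vale.Agent.Lib.P227.DefsTree
import Vale.Agent.Lib.P227.Limit

/-!
# Approximation of absolute planar norms by fans
-/

open MeasureTheory Set Filter Topology
open scoped ENNReal

namespace Vale.Agent.Lib.P227

namespace IsPlanarNorm

variable {ψ : ℝ → ℝ → ℝ}

lemma zero (h : IsPlanarNorm ψ) : ψ 0 0 = 0 := by
  have := h.smul 0 0 0 le_rfl
  simpa using this

lemma nonneg (h : IsPlanarNorm ψ) (s t : ℝ) : 0 ≤ ψ s t := by
  by_cases hs : s ≠ 0 ∨ t ≠ 0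
  · exact (h.pos s t hs).le
  · push Not at hs
    rw [hs.1, hs.2, h.zero]

lemma axis1 (h : IsPlanarNorm ψ) (s : ℝ) : ψ s 0 = |s| * ψ 1 0 := by
  rw [h.abs_eq s 0, abs_zero]
  have := h.smul |s| 1 0 (abs_nonneg s)
  simpa using this

lemma axis2 (h : IsPlanarNorm ψ) (t : ℝ) : ψ 0 t = |t| * ψ 0 1 := by
  rw [h.abs_eq 0 t, abs_zero]
  have := h.smul |t| 0 1 (abs_nonneg t)
  simpa using this

lemma pos1 (h : IsPlanarNorm ψ) : 0 < ψ 1 0 := h.pos 1 0 (Or.inl one_ne_zero)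

lemma pos2 (h : IsPlanarNorm ψ) : 0 < ψ 0 1 := h.pos 0 1 (Or.inr one_ne_zero)

lemma le_axes (h : IsPlanarNorm ψ) (s t : ℝ) : ψ s t ≤ |s| * ψ 1 0 + |t| * ψ 0 1 := by
  have := h.add_le s 0 0 t
  rw [add_zero, zero_add, h.axis1, h.axis2] at this
  exact this

lemma axis1_le (h : IsPlanarNorm ψ) (s t : ℝ) : |s| * ψ 1 0 ≤ ψ s t := by
  have h1 := h.add_le s t s (-t)
  have h2 : ψ s (-t) = ψ s t := by
    rw [h.abs_eq s (-t), abs_neg, ← h.abs_eq]
  rw [h2, add_neg_cancel, h.axis1] at h1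
  have h3 : |s + s| = 2 * |s| := by
    rw [← two_mul, abs_mul]
    norm_num
  rw [h3] at h1
  linarith

lemma axis2_le (h : IsPlanarNorm ψ) (s t : ℝ) : |t| * ψ 0 1 ≤ ψ s t := by
  have h1 := h.add_le s t (-s) t
  have h2 : ψ (-s) t = ψ s t := by
    rw [h.abs_eq (-s) t, abs_neg, ← h.abs_eq]
  rw [h2, add_neg_cancel, h.axis2] at h1
  have h3 : |t + t| = 2 * |t| := by
    rw [← two_mul, abs_mul]
    norm_num
  rw [h3] at h1
  linarith

lemma sub_le (h : IsPlanarNorm ψ) (s t s' t' : ℝ) :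
    ψ s t - ψ s' t' ≤ |s - s'| * ψ 1 0 + |t - t'| * ψ 0 1 := by
  have h1 := h.add_le s' t' (s - s') (t - t')
  have h2 := h.le_axes (s - s') (t - t')
  rw [add_sub_cancel, add_sub_cancel] at h1
  linarith

lemma continuous (h : IsPlanarNorm ψ) : Continuous fun z : ℝ × ℝ => ψ z.1 z.2 := by
  set B := ψ 1 0 + ψ 0 1 with hB
  have hB0 : 0 ≤ B := add_nonneg (h.nonneg _ _) (h.nonneg _ _)
  have hl : LipschitzWith (Real.toNNReal B) fun z : ℝ × ℝ => ψ z.1 z.2 := by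
    refine LipschitzWith.of_dist_le_mul fun z w => ?_
    rw [Real.coe_toNNReal _ hB0, Real.dist_eq, Prod.dist_eq, Real.dist_eq, Real.dist_eq]
    set D := max |z.1 - w.1| |z.2 - w.2| with hD
    have h1 : |z.1 - w.1| ≤ D := le_max_left _ _
    have h2 : |z.2 - w.2| ≤ D := le_max_right _ _
    have h3 := h.sub_le z.1 z.2 w.1 w.2
    have h4 := h.sub_le w.1 w.2 z.1 z.2
    rw [abs_sub_comm w.1, abs_sub_comm w.2] at h4
    have h5 := mul_le_mul_of_nonneg_right h1 (h.nonneg 1 0)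
    have h6 := mul_le_mul_of_nonneg_right h2 (h.nonneg 0 1)
    rw [abs_le]
    constructor <;> nlinarith
  exact hl.continuous

/-- The unit ball. -/
def ball (ψ : ℝ → ℝ → ℝ) : Set (ℝ × ℝ) := {z | ψ z.1 z.2 ≤ 1}

lemma isCompact_ball (h : IsPlanarNorm ψ) : IsCompact (ball ψ) := by
  have hcl : IsClosed (ball ψ) := isClosed_le h.continuous continuous_const
  refine Metric.isCompact_of_isClosed_isBounded hcl ?_
  have hp1 := h.pos1
  have hp2 := h.pos2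
  refine (Metric.isBounded_closedBall (x := (0 : ℝ × ℝ)) (r := 1 / ψ 1 0 + 1 / ψ 0 1)).subset ?_
  intro z hz
  have hz' : ψ z.1 z.2 ≤ 1 := hz
  have h1 := h.axis1_le z.1 z.2
  have h2 := h.axis2_le z.1 z.2
  have h3 : |z.1| ≤ 1 / ψ 1 0 := by
    rw [le_div_iff₀ hp1]
    linarith
  have h4 : |z.2| ≤ 1 / ψ 0 1 := by
    rw [le_div_iff₀ hp2]
    linarith
  have h5 : 0 ≤ 1 / ψ 1 0 := by positivity
  have h6 : 0 ≤ 1 / ψ 0 1 := by positivity
  rw [mem_closedBall_zero_iff, Prod.norm_def, max_le_iff]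
  exact ⟨by rw [Real.norm_eq_abs]; linarith, by rw [Real.norm_eq_abs]; linarith⟩

/-- The dual norm along the segment of the first quadrant. -/
noncomputable def rho (ψ : ℝ → ℝ → ℝ) (τ : ℝ) : ℝ :=
  sSup ((fun z : ℝ × ℝ => (1 - τ) * z.1 + τ * z.2) '' ball ψ)

lemma continuous_rho (h : IsPlanarNorm ψ) : Continuous (rho ψ) := by
  have := h.isCompact_ball.continuous_sSup (f := fun (τ : ℝ) (z : ℝ × ℝ) => (1 - τ) * z.1 + τ * z.2)
    (by
      have : Continuous fun w : ℝ × ℝ × ℝ => (1 - w.1) * w.2.1 + w.1 * w.2.2 := by fun_prop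
      exact this)
  exact this

lemma le_rho (h : IsPlanarNorm ψ) (τ : ℝ) {z : ℝ × ℝ} (hz : z ∈ ball ψ) :
    (1 - τ) * z.1 + τ * z.2 ≤ rho ψ τ := by
  refine le_csSup ?_ (mem_image_of_mem _ hz)
  exact (h.isCompact_ball.image (by fun_prop)).bddAbove

lemma rho_pos (h : IsPlanarNorm ψ) {τ : ℝ} (h0 : 0 ≤ τ) (h1 : τ ≤ 1) : 0 < rho ψ τ := by
  have hp1 := h.pos1
  have hp2 := h.pos2
  have m1 : ((ψ 1 0)⁻¹, (0 : ℝ)) ∈ ball ψ := by
    change ψ (ψ 1 0)⁻¹ 0 ≤ 1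
    rw [h.axis1, abs_of_pos (by positivity), inv_mul_cancel₀ hp1.ne']
  have m2 : ((0 : ℝ), (ψ 0 1)⁻¹) ∈ ball ψ := by
    change ψ 0 (ψ 0 1)⁻¹ ≤ 1
    rw [h.axis2, abs_of_pos (by positivity), inv_mul_cancel₀ hp2.ne']
  have h3 := h.le_rho τ m1
  have h4 := h.le_rho τ m2
  simp only [mul_zero, add_zero, zero_add] at h3 h4
  rcases h1.eq_or_lt with rfl | hlt
  · have : 0 < (1 : ℝ) * (ψ 0 1)⁻¹ := by positivity
    linarith
  · have : 0 < (1 - τ) * (ψ 1 0)⁻¹ := mul_pos (by linarith) (by positivity)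
    linarith

/-- Every functional on the segment is dominated by the norm. -/
lemma functional_le (h : IsPlanarNorm ψ) {τ : ℝ} (h0 : 0 ≤ τ) (h1 : τ ≤ 1) (s t : ℝ) :
    (1 - τ) * s + τ * t ≤ rho ψ τ * ψ s t := by
  have hrho := h.rho_pos h0 h1
  by_cases hz : s ≠ 0 ∨ t ≠ 0
  · have hp := h.pos s t hz
    have hm : ((ψ s t)⁻¹ * s, (ψ s t)⁻¹ * t) ∈ ball ψ := by
      change ψ ((ψ s t)⁻¹ * s) ((ψ s t)⁻¹ * t) ≤ 1
      rw [h.smul _ _ _ (by positivity), inv_mul_cancel₀ hp.ne']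
    have h2 := h.le_rho τ hm
    simp only at h2
    have e : (1 - τ) * ((ψ s t)⁻¹ * s) + τ * ((ψ s t)⁻¹ * t) =
        ((1 - τ) * s + τ * t) / ψ s t := by
      field_simp
    rw [e, div_le_iff₀ hp] at h2
    exact h2
  · push Not at hz
    rw [hz.1, hz.2, h.zero]
    simp

/-- The supporting functional in the first quadrant. -/
lemma exists_tau (h : IsPlanarNorm ψ) {s t : ℝ} (hs : 0 ≤ s) (ht : 0 ≤ t) (hz : s ≠ 0 ∨ t ≠ 0) :
    ∃ τ : ℝ, 0 ≤ τ ∧ τ ≤ 1 ∧ ψ s t ≤ ((1 - τ) * s + τ * t) / rho ψ τ := by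
  set r := ψ s t with hr
  have hrp : 0 < r := h.pos s t hz
  set U : Set (ℝ × ℝ) := {z | ψ z.1 z.2 < 1} with hU
  have hUo : IsOpen U := isOpen_lt h.continuous continuous_const
  have hUc : Convex ℝ U := by
    intro x hx y hy a b ha hb hab
    change ψ (a * x.1 + b * y.1) (a * x.2 + b * y.2) < 1
    have h1 := h.add_le (a * x.1) (a * x.2) (b * y.1) (b * y.2)
    rw [h.smul a _ _ ha, h.smul b _ _ hb] at h1
    have hx' : ψ x.1 x.2 < 1 := hx
    have hy' : ψ y.1 y.2 < 1 := hy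
    refine lt_of_le_of_lt h1 ?_
    rcases ha.eq_or_lt with rfl | ha'
    · have : b = 1 := by linarith
      rw [this]
      linarith
    · have h3 : a * ψ x.1 x.2 < a * 1 := mul_lt_mul_of_pos_left hx' ha'
      have h4 : b * ψ y.1 y.2 ≤ b * 1 := mul_le_mul_of_nonneg_left hy'.le hb
      linarith
  set zh : ℝ × ℝ := (r⁻¹ * s, r⁻¹ * t) with hzh
  have hzh1 : ψ zh.1 zh.2 = 1 := by
    rw [hzh]
    simp only
    rw [h.smul _ _ _ (by positivity), inv_mul_cancel₀ hrp.ne']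
  have hzhU : zh ∉ U := by
    intro hm
    have : ψ zh.1 zh.2 < 1 := hm
    linarith
  obtain ⟨f, hf⟩ := geometric_hahn_banach_open_point hUc hUo hzhU
  set f₁ := f (1, 0) with hf₁
  set f₂ := f (0, 1) with hf₂
  have hfe : ∀ z : ℝ × ℝ, f z = z.1 * f₁ + z.2 * f₂ := by
    intro z
    have : z = z.1 • ((1 : ℝ), (0 : ℝ)) + z.2 • ((0 : ℝ), (1 : ℝ)) := by
      ext <;> simp
    conv_lhs => rw [this]
    rw [map_add, map_smul, map_smul]
    simp [hf₁, hf₂]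
  set κ := f zh with hκ
  have h0U : (0 : ℝ × ℝ) ∈ U := by
    change ψ 0 0 < 1
    rw [h.zero]
    norm_num
  have hκpos : 0 < κ := by
    have := hf 0 h0U
    rwa [map_zero] at this
  -- domination
  have hdom : ∀ y : ℝ × ℝ, f y ≤ κ * ψ y.1 y.2 := by
    intro y
    apply le_of_forall_pos_le_add
    intro δ hδ
    set ρ' := ψ y.1 y.2 + δ / κ with hρ'
    have hρpos : 0 < ρ' := by
      have := h.nonneg y.1 y.2
      positivity
    have hm : (ρ'⁻¹ * y.1, ρ'⁻¹ * y.2) ∈ U := by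
      change ψ (ρ'⁻¹ * y.1) (ρ'⁻¹ * y.2) < 1
      rw [h.smul _ _ _ (by positivity), inv_mul_lt_iff₀ hρpos, mul_one, hρ']
      have : 0 < δ / κ := by positivity
      linarith
    have h1 := hf _ hm
    rw [hfe] at h1
    simp only at h1
    have h2 : ρ'⁻¹ * (y.1 * f₁ + y.2 * f₂) < κ := by
      have e : ρ'⁻¹ * y.1 * f₁ + ρ'⁻¹ * y.2 * f₂ = ρ'⁻¹ * (y.1 * f₁ + y.2 * f₂) := by ring
      rw [e] at h1
      exact h1
    rw [inv_mul_lt_iff₀ hρpos] at h2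
    have h3 : ρ' * κ = κ * ψ y.1 y.2 + δ := by
      rw [hρ']
      field_simp
    rw [hfe y]
    linarith
  -- the absolute functional
  set g₁ := |f₁| with hg₁
  set g₂ := |f₂| with hg₂
  have hdomabs : ∀ y : ℝ × ℝ, g₁ * y.1 + g₂ * y.2 ≤ κ * ψ y.1 y.2 := by
    intro y
    set σ₁ : ℝ := if 0 ≤ f₁ then 1 else -1 with hσ₁
    set σ₂ : ℝ := if 0 ≤ f₂ then 1 else -1 with hσ₂
    have e₁ : σ₁ * f₁ = g₁ := by
      rw [hσ₁, hg₁]
      split_ifs with hc
      · rw [abs_of_nonneg hc, one_mul]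
      · rw [abs_of_neg (not_le.1 hc)]
        ring
    have e₂ : σ₂ * f₂ = g₂ := by
      rw [hσ₂, hg₂]
      split_ifs with hc
      · rw [abs_of_nonneg hc, one_mul]
      · rw [abs_of_neg (not_le.1 hc)]
        ring
    have a₁ : |σ₁| = 1 := by
      rw [hσ₁]
      split_ifs <;> simp
    have a₂ : |σ₂| = 1 := by
      rw [hσ₂]
      split_ifs <;> simp
    have h1 := hdom (σ₁ * |y.1|, σ₂ * |y.2|)
    rw [hfe] at h1
    simp only at h1
    have h2 : ψ (σ₁ * |y.1|) (σ₂ * |y.2|) = ψ y.1 y.2 := by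
      rw [h.abs_eq (σ₁ * |y.1|), h.abs_eq y.1 y.2, abs_mul, abs_mul, a₁, a₂, one_mul, one_mul,
        abs_abs, abs_abs]
    rw [h2] at h1
    have h3 : σ₁ * |y.1| * f₁ + σ₂ * |y.2| * f₂ = g₁ * |y.1| + g₂ * |y.2| := by
      rw [← e₁, ← e₂]
      ring
    rw [h3] at h1
    have h4 : g₁ * y.1 ≤ g₁ * |y.1| := mul_le_mul_of_nonneg_left (le_abs_self _) (abs_nonneg _)
    have h5 : g₂ * y.2 ≤ g₂ * |y.2| := mul_le_mul_of_nonneg_left (le_abs_self _) (abs_nonneg _)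
    linarith
  have hg₁0 : 0 ≤ g₁ := abs_nonneg _
  have hg₂0 : 0 ≤ g₂ := abs_nonneg _
  -- the value at the point
  have hval : r * κ ≤ g₁ * s + g₂ * t := by
    have h1 : f zh = r⁻¹ * s * f₁ + r⁻¹ * t * f₂ := by
      rw [hfe]
    have h2 : r * κ = s * f₁ + t * f₂ := by
      rw [hκ, h1]
      field_simp
    rw [h2]
    have h3 : s * f₁ ≤ g₁ * s := by
      rw [mul_comm]
      exact mul_le_mul_of_nonneg_right (le_abs_self _) hs
    have h4 : t * f₂ ≤ g₂ * t := by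
      rw [mul_comm]
      exact mul_le_mul_of_nonneg_right (le_abs_self _) ht
    linarith
  have hS : 0 < g₁ + g₂ := by
    by_contra hcon
    have h1 : g₁ + g₂ = 0 := le_antisymm (not_lt.1 hcon) (add_nonneg hg₁0 hg₂0)
    have h2 : g₁ = 0 := by linarith
    have h3 : g₂ = 0 := by linarith
    rw [h2, h3] at hval
    have := mul_pos hrp hκpos
    linarith
  set τ := g₂ / (g₁ + g₂) with hτ
  have hτ0 : 0 ≤ τ := by positivity
  have hτ1 : τ ≤ 1 := by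
    rw [hτ, div_le_one hS]
    linarith
  have h1τ : 1 - τ = g₁ / (g₁ + g₂) := by
    rw [hτ]
    field_simp
    ring
  have hrho : rho ψ τ ≤ κ / (g₁ + g₂) := by
    have hne : (ball ψ).Nonempty := ⟨(0, 0), by
      change ψ 0 0 ≤ 1
      rw [h.zero]
      norm_num⟩
    apply csSup_le (hne.image _)
    rintro _ ⟨z, hz, rfl⟩
    simp only
    rw [h1τ, hτ, le_div_iff₀ hS]
    have hz' : ψ z.1 z.2 ≤ 1 := hz
    have h2 := hdomabs z
    have h3 : κ * ψ z.1 z.2 ≤ κ * 1 := mul_le_mul_of_nonneg_left hz' hκpos.le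
    have e : (g₁ / (g₁ + g₂) * z.1 + g₂ / (g₁ + g₂) * z.2) * (g₁ + g₂) = g₁ * z.1 + g₂ * z.2 := by
      field_simp
    rw [e]
    linarith
  have hrhop := h.rho_pos hτ0 hτ1
  refine ⟨τ, hτ0, hτ1, ?_⟩
  rw [le_div_iff₀ hrhop, h1τ, hτ]
  have e : g₁ / (g₁ + g₂) * s + g₂ / (g₁ + g₂) * t = (g₁ * s + g₂ * t) / (g₁ + g₂) := by
    field_simp
  rw [e, le_div_iff₀ hS]
  have h2 : r * rho ψ (g₂ / (g₁ + g₂)) * (g₁ + g₂) ≤ r * (κ / (g₁ + g₂)) * (g₁ + g₂) := by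
    apply mul_le_mul_of_nonneg_right _ hS.le
    exact mul_le_mul_of_nonneg_left hrho hrp.le
  have e2 : r * (κ / (g₁ + g₂)) * (g₁ + g₂) = r * κ := by
    field_simp
  linarith

/-- The first coefficients of the fan of an absolute planar norm. -/
noncomputable def fanA (ψ : ℝ → ℝ → ℝ) (M i : ℕ) : ℝ :=
  (1 - (i : ℝ) / ((M : ℝ) + 1)) / rho ψ ((i : ℝ) / ((M : ℝ) + 1))

/-- The second coefficients of the fan of an absolute planar norm. -/
noncomputable def fanB (ψ : ℝ → ℝ → ℝ) (M i : ℕ) : ℝ :=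
  ((i : ℝ) / ((M : ℝ) + 1)) / rho ψ ((i : ℝ) / ((M : ℝ) + 1))

lemma grid_mem (M : ℕ) {i : ℕ} (hi : i ≤ M + 1) :
    0 ≤ (i : ℝ) / ((M : ℝ) + 1) ∧ (i : ℝ) / ((M : ℝ) + 1) ≤ 1 := by
  have hM : (0 : ℝ) < (M : ℝ) + 1 := by positivity
  refine ⟨by positivity, ?_⟩
  rw [div_le_one hM]
  exact_mod_cast hi

lemma fan_pfan (h : IsPlanarNorm ψ) (M : ℕ) : PFan M (fanA ψ M) (fanB ψ M) := by
  have hM : (0 : ℝ) < (M : ℝ) + 1 := by positivity
  refine ⟨fun i hi => ?_, fun i hi => ?_, ?_, ?_, fun i hi => ?_⟩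
  · obtain ⟨h0, h1⟩ := grid_mem M hi
    have := h.rho_pos h0 h1
    exact div_nonneg (by linarith) this.le
  · obtain ⟨h0, h1⟩ := grid_mem M hi
    have := h.rho_pos h0 h1
    exact div_nonneg h0 this.le
  · simp [fanB]
  · unfold fanA
    have : (((M + 1 : ℕ) : ℝ)) / ((M : ℝ) + 1) = 1 := by
      push_cast
      field_simp
    rw [this]
    simp
  · obtain ⟨h0, h1⟩ := grid_mem M (i := i) (by omega)
    obtain ⟨h0', h1'⟩ := grid_mem M (i := i + 1) (by omega)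
    have hr := h.rho_pos h0 h1
    have hr' := h.rho_pos h0' h1'
    unfold fanA fanB
    set τ := (i : ℝ) / ((M : ℝ) + 1) with hτ
    set τ' := ((i + 1 : ℕ) : ℝ) / ((M : ℝ) + 1) with hτ'
    have hlt : τ < τ' := by
      rw [hτ, hτ']
      push_cast
      apply div_lt_div_of_pos_right _ hM
      linarith
    have e : (1 - τ) / rho ψ τ * (τ' / rho ψ τ') - (1 - τ') / rho ψ τ' * (τ / rho ψ τ) =
        (τ' - τ) / (rho ψ τ * rho ψ τ') := by
      field_simp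
      ring
    rw [e]
    exact div_pos (by linarith) (by positivity)

lemma fan_le (h : IsPlanarNorm ψ) (M : ℕ) {i : ℕ} (hi : i ≤ M + 1) (s t : ℝ) :
    fanA ψ M i * s + fanB ψ M i * t ≤ ψ s t := by
  obtain ⟨h0, h1⟩ := grid_mem M hi
  have hr := h.rho_pos h0 h1
  have := h.functional_le h0 h1 s t
  unfold fanA fanB
  have e : (1 - (i : ℝ) / ((M : ℝ) + 1)) / rho ψ ((i : ℝ) / ((M : ℝ) + 1)) * s +
      (i : ℝ) / ((M : ℝ) + 1) / rho ψ ((i : ℝ) / ((M : ℝ) + 1)) * t =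
      ((1 - (i : ℝ) / ((M : ℝ) + 1)) * s + (i : ℝ) / ((M : ℝ) + 1) * t) /
        rho ψ ((i : ℝ) / ((M : ℝ) + 1)) := by
    field_simp
  rw [e, div_le_iff₀ hr]
  linarith

lemma fanA_le (h : IsPlanarNorm ψ) (M : ℕ) {i : ℕ} (hi : i ≤ M + 1) : fanA ψ M i ≤ ψ 1 0 := by
  have := h.fan_le M hi 1 0
  simpa using this

lemma fanB_le (h : IsPlanarNorm ψ) (M : ℕ) {i : ℕ} (hi : i ≤ M + 1) : fanB ψ M i ≤ ψ 0 1 := by
  have := h.fan_le M hi 0 1
  simpa using this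

lemma fanA_zero (M : ℕ) : fanA ψ M 0 = 1 / rho ψ 0 := by
  simp [fanA]

lemma fanB_top (M : ℕ) : fanB ψ M (M + 1) = 1 / rho ψ 1 := by
  unfold fanB
  have : (((M + 1 : ℕ) : ℝ)) / ((M : ℝ) + 1) = 1 := by
    push_cast
    field_simp
  rw [this]

lemma NDf_fan_le (h : IsPlanarNorm ψ) (M : ℕ) (s t : ℝ) :
    NDf M (fanA ψ M) (fanB ψ M) s t ≤ ψ s t :=
  (NDf_le_iff s t _).2 fun _ hi => h.fan_le M hi s t

/-- The fans converge to the norm in the first quadrant. -/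
theorem NDf_tendsto (h : IsPlanarNorm ψ) {s t : ℝ} (hs : 0 ≤ s) (ht : 0 ≤ t) :
    Tendsto (fun M => NDf M (fanA ψ M) (fanB ψ M) s t) atTop (𝓝 (ψ s t)) := by
  by_cases hz : s ≠ 0 ∨ t ≠ 0
  · obtain ⟨τ, hτ0, hτ1, hτ⟩ := h.exists_tau hs ht hz
    have hrpos := h.rho_pos hτ0 hτ1
    set Θ : ℝ → ℝ := fun σ => ((1 - σ) * s + σ * t) / rho ψ σ with hΘ
    have hΘc : ContinuousAt Θ τ := by
      apply ContinuousAt.div (by fun_prop) h.continuous_rho.continuousAt hrpos.ne'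
    set idx : ℕ → ℕ := fun M => ⌊τ * ((M : ℝ) + 1)⌋₊ with hidx
    have hidxle : ∀ M, idx M ≤ M + 1 := by
      intro M
      have h1 : τ * ((M : ℝ) + 1) ≤ ((M + 1 : ℕ) : ℝ) := by
        push_cast
        have : (0 : ℝ) ≤ (M : ℝ) + 1 := by positivity
        nlinarith
      exact (Nat.floor_le_of_le h1)
    have hgrid : Tendsto (fun M : ℕ => ((idx M : ℝ)) / ((M : ℝ) + 1)) atTop (𝓝 τ) := by
      have h1 := tendsto_nat_floor_mul_div_atTop (R := ℝ) hτ0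
      have h2 : Tendsto (fun M : ℕ => (M : ℝ) + 1) atTop atTop :=
        tendsto_atTop_add_const_right _ _ tendsto_natCast_atTop_atTop
      exact h1.comp h2
    refine tendsto_order.2 ⟨fun a ha => ?_, fun a ha => ?_⟩
    · have h1 : a < Θ τ := lt_of_lt_of_le ha hτ
      filter_upwards [(hΘc.tendsto.comp hgrid).eventually (lt_mem_nhds h1)] with M hM
      refine lt_of_lt_of_le hM ?_
      refine le_trans (le_of_eq ?_) (le_NDf (hidxle M) s t)
      obtain ⟨h0, h1⟩ := grid_mem M (hidxle M)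
      have hr := h.rho_pos h0 h1
      simp only [Function.comp, hΘ]
      unfold fanA fanB
      field_simp
    · exact Eventually.of_forall fun M => lt_of_le_of_lt (h.NDf_fan_le M s t) ha
  · push Not at hz
    rw [hz.1, hz.2, h.zero]
    refine tendsto_const_nhds.congr fun M => ?_
    apply le_antisymm
    · have := le_NDf (m := M) (a := fanA ψ M) (b := fanB ψ M) (i := 0) (by omega) 0 0
      simpa using this
    · have := h.NDf_fan_le M 0 0
      rwa [h.zero] at this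

end IsPlanarNorm

end Vale.Agent.Lib.P227
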