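import Mathlib
import Vale.Agent.Lib.P227.Defs

/-!
# Support functions, Wulff bodies and the contact argument
-/

open MeasureTheory Set Filter Topology
open scoped ENNReal Pointwise

namespace Vale.Agent.Lib.P227

variable {E : Type*} [NormedAddCommGroup E] [InnerProductSpace ℝ E]

lemma IsSymBody.nonempty {K : Set E} (hK : IsSymBody K) : K.Nonempty :=
  hK.interior_nonempty.mono interior_subset

lemma IsSymBody.bddAbove_image {K : Set E} (hK : IsSymBody K) (u : E) :
    BddAbove ((fun x => inner ℝ x u) '' K) :=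
  (hK.isCompact.image (continuous_id.inner continuous_const)).bddAbove

lemma IsSymBody.inner_le {K : Set E} (hK : IsSymBody K) (u : E) {x : E} (hx : x ∈ K) :
    inner ℝ x u ≤ supportFn K u :=
  le_csSup (hK.bddAbove_image u) (mem_image_of_mem _ hx)

lemma IsSymBody.abs_inner_le {K : Set E} (hK : IsSymBody K) (u : E) {x : E} (hx : x ∈ K) :
    |inner ℝ x u| ≤ supportFn K u := by
  rw [abs_le]
  constructor
  · have := hK.inner_le u (hK.symm x hx)
    rw [inner_neg_left] at this
    linarith
  · exact hK.inner_le u hx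

lemma IsSymBody.continuous_supportFn {K : Set E} (hK : IsSymBody K) :
    Continuous (supportFn K) := by
  have := hK.isCompact.continuous_sSup (f := fun (u : E) (x : E) => inner ℝ x u)
    (continuous_snd.inner continuous_fst)
  exact this

lemma IsSymBody.supportFn_pos {K : Set E} (hK : IsSymBody K) {u : E} (hu : u ≠ 0) :
    0 < supportFn K u := by
  obtain ⟨x₀, hx₀⟩ := hK.interior_nonempty
  obtain ⟨r, hr, hball⟩ := Metric.isOpen_iff.1 isOpen_interior x₀ hx₀
  have hu' : 0 < ‖u‖ := norm_pos_iff.2 hu
  set z : E := (r / 2 / ‖u‖) • u with hz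
  have hzn : ‖z‖ = r / 2 := by
    rw [hz, norm_smul, norm_div, norm_div, Real.norm_of_nonneg hr.le, norm_norm]
    rw [Real.norm_of_nonneg (by norm_num : (0:ℝ) ≤ 2)]
    field_simp
  have h1 : x₀ + z ∈ K := interior_subset (hball (by
    rw [Metric.mem_ball, dist_eq_norm]
    simp [hzn]; linarith))
  have h2 : x₀ - z ∈ K := interior_subset (hball (by
    rw [Metric.mem_ball, dist_eq_norm]
    simp [hzn]; linarith))
  have h3 : z - x₀ ∈ K := by
    have := hK.symm _ h2
    simpa using this
  have h4 : z ∈ K := by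
    have := hK.convex h1 h3 (by norm_num : (0:ℝ) ≤ 1 / 2) (by norm_num : (0:ℝ) ≤ 1 / 2)
      (by norm_num)
    convert this using 1
    rw [smul_add, smul_sub]
    have : (1 / 2 : ℝ) • z + (1 / 2 : ℝ) • z = z := by
      rw [← add_smul]; norm_num
    rw [show (1 / 2 : ℝ) • x₀ + (1 / 2 : ℝ) • z + ((1 / 2 : ℝ) • z - (1 / 2 : ℝ) • x₀)
      = (1 / 2 : ℝ) • z + (1 / 2 : ℝ) • z by abel, this]
  have h5 : inner ℝ z u = r / 2 * ‖u‖ := by
    rw [hz, inner_smul_left, real_inner_self_eq_norm_sq]
    simp only [conj_trivial]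
    field_simp
  have := hK.inner_le u h4
  rw [h5] at this
  have hp : 0 < r / 2 * ‖u‖ := by positivity
  linarith

lemma IsSymBody.supportFn_smul {K : Set E} (hK : IsSymBody K) {t : ℝ} (ht : 0 ≤ t) (u : E) :
    supportFn K (t • u) = t * supportFn K u := by
  unfold supportFn
  have : (fun x => inner ℝ x (t • u)) '' K = t • ((fun x => inner ℝ x u) '' K) := by
    ext y
    simp only [mem_image, Set.mem_smul_set, exists_exists_and_eq_and, real_inner_smul_right,
      smul_eq_mul]
  rw [this, Real.sSup_smul_of_nonneg ht, smul_eq_mul]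

/-- The geometric mean of support functions. -/
noncomputable def geoMean (lam : ℝ) (K L : Set E) (u : E) : ℝ :=
  supportFn K u ^ (1 - lam) * supportFn L u ^ lam

lemma continuous_geoMean {K L : Set E} (hK : IsSymBody K) (hL : IsSymBody L) {lam : ℝ}
    (h0 : 0 ≤ lam) (h1 : lam ≤ 1) : Continuous (geoMean lam K L) := by
  unfold geoMean
  exact (hK.continuous_supportFn.rpow_const fun _ => Or.inr (by linarith)).mul
    (hL.continuous_supportFn.rpow_const fun _ => Or.inr h0)

lemma geoMean_smul {K L : Set E} (hK : IsSymBody K) (hL : IsSymBody L) {lam : ℝ}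
    {t : ℝ} (ht : 0 ≤ t) {u : E} (hu : u ≠ 0) :
    geoMean lam K L (t • u) = t * geoMean lam K L u := by
  unfold geoMean
  rw [hK.supportFn_smul ht, hL.supportFn_smul ht,
    Real.mul_rpow ht (hK.supportFn_pos hu).le, Real.mul_rpow ht (hL.supportFn_pos hu).le]
  rcases ht.eq_or_lt with rfl | ht'
  · by_cases hlam : lam = 0
    · simp [hlam]
    · simp [Real.zero_rpow hlam]
  · have : t ^ (1 - lam) * t ^ lam = t := by
      rw [← Real.rpow_add ht']
      simp
    calc t ^ (1 - lam) * supportFn K u ^ (1 - lam) * (t ^ lam * supportFn L u ^ lam)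
        = (t ^ (1 - lam) * t ^ lam) * (supportFn K u ^ (1 - lam) * supportFn L u ^ lam) := by ring
      _ = _ := by rw [this]

/-- The contact point of a Wulff body: a boundary point of `wulff f` (in the radial sense)
lies on one of the defining hyperplanes. -/
lemma wulff_contact [FiniteDimensional ℝ E] {f : E → ℝ} (hf : Continuous f) {x : E}
    (hx : x ∈ wulff f) (hout : ∀ t : ℝ, 0 < t → (1 + t) • x ∉ wulff f) :
    ∃ u : E, ‖u‖ = 1 ∧ inner ℝ x u = f u := by
  by_contra hcon
  push Not at hcon
  have hlt : ∀ u : E, ‖u‖ = 1 → inner ℝ x u < f u := fun u hu =>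
    lt_of_le_of_ne (hx u hu) (hcon u hu)
  have hcomp : IsCompact (Metric.sphere (0 : E) 1) := isCompact_sphere 0 1
  by_cases hne : (Metric.sphere (0 : E) 1).Nonempty
  · obtain ⟨u₀, hu₀, hmin⟩ := hcomp.exists_isMinOn hne
      (f := fun u => f u - inner ℝ x u) (hf.sub (continuous_const.inner continuous_id)).continuousOn
    have hu₀' : ‖u₀‖ = 1 := by simpa using hu₀
    set δ := f u₀ - inner ℝ x u₀ with hδ
    have hδpos : 0 < δ := sub_pos.2 (hlt u₀ hu₀')
    apply hout (δ / (‖x‖ + 1)) (by positivity)
    intro u hu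
    have h1 : δ ≤ f u - inner ℝ x u := hmin (by simpa using hu)
    have h2 : inner ℝ x u ≤ ‖x‖ := by
      have := real_inner_le_norm x u
      rwa [hu, mul_one] at this
    rw [add_smul, one_smul, inner_add_left, real_inner_smul_left]
    have h3 : δ / (‖x‖ + 1) * inner ℝ x u ≤ δ := by
      have hn : 0 < ‖x‖ + 1 := by positivity
      rw [div_mul_eq_mul_div, div_le_iff₀ hn]
      nlinarith [norm_nonneg x]
    linarith
  · apply hout 1 one_pos
    intro u hu
    exact absurd ⟨u, by simpa using hu⟩ hne

/-- A normal vector to the polytope `{y | ∀ i, |⟪w i, y⟫| ≤ 1}` at a relative interior point of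
a facet is proportional to the normal of that facet. -/
lemma normal_parallel [FiniteDimensional ℝ E] {J : Type*} [Finite J] (w : J → E) (j : J) {x u : E}
    (hx : inner ℝ (w j) x = 1) (hx' : ∀ i, i ≠ j → |inner ℝ (w i) x| < 1)
    (hu : ∀ y : E, (∀ i, |inner ℝ (w i) y| ≤ 1) → inner ℝ y u ≤ inner ℝ x u) :
    ∃ κ : ℝ, 0 ≤ κ ∧ u = κ • w j := by
  have hw : w j ≠ 0 := by
    intro h
    rw [h, inner_zero_left] at hx
    norm_num at hx
  have hnn : 0 < ‖w j‖ ^ 2 := by positivity
  -- directions tangent to the facet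
  have htan : ∀ v : E, inner ℝ (w j) v = 0 → inner ℝ v u ≤ 0 := by
    intro v hv
    have hev : ∀ᶠ ε in 𝓝[>] (0 : ℝ), ∀ i, |inner ℝ (w i) (x + ε • v)| ≤ 1 := by
      rw [Filter.eventually_all]
      intro i
      by_cases hij : i = j
      · refine Filter.Eventually.of_forall fun ε => ?_
        rw [hij, inner_add_right, inner_smul_right, hv, hx]
        simp
      · have hc : Continuous fun ε : ℝ => |inner ℝ (w i) (x + ε • v)| :=
          (continuous_const.inner (continuous_const.add (continuous_id.smul continuous_const))).abs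
        have h0 : (fun ε : ℝ => |inner ℝ (w i) (x + ε • v)|) 0 < 1 := by
          simpa using hx' i hij
        have := (hc.tendsto 0).eventually (gt_mem_nhds h0)
        exact (this.filter_mono nhdsWithin_le_nhds).mono fun ε hε => le_of_lt hε
    obtain ⟨ε, hε, hεpos⟩ := (hev.and self_mem_nhdsWithin).exists
    have := hu _ hε
    rw [inner_add_left, real_inner_smul_left] at this
    have hεpos' : (0:ℝ) < ε := hεpos
    have h3 : ε * inner ℝ v u ≤ 0 := by linarith
    by_contra hcon
    push Not at hcon
    have := mul_pos hεpos' hcon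
    linarith
  set κ : ℝ := inner ℝ (w j) u / ‖w j‖ ^ 2 with hκ
  set v : E := u - κ • w j with hv
  have hv0 : inner ℝ (w j) v = 0 := by
    rw [hv, inner_sub_right, inner_smul_right, real_inner_self_eq_norm_sq, hκ]
    field_simp
    ring
  have hvu : inner ℝ v u = 0 := by
    apply le_antisymm (htan v hv0)
    have := htan (-v) (by rw [inner_neg_right, hv0, neg_zero])
    rw [inner_neg_left] at this
    linarith
  have hvv : inner ℝ v v = 0 := by
    have h1 : inner ℝ v v = inner ℝ v u - κ * inner ℝ v (w j) := by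
      conv_lhs => rw [show v = u - κ • w j from rfl]
      conv_lhs => rw [inner_sub_right, real_inner_smul_right]
    rw [h1, hvu, real_inner_comm, hv0]
    simp
  have hv00 : v = 0 := by
    simpa using hvv
  have hueq : u = κ • w j := by
    rw [hv] at hv00
    exact sub_eq_zero.1 hv00
  refine ⟨κ, ?_, hueq⟩
  have := hu 0 (by simp)
  rw [inner_zero_left, hueq, inner_smul_right, real_inner_comm, hx, mul_one] at this
  exact this

/-- The contact inequality: when a polytope is the logarithmic combination of `K` and `L`, the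
geometric mean of the support functions at each facet normal equals the right value. -/
lemma geoMean_at_normal [FiniteDimensional ℝ E] {K L : Set E} (hK : IsSymBody K) (hL : IsSymBody L)
    {lam : ℝ} (h0 : 0 ≤ lam) (h1 : lam ≤ 1) {J : Type*} [Finite J] (w : J → E)
    (hQ : logCombo lam K L = {y | ∀ i, |inner ℝ (w i) y| ≤ 1}) (j : J) {x : E}
    (hx : inner ℝ (w j) x = 1) (hx' : ∀ i, i ≠ j → |inner ℝ (w i) x| < 1) :
    geoMean lam K L (w j) = 1 := by
  have hQ' : wulff (geoMean lam K L) = {y | ∀ i, |inner ℝ (w i) y| ≤ 1} := hQ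
  have hw : w j ≠ 0 := by
    intro h
    rw [h, inner_zero_left] at hx
    norm_num at hx
  have hxmem : x ∈ wulff (geoMean lam K L) := by
    rw [hQ']
    intro i
    by_cases hij : i = j
    · rw [hij, hx]; simp
    · exact (hx' i hij).le
  have hout : ∀ t : ℝ, 0 < t → (1 + t) • x ∉ wulff (geoMean lam K L) := by
    intro t ht hmem
    rw [hQ'] at hmem
    have := hmem j
    rw [inner_smul_right, hx, mul_one, abs_of_pos (by linarith)] at this
    linarith
  obtain ⟨u, hu, hux⟩ := wulff_contact (continuous_geoMean hK hL h0 h1) hxmem hout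
  obtain ⟨κ, hκ, hue⟩ := normal_parallel w j hx hx' (u := u) (by
    intro y hy
    have hymem : y ∈ wulff (geoMean lam K L) := by
      rw [hQ']
      exact hy
    rw [hux]
    exact hymem u hu)
  have hκ' : κ = inner ℝ x u := by
    rw [hue, inner_smul_right, real_inner_comm, hx, mul_one]
  have hκpos : 0 < κ := by
    rcases hκ.eq_or_lt with h | h
    · rw [← h, zero_smul] at hue
      rw [hue] at hu
      simp at hu
    · exact h
  have := geoMean_smul (lam := lam) hK hL hκ hw
  rw [← hue, ← hux, ← hκ'] at this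
  have h3 : κ * geoMean lam K L (w j) = κ * 1 := by rw [← this, mul_one]
  exact mul_left_cancel₀ hκpos.ne' h3

end Vale.Agent.Lib.P227
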