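import Mathlib
import Vale.Agent.Lib.P227.Hanner
import Vale.Agent.Lib.P227.Geom

/-!
# The logarithmic Brunn-Minkowski inequality when the combination is a Hanner polytope
-/

open MeasureTheory Set
open scoped ENNReal

namespace Vale.Agent.Lib.P227

variable {α J : Type} [Fintype α] [Fintype J] {N : (α → ℝ) → ℝ} {u : J → α → ℝ}
  {c : J → ℝ} {n : ℕ} {C : ℝ}

lemma inner_toLp (v : α → ℝ) (x : EuclideanSpace ℝ α) :
    inner ℝ (WithLp.toLp 2 v : EuclideanSpace ℝ α) x = linForm v x.ofLp := by
  simp [linForm, PiLp.inner_apply, mul_comm]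

lemma volume_preimage_ofLp (S : Set (α → ℝ)) :
    volume {x : EuclideanSpace ℝ α | x.ofLp ∈ S} = volume S :=
  (EuclideanSpace.volume_preserving_symm_measurableEquiv_toLp α).measure_preimage_equiv S

lemma Good.volume_ball (h : Good α J N u c n C) :
    volume {x : EuclideanSpace ℝ α | N x.ofLp ≤ 1} = ENNReal.ofReal C := by
  rw [← h.vol]
  exact volume_preimage_ofLp {x | N x ≤ 1}

lemma Good.slab_eu (h : Good α J N u c n C) (l r : J → ℝ) :
    volume {x : EuclideanSpace ℝ α |
        ∀ j, l j ≤ inner ℝ (WithLp.toLp 2 (u j) : EuclideanSpace ℝ α) x ∧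
          inner ℝ (WithLp.toLp 2 (u j) : EuclideanSpace ℝ α) x ≤ r j} ≤
      ENNReal.ofReal C * ∏ j, ENNReal.ofReal ((r j - l j) / 2) ^ ((n : ℝ) * c j) := by
  simp_rw [inner_toLp]
  have := volume_preimage_ofLp {x : α → ℝ | ∀ j, l j ≤ linForm (u j) x ∧ linForm (u j) x ≤ r j}
  rw [show {x : EuclideanSpace ℝ α | ∀ j, l j ≤ linForm (u j) x.ofLp ∧ linForm (u j) x.ofLp ≤ r j} =
    {x : EuclideanSpace ℝ α | x.ofLp ∈ {x : α → ℝ | ∀ j, l j ≤ linForm (u j) x ∧ linForm (u j) x ≤ r j}}
    from rfl, this]
  exact h.slab l r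

/-- The logarithmic Minkowski inequality at the ball of a good configuration. -/
theorem Good.logMinkowski (h : Good α J N u c n C) {L : Set (EuclideanSpace ℝ α)}
    (hL : IsCompact L) :
    volume L ≤ volume {x : EuclideanSpace ℝ α | N x.ofLp ≤ 1} *
      ∏ j, ENNReal.ofReal ((supportFn L (WithLp.toLp 2 (u j)) +
        supportFn L (-(WithLp.toLp 2 (u j) : EuclideanSpace ℝ α))) / 2) ^ ((n : ℝ) * c j) := by
  rw [h.volume_ball]
  have hb : ∀ v : EuclideanSpace ℝ α, BddAbove ((fun x => inner ℝ x v) '' L) := fun v =>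
    (hL.image (continuous_id.inner continuous_const)).bddAbove
  have hsub : L ⊆ {x : EuclideanSpace ℝ α |
      ∀ j, (- supportFn L (-(WithLp.toLp 2 (u j) : EuclideanSpace ℝ α))) ≤
          inner ℝ (WithLp.toLp 2 (u j) : EuclideanSpace ℝ α) x ∧
        inner ℝ (WithLp.toLp 2 (u j) : EuclideanSpace ℝ α) x ≤
          supportFn L (WithLp.toLp 2 (u j))} := by
    intro x hx j
    constructor
    · have h1 : inner ℝ x (-(WithLp.toLp 2 (u j) : EuclideanSpace ℝ α)) ≤
          supportFn L (-(WithLp.toLp 2 (u j) : EuclideanSpace ℝ α)) :=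
        le_csSup (hb _) (mem_image_of_mem _ hx)
      rw [inner_neg_right] at h1
      rw [real_inner_comm]
      linarith
    · have := le_csSup (hb ((WithLp.toLp 2 (u j) : EuclideanSpace ℝ α))) (mem_image_of_mem _ hx)
      rw [real_inner_comm]
      exact this
  refine (measure_mono hsub).trans ((h.slab_eu _ _).trans (le_of_eq ?_))
  congr 1
  apply Finset.prod_congr rfl
  intro j _
  rw [sub_neg_eq_add]

/-- The logarithmic Brunn-Minkowski inequality when the combination is a linear image of the
ball of a good configuration. -/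
theorem Good.q1 (h : Good α J N u c n C) {K L : Set (EuclideanSpace ℝ α)}
    (hK : IsSymBody K) (hL : IsSymBody L) {lam : ℝ} (h0 : 0 ≤ lam) (h1 : lam ≤ 1)
    (A : EuclideanSpace ℝ α ≃ₗ[ℝ] EuclideanSpace ℝ α)
    (hQ : logCombo lam K L = A '' {x : EuclideanSpace ℝ α | N x.ofLp ≤ 1}) :
    volume K ^ (1 - lam) * volume L ^ lam ≤ volume (logCombo lam K L) := by
  classical
  set B : EuclideanSpace ℝ α →ₗ[ℝ] EuclideanSpace ℝ α := A.symm.toLinearMap with hB
  set U : J → EuclideanSpace ℝ α := fun j => WithLp.toLp 2 (u j) with hU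
  set w : J → EuclideanSpace ℝ α := fun j => LinearMap.adjoint B (U j) with hw
  have hwy : ∀ j y, inner ℝ (w j) y = linForm (u j) (A.symm y).ofLp := by
    intro j y
    rw [hw]
    simp only
    rw [LinearMap.adjoint_inner_left, hU]
    simp only
    rw [inner_toLp]
    rfl
  have hQ' : logCombo lam K L = {y | ∀ i, |inner ℝ (w i) y| ≤ 1} := by
    rw [hQ]
    ext y
    simp only [mem_image, mem_ofPred_eq]
    constructor
    · rintro ⟨x, hx, rfl⟩ i
      rw [hwy]
      simp only [LinearEquiv.symm_apply_apply]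
      exact (norm_le_iff_of h.abs_le h.exists_eq _ _).1 hx i
    · intro hy
      refine ⟨A.symm y, ?_, by simp⟩
      apply (norm_le_iff_of h.abs_le h.exists_eq _ _).2
      intro j
      have := hy j
      rwa [hwy] at this
  have hcontact : ∀ j, geoMean lam K L (w j) = 1 := by
    intro j
    obtain ⟨p, hp1, hp2⟩ := h.facet_pt j
    refine geoMean_at_normal hK hL h0 h1 w hQ' j (x := A (WithLp.toLp 2 p)) ?_ ?_
    · rw [hwy]
      simpa using hp1
    · intro i hi
      rw [hwy]
      simpa using hp2 i hi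
  have hvol : ∀ S : Set (EuclideanSpace ℝ α),
      volume (A '' S) = ENNReal.ofReal |LinearMap.det A.toLinearMap| * volume S := fun S =>
    Measure.addHaar_image_linearMap volume A.toLinearMap S
  set D := ENNReal.ofReal |LinearMap.det A.toLinearMap| * ENNReal.ofReal C with hD
  have hDQ : volume (logCombo lam K L) = D := by
    rw [hQ, hvol, h.volume_ball]
  have hbound : ∀ M : Set (EuclideanSpace ℝ α), IsSymBody M →
      volume M ≤ D * ∏ j, ENNReal.ofReal (supportFn M (w j)) ^ ((n : ℝ) * c j) := by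
    intro M hM
    have hsub : M ⊆ A '' {x : EuclideanSpace ℝ α |
        ∀ j, (- supportFn M (w j)) ≤ inner ℝ (U j) x ∧ inner ℝ (U j) x ≤ supportFn M (w j)} := by
      intro y hy
      refine ⟨A.symm y, ?_, by simp⟩
      intro j
      have h2 := hM.abs_inner_le (w j) hy
      rw [real_inner_comm, hwy, _root_.abs_le] at h2
      rw [hU]
      simp only
      rw [inner_toLp]
      exact h2
    calc volume M ≤ volume (A '' {x : EuclideanSpace ℝ α |
          ∀ j, (- supportFn M (w j)) ≤ inner ℝ (U j) x ∧ inner ℝ (U j) x ≤ supportFn M (w j)}) :=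
          measure_mono hsub
      _ = ENNReal.ofReal |LinearMap.det A.toLinearMap| *
          volume {x : EuclideanSpace ℝ α |
          ∀ j, (- supportFn M (w j)) ≤ inner ℝ (U j) x ∧ inner ℝ (U j) x ≤ supportFn M (w j)} :=
          hvol _
      _ ≤ ENNReal.ofReal |LinearMap.det A.toLinearMap| *
          (ENNReal.ofReal C * ∏ j, ENNReal.ofReal ((supportFn M (w j) - (- supportFn M (w j))) / 2) ^
            ((n : ℝ) * c j)) := by
          gcongr
          exact h.slab_eu _ _
      _ = D * ∏ j, ENNReal.ofReal (supportFn M (w j)) ^ ((n : ℝ) * c j) := by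
          rw [hD, mul_assoc]
          congr 2
          apply Finset.prod_congr rfl
          intro j _
          congr 2
          ring
  have hlam' : 0 ≤ 1 - lam := by linarith
  have he : ∀ j, 0 ≤ (n : ℝ) * c j := fun j => mul_nonneg (Nat.cast_nonneg n) (h.c_nonneg j)
  have hw0 : ∀ j, w j ≠ 0 := by
    intro j hj
    obtain ⟨p, hp1, -⟩ := h.facet_pt j
    have := hwy j (A (WithLp.toLp 2 p))
    rw [hj, inner_zero_left] at this
    simp only [LinearEquiv.symm_apply_apply, hp1] at this
    norm_num at this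
  calc volume K ^ (1 - lam) * volume L ^ lam
      ≤ (D * ∏ j, ENNReal.ofReal (supportFn K (w j)) ^ ((n : ℝ) * c j)) ^ (1 - lam) *
        (D * ∏ j, ENNReal.ofReal (supportFn L (w j)) ^ ((n : ℝ) * c j)) ^ lam := by
        gcongr
        · exact hbound K hK
        · exact hbound L hL
    _ = (D ^ (1 - lam) * D ^ lam) * ∏ j, (ENNReal.ofReal (supportFn K (w j)) ^ (1 - lam) *
          ENNReal.ofReal (supportFn L (w j)) ^ lam) ^ ((n : ℝ) * c j) := by
        rw [ENNReal.mul_rpow_of_nonneg _ _ hlam', ENNReal.mul_rpow_of_nonneg _ _ h0,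
          ← ENNReal.prod_rpow_of_nonneg hlam', ← ENNReal.prod_rpow_of_nonneg h0]
        rw [show D ^ (1 - lam) * (∏ j, (ENNReal.ofReal (supportFn K (w j)) ^ ((n : ℝ) * c j)) ^ (1 - lam)) *
            (D ^ lam * ∏ j, (ENNReal.ofReal (supportFn L (w j)) ^ ((n : ℝ) * c j)) ^ lam) =
            (D ^ (1 - lam) * D ^ lam) *
              ((∏ j, (ENNReal.ofReal (supportFn K (w j)) ^ ((n : ℝ) * c j)) ^ (1 - lam)) *
              ∏ j, (ENNReal.ofReal (supportFn L (w j)) ^ ((n : ℝ) * c j)) ^ lam) by ring,
          ← Finset.prod_mul_distrib]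
        congr 1
        apply Finset.prod_congr rfl
        intro j _
        rw [ENNReal.mul_rpow_of_nonneg _ _ (he j), ← ENNReal.rpow_mul, ← ENNReal.rpow_mul,
          ← ENNReal.rpow_mul, ← ENNReal.rpow_mul, mul_comm (1 - lam), mul_comm lam]
    _ ≤ D * 1 := by
        have hDD : D ^ (1 - lam) * D ^ lam = D := by
          rw [← ENNReal.rpow_add_of_nonneg _ _ hlam' h0]
          simp
        rw [hDD]
        gcongr
        apply Finset.prod_le_one'
        intro j _
        have h2 : ENNReal.ofReal (supportFn K (w j)) ^ (1 - lam) *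
            ENNReal.ofReal (supportFn L (w j)) ^ lam = 1 := by
          have hKp := hK.supportFn_pos (hw0 j)
          have hLp := hL.supportFn_pos (hw0 j)
          rw [ENNReal.ofReal_rpow_of_pos hKp, ENNReal.ofReal_rpow_of_pos hLp,
            ← ENNReal.ofReal_mul (by positivity)]
          have := hcontact j
          unfold geoMean at this
          rw [this]
          simp
        rw [h2]
        simp
    _ = volume (logCombo lam K L) := by rw [hDQ, mul_one]

end Vale.Agent.Lib.P227
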