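import Mathlib
import Vale.Agent.Lib.P227.Fan

/-!
# Planar-norm trees are limits of configurations
-/

open MeasureTheory Set Filter Topology
open scoped ENNReal

namespace Vale.Agent.Lib.P227

section Reindex

variable {α β J : Type} [Fintype α] [Fintype β] [Fintype J] {N : (α → ℝ) → ℝ} {u : J → α → ℝ}
  {c : J → ℝ} {neg : J → J} {A : J → Set (α → ℝ)} {n : ℕ} {C : ℝ}

lemma linForm_comp (e : α ≃ β) (v : α → ℝ) (x : β → ℝ) :
    linForm (v ∘ e.symm) x = linForm v (x ∘ e) := by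
  unfold linForm
  rw [← Equiv.sum_comp e]
  simp

/-- The coordinate change on the space of functions. -/
noncomputable def reEquiv (e : α ≃ β) : (β → ℝ) ≃ᵐ (α → ℝ) :=
  MeasurableEquiv.piCongrLeft (fun _ : α => ℝ) e.symm

omit [Fintype α] [Fintype β] in
lemma reEquiv_apply (e : α ≃ β) (x : β → ℝ) : reEquiv e x = x ∘ e := by
  funext a
  unfold reEquiv
  rw [MeasurableEquiv.coe_piCongrLeft, Equiv.piCongrLeft_apply_eq_cast]
  simp

lemma reEquiv_mp (e : α ≃ β) : MeasurePreserving (reEquiv e) volume volume :=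
  volume_measurePreserving_piCongrLeft (fun _ : α => ℝ) e.symm

/-- Configurations can be reindexed along a bijection of the coordinates. -/
theorem Cfg.reindex (h : Cfg α J N u c neg A n C) (e : α ≃ β) :
    Cfg β J (fun x => N (x ∘ e)) (fun j => u j ∘ e.symm) c neg
      (fun j => (fun x : β → ℝ => x ∘ e) ⁻¹' A j) n C := by
  have hm : Measurable fun x : β → ℝ => x ∘ e :=
    measurable_pi_lambda _ fun a => measurable_pi_apply _
  refine ⟨h.n_pos, ?_, h.C_pos, h.c_nonneg, h.c_sum, h.neg_neg, ?_, h.c_neg, ?_, ?_, ?_, ?_, ?_, ?_,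
    ?_, ?_, ?_⟩
  · rw [← Fintype.card_congr e]
    exact h.card
  · intro j
    funext b
    simp [h.u_neg]
  · intro j x
    rw [linForm_comp]
    exact h.le j _
  · intro j
    exact hm (h.A_meas j)
  · intro i j x hi hj
    exact h.A_unique i j _ hi hj
  · intro x
    exact h.A_cover _
  · intro j x hx
    rw [linForm_comp]
    exact h.A_active j _ hx
  · intro j x t hx ht
    have : (t • x) ∘ e = t • (x ∘ e) := rfl
    change (t • x) ∘ e ∈ A j
    rw [this]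
    exact h.A_cone j _ t hx ht
  · intro x hx
    have := h.definite _ hx
    funext b
    have h2 := congrFun this (e.symm b)
    simpa using h2
  · have := h.slab.comp (reEquiv e) (reEquiv_mp e)
    intro l r
    have h3 := this l r
    simp only [reEquiv_apply] at h3
    simp only [linForm_comp]
    exact h3
  · intro j
    have h1 := (reEquiv_mp e).measure_preimage_equiv ({x | N x ≤ 1} ∩ A j)
    rw [h.vol_A] at h1
    rw [← h1]
    congr 1
    ext x
    simp only [mem_inter_iff, mem_ofPred_eq, mem_preimage, reEquiv_apply]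

end Reindex

/-- Polytopal norms. -/
def IsPoly (α : Type) [Fintype α] (n : ℕ) (N : (α → ℝ) → ℝ) : Prop :=
  ∃ (J : Type) (_ : Fintype J) (u : J → α → ℝ) (c : J → ℝ) (neg : J → J) (A : J → Set (α → ℝ))
    (C : ℝ), Cfg α J N u c neg A n C

/-- Limits of polytopal norms. -/
def IsLim (α : Type) [Fintype α] (n : ℕ) (N : (α → ℝ) → ℝ) : Prop :=
  ∃ (Ns : ℕ → (α → ℝ) → ℝ) (ε : ℝ), 0 < ε ∧ (∀ M, IsPoly α n (Ns M)) ∧
    (∀ x, Tendsto (fun M => Ns M x) atTop (𝓝 (N x))) ∧ ∀ M x i, ε * |x i| ≤ Ns M x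

lemma IsPoly.exists_nu {α : Type} [Fintype α] {n : ℕ} {N : (α → ℝ) → ℝ} (h : IsPoly α n N) :
    ∃ ν, PolyData α n N ν := by
  obtain ⟨J, _, u, c, neg, A, C, hc⟩ := h
  exact ⟨_, hc.polyData⟩

lemma IsLim.exists_data {α : Type} [Fintype α] {n : ℕ} {N : (α → ℝ) → ℝ} (h : IsLim α n N) :
    ∃ Ns νs ε, LimData α n Ns νs N ε := by
  obtain ⟨Ns, ε, hε, hp, hc, hl⟩ := h
  choose νs hν using fun M => (hp M).exists_nu
  exact ⟨Ns, νs, ε, hν, hc, hε, hl⟩

lemma IsLim.reindex {α β : Type} [Fintype α] [Fintype β] {n : ℕ} {N : (α → ℝ) → ℝ}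
    (h : IsLim α n N) (e : α ≃ β) : IsLim β n fun x => N (x ∘ e) := by
  obtain ⟨Ns, ε, hε, hp, hc, hl⟩ := h
  refine ⟨fun M x => Ns M (x ∘ e), ε, hε, ?_, fun x => hc _, ?_⟩
  · intro M
    obtain ⟨J, iJ, u, c, neg, A, C, hc⟩ := hp M
    exact ⟨J, iJ, _, _, _, _, _, hc.reindex e⟩
  · intro M x i
    have := hl M (x ∘ e) (e.symm i)
    simpa using this

lemma isLim_seg : IsLim Unit 1 fun x => |x ()| := by
  refine ⟨fun _ x => |x ()|, 1, one_pos, fun _ => ⟨_, _, _, _, _, _, _, cfg_seg⟩,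
    fun _ => tendsto_const_nhds, ?_⟩
  intro M x i
  simp

lemma NDf_sub_le {m : ℕ} {a b : ℕ → ℝ} {L : ℝ} (ha0 : ∀ i, i ≤ m + 1 → 0 ≤ a i)
    (hb0 : ∀ i, i ≤ m + 1 → 0 ≤ b i) (ha : ∀ i, i ≤ m + 1 → a i ≤ L)
    (hb : ∀ i, i ≤ m + 1 → b i ≤ L) (s t s' t' : ℝ) :
    NDf m a b s t ≤ NDf m a b s' t' + L * |s - s'| + L * |t - t'| := by
  rw [NDf_le_iff]
  intro i hi
  have h1 := le_NDf (m := m) (a := a) (b := b) hi s' t'
  have h2 : a i * (s - s') ≤ L * |s - s'| :=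
    (mul_le_mul_of_nonneg_left (le_abs_self _) (ha0 i hi)).trans
      (mul_le_mul_of_nonneg_right (ha i hi) (abs_nonneg _))
  have h3 : b i * (t - t') ≤ L * |t - t'| :=
    (mul_le_mul_of_nonneg_left (le_abs_self _) (hb0 i hi)).trans
      (mul_le_mul_of_nonneg_right (hb i hi) (abs_nonneg _))
  nlinarith

/-- Composition with an absolute planar norm. -/
theorem IsLim.node {α₁ α₂ : Type} [Fintype α₁] [Fintype α₂] {p q : ℕ} {N₁ : (α₁ → ℝ) → ℝ}
    {N₂ : (α₂ → ℝ) → ℝ} {ψ : ℝ → ℝ → ℝ} (hψ : IsPlanarNorm ψ) (h₁ : IsLim α₁ p N₁)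
    (h₂ : IsLim α₂ q N₂) :
    IsLim (α₁ ⊕ α₂) (p + q) fun x =>
      ψ (N₁ fun k => x (Sum.inl k)) (N₂ fun k => x (Sum.inr k)) := by
  obtain ⟨Ns₁, ε₁, hε₁, hp₁, hc₁, hl₁⟩ := h₁
  obtain ⟨Ns₂, ε₂, hε₂, hp₂, hc₂, hl₂⟩ := h₂
  set Ns : ℕ → (α₁ ⊕ α₂ → ℝ) → ℝ := fun M x =>
    NDf M (IsPlanarNorm.fanA ψ M) (IsPlanarNorm.fanB ψ M)
      (Ns₁ M fun k => x (Sum.inl k)) (Ns₂ M fun k => x (Sum.inr k)) with hNs
  have hr0 : 0 < IsPlanarNorm.rho ψ 0 := hψ.rho_pos le_rfl zero_le_one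
  have hr1 : 0 < IsPlanarNorm.rho ψ 1 := hψ.rho_pos zero_le_one le_rfl
  have hnn₁ : ∀ M x, 0 ≤ Ns₁ M x := by
    intro M x
    obtain ⟨J, iJ, u, c, neg, A, C, hc⟩ := hp₁ M
    exact hc.N_nonneg x
  have hnn₂ : ∀ M x, 0 ≤ Ns₂ M x := by
    intro M x
    obtain ⟨J, iJ, u, c, neg, A, C, hc⟩ := hp₂ M
    exact hc.N_nonneg x
  refine ⟨Ns, min (ε₁ / IsPlanarNorm.rho ψ 0) (ε₂ / IsPlanarNorm.rho ψ 1), by positivity, ?_, ?_, ?_⟩
  · intro M
    obtain ⟨J₁, iJ₁, u₁, c₁, neg₁, A₁, C₁, hc₁'⟩ := hp₁ M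
    obtain ⟨J₂, iJ₂, u₂, c₂, neg₂, A₂, C₂, hc₂'⟩ := hp₂ M
    exact ⟨_, _, _, _, _, _, _, cfg_node (hψ.fan_pfan M) hc₁' hc₂'⟩
  · intro x
    set s := N₁ fun k => x (Sum.inl k) with hs
    set t := N₂ fun k => x (Sum.inr k) with ht
    have hs0 : 0 ≤ s := ge_of_tendsto' (hc₁ _) fun M => hnn₁ M _
    have ht0 : 0 ≤ t := ge_of_tendsto' (hc₂ _) fun M => hnn₂ M _
    have hfan := hψ.NDf_tendsto hs0 ht0
    set L := max (ψ 1 0) (ψ 0 1) with hL
    have hd1 : Tendsto (fun M => L * |(Ns₁ M fun k => x (Sum.inl k)) - s|) atTop (𝓝 0) := by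
      have := (((hc₁ fun k => x (Sum.inl k)).sub_const s).abs).const_mul L
      rw [← hs, sub_self, abs_zero, mul_zero] at this
      exact this
    have hd2 : Tendsto (fun M => L * |(Ns₂ M fun k => x (Sum.inr k)) - t|) atTop (𝓝 0) := by
      have := (((hc₂ fun k => x (Sum.inr k)).sub_const t).abs).const_mul L
      rw [← ht, sub_self, abs_zero, mul_zero] at this
      exact this
    have hb : ∀ M (s₁ t₁ s₂ t₂ : ℝ),
        NDf M (IsPlanarNorm.fanA ψ M) (IsPlanarNorm.fanB ψ M) s₁ t₁ ≤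
        NDf M (IsPlanarNorm.fanA ψ M) (IsPlanarNorm.fanB ψ M) s₂ t₂ + L * |s₁ - s₂| + L * |t₁ - t₂| :=
      fun M s₁ t₁ s₂ t₂ => NDf_sub_le ((hψ.fan_pfan M).α_nonneg) ((hψ.fan_pfan M).β_nonneg)
        (fun i hi => (hψ.fanA_le M hi).trans (le_max_left _ _))
        (fun i hi => (hψ.fanB_le M hi).trans (le_max_right _ _)) _ _ _ _
    refine tendsto_of_tendsto_of_tendsto_of_le_of_le
      (g := fun M => NDf M (IsPlanarNorm.fanA ψ M) (IsPlanarNorm.fanB ψ M) s t -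
        (L * |(Ns₁ M fun k => x (Sum.inl k)) - s| + L * |(Ns₂ M fun k => x (Sum.inr k)) - t|))
      (h := fun M => NDf M (IsPlanarNorm.fanA ψ M) (IsPlanarNorm.fanB ψ M) s t +
        L * |(Ns₁ M fun k => x (Sum.inl k)) - s| + L * |(Ns₂ M fun k => x (Sum.inr k)) - t|)
      ?_ ?_ ?_ ?_
    · have := hfan.sub (hd1.add hd2)
      simpa using this
    · have := (hfan.add hd1).add hd2
      simpa using this
    · intro M
      have := hb M s t (Ns₁ M fun k => x (Sum.inl k)) (Ns₂ M fun k => x (Sum.inr k))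
      rw [abs_sub_comm s, abs_sub_comm t] at this
      simp only [hNs]
      linarith
    · intro M
      exact hb M _ _ s t
  · intro M x i
    have hmem : ∀ j, j ≤ M + 1 → IsPlanarNorm.fanA ψ M j * (Ns₁ M fun k => x (Sum.inl k)) +
        IsPlanarNorm.fanB ψ M j * (Ns₂ M fun k => x (Sum.inr k)) ≤ Ns M x :=
      fun j hj => le_NDf hj _ _
    rcases i with i | i
    · have h1 := hmem 0 (by omega)
      rw [IsPlanarNorm.fanA_zero] at h1
      have hb0 : IsPlanarNorm.fanB ψ M 0 = 0 := (hψ.fan_pfan M).β0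
      rw [hb0, zero_mul, add_zero] at h1
      have h2 := hl₁ M (fun k => x (Sum.inl k)) i
      have h3 : min (ε₁ / IsPlanarNorm.rho ψ 0) (ε₂ / IsPlanarNorm.rho ψ 1) ≤
          ε₁ / IsPlanarNorm.rho ψ 0 := min_le_left _ _
      have h4 : 1 / IsPlanarNorm.rho ψ 0 * (ε₁ * |x (Sum.inl i)|) ≤
          1 / IsPlanarNorm.rho ψ 0 * (Ns₁ M fun k => x (Sum.inl k)) :=
        mul_le_mul_of_nonneg_left h2 (by positivity)
      have h5 := mul_le_mul_of_nonneg_right h3 (abs_nonneg (x (Sum.inl i)))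
      have e : ε₁ / IsPlanarNorm.rho ψ 0 * |x (Sum.inl i)| =
          1 / IsPlanarNorm.rho ψ 0 * (ε₁ * |x (Sum.inl i)|) := by
        field_simp
      linarith
    · have h1 := hmem (M + 1) le_rfl
      rw [IsPlanarNorm.fanB_top] at h1
      have hb0 : IsPlanarNorm.fanA ψ M (M + 1) = 0 := (hψ.fan_pfan M).αM
      rw [hb0, zero_mul, zero_add] at h1
      have h2 := hl₂ M (fun k => x (Sum.inr k)) i
      have h3 : min (ε₁ / IsPlanarNorm.rho ψ 0) (ε₂ / IsPlanarNorm.rho ψ 1) ≤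
          ε₂ / IsPlanarNorm.rho ψ 1 := min_le_right _ _
      have h4 : 1 / IsPlanarNorm.rho ψ 1 * (ε₂ * |x (Sum.inr i)|) ≤
          1 / IsPlanarNorm.rho ψ 1 * (Ns₂ M fun k => x (Sum.inr k)) :=
        mul_le_mul_of_nonneg_left h2 (by positivity)
      have h5 := mul_le_mul_of_nonneg_right h3 (abs_nonneg (x (Sum.inr i)))
      have e : ε₂ / IsPlanarNorm.rho ψ 1 * |x (Sum.inr i)| =
          1 / IsPlanarNorm.rho ψ 1 * (ε₂ * |x (Sum.inr i)|) := by
        field_simp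
      linarith

/-- Every tree norm is a limit of configurations. -/
theorem TreeNorm.isLim {n : ℕ} {N : (Fin n → ℝ) → ℝ} (h : TreeNorm n N) : IsLim (Fin n) n N := by
  induction h with
  | seg =>
    have := isLim_seg.reindex (Equiv.ofUnique Unit (Fin 1))
    have e : (fun x : Fin 1 → ℝ => |x 0|) = fun x => |(x ∘ Equiv.ofUnique Unit (Fin 1)) ()| := by
      funext x
      simp only [Function.comp]
      congr 2
    rw [e]
    exact this
  | @node p q N₁ N₂ ψ hψ h₁ h₂ σ ih₁ ih₂ =>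
    have := (IsLim.node hψ ih₁ ih₂).reindex (finSumFinEquiv.trans σ)
    have e : (fun x : Fin (p + q) → ℝ =>
        ψ (N₁ fun i => x (σ (Fin.castAdd q i))) (N₂ fun j => x (σ (Fin.natAdd p j)))) =
        fun x => ψ (N₁ fun k => (x ∘ ⇑(finSumFinEquiv.trans σ)) (Sum.inl k))
          (N₂ fun k => (x ∘ ⇑(finSumFinEquiv.trans σ)) (Sum.inr k)) := by
      funext x
      simp only [Function.comp, Equiv.trans_apply, finSumFinEquiv_apply_left,
        finSumFinEquiv_apply_right]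
    rw [e]
    exact this

end Vale.Agent.Lib.P227
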