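import Mathlib
import Vale.Agent.Lib.P227.Tree
import Vale.Agent.Lib.P227.Q1

/-!
# The inequalities at tree norms, in Euclidean space
-/

open MeasureTheory Set Filter Topology
open scoped ENNReal

namespace Vale.Agent.Lib.P227

variable {n : ℕ} {N : (Fin n → ℝ) → ℝ} {Ns : ℕ → (Fin n → ℝ) → ℝ}
  {νs : ℕ → (Fin n → ℝ) → Fin n → ℝ} {ε : ℝ}

lemma hwc_image (L : Set (EuclideanSpace ℝ (Fin n))) (v : Fin n → ℝ) :
    hwc (WithLp.ofLp '' L) v = halfWidth L (WithLp.toLp 2 v) := by
  unfold hwc halfWidth supportFn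
  have e1 : ∀ w : Fin n → ℝ, linForm w '' (WithLp.ofLp '' L) =
      (fun x => inner ℝ x (WithLp.toLp 2 w : EuclideanSpace ℝ (Fin n))) '' L := by
    intro w
    rw [Set.image_image]
    apply Set.image_congr
    intro x _
    rw [real_inner_comm, inner_toLp]
  have e2 : -(WithLp.toLp 2 v : EuclideanSpace ℝ (Fin n)) = WithLp.toLp 2 (-v) := rfl
  rw [e1, e1, e2]

lemma volume_image_ofLp (L : Set (EuclideanSpace ℝ (Fin n))) :
    volume (WithLp.ofLp '' L) = volume L := by
  rw [← volume_preimage_ofLp (WithLp.ofLp '' L)]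
  congr 1
  ext x
  simp only [mem_ofPred_eq, mem_image]
  constructor
  · rintro ⟨y, hy, e⟩
    have : y = x := by
      apply (WithLp.equiv 2 (Fin n → ℝ)).injective
      exact e
    rwa [this] at hy
  · intro hx
    exact ⟨x, hx, rfl⟩

lemma isCompact_image_ofLp {L : Set (EuclideanSpace ℝ (Fin n))} (hL : IsCompact L) :
    IsCompact (WithLp.ofLp '' L) :=
  hL.image (PiLp.continuous_ofLp 2 _)

lemma mp_ofLp : MeasurePreserving (fun x : EuclideanSpace ℝ (Fin n) => x.ofLp) volume volume :=
  EuclideanSpace.volume_preserving_symm_measurableEquiv_toLp (Fin n)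


lemma me_ofLp : MeasurableEmbedding (fun x : EuclideanSpace ℝ (Fin n) => x.ofLp) :=
  (MeasurableEquiv.toLp 2 (Fin n → ℝ)).symm.measurableEmbedding

lemma inner_eq_linForm (z w : EuclideanSpace ℝ (Fin n)) : inner ℝ z w = linForm w.ofLp z.ofLp := by
  rw [real_inner_comm]
  exact inner_toLp w.ofLp z

namespace LimData

/-- The logarithmic Minkowski inequality at a limit norm, in Euclidean space. -/
theorem logMinkowskiIntegral (hn : 0 < n) (h : LimData (Fin n) n Ns νs N ε) :
    LogMinkowskiIntegral (unitBall N) (gradVec N) := by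
  have : Nonempty (Fin n) := Fin.pos_iff_nonempty.1 hn
  intro L hL hpos
  obtain ⟨h1, h2⟩ := h.log_minkowski (isCompact_image_ofLp hL)
    (by rwa [volume_image_ofLp])
  have hF : ∀ x : EuclideanSpace ℝ (Fin n), Real.log (halfWidth L (gradVec N x)) =
      (fun y : Fin n → ℝ => Real.log (hwc (WithLp.ofLp '' L) (gradc N y))) x.ofLp := by
    intro x
    simp only
    rw [hwc_image]
    rfl
  have hB : unitBall N = (fun x : EuclideanSpace ℝ (Fin n) => x.ofLp) ⁻¹' {x | N x ≤ 1} := rfl
  have hV : volume (unitBall N) = volume {x | N x ≤ 1} := by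
    unfold unitBall
    exact volume_preimage_ofLp {x | N x ≤ 1}
  have hI : ∫ x in unitBall N, Real.log (halfWidth L (gradVec N x)) =
      ∫ y in {x | N x ≤ 1}, Real.log (hwc (WithLp.ofLp '' L) (gradc N y)) := by
    simp_rw [hF]
    rw [hB]
    exact mp_ofLp.setIntegral_preimage_emb me_ofLp
      (fun y : Fin n → ℝ => Real.log (hwc (WithLp.ofLp '' L) (gradc N y))) _
  rw [volume_image_ofLp] at h2
  refine ⟨?_, ?_⟩
  · simp_rw [hF]
    rw [hB]
    exact (mp_ofLp.integrableOn_comp_preimage me_ofLp).2 h1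
  · rw [hV, hI]
    exact h2

lemma isCompact_ball (h : LimData (Fin n) n Ns νs N ε) : IsCompact {x | N x ≤ 1} :=
  Metric.isCompact_of_isClosed_isBounded (isClosed_le h.continuous continuous_const)
    (Metric.isBounded_closedBall.subset h.ball_subset)

/-- The unit ball is an origin-symmetric convex body. -/
theorem isSymBody (h : LimData (Fin n) n Ns νs N ε) : IsSymBody (unitBall N) := by
  refine ⟨?_, ?_, ?_, ?_⟩
  · have : unitBall N = WithLp.toLp 2 '' {x | N x ≤ 1} := by
      ext x
      simp only [unitBall, mem_ofPred_eq, mem_image]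
      constructor
      · intro hx
        exact ⟨x.ofLp, hx, rfl⟩
      · rintro ⟨y, hy, rfl⟩
        exact hy
    rw [this]
    exact h.isCompact_ball.image (PiLp.continuous_toLp 2 _)
  · intro x hx y hy a b ha hb hab
    have hx' : N x.ofLp ≤ 1 := hx
    have hy' : N y.ofLp ≤ 1 := hy
    change N (a • x.ofLp + b • y.ofLp) ≤ 1
    have h1 := h.add_le (a • x.ofLp) (b • y.ofLp)
    rw [h.smul_eq, h.smul_eq, abs_of_nonneg ha, abs_of_nonneg hb] at h1
    have h2 := mul_le_mul_of_nonneg_left hx' ha
    have h3 := mul_le_mul_of_nonneg_left hy' hb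
    linarith
  · refine ⟨0, ?_⟩
    have hop : IsOpen {x : EuclideanSpace ℝ (Fin n) | N x.ofLp < 1} :=
      isOpen_lt (h.continuous.comp (PiLp.continuous_ofLp 2 _)) continuous_const
    have hsub : {x : EuclideanSpace ℝ (Fin n) | N x.ofLp < 1} ⊆ unitBall N :=
      fun x hx => le_of_lt (show N x.ofLp < 1 from hx)
    refine interior_maximal hsub hop ?_
    change N 0 < 1
    rw [h.zero_eq]
    norm_num
  · intro x hx
    have hx' : N x.ofLp ≤ 1 := hx
    change N (- x.ofLp) ≤ 1
    rwa [h.neg_eq]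

lemma ae_diff_E (hn : 0 < n) (h : LimData (Fin n) n Ns νs N ε) :
    ∀ᵐ x : EuclideanSpace ℝ (Fin n), DifferentiableAt ℝ N x.ofLp := by
  have : Nonempty (Fin n) := Fin.pos_iff_nonempty.1 hn
  exact mp_ofLp.quasiMeasurePreserving.ae h.ae_diff

end LimData

/-- A functional dominated by a multiple of a norm and touching it at a point of differentiability
is that multiple of the gradient. -/
lemma grad_of_support {x v : Fin n → ℝ} {κ : ℝ} (hd : DifferentiableAt ℝ N x)
    (hle : ∀ y, linForm v y ≤ κ * N y) (heq : linForm v x = κ * N x) (i : Fin n) :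
    v i = κ * gradc N x i := by
  set e : Fin n → ℝ := Pi.single i 1 with he
  have hline : HasDerivAt (fun t : ℝ => x + t • e) e 0 := by
    have := ((hasDerivAt_id (0 : ℝ)).smul_const e).const_add x
    simpa using this
  have hder : HasDerivAt (fun t : ℝ => N (x + t • e)) (gradc N x i) 0 := by
    have h1 : HasFDerivAt N (fderiv ℝ N x) (x + (0 : ℝ) • e) := by
      simpa using hd.hasFDerivAt
    exact h1.comp_hasDerivAt (0 : ℝ) hline
  have hφ : HasDerivAt (fun t : ℝ => κ * N (x + t • e) - (linForm v x + t * v i))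
      (κ * gradc N x i - v i) 0 := by
    have h2 : HasDerivAt (fun t : ℝ => linForm v x + t * v i) (v i) 0 := by
      have := ((hasDerivAt_id (0 : ℝ)).mul_const (v i)).const_add (linForm v x)
      simpa using this
    exact (hder.const_mul κ).sub h2
  have hmin : IsLocalMin (fun t : ℝ => κ * N (x + t • e) - (linForm v x + t * v i)) 0 := by
    refine Eventually.of_forall fun t => ?_
    have h3 := hle (x + t • e)
    rw [linForm_add', linForm_smul', he, linForm_single] at h3
    simp only [zero_smul, add_zero, zero_mul, heq]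
    linarith
  have := hmin.hasDerivAt_eq_zero hφ
  linarith

lemma IsSymBody.supportFn_neg {K : Set (EuclideanSpace ℝ (Fin n))} (hK : IsSymBody K)
    (w : EuclideanSpace ℝ (Fin n)) : supportFn K (-w) = supportFn K w := by
  unfold supportFn
  congr 1
  ext r
  simp only [mem_image]
  constructor
  · rintro ⟨x, hx, rfl⟩
    exact ⟨-x, hK.symm x hx, by simp⟩
  · rintro ⟨x, hx, rfl⟩
    exact ⟨-x, hK.symm x hx, by simp⟩

lemma geoMean_pos {K L : Set (EuclideanSpace ℝ (Fin n))} (hK : IsSymBody K) (hL : IsSymBody L)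
    (lam : ℝ) {u : EuclideanSpace ℝ (Fin n)} (hu : u ≠ 0) : 0 < geoMean lam K L u := by
  unfold geoMean
  exact mul_pos (Real.rpow_pos_of_pos (hK.supportFn_pos hu) _)
    (Real.rpow_pos_of_pos (hL.supportFn_pos hu) _)

namespace LimData

/-- The contact argument at a point of differentiability. -/
theorem contact (h : LimData (Fin n) n Ns νs N ε) {K L : Set (EuclideanSpace ℝ (Fin n))}
    (hK : IsSymBody K) (hL : IsSymBody L) {lam : ℝ} (h0 : 0 ≤ lam) (h1 : lam ≤ 1)
    (A : EuclideanSpace ℝ (Fin n) ≃ₗ[ℝ] EuclideanSpace ℝ (Fin n))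
    (hQ : logCombo lam K L = A '' unitBall N) {x : EuclideanSpace ℝ (Fin n)} (hx : x ≠ 0)
    (hd : DifferentiableAt ℝ N x.ofLp) :
    LinearMap.adjoint A.symm.toLinearMap (gradVec N x) ≠ 0 ∧
      geoMean lam K L (LinearMap.adjoint A.symm.toLinearMap (gradVec N x)) = 1 := by
  have hQ' : wulff (geoMean lam K L) = A '' unitBall N := hQ
  set r := N x.ofLp with hr
  have hrpos : 0 < r := by
    refine lt_of_le_of_ne (h.nonneg _) fun e => hx ?_
    have := h.definite e.symm
    exact (WithLp.equiv 2 (Fin n → ℝ)).injective this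
  set xh : EuclideanSpace ℝ (Fin n) := r⁻¹ • x with hxh
  have hNxh : N xh.ofLp = 1 := by
    have e : xh.ofLp = r⁻¹ • x.ofLp := rfl
    rw [e, h.smul_eq, abs_of_pos (by positivity), inv_mul_cancel₀ hrpos.ne']
  have hy : A xh ∈ wulff (geoMean lam K L) := by
    rw [hQ']
    exact ⟨xh, hNxh.le, rfl⟩
  have hout : ∀ t : ℝ, 0 < t → (1 + t) • A xh ∉ wulff (geoMean lam K L) := by
    intro t ht hm
    rw [hQ'] at hm
    obtain ⟨z, hz, e⟩ := hm
    have hz' : N z.ofLp ≤ 1 := hz
    have e2 : z = (1 + t) • xh := by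
      apply A.injective
      rw [e]
      exact (map_smul A (1 + t) xh).symm
    have e3 : z.ofLp = (1 + t) • xh.ofLp := by rw [e2]; rfl
    rw [e3, h.smul_eq, hNxh, abs_of_pos (by linarith)] at hz'
    linarith
  obtain ⟨u, hu, hux⟩ := wulff_contact (continuous_geoMean hK hL h0 h1) hy hout
  have hu0 : u ≠ 0 := by
    rintro rfl
    simp at hu
  set κ := geoMean lam K L u with hκ
  have hκpos : 0 < κ := geoMean_pos hK hL lam hu0
  set adjA := LinearMap.adjoint A.toLinearMap with hadjA
  have hadjA' : ∀ z w : EuclideanSpace ℝ (Fin n), inner ℝ z (adjA w) = inner ℝ (A z) w := by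
    intro z w
    rw [hadjA, LinearMap.adjoint_inner_right]
    rfl
  set adj := LinearMap.adjoint A.symm.toLinearMap with hadj
  have hadj' : ∀ z w : EuclideanSpace ℝ (Fin n), inner ℝ z (adj w) = inner ℝ (A.symm z) w := by
    intro z w
    rw [hadj, LinearMap.adjoint_inner_right]
    rfl
  have hinv : ∀ w, adj (adjA w) = w := by
    intro w
    apply ext_inner_left ℝ
    intro z
    rw [hadj', hadjA']
    simp
  set u' := adjA u with hu'
  have hle1 : ∀ z, N z.ofLp ≤ 1 → inner ℝ z u' ≤ κ := by
    intro z hz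
    rw [hu', hadjA']
    have hm : A z ∈ wulff (geoMean lam K L) := by
      rw [hQ']
      exact ⟨z, hz, rfl⟩
    exact hm u hu
  have hle : ∀ y, linForm u'.ofLp y ≤ κ * N y := by
    intro y
    by_cases hy0 : N y = 0
    · have := h.definite hy0
      rw [this, linForm_zero', h.zero_eq, mul_zero]
    · have hyp : 0 < N y := lt_of_le_of_ne (h.nonneg _) (Ne.symm hy0)
      have h2 := hle1 ((N y)⁻¹ • (WithLp.toLp 2 y : EuclideanSpace ℝ (Fin n))) (by
        have e : ((N y)⁻¹ • (WithLp.toLp 2 y : EuclideanSpace ℝ (Fin n))).ofLp = (N y)⁻¹ • y := rfl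
        rw [e, h.smul_eq, abs_of_pos (by positivity), inv_mul_cancel₀ hyp.ne'])
      rw [inner_eq_linForm] at h2
      have e : ((N y)⁻¹ • (WithLp.toLp 2 y : EuclideanSpace ℝ (Fin n))).ofLp = (N y)⁻¹ • y := rfl
      rw [e, linForm_smul', inv_mul_le_iff₀ hyp] at h2
      linarith
  have heq : linForm u'.ofLp x.ofLp = κ * N x.ofLp := by
    have e1 : x.ofLp = r • xh.ofLp := by
      have : x = r • xh := by
        rw [hxh, smul_smul, mul_inv_cancel₀ hrpos.ne', one_smul]
      conv_lhs => rw [this]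
      rfl
    have e2 : linForm u'.ofLp xh.ofLp = κ := by
      rw [← inner_eq_linForm, hu', hadjA']
      exact hux
    rw [e1, linForm_smul', e2, ← e1, mul_comm]
  have hgrad : u' = κ • gradVec N x := by
    apply (WithLp.equiv 2 (Fin n → ℝ)).injective
    funext i
    exact grad_of_support hd hle heq i
  have hw : u = κ • adj (gradVec N x) := by
    rw [← map_smul, ← hgrad, hu', hinv]
  have hw0 : adj (gradVec N x) ≠ 0 := by
    intro hz
    rw [hz, smul_zero] at hw
    exact hu0 hw
  have h3 := geoMean_smul (lam := lam) hK hL hκpos.le hw0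
  rw [← hw, ← hκ] at h3
  have h4 : κ * geoMean lam K L (adj (gradVec N x)) = κ * 1 := by
    rw [← h3, mul_one]
  exact ⟨hw0, mul_left_cancel₀ hκpos.ne' h4⟩

/-- The logarithmic Brunn-Minkowski inequality when the combination is a linear image of the ball
of a limit norm. -/
theorem q1 (hn : 0 < n) (h : LimData (Fin n) n Ns νs N ε) :
    LogBMWhenCombinationIsImageOf (unitBall N) := by
  have : Nonempty (Fin n) := Fin.pos_iff_nonempty.1 hn
  intro K L hK hL lam h0 h1 A hQ
  have hLM := h.logMinkowskiIntegral hn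
  set adj := LinearMap.adjoint A.symm.toLinearMap with hadj
  have hadj' : ∀ z w : EuclideanSpace ℝ (Fin n), inner ℝ z (adj w) = inner ℝ (A.symm z) w := by
    intro z w
    rw [hadj, LinearMap.adjoint_inner_right]
    rfl
  have hsymc : Continuous A.symm := A.symm.toLinearMap.continuous_of_finiteDimensional
  -- the pulled back bodies
  have hsupp : ∀ (M : Set (EuclideanSpace ℝ (Fin n))) (v : EuclideanSpace ℝ (Fin n)),
      supportFn (A.symm '' M) v = supportFn M (adj v) := by
    intro M v
    unfold supportFn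
    rw [Set.image_image]
    congr 1
    apply Set.image_congr
    intro y _
    rw [hadj']
  have hhw : ∀ (M : Set (EuclideanSpace ℝ (Fin n))), IsSymBody M → ∀ v,
      halfWidth (A.symm '' M) v = supportFn M (adj v) := by
    intro M hM v
    unfold halfWidth
    rw [hsupp, hsupp, map_neg, IsSymBody.supportFn_neg hM]
    ring
  -- volumes
  set D := |LinearMap.det A.toLinearMap| with hD
  have hDpos : 0 < D := abs_pos.2 (LinearEquiv.isUnit_det' A).ne_zero
  have hvol : ∀ S : Set (EuclideanSpace ℝ (Fin n)),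
      volume (A '' S) = ENNReal.ofReal D * volume S := fun S =>
    Measure.addHaar_image_linearMap volume A.toLinearMap S
  have hAA : ∀ M : Set (EuclideanSpace ℝ (Fin n)), A '' (A.symm '' M) = M := by
    intro M
    rw [Set.image_image]
    simp
  have hvolM : ∀ M : Set (EuclideanSpace ℝ (Fin n)), IsSymBody M →
      0 < volume M ∧ volume M < ⊤ ∧ 0 < volume (A.symm '' M) ∧ volume (A.symm '' M) < ⊤ ∧
        (volume M).toReal = D * (volume (A.symm '' M)).toReal := by
    intro M hM
    have hp : 0 < volume M := by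
      obtain ⟨y, hy⟩ := hM.interior_nonempty
      exact lt_of_lt_of_le (isOpen_interior.measure_pos volume ⟨y, hy⟩)
        (measure_mono interior_subset)
    have he := hvol (A.symm '' M)
    rw [hAA] at he
    have hf : volume (A.symm '' M) < ⊤ := (hM.isCompact.image hsymc).measure_lt_top
    refine ⟨hp, hM.isCompact.measure_lt_top, ?_, hf, ?_⟩
    · by_contra hcon
      have h0' : volume (A.symm '' M) = 0 := le_antisymm (not_lt.1 hcon) zero_le
      rw [h0', mul_zero] at he
      rw [he] at hp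
      exact lt_irrefl _ hp
    · rw [he, ENNReal.toReal_mul, ENNReal.toReal_ofReal hDpos.le]
  obtain ⟨hK1, hK2, hK3, hK4, hK5⟩ := hvolM K hK
  obtain ⟨hL1, hL2, hL3, hL4, hL5⟩ := hvolM L hL
  have hB := h.isSymBody
  obtain ⟨hB1, hB2, -, -, -⟩ := hvolM _ hB
  set V := (volume (unitBall N)).toReal with hV
  have hVpos : 0 < V := ENNReal.toReal_pos hB1.ne' hB2.ne
  obtain ⟨i₁, m₁⟩ := hLM _ (hK.isCompact.image hsymc) hK3
  obtain ⟨i₂, m₂⟩ := hLM _ (hL.isCompact.image hsymc) hL3
  set g := gradVec N with hg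
  set F₁ : EuclideanSpace ℝ (Fin n) → ℝ := fun x => Real.log (halfWidth (A.symm '' K) (g x)) with hF₁
  set F₂ : EuclideanSpace ℝ (Fin n) → ℝ := fun x => Real.log (halfWidth (A.symm '' L) (g x)) with hF₂
  -- the integrand vanishes almost everywhere
  have hne : ∀ᵐ x : EuclideanSpace ℝ (Fin n), x.ofLp ≠ 0 := by
    have h00 : ∀ᵐ y : Fin n → ℝ, y ≠ 0 := by
      simp [ae_iff, measure_singleton]
    exact mp_ofLp.quasiMeasurePreserving.ae h00
  have hzero : ∀ᵐ x : EuclideanSpace ℝ (Fin n), (1 - lam) * F₁ x + lam * F₂ x = 0 := by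
    filter_upwards [hne, h.ae_diff_E hn] with x hx hd
    have hx' : x ≠ 0 := by
      rintro rfl
      exact hx rfl
    obtain ⟨hw0, hgm⟩ := h.contact hK hL h0 h1 A hQ hx' hd
    have e₁ : F₁ x = Real.log (supportFn K (adj (g x))) := by
      rw [hF₁]
      simp only
      rw [hhw K hK]
    have e₂ : F₂ x = Real.log (supportFn L (adj (g x))) := by
      rw [hF₂]
      simp only
      rw [hhw L hL]
    have hKp := hK.supportFn_pos hw0
    have hLp := hL.supportFn_pos hw0
    have h5 : Real.log (geoMean lam K L (adj (g x))) = 0 := by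
      rw [hgm, Real.log_one]
    unfold geoMean at h5
    rw [Real.log_mul (Real.rpow_pos_of_pos hKp _).ne' (Real.rpow_pos_of_pos hLp _).ne',
      Real.log_rpow hKp, Real.log_rpow hLp] at h5
    rw [e₁, e₂]
    exact h5
  have hint : (1 - lam) * (∫ x in unitBall N, F₁ x) + lam * (∫ x in unitBall N, F₂ x) = 0 := by
    rw [← integral_const_mul, ← integral_const_mul, ← integral_add (i₁.const_mul _) (i₂.const_mul _)]
    rw [integral_congr_ae (g := fun _ => (0 : ℝ)) (ae_restrict_of_ae hzero)]
    simp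
  have hlam' : 0 ≤ 1 - lam := by linarith
  have hmain : (1 - lam) * Real.log (volume (A.symm '' K)).toReal +
      lam * Real.log (volume (A.symm '' L)).toReal ≤ Real.log V := by
    have a1 := mul_le_mul_of_nonneg_left m₁ hlam'
    have a2 := mul_le_mul_of_nonneg_left m₂ h0
    have a3 : (1 - lam) * (Real.log V + (n : ℝ) / V * (∫ x in unitBall N, F₁ x)) +
        lam * (Real.log V + (n : ℝ) / V * (∫ x in unitBall N, F₂ x)) =
        Real.log V + (n : ℝ) / V * ((1 - lam) * (∫ x in unitBall N, F₁ x) +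
          lam * (∫ x in unitBall N, F₂ x)) := by
      ring
    rw [hint, mul_zero, add_zero] at a3
    linarith
  set vK := (volume K).toReal with hvK
  set vL := (volume L).toReal with hvL
  have hvKpos : 0 < vK := ENNReal.toReal_pos hK1.ne' hK2.ne
  have hvLpos : 0 < vL := ENNReal.toReal_pos hL1.ne' hL2.ne
  have hK'pos : 0 < (volume (A.symm '' K)).toReal := ENNReal.toReal_pos hK3.ne' hK4.ne
  have hL'pos : 0 < (volume (A.symm '' L)).toReal := ENNReal.toReal_pos hL3.ne' hL4.ne
  have hMv : volume (logCombo lam K L) = ENNReal.ofReal (D * V) := by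
    rw [hQ, hvol, ENNReal.ofReal_mul hDpos.le, hV, ENNReal.ofReal_toReal hB2.ne]
  have hreal : vK ^ (1 - lam) * vL ^ lam ≤ D * V := by
    have hp1 : 0 < vK ^ (1 - lam) * vL ^ lam :=
      mul_pos (Real.rpow_pos_of_pos hvKpos _) (Real.rpow_pos_of_pos hvLpos _)
    rw [← Real.log_le_log_iff hp1 (mul_pos hDpos hVpos), Real.log_mul (Real.rpow_pos_of_pos hvKpos _).ne'
      (Real.rpow_pos_of_pos hvLpos _).ne', Real.log_rpow hvKpos, Real.log_rpow hvLpos,
      Real.log_mul hDpos.ne' hVpos.ne', hK5, hL5, Real.log_mul hDpos.ne' hK'pos.ne',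
      Real.log_mul hDpos.ne' hL'pos.ne']
    nlinarith
  rw [hMv, ← ENNReal.ofReal_toReal hK2.ne, ← ENNReal.ofReal_toReal hL2.ne,
    ENNReal.ofReal_rpow_of_pos hvKpos, ENNReal.ofReal_rpow_of_pos hvLpos,
    ← ENNReal.ofReal_mul (Real.rpow_pos_of_pos hvKpos _).le]
  exact ENNReal.ofReal_le_ofReal hreal

end LimData

end Vale.Agent.Lib.P227
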