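import Mathlib
import Vale.Agent.Lib.P227.TreeE

/-!
# Main consequences for tree norms; the `ℓ_q` norms are tree norms
-/

open MeasureTheory Set Filter Topology
open scoped ENNReal

namespace Vale.Agent.Lib.P227

/-- All the consequences for a tree norm. -/
theorem TreeNorm.main {n : ℕ} {N : (Fin n → ℝ) → ℝ} (h : TreeNorm n N) :
    0 < n ∧ IsSymBody (unitBall N) ∧
      (∀ᵐ x : EuclideanSpace ℝ (Fin n), DifferentiableAt ℝ N x.ofLp) ∧
      LogMinkowskiIntegral (unitBall N) (gradVec N) ∧
      LogBMWhenCombinationIsImageOf (unitBall N) := by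
  have hn : 0 < n := by
    induction h with
    | seg => exact one_pos
    | node _ _ _ _ ih₁ _ => omega
  obtain ⟨Ns, νs, ε, hd⟩ := h.isLim.exists_data
  exact ⟨hn, hd.isSymBody, hd.ae_diff_E hn, hd.logMinkowskiIntegral hn, hd.q1 hn⟩

/-- The planar `ℓ_q` norm. -/
noncomputable def lqPlanar (q s t : ℝ) : ℝ := (|s| ^ q + |t| ^ q) ^ (1 / q)

theorem isPlanarNorm_lq {q : ℝ} (hq : 1 ≤ q) : IsPlanarNorm (lqPlanar q) := by
  have hq0 : 0 < q := by linarith
  refine ⟨fun s t => ?_, fun r s t hr => ?_, fun s t s' t' => ?_, fun s t hst => ?_⟩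
  · simp [lqPlanar]
  · unfold lqPlanar
    rw [abs_mul, abs_mul, abs_of_nonneg hr, Real.mul_rpow hr (abs_nonneg _),
      Real.mul_rpow hr (abs_nonneg _), ← mul_add,
      Real.mul_rpow (Real.rpow_nonneg hr _) (by positivity), one_div,
      Real.rpow_rpow_inv hr hq0.ne']
  · have := Real.Lp_add_le (Finset.univ : Finset (Fin 2)) ![s, t] ![s', t'] hq
    simpa [Fin.sum_univ_two, lqPlanar] using this
  · unfold lqPlanar
    apply Real.rpow_pos_of_pos
    rcases hst with h | h
    · have := Real.rpow_pos_of_pos (abs_pos.2 h) q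
      have := Real.rpow_nonneg (abs_nonneg t) q
      linarith
    · have := Real.rpow_pos_of_pos (abs_pos.2 h) q
      have := Real.rpow_nonneg (abs_nonneg s) q
      linarith

theorem treeNorm_lq {q : ℝ} (hq : 1 ≤ q) {n : ℕ} (hn : 0 < n) : TreeNorm n (lqNorm q n) := by
  have hq0 : 0 < q := by linarith
  induction n, hn using Nat.le_induction with
  | base =>
    have e : lqNorm q 1 = fun x => |x 0| := by
      funext x
      unfold lqNorm
      simp only [Fin.sum_univ_one]
      rw [one_div, Real.rpow_rpow_inv (abs_nonneg _) hq0.ne']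
    rw [e]
    exact TreeNorm.seg
  | succ n hn ih =>
    have := TreeNorm.node (isPlanarNorm_lq hq) ih TreeNorm.seg (Equiv.refl _)
    have e : lqNorm q (n + 1) = fun x : Fin (n + 1) → ℝ =>
        lqPlanar q (lqNorm q n fun i => x ((Equiv.refl _) (Fin.castAdd 1 i)))
          (|(fun j => x ((Equiv.refl _) (Fin.natAdd n j))) 0|) := by
      funext x
      unfold lqPlanar lqNorm
      simp only [Equiv.refl_apply, Fin.sum_univ_castSucc]
      have hs : 0 ≤ ∑ i : Fin n, |x (Fin.castAdd 1 i)| ^ q :=
        Finset.sum_nonneg fun i _ => Real.rpow_nonneg (abs_nonneg _) _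
      rw [abs_of_nonneg (Real.rpow_nonneg hs _), one_div, Real.rpow_inv_rpow hs hq0.ne', abs_abs]
      rfl
    rw [e]
    exact this

theorem isPlanarNorm_max : IsPlanarNorm fun s t => max |s| |t| := by
  refine ⟨fun s t => by simp, fun r s t hr => ?_, fun s t s' t' => ?_, fun s t hst => ?_⟩
  · simp only [abs_mul, abs_of_nonneg hr]
    rw [mul_max_of_nonneg _ _ hr]
  · refine max_le ?_ ?_
    · exact (abs_add_le _ _).trans (add_le_add (le_max_left _ _) (le_max_left _ _))
    · exact (abs_add_le _ _).trans (add_le_add (le_max_right _ _) (le_max_right _ _))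
  · rcases hst with h | h
    · exact lt_of_lt_of_le (abs_pos.2 h) (le_max_left _ _)
    · exact lt_of_lt_of_le (abs_pos.2 h) (le_max_right _ _)

theorem isPlanarNorm_sum : IsPlanarNorm fun s t => |s| + |t| := by
  refine ⟨fun s t => by simp, fun r s t hr => ?_, fun s t s' t' => ?_, fun s t hst => ?_⟩
  · simp only [abs_mul, abs_of_nonneg hr]
    ring
  · have h1 := abs_add_le s s'
    have h2 := abs_add_le t t'
    linarith
  · rcases hst with h | h
    · have := abs_pos.2 h
      have := abs_nonneg t
      linarith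
    · have := abs_pos.2 h
      have := abs_nonneg s
      linarith

end Vale.Agent.Lib.P227
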