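import Mathlib
import Vale.Agent.Lib.P227.DefsLocal
import Vale.Agent.Lib.P227.TreeLq

/-!
# The second order expansion at tree norms
-/

open MeasureTheory Set Filter Topology
open scoped ENNReal Pointwise

namespace Vale.Agent.Lib.P227

variable {n : ℕ} {N : (Fin n → ℝ) → ℝ} {Ns : ℕ → (Fin n → ℝ) → ℝ}
  {νs : ℕ → (Fin n → ℝ) → Fin n → ℝ} {ε : ℝ}

lemma log_one_add_le {s : ℝ} (hs : 0 ≤ s) : Real.log (1 + s) ≤ s - s ^ 2 / 2 + s ^ 3 / 3 := by
  have hd : ∀ y ∈ interior (Ici (0 : ℝ)), HasDerivAt
      (fun y : ℝ => y - y ^ 2 / 2 + y ^ 3 / 3 - Real.log (1 + y))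
      (1 - y + y ^ 2 - 1 / (1 + y)) y := by
    intro y hy
    have hy' : 0 < y := by simpa using hy
    have h1 : HasDerivAt (fun y : ℝ => y - y ^ 2 / 2 + y ^ 3 / 3) (1 - y + y ^ 2) y := by
      have := ((hasDerivAt_id' y).fun_sub ((hasDerivAt_pow 2 y).div_const 2)).fun_add
        ((hasDerivAt_pow 3 y).div_const 3)
      refine this.congr_deriv ?_
      norm_num
    have h2 : HasDerivAt (fun y : ℝ => Real.log (1 + y)) (1 / (1 + y)) y := by
      have := ((hasDerivAt_id y).const_add 1).log (by simp only [id]; positivity)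
      simpa using this
    exact h1.sub h2
  have hm : MonotoneOn (fun y : ℝ => y - y ^ 2 / 2 + y ^ 3 / 3 - Real.log (1 + y)) (Ici 0) := by
    apply monotoneOn_of_deriv_nonneg (convex_Ici 0)
    · apply ContinuousOn.sub (by fun_prop)
      apply ContinuousOn.log (by fun_prop)
      intro y hy
      have hy' : (0 : ℝ) ≤ y := hy
      positivity
    · exact fun y hy => (hd y hy).differentiableAt.differentiableWithinAt
    · intro y hy
      rw [(hd y hy).deriv]
      have hy' : 0 < y := by simpa using hy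
      have e : 1 - y + y ^ 2 - 1 / (1 + y) = y ^ 3 / (1 + y) := by
        field_simp
        ring
      rw [e]
      positivity
  have h0 := hm (mem_Ici.2 le_rfl) (mem_Ici.2 hs) hs
  simp at h0
  linarith

namespace LimData

lemma grad_tendsto (h : LimData (Fin n) n Ns νs N ε) {x : Fin n → ℝ}
    (hd : DifferentiableAt ℝ N x) (y : Fin n → ℝ) :
    Tendsto (fun M => linForm (νs M x) y) atTop (𝓝 (linForm (gradc N x) y)) := by
  unfold linForm
  exact tendsto_finsetSum _ fun i _ => (h.nu_tendsto hd i).mul_const _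

lemma grad_le (h : LimData (Fin n) n Ns νs N ε) {x : Fin n → ℝ} (hd : DifferentiableAt ℝ N x)
    (y : Fin n → ℝ) : linForm (gradc N x) y ≤ N y :=
  le_of_tendsto_of_tendsto' (h.grad_tendsto hd y) (h.conv y) fun M => (h.poly M).le x y

lemma grad_active (h : LimData (Fin n) n Ns νs N ε) {x : Fin n → ℝ} (hd : DifferentiableAt ℝ N x) :
    linForm (gradc N x) x = N x := by
  refine tendsto_nhds_unique (h.grad_tendsto hd x) ?_
  exact (h.conv x).congr fun M => ((h.poly M).active x).symm

lemma abs_grad_le (h : LimData (Fin n) n Ns νs N ε) (x : Fin n → ℝ) (i : Fin n) :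
    |gradc N x i| ≤ N (Pi.single i 1) := by
  by_cases hd : DifferentiableAt ℝ N x
  · rw [abs_le]
    constructor
    · have h1 := h.grad_le hd (- Pi.single i 1)
      rw [linForm_neg', linForm_single, h.neg_eq] at h1
      linarith
    · have h1 := h.grad_le hd (Pi.single i 1)
      rwa [linForm_single] at h1
  · have e : gradc N x i = 0 := by
      unfold gradc
      rw [fderiv_zero_of_not_differentiableAt hd]
      simp
    rw [e, abs_zero]
    exact h.nonneg _

/-- At a point of differentiability the half width of the ball in the gradient direction is one. -/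
lemma halfWidth_ball (h : LimData (Fin n) n Ns νs N ε) {x : EuclideanSpace ℝ (Fin n)}
    (hx : x.ofLp ≠ 0) (hd : DifferentiableAt ℝ N x.ofLp) :
    halfWidth (unitBall N) (gradVec N x) = 1 := by
  have hS := h.isSymBody
  have hrp : 0 < N x.ofLp := by
    refine lt_of_le_of_ne (h.nonneg _) fun e => hx ?_
    exact h.definite e.symm
  have hin : ∀ y : EuclideanSpace ℝ (Fin n), inner ℝ y (gradVec N x) = linForm (gradc N x.ofLp) y.ofLp := by
    intro y
    exact inner_eq_linForm y (gradVec N x)
  have hsup : supportFn (unitBall N) (gradVec N x) = 1 := by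
    unfold supportFn
    apply le_antisymm
    · apply csSup_le (hS.nonempty.image _)
      rintro _ ⟨y, hy, rfl⟩
      simp only
      rw [hin]
      exact (h.grad_le hd _).trans hy
    · have hm : (N x.ofLp)⁻¹ • x ∈ unitBall N := by
        change N ((N x.ofLp)⁻¹ • x.ofLp) ≤ 1
        rw [h.smul_eq, abs_of_pos (by positivity), inv_mul_cancel₀ hrp.ne']
      refine le_csSup (hS.bddAbove_image _) ⟨_, hm, ?_⟩
      simp only
      rw [hin]
      have e : ((N x.ofLp)⁻¹ • x).ofLp = (N x.ofLp)⁻¹ • x.ofLp := rfl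
      rw [e, linForm_smul', h.grad_active hd, inv_mul_cancel₀ hrp.ne']
  unfold halfWidth
  rw [IsSymBody.supportFn_neg hS, hsup]
  norm_num

end LimData

section Sums

variable {M A : Set (EuclideanSpace ℝ (Fin n))}

lemma supportFn_add (hA : IsCompact A) (hA' : A.Nonempty) (hM : IsCompact M) (hM' : M.Nonempty)
    {t : ℝ} (ht : 0 ≤ t) (v : EuclideanSpace ℝ (Fin n)) :
    supportFn (A + t • M) v = supportFn A v + t * supportFn M v := by
  unfold supportFn
  have e1 : (fun x => inner ℝ x v) '' (A + t • M) =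
      ((fun x => inner ℝ x v) '' A) + t • ((fun x => inner ℝ x v) '' M) := by
    ext r
    constructor
    · rintro ⟨z, hz, rfl⟩
      obtain ⟨a, ha, b, hb, rfl⟩ := Set.mem_add.1 hz
      obtain ⟨m, hm, rfl⟩ := Set.mem_smul_set.1 hb
      refine Set.mem_add.2 ⟨inner ℝ a v, mem_image_of_mem _ ha, t • inner ℝ m v,
        Set.smul_mem_smul_set (mem_image_of_mem _ hm), ?_⟩
      simp only
      rw [inner_add_left, real_inner_smul_left, smul_eq_mul]
    · intro hr
      obtain ⟨p, ⟨a, ha, rfl⟩, q, hq, rfl⟩ := Set.mem_add.1 hr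
      obtain ⟨q', ⟨m, hm, rfl⟩, rfl⟩ := Set.mem_smul_set.1 hq
      refine ⟨a + t • m, Set.add_mem_add ha (Set.smul_mem_smul_set hm), ?_⟩
      simp only
      rw [inner_add_left, real_inner_smul_left, smul_eq_mul]
  have hb : ∀ S : Set (EuclideanSpace ℝ (Fin n)), IsCompact S →
      BddAbove ((fun x => inner ℝ x v) '' S) := fun S hS =>
    (hS.image (continuous_id.inner continuous_const)).bddAbove
  rw [e1, csSup_add (hA'.image _) (hb A hA) ((hM'.image _).smul_set) ?_, Real.sSup_smul_of_nonneg ht,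
    smul_eq_mul]
  obtain ⟨c, hc⟩ := hb M hM
  refine ⟨t * c, ?_⟩
  rintro _ ⟨r, hr, rfl⟩
  exact mul_le_mul_of_nonneg_left (hc hr) ht

lemma halfWidth_add (hA : IsCompact A) (hA' : A.Nonempty) (hM : IsCompact M) (hM' : M.Nonempty)
    {t : ℝ} (ht : 0 ≤ t) (v : EuclideanSpace ℝ (Fin n)) :
    halfWidth (A + t • M) v = halfWidth A v + t * halfWidth M v := by
  unfold halfWidth
  rw [supportFn_add hA hA' hM hM' ht, supportFn_add hA hA' hM hM' ht]
  ring

lemma continuous_halfWidth (hM : IsCompact M) : Continuous (halfWidth M) := by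
  have h1 : Continuous (supportFn M) :=
    hM.continuous_sSup (f := fun (u x : EuclideanSpace ℝ (Fin n)) => inner ℝ x u)
      (continuous_snd.inner continuous_fst)
  unfold halfWidth
  exact (h1.add (h1.comp continuous_neg)).div_const 2

lemma halfWidth_nonneg (hM : IsCompact M) (hM' : M.Nonempty) (v : EuclideanSpace ℝ (Fin n)) :
    0 ≤ halfWidth M v := by
  obtain ⟨m, hm⟩ := hM'
  have hb : ∀ w : EuclideanSpace ℝ (Fin n), BddAbove ((fun x => inner ℝ x w) '' M) := fun w =>
    (hM.image (continuous_id.inner continuous_const)).bddAbove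
  have h1 : inner ℝ m v ≤ supportFn M v := le_csSup (hb v) (mem_image_of_mem _ hm)
  have h2 : inner ℝ m (-v) ≤ supportFn M (-v) := le_csSup (hb (-v)) (mem_image_of_mem _ hm)
  rw [inner_neg_right] at h2
  unfold halfWidth
  linarith

end Sums

namespace LimData

lemma measurable_gradVec : Measurable (gradVec N) := by
  have hm : Measurable fun x : EuclideanSpace ℝ (Fin n) => x.ofLp :=
    (MeasurableEquiv.toLp 2 (Fin n → ℝ)).symm.measurable
  have h1 : Measurable fun x : EuclideanSpace ℝ (Fin n) => fun i : Fin n =>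
      fderiv ℝ N x.ofLp (Pi.single i 1) :=
    measurable_pi_lambda _ fun i => (measurable_fderiv_apply_const ℝ N _).comp hm
  exact (MeasurableEquiv.toLp 2 (Fin n → ℝ)).measurable.comp h1

/-- The second order expansion. -/
theorem secondOrder (hn : 0 < n) (h : LimData (Fin n) n Ns νs N ε) :
    SecondOrderAt (unitBall N) (gradVec N) := by
  have : Nonempty (Fin n) := Fin.pos_iff_nonempty.1 hn
  intro M hMc hMn
  have hS := h.isSymBody
  have hBc := hS.isCompact
  have hBn := hS.nonempty
  have hBfin : volume (unitBall N) < ⊤ := hBc.measure_lt_top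
  -- the gradient stays in a compact set
  obtain ⟨R, hR⟩ : ∃ R : ℝ, ∀ x, ‖(gradVec N x).ofLp‖ ≤ R := by
    refine ⟨∑ i, N (Pi.single i (1 : ℝ)), fun x => ?_⟩
    have hs : 0 ≤ ∑ i, N (Pi.single i (1 : ℝ)) := Finset.sum_nonneg fun i _ => h.nonneg _
    rw [pi_norm_le_iff_of_nonneg hs]
    intro i
    rw [Real.norm_eq_abs]
    exact (h.abs_grad_le x.ofLp i).trans (Finset.single_le_sum (f := fun i => N (Pi.single i (1 : ℝ)))
      (fun i _ => h.nonneg _) (Finset.mem_univ i))
  have hKc : IsCompact (WithLp.toLp 2 '' Metric.closedBall (0 : Fin n → ℝ) R) :=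
    (isCompact_closedBall _ _).image (PiLp.continuous_toLp 2 _)
  have hWc := continuous_halfWidth hMc
  obtain ⟨C, hC⟩ := hKc.exists_bound_of_continuousOn hWc.continuousOn
  have hWb : ∀ x, ‖halfWidth M (gradVec N x)‖ ≤ C := by
    intro x
    refine hC _ ⟨(gradVec N x).ofLp, ?_, rfl⟩
    simpa using hR x
  have hWm : Measurable fun x => halfWidth M (gradVec N x) :=
    hWc.measurable.comp measurable_gradVec
  have hint : ∀ k : ℕ, IntegrableOn (fun x => halfWidth M (gradVec N x) ^ k) (unitBall N) := by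
    intro k
    refine Measure.integrableOn_of_bounded hBfin.ne (hWm.pow_const k).aestronglyMeasurable
      (M := C ^ k) (Eventually.of_forall fun x => ?_)
    rw [norm_pow]
    exact pow_le_pow_left₀ (norm_nonneg _) (hWb x) k
  refine ⟨hint, fun t ht => ?_⟩
  have hLc : IsCompact (unitBall N + t • M) := hBc.add (hMc.smul t)
  obtain ⟨m₀, hm₀⟩ := hMn
  have hLpos : 0 < volume (unitBall N + t • M) := by
    have h1 : (fun x => x + t • m₀) '' unitBall N ⊆ unitBall N + t • M := by
      rintro _ ⟨x, hx, rfl⟩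
      exact ⟨x, hx, _, ⟨m₀, hm₀, rfl⟩, rfl⟩
    refine lt_of_lt_of_le ?_ (measure_mono h1)
    rw [Set.image_add_right, measure_preimage_add_right]
    obtain ⟨y, hy⟩ := hS.interior_nonempty
    exact lt_of_lt_of_le (isOpen_interior.measure_pos volume ⟨y, hy⟩) (measure_mono interior_subset)
  obtain ⟨i₁, m₁⟩ := h.logMinkowskiIntegral hn _ hLc hLpos
  have hVpos : 0 < (volume (unitBall N)).toReal := by
    refine ENNReal.toReal_pos ?_ hBfin.ne
    obtain ⟨y, hy⟩ := hS.interior_nonempty
    exact (lt_of_lt_of_le (isOpen_interior.measure_pos volume ⟨y, hy⟩)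
      (measure_mono interior_subset)).ne'
  have hne : ∀ᵐ x : EuclideanSpace ℝ (Fin n), x.ofLp ≠ 0 := by
    have h00 : ∀ᵐ y : Fin n → ℝ, y ≠ 0 := by
      simp [ae_iff, measure_singleton]
    exact mp_ofLp.quasiMeasurePreserving.ae h00
  have hpt : ∀ᵐ x ∂(volume.restrict (unitBall N)),
      Real.log (halfWidth (unitBall N + t • M) (gradVec N x)) ≤
        t * halfWidth M (gradVec N x) ^ 1 - t ^ 2 / 2 * halfWidth M (gradVec N x) ^ 2 +
          t ^ 3 / 3 * halfWidth M (gradVec N x) ^ 3 := by
    apply ae_restrict_of_ae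
    filter_upwards [hne, h.ae_diff_E hn] with x hx hd
    rw [halfWidth_add hBc hBn hMc ⟨m₀, hm₀⟩ ht, h.halfWidth_ball hx hd]
    have hw := halfWidth_nonneg hMc ⟨m₀, hm₀⟩ (gradVec N x)
    have := log_one_add_le (mul_nonneg ht hw)
    calc _ ≤ _ := this
      _ = _ := by ring
  have hI : ∫ x in unitBall N, Real.log (halfWidth (unitBall N + t • M) (gradVec N x)) ≤
      t * (∫ x in unitBall N, halfWidth M (gradVec N x) ^ 1) -
        t ^ 2 / 2 * (∫ x in unitBall N, halfWidth M (gradVec N x) ^ 2) +
          t ^ 3 / 3 * (∫ x in unitBall N, halfWidth M (gradVec N x) ^ 3) := by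
    have i1 := (hint 1).const_mul t
    have i2 := (hint 2).const_mul (t ^ 2 / 2)
    have i3 := (hint 3).const_mul (t ^ 3 / 3)
    have i12 : Integrable (fun x => t * halfWidth M (gradVec N x) ^ 1 -
        t ^ 2 / 2 * halfWidth M (gradVec N x) ^ 2) (volume.restrict (unitBall N)) := i1.sub i2
    rw [← integral_const_mul, ← integral_const_mul, ← integral_const_mul, ← integral_sub i1 i2,
      ← integral_add i12 i3]
    exact integral_mono_ae i₁ (i12.add i3) hpt
  have hn' : 0 ≤ (n : ℝ) / (volume (unitBall N)).toReal := by positivity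
  exact m₁.trans (by gcongr)

end LimData

/-- The second order expansion at tree norms. -/
theorem TreeNorm.secondOrder {n : ℕ} {N : (Fin n → ℝ) → ℝ} (h : TreeNorm n N) :
    SecondOrderAt (unitBall N) (gradVec N) := by
  obtain ⟨Ns, νs, ε, hd⟩ := h.isLim.exists_data
  exact hd.secondOrder h.main.1 

end Vale.Agent.Lib.P227
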